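import Mathlib
import Crest.Prelude.Def_QuadraticTransport

/-!
Row 82 (S0109, S0110): common definitions.  FROZEN INTERFACE — do not edit after landing.

* `E d` : the ambient Euclidean space.
* `srcG K g` : the perturbed source `(1 + g) • uniformProbOn K`.
* `pot S ψ` : the discrete Kantorovich potential `x ↦ max_{y ∈ S} (⟪x, y⟫ - ψ y)`.
* `cell S ψ y` : the Laguerre cell of the atom `y`.
* `IsPotMap σ μ S ψ T` : `T` is a Laguerre (potential) map from `σ` to `μ` with atoms in the finite
  set `S` and weights `ψ`.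
* `corr σ T` : the correlation `∫ ⟪x, T x⟫ dσ`.
-/

set_option autoImplicit false
open MeasureTheory
open scoped ENNReal NNReal
open Crest.AnalysisR.OT

namespace Crest.Agent.S0109

/-- The ambient space. -/
abbrev E (d : ℕ) := EuclideanSpace ℝ (Fin d)

/-- The perturbed source measure `(1 + g) • uniformProbOn K` (only the values of `g` on `K` matter). -/
noncomputable def srcG {d : ℕ} (K : Set (E d)) (g : E d → ℝ) : Measure (E d) :=
  (uniformProbOn K).withDensity (fun x => ENNReal.ofReal (1 + g x))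

/-- Discrete Kantorovich potential: `pot S ψ x = max_{y ∈ S} (⟪x, y⟫ - ψ y)` (junk value `0` if `S = ∅`). -/
noncomputable def pot {d : ℕ} (S : Finset (E d)) (ψ : E d → ℝ) (x : E d) : ℝ :=
  ⨆ y : S, (inner ℝ x (y : E d) - ψ y)

/-- Laguerre cell of the atom `y` (a closed convex polyhedron in the whole space). -/
def cell {d : ℕ} (S : Finset (E d)) (ψ : E d → ℝ) (y : E d) : Set (E d) :=
  {x | ∀ z ∈ S, inner ℝ x z - ψ z ≤ inner ℝ x y - ψ y}

/-- `T` is a Laguerre (potential) map from `σ` to `μ` with atoms in the finite set `S` and weights `ψ`: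
`T` is measurable, pushes `σ` to `μ`, and for `σ`-a.e. `x` the point `T x` is an atom maximising
`y ↦ ⟪x, y⟫ - ψ y` over `S`. -/
def IsPotMap {d : ℕ} (σ μ : Measure (E d)) (S : Finset (E d)) (ψ : E d → ℝ) (T : E d → E d) : Prop :=
  Measurable T ∧ σ.map T = μ ∧
    ∀ᵐ x ∂σ, T x ∈ S ∧ ∀ y ∈ S, inner ℝ x y - ψ y ≤ inner ℝ x (T x) - ψ (T x)

/-- The correlation `∫ ⟪x, T x⟫ dσ` of a transport map. -/
noncomputable def corr {d : ℕ} (σ : Measure (E d)) (T : E d → E d) : ℝ :=
  ∫ x, inner ℝ x (T x) ∂σ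

end Crest.Agent.S0109
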