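import Mathlib
import Crest.Prelude.Def_QuadraticTransport
import Crest.Agent.Lib.S0109.Defs

/-! Row 82, package P0b.
Basic facts on the sources `uniformProbOn K`, `srcG K g` and on the potential `pot`. -/

set_option autoImplicit false
set_option linter.unusedVariables false
open MeasureTheory Filter Topology
open scoped ENNReal NNReal
open Crest.AnalysisR.OT

namespace Crest.Agent.S0109

variable {d : ℕ} {K : Set (E d)}

theorem volume_K_pos (hKi : (interior K).Nonempty) : 0 < volume K :=
  lt_of_lt_of_le (isOpen_interior.measure_pos volume hKi) (measure_mono interior_subset)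

theorem volume_K_lt_top (hKc : IsCompact K) : volume K < ∞ :=
  hKc.measure_lt_top

theorem isProbabilityMeasure_uniformProbOn (hKc : IsCompact K) (hKi : (interior K).Nonempty) :
    IsProbabilityMeasure (uniformProbOn K) := by
  constructor
  unfold uniformProbOn
  rw [Measure.smul_apply, Measure.restrict_apply MeasurableSet.univ, Set.univ_inter, smul_eq_mul]
  exact ENNReal.inv_mul_cancel (volume_K_pos hKi).ne' (volume_K_lt_top hKc).ne

theorem uniformProbOn_compl (hKc : IsCompact K) : uniformProbOn K Kᶜ = 0 := by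
  unfold uniformProbOn
  rw [Measure.smul_apply, Measure.restrict_apply hKc.measurableSet.compl, Set.compl_inter_self,
    measure_empty, smul_zero]

theorem uniformProbOn_absolutelyContinuous : uniformProbOn K ≪ volume := by
  unfold uniformProbOn
  refine Measure.AbsolutelyContinuous.mk fun s hs h0 => ?_
  rw [Measure.smul_apply, Measure.restrict_apply hs,
    measure_mono_null Set.inter_subset_left h0, smul_eq_mul, mul_zero]

theorem ae_uniformProbOn_iff (hKc : IsCompact K) (hKi : (interior K).Nonempty) {p : E d → Prop} :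
    (∀ᵐ x ∂(uniformProbOn K), p x) ↔ ∀ᵐ x ∂(volume.restrict K), p x := by
  unfold uniformProbOn
  have hc : (volume K)⁻¹ ≠ 0 := ENNReal.inv_ne_zero.mpr (volume_K_lt_top hKc).ne
  simp only [ae_iff, Measure.smul_apply, smul_eq_mul, mul_eq_zero, hc, false_or]

theorem lintegral_uniformProbOn (f : E d → ℝ≥0∞) :
    ∫⁻ x, f x ∂(uniformProbOn K) = (volume K)⁻¹ * ∫⁻ x in K, f x := by
  unfold uniformProbOn
  rw [lintegral_smul_measure, smul_eq_mul]

theorem integral_uniformProbOn {F : Type*} [NormedAddCommGroup F] [NormedSpace ℝ F] (f : E d → F) :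
    ∫ x, f x ∂(uniformProbOn K) = (volume K).toReal⁻¹ • ∫ x in K, f x := by
  unfold uniformProbOn
  rw [integral_smul_measure, ENNReal.toReal_inv]

theorem srcG_zero : srcG K (fun _ => (0 : ℝ)) = uniformProbOn K := by
  unfold srcG
  have : (fun _ : E d => ENNReal.ofReal (1 + (0 : ℝ))) = 1 := by
    funext x; simp
  rw [this, withDensity_one]

theorem srcG_absolutelyContinuous (g : E d → ℝ) : srcG K g ≪ uniformProbOn K :=
  withDensity_absolutelyContinuous _ _

/-- On `K` the density `1 + g` is at least `1/2`. -/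
theorem basic_ae_half_le_one_add (hKc : IsCompact K) {g : E d → ℝ} (hgb : ∀ x ∈ K, |g x| ≤ 1 / 2) :
    ∀ᵐ x ∂(uniformProbOn K), 1 / 2 ≤ 1 + g x ∧ 1 + g x ≤ 3 / 2 := by
  have h0 : ∀ᵐ x ∂(uniformProbOn K), x ∈ K := by
    rw [ae_iff]
    exact uniformProbOn_compl hKc
  filter_upwards [h0] with x hx
  have := abs_le.mp (hgb x hx)
  constructor <;> linarith [this.1, this.2]

theorem uniformProbOn_absolutelyContinuous_srcG (hKc : IsCompact K) {g : E d → ℝ}
    (hg : Measurable g) (hgb : ∀ x ∈ K, |g x| ≤ 1 / 2) : uniformProbOn K ≪ srcG K g := by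
  unfold srcG
  refine withDensity_absolutelyContinuous' ?_ ?_
  · exact (ENNReal.measurable_ofReal.comp (measurable_const.add hg)).aemeasurable
  · filter_upwards [basic_ae_half_le_one_add hKc hgb] with x hx
    simp only [ne_eq, ENNReal.ofReal_eq_zero, not_le]
    linarith [hx.1]

theorem srcG_compl (hKc : IsCompact K) (g : E d → ℝ) : srcG K g Kᶜ = 0 :=
  srcG_absolutelyContinuous g (uniformProbOn_compl hKc)

theorem isProbabilityMeasure_srcG (hKc : IsCompact K) (hKi : (interior K).Nonempty) {g : E d → ℝ}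
    (hg : Measurable g) (hgb : ∀ x ∈ K, |g x| ≤ 1 / 2)
    (hg0 : ∫ x, g x ∂(uniformProbOn K) = 0) : IsProbabilityMeasure (srcG K g) := by
  have := isProbabilityMeasure_uniformProbOn hKc hKi
  constructor
  unfold srcG
  rw [withDensity_apply _ MeasurableSet.univ, Measure.restrict_univ]
  have hbd := basic_ae_half_le_one_add hKc hgb
  have hgint : Integrable g (uniformProbOn K) := by
    refine Integrable.mono' (integrable_const (1 / 2 : ℝ)) hg.aestronglyMeasurable ?_
    filter_upwards [hbd] with x hx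
    rw [Real.norm_eq_abs, abs_le]
    constructor <;> linarith [hx.1, hx.2]
  have hint : Integrable (fun x => 1 + g x) (uniformProbOn K) := (integrable_const 1).add hgint
  rw [← ofReal_integral_eq_lintegral_ofReal hint]
  · rw [integral_add (integrable_const 1) hgint, hg0]
    simp
  · filter_upwards [hbd] with x hx
    simp only [Pi.zero_apply]
    linarith [hx.1]

theorem lintegral_srcG (hKc : IsCompact K) {g : E d → ℝ} (hg : Measurable g) (f : E d → ℝ≥0∞) :
    ∫⁻ x, f x ∂(srcG K g) = ∫⁻ x, ENNReal.ofReal (1 + g x) * f x ∂(uniformProbOn K) := by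
  unfold srcG
  have hm : Measurable fun x : E d => ENNReal.ofReal (1 + g x) :=
    ENNReal.measurable_ofReal.comp (measurable_const.add hg)
  have := lintegral_withDensity_eq_lintegral_mul_non_measurable (uniformProbOn K) hm
    (Eventually.of_forall fun x => ENNReal.ofReal_lt_top) f
  rw [this]
  rfl

theorem integral_srcG (hKc : IsCompact K) {g : E d → ℝ} (hg : Measurable g)
    (hgb : ∀ x ∈ K, |g x| ≤ 1 / 2) {F : Type*} [NormedAddCommGroup F] [NormedSpace ℝ F]
    (f : E d → F) :
    ∫ x, f x ∂(srcG K g) = ∫ x, (1 + g x) • f x ∂(uniformProbOn K) := by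
  unfold srcG
  have hm : Measurable fun x : E d => ENNReal.ofReal (1 + g x) :=
    ENNReal.measurable_ofReal.comp (measurable_const.add hg)
  rw [integral_withDensity_eq_integral_toReal_smul hm
    (Eventually.of_forall fun x => ENNReal.ofReal_lt_top)]
  refine integral_congr_ae ?_
  filter_upwards [basic_ae_half_le_one_add hKc hgb] with x hx
  rw [ENNReal.toReal_ofReal (by linarith [hx.1])]

/-! ### The potential -/

variable {S : Finset (E d)} {ψ : E d → ℝ}

theorem basic_bddAbove_pot_range (S : Finset (E d)) (ψ : E d → ℝ) (x : E d) :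
    BddAbove (Set.range fun y : S => inner ℝ x (y : E d) - ψ y) :=
  (Set.finite_range _).bddAbove

theorem le_pot {y : E d} (hy : y ∈ S) (x : E d) : inner ℝ x y - ψ y ≤ pot S ψ x :=
  le_ciSup (basic_bddAbove_pot_range S ψ x) (⟨y, hy⟩ : S)

theorem pot_le (hS : S.Nonempty) {x : E d} {c : ℝ} (h : ∀ y ∈ S, inner ℝ x y - ψ y ≤ c) :
    pot S ψ x ≤ c := by
  have : Nonempty S := hS.to_subtype
  exact ciSup_le fun y => h y y.2

theorem basic_pot_of_empty (hS : ¬ S.Nonempty) (ψ : E d → ℝ) (x : E d) : pot S ψ x = 0 := by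
  have : IsEmpty S := by
    rw [Finset.not_nonempty_iff_eq_empty] at hS
    subst hS
    exact Finset.isEmpty_coe_sort.mpr rfl
  exact Real.iSup_of_isEmpty _

theorem convexOn_pot (S : Finset (E d)) (ψ : E d → ℝ) : ConvexOn ℝ Set.univ (pot S ψ) := by
  by_cases hS : S.Nonempty
  · refine ⟨convex_univ, fun x _ y _ a b ha hb hab => ?_⟩
    refine pot_le hS fun z hz => ?_
    have h1 : inner ℝ x z - ψ z ≤ pot S ψ x := le_pot hz x
    have h2 : inner ℝ y z - ψ z ≤ pot S ψ y := le_pot hz y
    have e : inner ℝ (a • x + b • y) z - ψ z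
        = a * (inner ℝ x z - ψ z) + b * (inner ℝ y z - ψ z) := by
      rw [inner_add_left, real_inner_smul_left, real_inner_smul_left]
      linear_combination (ψ z) * hab
    rw [e, smul_eq_mul, smul_eq_mul]
    exact add_le_add (mul_le_mul_of_nonneg_left h1 ha) (mul_le_mul_of_nonneg_left h2 hb)
  · have : pot S ψ = fun _ => 0 := funext (basic_pot_of_empty hS ψ)
    rw [this]
    exact convexOn_const 0 convex_univ

theorem lipschitzWith_pot {L : ℝ≥0} (hL : ∀ y ∈ S, ‖y‖₊ ≤ L) (ψ : E d → ℝ) :
    LipschitzWith L (pot S ψ) := by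
  by_cases hS : S.Nonempty
  · refine LipschitzWith.of_le_add_mul L fun x x' => ?_
    refine pot_le hS fun z hz => ?_
    have h1 : inner ℝ x' z - ψ z ≤ pot S ψ x' := le_pot hz x'
    have h2 : inner ℝ (x - x') z ≤ ‖x - x'‖ * ‖z‖ := real_inner_le_norm _ _
    have h3 : ‖z‖ ≤ L := by exact_mod_cast hL z hz
    have h4 : ‖x - x'‖ * ‖z‖ ≤ L * dist x x' := by
      rw [dist_eq_norm, mul_comm]
      exact mul_le_mul_of_nonneg_right h3 (norm_nonneg _)
    have e : inner ℝ x z = inner ℝ x' z + inner ℝ (x - x') z := by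
      rw [← inner_add_left]; congr 1; abel
    linarith
  · have : pot S ψ = fun _ => 0 := funext (basic_pot_of_empty hS ψ)
    rw [this]
    exact (LipschitzWith.const (α := E d) (0 : ℝ)).weaken zero_le

theorem continuous_pot (S : Finset (E d)) (ψ : E d → ℝ) : Continuous (pot S ψ) :=
  (lipschitzWith_pot (L := S.sup fun y => ‖y‖₊)
    (fun _ hy => Finset.le_sup (f := fun y : E d => ‖y‖₊) hy) ψ).continuous

theorem IsPotMap.pot_eq {σ μ : Measure (E d)} {T : E d → E d} (h : IsPotMap σ μ S ψ T) :
    ∀ᵐ x ∂σ, pot S ψ x = inner ℝ x (T x) - ψ (T x) := by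
  filter_upwards [h.2.2] with x hx
  exact le_antisymm (pot_le ⟨T x, hx.1⟩ hx.2) (le_pot hx.1 x)

theorem IsPotMap.subgradient {σ μ : Measure (E d)} {T : E d → E d} (h : IsPotMap σ μ S ψ T) :
    ∀ᵐ x ∂σ, ∀ z, pot S ψ x + inner ℝ (T x) (z - x) ≤ pot S ψ z := by
  filter_upwards [h.2.2, h.pot_eq] with x hx hpx z
  have h1 : inner ℝ z (T x) - ψ (T x) ≤ pot S ψ z := le_pot hx.1 z
  have e : inner ℝ (T x) (z - x) = inner ℝ z (T x) - inner ℝ x (T x) := by
    rw [inner_sub_right, real_inner_comm z, real_inner_comm x]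
  rw [hpx, e]
  linarith

theorem IsPotMap.target_compl {σ μ : Measure (E d)} {T : E d → E d} (h : IsPotMap σ μ S ψ T) :
    μ (↑S)ᶜ = 0 := by
  have hmeas : MeasurableSet ((↑S : Set (E d))ᶜ) := S.finite_toSet.measurableSet.compl
  rw [← h.2.1, Measure.map_apply h.1 hmeas]
  have h1 : ∀ᵐ x ∂σ, T x ∈ (↑S : Set (E d)) := by
    filter_upwards [h.2.2] with x hx using hx.1
  rw [ae_iff] at h1
  exact h1

end Crest.Agent.S0109
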