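import Mathlib
import Crest.Prelude.Def_QuadraticTransport
import Crest.Agent.Lib.S0109.Defs

/-! Row 82, package P1 (helper64): a Laguerre map is Monge-optimal, and every Monge-optimal map
coincides almost everywhere with it.

Proof: a pointwise comparison.  For `σ`-a.e. `x` and every competitor `S'` (measurable, same image
measure, hence with values in the finite atom set `S` a.e.)
`‖x - T x‖² + F (S' x) + δ x = ‖x - S' x‖² + F (T x)`, where `F y = ‖y‖² - 2 ψ y + c ≥ 0` on `S` and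
`δ x = 2 ((⟪x, T x⟫ - ψ (T x)) - (⟪x, S' x⟫ - ψ (S' x))) ≥ 0`.  The two `F`-terms have the same finite
integral (same image measure), so `cost T + ∫ δ = cost S'`. -/

set_option autoImplicit false
open MeasureTheory Filter Topology
open scoped ENNReal NNReal
open Crest.AnalysisR.OT

namespace Crest.Agent.S0109

namespace Helper64

variable {d : ℕ}

/-- `F` cut off outside the finite set `S` (a measurable function whatever `F` is). -/
noncomputable def cut (S : Finset (E d)) (F : E d → ℝ) (y : E d) : ℝ :=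
  ∑ z ∈ S, if y = z then F z else 0

theorem cut_of_mem {S : Finset (E d)} (F : E d → ℝ) {y : E d} (hy : y ∈ S) :
    cut S F y = F y := by
  unfold cut
  rw [Finset.sum_ite_eq]
  simp [hy]

theorem measurable_cut (S : Finset (E d)) (F : E d → ℝ) : Measurable (cut S F) := by
  unfold cut
  refine Finset.measurable_sum _ (fun z _ => ?_)
  exact Measurable.ite measurableSet_eq measurable_const measurable_const

theorem cut_nonneg {S : Finset (E d)} {F : E d → ℝ} (hF : ∀ z ∈ S, 0 ≤ F z) (y : E d) :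
    0 ≤ cut S F y := by
  unfold cut
  refine Finset.sum_nonneg (fun z hz => ?_)
  split_ifs
  · exact hF z hz
  · exact le_rfl

theorem cut_le (S : Finset (E d)) (F : E d → ℝ) (y : E d) :
    cut S F y ≤ ∑ z ∈ S, |F z| := by
  unfold cut
  refine Finset.sum_le_sum (fun z _ => ?_)
  split_ifs
  · exact le_abs_self _
  · exact abs_nonneg _

/-- The target of a Laguerre map is concentrated on the atom set. -/
theorem target_compl {σ μ : Measure (E d)} {S : Finset (E d)} {ψ : E d → ℝ} {T : E d → E d}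
    (h : IsPotMap σ μ S ψ T) : μ (↑S : Set (E d))ᶜ = 0 := by
  obtain ⟨hT, hmap, hae⟩ := h
  rw [← hmap, Measure.map_apply hT S.measurableSet.compl]
  have h1 : ∀ᵐ x ∂σ, T x ∈ S := hae.mono (fun x hx => hx.1)
  exact ae_iff.mp h1

/-- Any map with image measure concentrated on `S` takes values in `S` a.e. -/
theorem ae_mem_of_map {σ μ : Measure (E d)} {S : Finset (E d)} (hμ : μ (↑S : Set (E d))ᶜ = 0)
    {S' : E d → E d} (hS' : Measurable S') (hmap' : σ.map S' = μ) : ∀ᵐ x ∂σ, S' x ∈ S := by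
  rw [← hmap', Measure.map_apply hS' S.measurableSet.compl] at hμ
  exact ae_iff.mpr hμ

theorem enorm_sq_eq (v : E d) : ‖v‖ₑ ^ 2 = ENNReal.ofReal (‖v‖ ^ 2) := by
  rw [← ofReal_norm, ← ENNReal.ofReal_pow (norm_nonneg _)]

/-- The exact comparison identity between a Laguerre map and any competitor. -/
theorem core {σ μ : Measure (E d)} [IsFiniteMeasure σ] {S : Finset (E d)} {ψ : E d → ℝ}
    {T : E d → E d} (h : IsPotMap σ μ S ψ T) {S' : E d → E d} (hS' : Measurable S')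
    (hmap' : σ.map S' = μ) :
    ∃ δ : E d → ℝ, Measurable δ ∧ (∀ᵐ x ∂σ, 0 ≤ δ x) ∧
      (∀ᵐ x ∂σ, δ x = 0 → inner ℝ x (S' x) - ψ (S' x) = inner ℝ x (T x) - ψ (T x)) ∧
      ∫⁻ x, ‖x - T x‖ₑ ^ 2 ∂σ + ∫⁻ x, ENNReal.ofReal (δ x) ∂σ = ∫⁻ x, ‖x - S' x‖ₑ ^ 2 ∂σ := by
  have hμS := target_compl h
  have haeS' := ae_mem_of_map hμS hS' hmap'
  obtain ⟨hT, hmap, hae⟩ := h
  have : IsFiniteMeasure μ := by rw [← hmap]; infer_instance
  -- the auxiliary functions
  let c : ℝ := ∑ y ∈ S, |‖y‖ ^ 2 - 2 * ψ y|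
  let F : E d → ℝ := cut S (fun y => ‖y‖ ^ 2 - 2 * ψ y + c)
  let ψ' : E d → ℝ := cut S ψ
  have hFm : Measurable F := measurable_cut _ _
  have hψm : Measurable ψ' := measurable_cut _ _
  have hFS : ∀ y ∈ S, F y = ‖y‖ ^ 2 - 2 * ψ y + c := fun y hy => cut_of_mem _ hy
  have hψS : ∀ y ∈ S, ψ' y = ψ y := fun y hy => cut_of_mem _ hy
  have hF0 : ∀ y, 0 ≤ F y := by
    refine cut_nonneg (fun z hz => ?_)
    have h1 := Finset.single_le_sum (f := fun y => |‖y‖ ^ 2 - 2 * ψ y|)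
      (fun i _ => abs_nonneg _) hz
    have h2 := neg_abs_le (‖z‖ ^ 2 - 2 * ψ z)
    show 0 ≤ ‖z‖ ^ 2 - 2 * ψ z + c
    linarith
  have hFfin : ∫⁻ y, ENNReal.ofReal (F y) ∂μ ≠ ∞ := by
    refine ne_of_lt (lt_of_le_of_lt (lintegral_mono (fun y =>
      ENNReal.ofReal_le_ofReal (cut_le S _ y))) ?_)
    rw [lintegral_const]
    exact ENNReal.mul_lt_top ENNReal.ofReal_lt_top (measure_lt_top μ _)
  let δ : E d → ℝ := fun x =>
    2 * ((inner ℝ x (T x) - ψ' (T x)) - (inner ℝ x (S' x) - ψ' (S' x)))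
  have hδm : Measurable δ := by
    have h1 : Measurable fun x : E d => (inner ℝ x (T x) : ℝ) := measurable_id.inner hT
    have h2 : Measurable fun x : E d => (inner ℝ x (S' x) : ℝ) := measurable_id.inner hS'
    exact ((h1.sub (hψm.comp hT)).sub (h2.sub (hψm.comp hS'))).const_mul 2
  have hδ0 : ∀ᵐ x ∂σ, 0 ≤ δ x := by
    filter_upwards [hae, haeS'] with x hx hx'
    have h1 := hx.2 (S' x) hx'
    show 0 ≤ 2 * ((inner ℝ x (T x) - ψ' (T x)) - (inner ℝ x (S' x) - ψ' (S' x)))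
    rw [hψS _ hx.1, hψS _ hx']
    linarith
  have hδeq : ∀ᵐ x ∂σ, δ x = 0 →
      inner ℝ x (S' x) - ψ (S' x) = inner ℝ x (T x) - ψ (T x) := by
    filter_upwards [hae, haeS'] with x hx hx' h0
    have h1 : 2 * ((inner ℝ x (T x) - ψ' (T x)) - (inner ℝ x (S' x) - ψ' (S' x))) = 0 := h0
    rw [hψS _ hx.1, hψS _ hx'] at h1
    linarith
  have hpt : ∀ᵐ x ∂σ, ‖x - T x‖ₑ ^ 2 + ENNReal.ofReal (F (S' x)) + ENNReal.ofReal (δ x)
      = ‖x - S' x‖ₑ ^ 2 + ENNReal.ofReal (F (T x)) := by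
    filter_upwards [hae, haeS', hδ0] with x hx hx' hd0
    rw [enorm_sq_eq, enorm_sq_eq, ← ENNReal.ofReal_add (by positivity) (hF0 _),
      ← ENNReal.ofReal_add (add_nonneg (by positivity) (hF0 _)) hd0,
      ← ENNReal.ofReal_add (by positivity) (hF0 _)]
    congr 1
    show ‖x - T x‖ ^ 2 + F (S' x)
        + 2 * ((inner ℝ x (T x) - ψ' (T x)) - (inner ℝ x (S' x) - ψ' (S' x)))
      = ‖x - S' x‖ ^ 2 + F (T x)
    rw [hFS _ hx.1, hFS _ hx', hψS _ hx.1, hψS _ hx', norm_sub_sq_real, norm_sub_sq_real]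
    ring
  have hint := lintegral_congr_ae hpt
  have hg1 : Measurable fun x => ENNReal.ofReal (F (S' x)) := (hFm.comp hS').ennreal_ofReal
  have hg2 : Measurable fun x => ENNReal.ofReal (F (T x)) := (hFm.comp hT).ennreal_ofReal
  have he : Measurable fun x => ENNReal.ofReal (δ x) := hδm.ennreal_ofReal
  rw [lintegral_add_right _ he, lintegral_add_right _ hg1, lintegral_add_right _ hg2] at hint
  have hI1 : ∫⁻ x, ENNReal.ofReal (F (S' x)) ∂σ = ∫⁻ y, ENNReal.ofReal (F y) ∂μ := by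
    rw [← hmap', lintegral_map hFm.ennreal_ofReal hS']
  have hI2 : ∫⁻ x, ENNReal.ofReal (F (T x)) ∂σ = ∫⁻ y, ENNReal.ofReal (F y) ∂μ := by
    rw [← hmap, lintegral_map hFm.ennreal_ofReal hT]
  rw [hI1, hI2] at hint
  refine ⟨δ, hδm, hδ0, hδeq, ?_⟩
  have hint' : (∫⁻ x, ‖x - T x‖ₑ ^ 2 ∂σ + ∫⁻ x, ENNReal.ofReal (δ x) ∂σ)
      + ∫⁻ y, ENNReal.ofReal (F y) ∂μ
      = ∫⁻ x, ‖x - S' x‖ₑ ^ 2 ∂σ + ∫⁻ y, ENNReal.ofReal (F y) ∂μ := by
    rw [← hint]; ring
  exact (ENNReal.add_left_inj hFfin).mp hint'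

/-- The transport cost of a Laguerre map from a boundedly supported finite measure is finite. -/
theorem cost_ne_top {σ μ : Measure (E d)} [IsFiniteMeasure σ] {K : Set (E d)}
    (hK : Bornology.IsBounded K) (hσK : σ Kᶜ = 0) {S : Finset (E d)} {ψ : E d → ℝ}
    {T : E d → E d} (h : IsPotMap σ μ S ψ T) : ∫⁻ x, ‖x - T x‖ₑ ^ 2 ∂σ ≠ ∞ := by
  obtain ⟨R, hR⟩ := hK.exists_norm_le
  let M : ℝ := ∑ y ∈ S, ‖y‖
  have hxK : ∀ᵐ x ∂σ, x ∈ K := ae_iff.mpr hσK
  have hb : ∀ᵐ x ∂σ, ‖x - T x‖ₑ ^ 2 ≤ ENNReal.ofReal ((R + M) ^ 2) := by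
    filter_upwards [hxK, h.2.2] with x hx hTx
    have h1 : ‖x‖ ≤ R := hR x hx
    have h2 : ‖T x‖ ≤ M :=
      Finset.single_le_sum (f := fun y => ‖y‖) (fun i _ => norm_nonneg i) hTx.1
    have h3 : ‖x - T x‖ ≤ R + M := (norm_sub_le _ _).trans (add_le_add h1 h2)
    rw [enorm_sq_eq]
    exact ENNReal.ofReal_le_ofReal (pow_le_pow_left₀ (norm_nonneg _) h3 2)
  refine ne_of_lt (lt_of_le_of_lt (lintegral_mono_ae hb) ?_)
  rw [lintegral_const]
  exact ENNReal.mul_lt_top ENNReal.ofReal_lt_top (measure_lt_top σ _)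

/-- Affine hyperplanes are Lebesgue-null. -/
theorem hyperplane_null {v : E d} (hv : v ≠ 0) (c : ℝ) :
    volume {x : E d | inner ℝ x v = c} = 0 := by
  let L : E d →ₗ[ℝ] ℝ := (innerSL ℝ v).toLinearMap
  have hLx : ∀ x, L x = inner ℝ x v := fun x => by
    show (innerSL ℝ v) x = inner ℝ x v
    rw [innerSL_apply_apply, real_inner_comm]
  have hker : LinearMap.ker L ≠ ⊤ := by
    intro htop
    have h1 : v ∈ LinearMap.ker L := by rw [htop]; trivial
    rw [LinearMap.mem_ker, hLx, real_inner_self_eq_norm_sq] at h1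
    exact hv (by simpa using h1)
  have h0 := Measure.addHaar_submodule (volume : Measure (E d)) (LinearMap.ker L) hker
  let x₀ : E d := (c / ‖v‖ ^ 2) • v
  have hset : {x : E d | inner ℝ x v = c}
      = (fun x => x + (-x₀)) ⁻¹' (LinearMap.ker L : Set (E d)) := by
    ext x
    simp only [Set.mem_ofPred_eq, Set.mem_preimage, SetLike.mem_coe, LinearMap.mem_ker, hLx]
    have hv2 : ‖v‖ ^ 2 ≠ 0 := by
      have : ‖v‖ ≠ 0 := norm_ne_zero_iff.mpr hv
      positivity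
    have hx0 : inner ℝ x₀ v = c := by
      show inner ℝ ((c / ‖v‖ ^ 2) • v) v = c
      rw [real_inner_smul_left, real_inner_self_eq_norm_sq]
      field_simp
    rw [inner_add_left, inner_neg_left, hx0]
    constructor <;> intro h <;> linarith
  rw [hset, measure_preimage_add_right]
  exact h0

/-- Almost every point has no ties between distinct atoms. -/
theorem ae_no_tie {σ : Measure (E d)} (hσ : σ ≪ volume) (S : Finset (E d)) (ψ : E d → ℝ) :
    ∀ᵐ x ∂σ, ∀ y ∈ S, ∀ z ∈ S, y ≠ z → inner ℝ x y - ψ y ≠ inner ℝ x z - ψ z := by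
  have hv : ∀ᵐ x ∂(volume : Measure (E d)),
      ∀ y ∈ S, ∀ z ∈ S, y ≠ z → inner ℝ x y - ψ y ≠ inner ℝ x z - ψ z := by
    rw [Filter.eventually_all_finset]
    intro y _
    rw [Filter.eventually_all_finset]
    intro z _
    by_cases hyz : y = z
    · exact Eventually.of_forall (fun x h => (h hyz).elim)
    · have hnull := hyperplane_null (d := d) (v := y - z) (sub_ne_zero.mpr hyz) (ψ y - ψ z)
      rw [ae_iff]
      refine measure_mono_null (fun x hx => ?_) hnull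
      have hx' : ¬ (y ≠ z → inner ℝ x y - ψ y ≠ inner ℝ x z - ψ z) := hx
      have hx2 : inner ℝ x y - ψ y = inner ℝ x z - ψ z := by
        by_contra hcon
        exact hx' (fun _ => hcon)
      show inner ℝ x (y - z) = ψ y - ψ z
      rw [inner_sub_right]
      linarith
  exact hσ.ae_le hv

end Helper64

set_option linter.unusedVariables false in
/-- A Laguerre map is Monge-optimal. -/
theorem IsPotMap.isOptimalMap {d : ℕ} {σ μ : Measure (E d)} [IsFiniteMeasure σ]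
    {K : Set (E d)} (hK : Bornology.IsBounded K) (hσK : σ Kᶜ = 0)
    {S : Finset (E d)} {ψ : E d → ℝ} {T : E d → E d} (h : IsPotMap σ μ S ψ T) :
    IsOptimalMap σ μ T := by
  refine ⟨h.1, h.2.1, fun S' hS' hmap' => ?_⟩
  obtain ⟨δ, -, -, -, heq⟩ := Helper64.core h hS' hmap'
  rw [← heq]
  exact le_self_add

/-- Every Monge-optimal map coincides a.e. with the Laguerre map. -/
theorem IsPotMap.ae_eq_of_isOptimalMap {d : ℕ} {σ μ : Measure (E d)} [IsFiniteMeasure σ]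
    (hσ : σ ≪ volume) {K : Set (E d)} (hK : Bornology.IsBounded K) (hσK : σ Kᶜ = 0)
    {S : Finset (E d)} {ψ : E d → ℝ} {T : E d → E d} (h : IsPotMap σ μ S ψ T)
    {T' : E d → E d} (h' : IsOptimalMap σ μ T') : T' =ᵐ[σ] T := by
  obtain ⟨hT'm, hmap', hopt⟩ := h'
  obtain ⟨δ, hδm, hδ0, hδeq, heq⟩ := Helper64.core h hT'm hmap'
  have hle := hopt T h.1 h.2.1
  have hJ : ∫⁻ x, ‖x - T x‖ₑ ^ 2 ∂σ ≠ ∞ := Helper64.cost_ne_top hK hσK h
  have hδint : ∫⁻ x, ENNReal.ofReal (δ x) ∂σ = 0 := by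
    have h1 : ∫⁻ x, ‖x - T x‖ₑ ^ 2 ∂σ + ∫⁻ x, ENNReal.ofReal (δ x) ∂σ
        ≤ ∫⁻ x, ‖x - T x‖ₑ ^ 2 ∂σ + 0 := by
      rw [heq, add_zero]; exact hle
    exact le_antisymm ((ENNReal.add_le_add_iff_left hJ).mp h1) bot_le
  have hδae : ∀ᵐ x ∂σ, δ x = 0 := by
    have h1 := (lintegral_eq_zero_iff hδm.ennreal_ofReal).mp hδint
    filter_upwards [h1, hδ0] with x hx h0
    have h2 : δ x ≤ 0 := ENNReal.ofReal_eq_zero.mp hx
    linarith
  have hS'mem := Helper64.ae_mem_of_map (Helper64.target_compl h) hT'm hmap'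
  have hhyp := Helper64.ae_no_tie hσ S ψ
  filter_upwards [hδae, hδeq, hS'mem, h.2.2, hhyp] with x h1 h2 h3 h4 h5
  by_contra hne
  exact h5 (T' x) h3 (T x) h4.1 hne (h2 h1)

end Crest.Agent.S0109
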