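import Mathlib
import Crest.Prelude.Def_QuadraticTransport
import Crest.Agent.Lib.S0109.Defs
import Crest.Agent.Lib.S0109.Basic
import Crest.Agent.Lib.S0109.Opt

/-! Row 82, package P5c (helper43): strict Laguerre cells and the a.e. identification of the fibres
of a Laguerre map with them (adapter between `IsPotMap` and the abstract centroid lemma). -/

set_option autoImplicit false
open MeasureTheory Filter Topology
open scoped ENNReal NNReal
open Crest.AnalysisR.OT

namespace Crest.Agent.S0109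

variable {d : ℕ}

/-- Strict Laguerre cell of the atom `y` (an open convex polyhedron). -/
def scell (S : Finset (E d)) (ψ : E d → ℝ) (y : E d) : Set (E d) :=
  {x | ∀ z ∈ S, z ≠ y → inner ℝ x z - ψ z < inner ℝ x y - ψ y}

theorem isOpen_scell (S : Finset (E d)) (ψ : E d → ℝ) (y : E d) : IsOpen (scell S ψ y) := by
  have h : scell S ψ y = ⋂ z ∈ S, {x | z ≠ y → inner ℝ x z - ψ z < inner ℝ x y - ψ y} := by
    ext x
    simp only [scell, Set.mem_ofPred_eq, Set.mem_iInter]
  rw [h]
  refine isOpen_biInter_finset fun z _ => ?_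
  by_cases hz : z = y
  · simp [hz]
  · have h2 : {x : E d | z ≠ y → inner ℝ x z - ψ z < inner ℝ x y - ψ y}
        = {x : E d | inner ℝ x z - ψ z < inner ℝ x y - ψ y} := by
      ext x
      simp [hz]
    rw [h2]
    exact isOpen_lt (by fun_prop) (by fun_prop)

theorem measurableSet_scell (S : Finset (E d)) (ψ : E d → ℝ) (y : E d) :
    MeasurableSet (scell S ψ y) :=
  (isOpen_scell S ψ y).measurableSet

theorem disjoint_scell {S : Finset (E d)} (ψ : E d → ℝ) {y z : E d} (hy : y ∈ S) (hz : z ∈ S)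
    (hyz : y ≠ z) : Disjoint (scell S ψ y) (scell S ψ z) := by
  rw [Set.disjoint_left]
  intro x hxy hxz
  exact lt_asymm (hxy z hz hyz.symm) (hxz y hy hyz)

theorem eq_of_mem_scell {S : Finset (E d)} (ψ : E d → ℝ) {y z x : E d} (hy : y ∈ S) (hz : z ∈ S)
    (hxy : x ∈ scell S ψ y) (hxz : x ∈ scell S ψ z) : y = z := by
  by_contra hyz
  exact Set.disjoint_left.mp (disjoint_scell ψ hy hz hyz) hxy hxz

theorem midpoint_mem_scell {S : Finset (E d)} {ψ0 ψ1 : E d → ℝ} {y x x' : E d}
    (hx : x ∈ scell S ψ0 y) (hx' : x' ∈ scell S ψ1 y) :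
    (1 / 2 : ℝ) • (x + x') ∈ scell S (fun w => (ψ0 w + ψ1 w) / 2) y := by
  intro z hz hzy
  have h1 := hx z hz hzy
  have h2 := hx' z hz hzy
  simp only [real_inner_smul_left, inner_add_left]
  linarith

/-- Off the bisectors, a maximiser lies in the strict cell. -/
theorem ae_mem_scell_of_max {σ : Measure (E d)} (hσ : σ ≪ volume) (S : Finset (E d))
    (ψ : E d → ℝ) :
    ∀ᵐ x ∂σ, ∀ y ∈ S, (∀ z ∈ S, inner ℝ x z - ψ z ≤ inner ℝ x y - ψ y) → x ∈ scell S ψ y := by
  filter_upwards [Helper64.ae_no_tie hσ S ψ] with x hx y hy hmax z hz hzy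
  exact lt_of_le_of_ne (hmax z hz) (hx z hz y hy hzy)

/-- The strict cells cover the space up to a null set. -/
theorem ae_exists_mem_scell {σ : Measure (E d)} (hσ : σ ≪ volume) {S : Finset (E d)}
    (hS : S.Nonempty) (ψ : E d → ℝ) : ∀ᵐ x ∂σ, ∃ y ∈ S, x ∈ scell S ψ y := by
  filter_upwards [ae_mem_scell_of_max hσ S ψ] with x hx
  obtain ⟨y, hy, hmax⟩ := S.exists_max_image (fun z => inner ℝ x z - ψ z) hS
  exact ⟨y, hy, hx y hy hmax⟩

open scoped Classical in
/-- The atoms of positive mass. -/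
noncomputable def posAtoms (μ : Measure (E d)) (S : Finset (E d)) : Finset (E d) :=
  S.filter (fun y => μ {y} ≠ 0)

theorem mem_posAtoms {μ : Measure (E d)} {S : Finset (E d)} {y : E d} :
    y ∈ posAtoms μ S ↔ y ∈ S ∧ μ {y} ≠ 0 := by
  classical
  unfold posAtoms
  rw [Finset.mem_filter]

theorem posAtoms_nonempty {μ : Measure (E d)} [IsProbabilityMeasure μ] {S : Finset (E d)}
    (hS : μ (↑S : Set (E d))ᶜ = 0) : (posAtoms μ S).Nonempty := by
  by_contra hne
  rw [Finset.not_nonempty_iff_eq_empty] at hne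
  have h0 : ∀ y ∈ S, μ {y} = 0 := by
    intro y hy
    by_contra h
    have hmem : y ∈ posAtoms μ S := mem_posAtoms.mpr ⟨hy, h⟩
    rw [hne] at hmem
    exact absurd hmem (Finset.notMem_empty y)
  have h1 : μ (↑S : Set (E d)) = 0 := by
    have hS' : (↑S : Set (E d)) = ⋃ y ∈ S, {y} := by
      ext x
      simp
    rw [hS']
    exact (measure_biUnion_null_iff S.countable_toSet).mpr h0
  have h2 : μ Set.univ = 0 := by
    rw [← Set.union_compl_self (↑S : Set (E d))]
    exact measure_union_null h1 hS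
  rw [measure_univ] at h2
  exact one_ne_zero h2

/-- For a Laguerre map, almost every point lies in the strict cell (w.r.t. the atoms of positive
mass) of its image. -/
theorem IsPotMap.ae_mem_scell {σ μ : Measure (E d)} {S : Finset (E d)} {ψ : E d → ℝ}
    {T : E d → E d} (h : IsPotMap σ μ S ψ T) (hσ : σ ≪ volume) :
    ∀ᵐ x ∂σ, T x ∈ posAtoms μ S ∧ x ∈ scell (posAtoms μ S) ψ (T x) := by
  obtain ⟨hT, hmap, hae⟩ := h
  have hnull : ∀ᵐ x ∂σ, ∀ y ∈ S, μ {y} = 0 → T x ≠ y := by
    rw [Filter.eventually_all_finset]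
    intro y _
    by_cases hμy : μ {y} = 0
    · have h0 : σ (T ⁻¹' {y}) = 0 := by
        rw [← Measure.map_apply hT (measurableSet_singleton y), hmap]
        exact hμy
      rw [ae_iff]
      refine measure_mono_null (fun x hx => ?_) h0
      have hx' : ¬ (μ {y} = 0 → T x ≠ y) := hx
      by_contra hcon
      exact hx' (fun _ => hcon)
    · exact Eventually.of_forall fun x h0 => (hμy h0).elim
  filter_upwards [hae, hnull, ae_mem_scell_of_max hσ (posAtoms μ S) ψ] with x hx hx0 hxs
  have hTx : T x ∈ posAtoms μ S := mem_posAtoms.mpr ⟨hx.1, fun h0 => hx0 (T x) hx.1 h0 rfl⟩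
  exact ⟨hTx, hxs (T x) hTx fun z hz => hx.2 z (mem_posAtoms.mp hz).1⟩

/-- The fibre of a Laguerre map over an atom of positive mass is a.e. the strict cell. -/
theorem IsPotMap.preimage_ae_eq_scell {σ μ : Measure (E d)} {S : Finset (E d)} {ψ : E d → ℝ}
    {T : E d → E d} (h : IsPotMap σ μ S ψ T) (hσ : σ ≪ volume) {y : E d}
    (hy : y ∈ posAtoms μ S) : T ⁻¹' {y} =ᵐ[σ] scell (posAtoms μ S) ψ y := by
  refine eventuallyEq_set.2 ?_
  filter_upwards [h.ae_mem_scell hσ] with x hx
  constructor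
  · intro hxy
    have hxy' : T x = y := hxy
    rw [← hxy']
    exact hx.2
  · intro hxs
    exact eq_of_mem_scell ψ hx.1 hy hx.2 hxs

end Crest.Agent.S0109
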