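import Mathlib

set_option autoImplicit false
open MeasureTheory Set
open scoped ENNReal NNReal Pointwise

namespace Crest.Agent.S0109.Helper39

/-- One-dimensional Brunn–Minkowski for compact sets. -/
theorem bm1_compact {A B : Set ℝ} (hA : IsCompact A) (hB : IsCompact B)
    (hAn : A.Nonempty) (hBn : B.Nonempty) :
    volume A + volume B ≤ volume (A + B) := by
  obtain ⟨a, haA, ha⟩ := hA.exists_isGreatest hAn
  obtain ⟨b, hbB, hb⟩ := hB.exists_isLeast hBn
  -- A + b ⊆ Iic (a+b), a + B ⊆ Ici (a+b)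
  have h1 : (fun x => x + b) '' A ⊆ A + B := by
    rintro _ ⟨x, hx, rfl⟩
    exact Set.add_mem_add hx hbB
  have h2 : (fun x => a + x) '' B ⊆ A + B := by
    rintro _ ⟨x, hx, rfl⟩
    exact Set.add_mem_add haA hx
  have hm1 : volume ((fun x => x + b) '' A) = volume A := by
    have : (fun x => x + b) '' A = (fun x => x + (-b)) ⁻¹' A := by
      ext y; constructor
      · rintro ⟨x, hx, rfl⟩; simpa using hx
      · intro hy; exact ⟨y + (-b), hy, by ring⟩
    rw [this]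
    exact measure_preimage_add_right volume (-b) A
  have hm2 : volume ((fun x => a + x) '' B) = volume B := by
    have : (fun x => a + x) '' B = (fun x => (-a) + x) ⁻¹' B := by
      ext y; constructor
      · rintro ⟨x, hx, rfl⟩; simpa using hx
      · intro hy; exact ⟨(-a) + y, hy, by ring⟩
    rw [this]
    exact measure_preimage_add volume (-a) B
  have hd : volume (((fun x => x + b) '' A) ∩ ((fun x => a + x) '' B)) = 0 := by
    apply measure_mono_null (t := {a + b})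
    · rintro y ⟨⟨x, hx, rfl⟩, ⟨z, hz, hxz⟩⟩
      have hxa : x ≤ a := ha hx
      have hzb : b ≤ z := hb hz
      simp only [mem_singleton_iff]
      have : a + z = x + b := hxz
      linarith
    · simp
  have hmeas1 : MeasurableSet ((fun x => x + b) '' A) :=
    (hA.image (by fun_prop)).measurableSet
  have hmeas2 : MeasurableSet ((fun x => a + x) '' B) :=
    (hB.image (by fun_prop)).measurableSet
  calc volume A + volume B
      = volume ((fun x => x + b) '' A) + volume ((fun x => a + x) '' B) := by rw [hm1, hm2]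
    _ = volume (((fun x => x + b) '' A) ∪ ((fun x => a + x) '' B))
          + volume (((fun x => x + b) '' A) ∩ ((fun x => a + x) '' B)) :=
        (measure_union_add_inter _ hmeas2).symm
    _ = volume (((fun x => x + b) '' A) ∪ ((fun x => a + x) '' B)) := by rw [hd, add_zero]
    _ ≤ volume (A + B) := measure_mono (union_subset h1 h2)

/-- Passing to the supremum over compact subsets (inner regularity of Lebesgue measure). -/
theorem sup_compact_le {A : Set ℝ} (hA : MeasurableSet A) (c d e : ℝ≥0∞)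
    (h : ∀ K : Set ℝ, IsCompact K → K ⊆ A → c * volume K + d ≤ e) :
    c * volume A + d ≤ e := by
  rw [hA.measure_eq_iSup_isCompact, ENNReal.mul_iSup, ENNReal.iSup_add]
  refine iSup_le (fun K => ?_)
  by_cases hK : K ⊆ A ∧ IsCompact K
  · simp only [hK.1, hK.2, iSup_pos]
    exact h K hK.2 hK.1
  · have h0 : (⨆ (_ : K ⊆ A) (_ : IsCompact K), (volume : Measure ℝ) K) = 0 := by
      by_cases h1 : K ⊆ A
      · have h2 : ¬ IsCompact K := fun h2 => hK ⟨h1, h2⟩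
        simp [h1, h2]
      · simp [h1]
    rw [h0]
    have := h ∅ isCompact_empty (empty_subset _)
    simpa using this


/-- Brunn–Minkowski in dimension one, for measurable sets, in the form needed for
Prékopa–Leindler: if `(1-θ) A + θ B ⊆ C` then `(1-θ)|A| + θ|B| ≤ |C|`. -/
theorem bm1_measurable {A B C : Set ℝ} (hA : MeasurableSet A) (hB : MeasurableSet B)
    (hAn : A.Nonempty) (hBn : B.Nonempty) {θ : ℝ} (h0 : 0 < θ) (h1 : θ < 1)
    (hC : ∀ a ∈ A, ∀ b ∈ B, (1 - θ) * a + θ * b ∈ C) :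
    ENNReal.ofReal (1 - θ) * volume A + ENNReal.ofReal θ * volume B ≤ volume C := by
  obtain ⟨a0, ha0⟩ := hAn
  obtain ⟨b0, hb0⟩ := hBn
  have h1θ : 0 < 1 - θ := by linarith
  -- compact version
  have key : ∀ KA KB : Set ℝ, IsCompact KA → IsCompact KB → KA ⊆ A → KB ⊆ B →
      ENNReal.ofReal (1 - θ) * volume KA + ENNReal.ofReal θ * volume KB ≤ volume C := by
    intro KA KB hKA hKB hKAA hKBB
    have hKA' : IsCompact (insert a0 KA) := hKA.insert a0
    have hKB' : IsCompact (insert b0 KB) := hKB.insert b0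
    have hsA : IsCompact ((1 - θ) • insert a0 KA) := hKA'.smul _
    have hsB : IsCompact (θ • insert b0 KB) := hKB'.smul _
    have hbm := bm1_compact hsA hsB ((Set.insert_nonempty _ _).smul_set) ((Set.insert_nonempty _ _).smul_set)
    have hvA : volume ((1 - θ) • insert a0 KA) = ENNReal.ofReal (1 - θ) * volume (insert a0 KA) := by
      rw [Measure.addHaar_smul]; simp [abs_of_pos h1θ]
    have hvB : volume (θ • insert b0 KB) = ENNReal.ofReal θ * volume (insert b0 KB) := by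
      rw [Measure.addHaar_smul]; simp [abs_of_pos h0]
    have hsub : (1 - θ) • insert a0 KA + θ • insert b0 KB ⊆ C := by
      rintro _ ⟨_, ⟨a, ha, rfl⟩, _, ⟨b, hb, rfl⟩, rfl⟩
      have haA : a ∈ A := by
        rcases ha with rfl | ha
        · exact ha0
        · exact hKAA ha
      have hbB : b ∈ B := by
        rcases hb with rfl | hb
        · exact hb0
        · exact hKBB hb
      simpa [smul_eq_mul] using hC a haA b hbB
    calc ENNReal.ofReal (1 - θ) * volume KA + ENNReal.ofReal θ * volume KB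
        ≤ ENNReal.ofReal (1 - θ) * volume (insert a0 KA)
            + ENNReal.ofReal θ * volume (insert b0 KB) := by
          gcongr <;> exact Set.subset_insert _ _
      _ = volume ((1 - θ) • insert a0 KA) + volume (θ • insert b0 KB) := by rw [hvA, hvB]
      _ ≤ volume ((1 - θ) • insert a0 KA + θ • insert b0 KB) := hbm
      _ ≤ volume C := measure_mono hsub
  -- pass to the supremum over compact subsets
  have step1 : ∀ KB : Set ℝ, IsCompact KB → KB ⊆ B →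
      ENNReal.ofReal (1 - θ) * volume A + ENNReal.ofReal θ * volume KB ≤ volume C := by
    intro KB hKB hKBB
    exact sup_compact_le hA _ _ _ (fun K hK hKA => key K KB hK hKB hKA hKBB)
  rw [add_comm]
  refine sup_compact_le hB _ _ _ (fun K hK hKB => ?_)
  rw [add_comm]
  exact step1 K hK hKB

/-- Prékopa–Leindler in dimension one, normalised form (`sup f = sup g = 1`): the conclusion
is the arithmetic-mean form. -/
theorem pl1_norm {f g h : ℝ → ℝ} (hf : Measurable f) (hg : Measurable g) (hh : Measurable h)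
    (hf0 : ∀ x, 0 ≤ f x) (hg0 : ∀ x, 0 ≤ g x) (hh0 : ∀ x, 0 ≤ h x)
    (hf1 : ∀ x, f x ≤ 1) (hg1 : ∀ x, g x ≤ 1)
    (hfs : ∀ t < 1, ∃ x, t < f x) (hgs : ∀ t < 1, ∃ x, t < g x)
    {θ : ℝ} (h0 : 0 < θ) (h1 : θ < 1)
    (H : ∀ x z, f x ^ (1 - θ) * g z ^ θ ≤ h ((1 - θ) * x + θ * z)) :
    ENNReal.ofReal (1 - θ) * (∫⁻ x, ENNReal.ofReal (f x))
      + ENNReal.ofReal θ * (∫⁻ x, ENNReal.ofReal (g x)) ≤ ∫⁻ x, ENNReal.ofReal (h x) := by
  have h1θ : 0 < 1 - θ := by linarith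
  rw [lintegral_eq_lintegral_meas_lt volume (Filter.Eventually.of_forall hf0) hf.aemeasurable,
    lintegral_eq_lintegral_meas_lt volume (Filter.Eventually.of_forall hg0) hg.aemeasurable,
    lintegral_eq_lintegral_meas_lt volume (Filter.Eventually.of_forall hh0) hh.aemeasurable]
  have hFm : Measurable (fun t : ℝ => volume {a : ℝ | t < f a}) := by
    apply Antitone.measurable
    intro s t hst
    exact measure_mono (fun a (ha : t < f a) => lt_of_le_of_lt hst ha)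
  rw [← lintegral_const_mul' _ _ ENNReal.ofReal_ne_top, ← lintegral_const_mul' _ _ ENNReal.ofReal_ne_top,
    ← lintegral_add_left (hFm.const_mul _)]
  apply setLIntegral_mono' measurableSet_Ioi
  intro t (ht : 0 < t)
  by_cases ht1 : t < 1
  · obtain ⟨x0, hx0⟩ := hfs t ht1
    obtain ⟨z0, hz0⟩ := hgs t ht1
    apply bm1_measurable (measurableSet_lt measurable_const hf) (measurableSet_lt measurable_const hg)
      ⟨x0, hx0⟩ ⟨z0, hz0⟩ h0 h1
    intro a (ha : t < f a) b (hb : t < g b)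
    show t < h ((1 - θ) * a + θ * b)
    refine lt_of_lt_of_le ?_ (H a b)
    have e1 : t ^ (1 - θ) < f a ^ (1 - θ) := Real.rpow_lt_rpow ht.le ha h1θ
    have e2 : t ^ θ < g b ^ θ := Real.rpow_lt_rpow ht.le hb h0
    have e3 : t = t ^ (1 - θ) * t ^ θ := by
      rw [← Real.rpow_add ht]; simp
    rw [e3]
    exact mul_lt_mul'' e1 e2 (Real.rpow_nonneg ht.le _) (Real.rpow_nonneg ht.le _)
  · have e1 : {a : ℝ | t < f a} = ∅ := by
      ext a; simp only [Set.mem_ofPred_eq, mem_empty_iff_false, iff_false, not_lt]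
      exact (hf1 a).trans (not_lt.mp ht1)
    have e2 : {a : ℝ | t < g a} = ∅ := by
      ext a; simp only [Set.mem_ofPred_eq, mem_empty_iff_false, iff_false, not_lt]
      exact (hg1 a).trans (not_lt.mp ht1)
    rw [e1, e2]; simp


/-- Weighted AM–GM in `ℝ≥0∞`. -/
theorem ennreal_amgm (x y : ℝ≥0∞) {θ : ℝ} (h0 : 0 < θ) (h1 : θ < 1) :
    x ^ (1 - θ) * y ^ θ ≤ ENNReal.ofReal (1 - θ) * x + ENNReal.ofReal θ * y := by
  have h1θ : 0 < 1 - θ := by linarith
  by_cases hx : x = ⊤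
  · subst hx
    rw [ENNReal.mul_top (by simpa using h1θ)]
    simp
  by_cases hy : y = ⊤
  · subst hy
    rw [ENNReal.mul_top (by simpa using h0)]
    simp
  lift x to ℝ≥0 using hx
  lift y to ℝ≥0 using hy
  have key := NNReal.geom_mean_le_arith_mean2_weighted ⟨1 - θ, h1θ.le⟩ ⟨θ, h0.le⟩ x y
    (by ext; show (1 - θ) + θ = 1; ring)
  rw [ENNReal.ofReal, ENNReal.ofReal, ← ENNReal.coe_rpow_of_nonneg _ h1θ.le,
    ← ENNReal.coe_rpow_of_nonneg _ h0.le, ← ENNReal.coe_mul, ← ENNReal.coe_mul, ← ENNReal.coe_mul,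
    ← ENNReal.coe_add, ENNReal.coe_le_coe]
  have e1 : (1 - θ).toNNReal = ⟨1 - θ, h1θ.le⟩ := by ext; simp [h1θ.le]; rfl
  have e2 : θ.toNNReal = ⟨θ, h0.le⟩ := by ext; simp [h0.le]; rfl
  rw [e1, e2]
  exact key

/-- Prékopa–Leindler in dimension one for bounded `ℝ≥0∞`-valued functions. -/
theorem pl1_bdd {F G H : ℝ → ℝ≥0∞} (hF : Measurable F) (hG : Measurable G) (hH : Measurable H)
    {θ : ℝ} (h0 : 0 < θ) (h1 : θ < 1) (M : ℝ≥0) (hFM : ∀ x, F x ≤ M) (hGM : ∀ x, G x ≤ M)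
    (hyp : ∀ x z, F x ^ (1 - θ) * G z ^ θ ≤ H ((1 - θ) * x + θ * z)) :
    (∫⁻ x, F x) ^ (1 - θ) * (∫⁻ x, G x) ^ θ ≤ ∫⁻ x, H x := by
  have h1θ : 0 < 1 - θ := by linarith
  by_cases hF0 : ∫⁻ x, F x = 0
  · rw [hF0, ENNReal.zero_rpow_of_pos h1θ, zero_mul]; exact bot_le
  by_cases hG0 : ∫⁻ x, G x = 0
  · rw [hG0, ENNReal.zero_rpow_of_pos h0, mul_zero]; exact bot_le
  set a : ℝ≥0∞ := ⨆ x, F x with ha
  set b : ℝ≥0∞ := ⨆ x, G x with hb
  have ha_top : a ≠ ⊤ := ne_top_of_le_ne_top ENNReal.coe_ne_top (iSup_le hFM)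
  have hb_top : b ≠ ⊤ := ne_top_of_le_ne_top ENNReal.coe_ne_top (iSup_le hGM)
  have hFa : ∀ x, F x ≤ a := le_iSup F
  have hGb : ∀ x, G x ≤ b := le_iSup G
  have ha0 : a ≠ 0 := by
    intro h
    apply hF0
    have : ∀ x, F x = 0 := fun x => le_antisymm (h ▸ hFa x) bot_le
    simp [this]
  have hb0 : b ≠ 0 := by
    intro h
    apply hG0
    have : ∀ x, G x = 0 := fun x => le_antisymm (h ▸ hGb x) bot_le
    simp [this]
  have haa : a * a⁻¹ = 1 := ENNReal.mul_inv_cancel ha0 ha_top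
  have hbb : b * b⁻¹ = 1 := ENNReal.mul_inv_cancel hb0 hb_top
  have hia_top : a⁻¹ ≠ ⊤ := ENNReal.inv_ne_top.2 ha0
  have hib_top : b⁻¹ ≠ ⊤ := ENNReal.inv_ne_top.2 hb0
  set c : ℝ≥0∞ := a ^ (1 - θ) * b ^ θ with hc
  set ic : ℝ≥0∞ := a⁻¹ ^ (1 - θ) * b⁻¹ ^ θ with hic
  have hcic : ic * c = 1 := by
    rw [hc, hic, mul_mul_mul_comm, ← ENNReal.mul_rpow_of_nonneg _ _ h1θ.le,
      ← ENNReal.mul_rpow_of_nonneg _ _ h0.le, mul_comm a⁻¹, mul_comm b⁻¹, haa, hbb]
    simp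
  have hic_top : ic ≠ ⊤ :=
    ENNReal.mul_ne_top (ENNReal.rpow_ne_top_of_nonneg h1θ.le hia_top)
      (ENNReal.rpow_ne_top_of_nonneg h0.le hib_top)
  have hF1 : ∀ x, F x * a⁻¹ ≤ 1 := fun x => by
    calc F x * a⁻¹ ≤ a * a⁻¹ := by gcongr; exact hFa x
      _ = 1 := haa
  have hG1 : ∀ x, G x * b⁻¹ ≤ 1 := fun x => by
    calc G x * b⁻¹ ≤ b * b⁻¹ := by gcongr; exact hGb x
      _ = 1 := hbb
  have hF1top : ∀ x, F x * a⁻¹ ≠ ⊤ := fun x => ne_top_of_le_ne_top ENNReal.one_ne_top (hF1 x)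
  have hG1top : ∀ x, G x * b⁻¹ ≠ ⊤ := fun x => ne_top_of_le_ne_top ENNReal.one_ne_top (hG1 x)
  -- the normalised real functions
  let f : ℝ → ℝ := fun x => (F x * a⁻¹).toReal
  let g : ℝ → ℝ := fun x => (G x * b⁻¹).toReal
  let h : ℝ → ℝ := fun x => (min (H x * ic) 1).toReal
  have hfm : Measurable f := (hF.mul_const _).ennreal_toReal
  have hgm : Measurable g := (hG.mul_const _).ennreal_toReal
  have hhm : Measurable h := ((hH.mul_const _).min measurable_const).ennreal_toReal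
  have hf0 : ∀ x, 0 ≤ f x := fun x => ENNReal.toReal_nonneg
  have hg0 : ∀ x, 0 ≤ g x := fun x => ENNReal.toReal_nonneg
  have hh0 : ∀ x, 0 ≤ h x := fun x => ENNReal.toReal_nonneg
  have hf1 : ∀ x, f x ≤ 1 := fun x => by
    have := ENNReal.toReal_mono ENNReal.one_ne_top (hF1 x)
    rw [ENNReal.toReal_one] at this
    exact this
  have hg1 : ∀ x, g x ≤ 1 := fun x => by
    have := ENNReal.toReal_mono ENNReal.one_ne_top (hG1 x)
    rw [ENNReal.toReal_one] at this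
    exact this
  have sup_aux : ∀ (F : ℝ → ℝ≥0∞) (a : ℝ≥0∞), a = ⨆ x, F x → a ≠ 0 → a ≠ ⊤ → a * a⁻¹ = 1 →
      (∀ x, F x * a⁻¹ ≠ ⊤) → ∀ t : ℝ, t < 1 → ∃ x, t < (F x * a⁻¹).toReal := by
    intro F a ha ha0 ha_top haa hF1top t ht
    by_cases ht0 : t < 0
    · exact ⟨0, lt_of_lt_of_le ht0 ENNReal.toReal_nonneg⟩
    rw [not_lt] at ht0
    have h1 : ENNReal.ofReal t * a < a := by
      have : ENNReal.ofReal t < 1 := by
        rw [← ENNReal.ofReal_one]; exact (ENNReal.ofReal_lt_ofReal_iff one_pos).2 ht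
      calc ENNReal.ofReal t * a < 1 * a := ENNReal.mul_lt_mul_left ha0 ha_top this
        _ = a := one_mul a
    rw [ha] at h1
    obtain ⟨x, hx⟩ := lt_iSup_iff.1 h1
    refine ⟨x, ?_⟩
    rw [← ENNReal.ofReal_lt_iff_lt_toReal ht0 (hF1top x)]
    rw [← ha] at hx
    calc ENNReal.ofReal t = ENNReal.ofReal t * a * a⁻¹ := by rw [mul_assoc, haa, mul_one]
      _ < F x * a⁻¹ := ENNReal.mul_lt_mul_left (ENNReal.inv_ne_zero.2 ha_top)
          (ENNReal.inv_ne_top.2 ha0) hx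
  have hfs : ∀ t < 1, ∃ x, t < f x := sup_aux F a ha ha0 ha_top haa hF1top
  have hgs : ∀ t < 1, ∃ x, t < g x := sup_aux G b hb hb0 hb_top hbb hG1top
  have Hreal : ∀ x z, f x ^ (1 - θ) * g z ^ θ ≤ h ((1 - θ) * x + θ * z) := by
    intro x z
    show (F x * a⁻¹).toReal ^ (1 - θ) * (G z * b⁻¹).toReal ^ θ
      ≤ (min (H ((1 - θ) * x + θ * z) * ic) 1).toReal
    rw [ENNReal.toReal_rpow, ENNReal.toReal_rpow, ← ENNReal.toReal_mul]
    apply ENNReal.toReal_mono (ne_top_of_le_ne_top ENNReal.one_ne_top (min_le_right _ _))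
    apply le_min
    · rw [ENNReal.mul_rpow_of_nonneg _ _ h1θ.le, ENNReal.mul_rpow_of_nonneg _ _ h0.le,
        mul_mul_mul_comm]
      gcongr
      exact hyp x z
    · calc (F x * a⁻¹) ^ (1 - θ) * (G z * b⁻¹) ^ θ ≤ 1 ^ (1 - θ) * 1 ^ θ := by
            gcongr
            · exact hF1 x
            · exact hG1 z
        _ = 1 := by simp
  have main := pl1_norm hfm hgm hhm hf0 hg0 hh0 hf1 hg1 hfs hgs h0 h1 Hreal
  have ef : ∀ x, ENNReal.ofReal (f x) = F x * a⁻¹ := fun x => ENNReal.ofReal_toReal (hF1top x)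
  have eg : ∀ x, ENNReal.ofReal (g x) = G x * b⁻¹ := fun x => ENNReal.ofReal_toReal (hG1top x)
  have eh : ∀ x, ENNReal.ofReal (h x) ≤ H x * ic := fun x => by
    show ENNReal.ofReal (min (H x * ic) 1).toReal ≤ H x * ic
    rw [ENNReal.ofReal_toReal (ne_top_of_le_ne_top ENNReal.one_ne_top (min_le_right _ _))]
    exact min_le_left _ _
  simp_rw [ef, eg] at main
  rw [lintegral_mul_const _ hF, lintegral_mul_const _ hG] at main
  have main2 : (∫⁻ x, ENNReal.ofReal (h x)) ≤ (∫⁻ x, H x) * ic := by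
    rw [← lintegral_mul_const _ hH]
    exact lintegral_mono eh
  have amgm := ennreal_amgm ((∫⁻ x, F x) * a⁻¹) ((∫⁻ x, G x) * b⁻¹) h0 h1
  have e3 : ((∫⁻ x, F x) * a⁻¹) ^ (1 - θ) * ((∫⁻ x, G x) * b⁻¹) ^ θ
      = (∫⁻ x, F x) ^ (1 - θ) * (∫⁻ x, G x) ^ θ * ic := by
    rw [ENNReal.mul_rpow_of_nonneg _ _ h1θ.le, ENNReal.mul_rpow_of_nonneg _ _ h0.le,
      mul_mul_mul_comm]
  have fin : (∫⁻ x, F x) ^ (1 - θ) * (∫⁻ x, G x) ^ θ * ic ≤ (∫⁻ x, H x) * ic := by
    rw [← e3]; exact amgm.trans (main.trans main2)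
  calc (∫⁻ x, F x) ^ (1 - θ) * (∫⁻ x, G x) ^ θ
      = (∫⁻ x, F x) ^ (1 - θ) * (∫⁻ x, G x) ^ θ * ic * c := by rw [mul_assoc _ ic c, hcic, mul_one]
    _ ≤ (∫⁻ x, H x) * ic * c := by gcongr
    _ = ∫⁻ x, H x := by rw [mul_assoc, hcic, mul_one]


/-- **Prékopa–Leindler inequality in dimension one**, for measurable `ℝ≥0∞`-valued functions
(the value `⊤` is allowed). -/
theorem pl1 {F G H : ℝ → ℝ≥0∞} (hF : Measurable F) (hG : Measurable G) (hH : Measurable H)
    {θ : ℝ} (h0 : 0 < θ) (h1 : θ < 1)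
    (hyp : ∀ x z, F x ^ (1 - θ) * G z ^ θ ≤ H ((1 - θ) * x + θ * z)) :
    (∫⁻ x, F x) ^ (1 - θ) * (∫⁻ x, G x) ^ θ ≤ ∫⁻ x, H x := by
  have h1θ : 0 < 1 - θ := by linarith
  by_cases hF0 : ∫⁻ x, F x = 0
  · rw [hF0, ENNReal.zero_rpow_of_pos h1θ, zero_mul]; exact bot_le
  by_cases hG0 : ∫⁻ x, G x = 0
  · rw [hG0, ENNReal.zero_rpow_of_pos h0, mul_zero]; exact bot_le
  let Fn : ℕ → ℝ → ℝ≥0∞ := fun n x => min (F x) n
  let Gn : ℕ → ℝ → ℝ≥0∞ := fun n x => min (G x) n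
  have hFn : ∀ n, Measurable (Fn n) := fun n => hF.min measurable_const
  have hGn : ∀ n, Measurable (Gn n) := fun n => hG.min measurable_const
  have key : ∀ n : ℕ, (∫⁻ x, Fn n x) ^ (1 - θ) * (∫⁻ x, Gn n x) ^ θ ≤ ∫⁻ x, H x := by
    intro n
    refine pl1_bdd (hFn n) (hGn n) hH h0 h1 (n : ℝ≥0) (fun x => ?_) (fun x => ?_) ?_
    · show min (F x) (n : ℝ≥0∞) ≤ ((n : ℝ≥0) : ℝ≥0∞)
      simp
    · show min (G x) (n : ℝ≥0∞) ≤ ((n : ℝ≥0) : ℝ≥0∞)
      simp
    intro x z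
    refine le_trans ?_ (hyp x z)
    gcongr
    · exact min_le_left _ _
    · exact min_le_left _ _
  have trunc : ∀ (F : ℝ → ℝ≥0∞), Measurable F →
      Filter.Tendsto (fun n : ℕ => ∫⁻ x, min (F x) (n : ℝ≥0∞)) Filter.atTop (nhds (∫⁻ x, F x)) := by
    intro F hF
    apply lintegral_tendsto_of_tendsto_of_monotone (fun n => (hF.min measurable_const).aemeasurable)
    · exact Filter.Eventually.of_forall
        (fun x n m hnm => min_le_min le_rfl (by exact_mod_cast hnm))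
    · refine Filter.Eventually.of_forall (fun x => ?_)
      have := Filter.Tendsto.min (tendsto_const_nhds (x := F x)) ENNReal.tendsto_nat_nhds_top
      simpa using this
  have tF := trunc F hF
  have tG := trunc G hG
  have tF' : Filter.Tendsto (fun n : ℕ => (∫⁻ x, Fn n x) ^ (1 - θ)) Filter.atTop
      (nhds ((∫⁻ x, F x) ^ (1 - θ))) := (ENNReal.continuous_rpow_const.tendsto _).comp tF
  have tG' : Filter.Tendsto (fun n : ℕ => (∫⁻ x, Gn n x) ^ θ) Filter.atTop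
      (nhds ((∫⁻ x, G x) ^ θ)) := (ENNReal.continuous_rpow_const.tendsto _).comp tG
  have hFne : (∫⁻ x, F x) ^ (1 - θ) ≠ 0 := by
    intro h
    rw [ENNReal.rpow_eq_zero_iff] at h
    rcases h with ⟨h, _⟩ | ⟨_, h⟩
    · exact hF0 h
    · linarith
  have hGne : (∫⁻ x, G x) ^ θ ≠ 0 := by
    intro h
    rw [ENNReal.rpow_eq_zero_iff] at h
    rcases h with ⟨h, _⟩ | ⟨_, h⟩
    · exact hG0 h
    · linarith
  have lim := ENNReal.Tendsto.mul tF' (Or.inl hFne) tG' (Or.inl hGne)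
  exact le_of_tendsto' lim key


/-- Prékopa–Leindler in dimension one with `smul` instead of multiplication. -/
theorem prekopa_leindler_real (t : ℝ) (ht0 : 0 < t) (ht1 : t < 1) (f g h : ℝ → ℝ≥0∞)
    (hf : Measurable f) (hg : Measurable g) (hh : Measurable h)
    (H : ∀ x y, f x ^ (1 - t) * g y ^ t ≤ h ((1 - t) • x + t • y)) :
    (∫⁻ x, f x) ^ (1 - t) * (∫⁻ x, g x) ^ t ≤ ∫⁻ x, h x :=
  pl1 hf hg hh ht0 ht1 (fun x z => by simpa [smul_eq_mul] using H x z)

/-- Prékopa–Leindler in dimension one at `t = 1/2`, in squared form (no roots). -/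
theorem plHalf_real (f g h : ℝ → ℝ≥0∞) (hf : Measurable f) (hg : Measurable g)
    (hh : Measurable h) (H : ∀ x y, f x * g y ≤ h ((1 / 2 : ℝ) • (x + y)) ^ 2) :
    (∫⁻ x, f x) * (∫⁻ y, g y) ≤ (∫⁻ z, h z) ^ 2 := by
  have hsq : ∀ a : ℝ≥0∞, (a ^ (2 : ℕ)) ^ (1 / 2 : ℝ) = a := by
    intro a
    rw [← ENNReal.rpow_natCast, ← ENNReal.rpow_mul]
    norm_num
  have hsq' : ∀ a : ℝ≥0∞, (a ^ (1 / 2 : ℝ)) ^ (2 : ℕ) = a := by
    intro a
    rw [← ENNReal.rpow_natCast, ← ENNReal.rpow_mul]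
    norm_num
  have key := pl1 (θ := 1 / 2) hf hg hh (by norm_num) (by norm_num) (fun x z => by
    have e : (1 - 1 / 2 : ℝ) * x + 1 / 2 * z = (1 / 2 : ℝ) • (x + z) := by
      rw [smul_eq_mul]; ring
    rw [e]
    have h2 := ENNReal.rpow_le_rpow (H x z) (by norm_num : (0 : ℝ) ≤ 1 / 2)
    rw [hsq, ENNReal.mul_rpow_of_nonneg _ _ (by norm_num : (0 : ℝ) ≤ 1 / 2)] at h2
    have e2 : (1 - 1 / 2 : ℝ) = 1 / 2 := by norm_num
    rw [e2]
    exact h2)
  have e2 : (1 - 1 / 2 : ℝ) = 1 / 2 := by norm_num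
  rw [e2] at key
  calc (∫⁻ x, f x) * (∫⁻ y, g y)
      = ((∫⁻ x, f x) ^ (1 / 2 : ℝ) * (∫⁻ y, g y) ^ (1 / 2 : ℝ)) ^ (2 : ℕ) := by
        rw [mul_pow, hsq', hsq']
    _ ≤ (∫⁻ z, h z) ^ 2 := by gcongr

end Crest.Agent.S0109.Helper39
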