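import Crest.Agent.Lib.S0109.Helper6PL
import Crest.Agent.Lib.S0109.Helper39PL

/-!
Row 82 (S0109), helper39: the one-dimensional Prékopa–Leindler inequality of `Helper39PL`
stated as `Helper6.PLHalf ℝ volume`, and its consequences through helper6's dimension induction:
Prékopa–Leindler at `t = 1/2` on `Fin n → ℝ` and on `EuclideanSpace ℝ (Fin d)`,
with no remaining hypothesis.
-/

set_option autoImplicit false
open MeasureTheory
open scoped ENNReal NNReal

namespace Crest.Agent.S0109.Helper39

/-- Prékopa–Leindler at `t = 1/2` on the real line. -/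
theorem plHalf_real' : Helper6.PLHalf ℝ volume :=
  fun f g h hf hg hh H => plHalf_real f g h hf hg hh H

/-- Prékopa–Leindler at `t = 1/2` on `Fin n → ℝ`. -/
theorem plHalf_pi (n : ℕ) : Helper6.PLHalf (Fin n → ℝ) volume :=
  Helper6.plHalf_pi plHalf_real' n

/-- Prékopa–Leindler at `t = 1/2` on `EuclideanSpace ℝ (Fin d)`. -/
theorem plHalf_euclidean (d : ℕ) : Helper6.PLHalf (EuclideanSpace ℝ (Fin d)) volume :=
  Helper6.plHalf_euclidean plHalf_real' d

end Crest.Agent.S0109.Helper39
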