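import Mathlib

/-!
Row 82 (S0109), helper6: Prékopa–Leindler at `t = 1/2` — dimension induction.

`PLHalf X μ` is the Prékopa–Leindler property of the measure `μ` at `t = 1/2`
(`ℝ≥0∞`-valued functions, squares instead of square roots).  This file proves that it is stable
under products and measure-preserving midpoint-compatible equivalences, hence passes from `ℝ`
to `Fin n → ℝ` and to `EuclideanSpace ℝ (Fin d)`.
-/

set_option autoImplicit false
open MeasureTheory
open scoped ENNReal NNReal

namespace Crest.Agent.S0109.Helper6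

/-- Prékopa–Leindler property at `t = 1/2`: if `f x * g y ≤ h ((x + y)/2) ^ 2` for all `x, y`
then `(∫ f) * (∫ g) ≤ (∫ h) ^ 2`. -/
def PLHalf (X : Type*) [AddCommGroup X] [Module ℝ X] [MeasurableSpace X] (μ : Measure X) : Prop :=
  ∀ f g h : X → ℝ≥0∞, Measurable f → Measurable g → Measurable h →
    (∀ x y, f x * g y ≤ h ((1 / 2 : ℝ) • (x + y)) ^ 2) →
    (∫⁻ x, f x ∂μ) * (∫⁻ y, g y ∂μ) ≤ (∫⁻ z, h z ∂μ) ^ 2

theorem PLHalf.prod {X Y : Type*} [AddCommGroup X] [Module ℝ X] [MeasurableSpace X]
    [AddCommGroup Y] [Module ℝ Y] [MeasurableSpace Y] {μ : Measure X} {ν : Measure Y}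
    [SFinite μ] [SFinite ν]
    (hX : PLHalf X μ) (hY : PLHalf Y ν) : PLHalf (X × Y) (μ.prod ν) := by
  intro f g h hf hg hh H
  rw [lintegral_prod _ hf.aemeasurable, lintegral_prod _ hg.aemeasurable,
    lintegral_prod _ hh.aemeasurable]
  refine hX (fun x => ∫⁻ y, f (x, y) ∂ν) (fun x => ∫⁻ y, g (x, y) ∂ν)
    (fun x => ∫⁻ y, h (x, y) ∂ν) hf.lintegral_prod_right' hg.lintegral_prod_right'
    hh.lintegral_prod_right' ?_
  intro x x'
  refine hY (fun y => f (x, y)) (fun y => g (x', y)) (fun y => h ((1 / 2 : ℝ) • (x + x'), y))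
    (hf.comp measurable_prodMk_left) (hg.comp measurable_prodMk_left)
    (hh.comp measurable_prodMk_left) ?_
  intro y y'
  have := H (x, y) (x', y')
  simpa using this

theorem PLHalf.of_equiv {X Y : Type*} [AddCommGroup X] [Module ℝ X] [MeasurableSpace X]
    [AddCommGroup Y] [Module ℝ Y] [MeasurableSpace Y] {μ : Measure X} {ν : Measure Y}
    (e : X ≃ᵐ Y) (he : MeasurePreserving e μ ν)
    (hmid : ∀ x x', e ((1 / 2 : ℝ) • (x + x')) = (1 / 2 : ℝ) • (e x + e x'))
    (hY : PLHalf Y ν) : PLHalf X μ := by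
  intro f g h hf hg hh H
  have key := hY (fun y => f (e.symm y)) (fun y => g (e.symm y)) (fun y => h (e.symm y))
    (hf.comp e.symm.measurable) (hg.comp e.symm.measurable) (hh.comp e.symm.measurable) ?_
  · rw [← he.lintegral_comp_emb e.measurableEmbedding,
      ← he.lintegral_comp_emb e.measurableEmbedding,
      ← he.lintegral_comp_emb e.measurableEmbedding] at key
    simpa using key
  · intro y y'
    have h1 := H (e.symm y) (e.symm y')
    have h2 : e.symm ((1 / 2 : ℝ) • (y + y')) = (1 / 2 : ℝ) • (e.symm y + e.symm y') := by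
      apply e.injective
      rw [hmid]
      simp
    rw [h2]
    exact h1

theorem plHalf_pi (h1 : PLHalf ℝ volume) : ∀ n : ℕ, PLHalf (Fin n → ℝ) volume
  | 0 => by
      intro f g h hf hg hh H
      rw [Measure.volume_pi_eq_dirac (0 : Fin 0 → ℝ)]
      rw [lintegral_dirac' _ hf, lintegral_dirac' _ hg, lintegral_dirac' _ hh]
      have := H 0 0
      simpa using this
  | n + 1 => by
      have ih := plHalf_pi h1 n
      refine PLHalf.of_equiv (MeasurableEquiv.piFinSuccAbove (fun _ => ℝ) 0)
        (volume_preserving_piFinSuccAbove (fun _ => ℝ) 0) ?_ (h1.prod ih)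
      intro x x'
      rfl

theorem plHalf_euclidean (h1 : PLHalf ℝ volume) (d : ℕ) :
    PLHalf (EuclideanSpace ℝ (Fin d)) volume := by
  refine PLHalf.of_equiv (MeasurableEquiv.toLp 2 (Fin d → ℝ)).symm
    (EuclideanSpace.volume_preserving_symm_measurableEquiv_toLp (Fin d)) ?_ (plHalf_pi h1 d)
  intro x x'
  rfl

end Crest.Agent.S0109.Helper6
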