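import Mathlib
import Crest.Agent.Lib.S0109.Helper6PL

/-!
Row 82 (S0109), helper6: the abstract centroid lemma (L) from Prékopa–Leindler at `t = 1/2`.

`pl_centroid`: let `K ⊆ closedBall x₀ D` have finite measure, and let `A i`, `B i`, `C i` be finite
families of measurable subsets of `K` such that the `A i` (resp. `B i`) are a.e.-disjoint and cover
`K` up to a null set, the `C i` are a.e.-disjoint, and midpoints of `A i` and `B i` lie in `C i`.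
If `|μ (A i) - μ (B i)| ≤ μ (B i) / 2`, then
`∑ μ(A i) ‖centroid (B i) - centroid (A i)‖² ≤ 70 D² ∑ (μ(A i) - μ(B i))² / μ(B i)`.
The only analytic input is the Prékopa–Leindler property `PLHalf E μ`.
-/

set_option autoImplicit false
open MeasureTheory
open scoped ENNReal NNReal

namespace Crest.Agent.S0109.Helper6


/-- Young-type bound used for the cross term. -/
lemma key1 (st G D Z nA nB : ℝ) (hst : 0 < st) (hZ : 0 ≤ Z)
    (h : (nA - nB) ^ 2 ≤ 4 * D ^ 2 * Z) :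
    0 ≤ st / 8 * Z + G / 4 * (nA - nB) + G ^ 2 * D ^ 2 / (2 * st) := by
  set X := st / 8 * Z with hX
  set Y := G ^ 2 * D ^ 2 / (2 * st) with hY
  set W := G / 4 * (nA - nB) with hW
  have hX0 : 0 ≤ X := by positivity
  have hY0 : 0 ≤ Y := by positivity
  have hXY : X * Y = Z * G ^ 2 * D ^ 2 / 16 := by
    rw [hX, hY]; field_simp; ring
  have hW2 : W ^ 2 ≤ 4 * (X * Y) := by
    rw [hXY, hW]
    have : (G / 4 * (nA - nB)) ^ 2 = G ^ 2 * (nA - nB) ^ 2 / 16 := by ring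
    rw [this]
    have hG : 0 ≤ G ^ 2 := sq_nonneg G
    nlinarith [mul_le_mul_of_nonneg_left h hG]
  have hW3 : W ^ 2 ≤ (X + Y) ^ 2 := by nlinarith [sq_nonneg (X - Y)]
  have := abs_le_of_sq_le_sq' hW3 (by positivity)
  linarith [this.1]

lemma e1_identity (s t D SA SB nA nB ip q : ℝ) (hs : s ≠ 0) (ht : t ≠ 0) (hq0 : q ≠ 0)
    (hq : q = s * t + s ^ 2 - t ^ 2) :
    (2 * s * t * D ^ 2 - (s * t / 2 + (s ^ 2 - t ^ 2) / 4) * SA
        - ((2 * s * t + s ^ 2 - t ^ 2) * s * t / (4 * q)) * SB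
        + (q / 4) * nA - (s * t / 2) * ip
        + (s ^ 2 * t ^ 2 / (4 * q)) * nB)
      - (s ^ 2 * (2 * D ^ 2 - SA) + t ^ 2 * (2 * D ^ 2 - SB)) / 2
      + 7 * D ^ 2 * (s ^ 2 - t ^ 2) ^ 2 / t ^ 2 - s * t * (nA - 2 * ip + nB) / 8
      = (s * t / 8 * (nA - 2 * ip + nB) + (s ^ 2 - t ^ 2) / 4 * (nA - nB)
            + (s ^ 2 - t ^ 2) ^ 2 * D ^ 2 / (2 * (s * t)))
        + (s - t) ^ 2 * (SA - nA) / 4 + (s - t) ^ 2 * (nA + nB) / 4
        + t * (s - t) ^ 2 * (s + 2 * t) / (4 * q) * (D ^ 2 - (SB - nB))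
        + (7 * D ^ 2 * (s ^ 2 - t ^ 2) ^ 2 / t ^ 2 - (s ^ 2 - t ^ 2) ^ 2 * D ^ 2 / (2 * (s * t))
            - (s - t) ^ 2 * D ^ 2
            - t * (s - t) ^ 2 * (s + 2 * t) / (4 * q) * D ^ 2) := by
  field_simp
  rw [hq]
  ring

lemma b5_bound (s t D q : ℝ) (hs : 0 < s) (ht : 0 < t) (hs7 : 7 / 10 * t ≤ s)
    (hs5 : s ≤ 5 / 4 * t) (hq5 : t ^ 2 / 5 ≤ q) :
    0 ≤ 7 * D ^ 2 * (s ^ 2 - t ^ 2) ^ 2 / t ^ 2 - (s ^ 2 - t ^ 2) ^ 2 * D ^ 2 / (2 * (s * t))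
            - (s - t) ^ 2 * D ^ 2
            - t * (s - t) ^ 2 * (s + 2 * t) / (4 * q) * D ^ 2 := by
  have t2 : 0 < t ^ 2 := sq_pos_of_pos ht
  have hq0 : 0 < q := by linarith [div_pos t2 (by norm_num : (0:ℝ) < 5)]
  have hD2 : 0 ≤ D ^ 2 := sq_nonneg D
  have hGf : (s ^ 2 - t ^ 2) ^ 2 = (s - t) ^ 2 * (s + t) ^ 2 := by ring
  set U := (s - t) ^ 2 * D ^ 2 with hU
  have hU0 : 0 ≤ U := by positivity
  have hX : U ≤ D ^ 2 * (s ^ 2 - t ^ 2) ^ 2 / t ^ 2 := by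
    rw [le_div_iff₀ t2, hGf, hU]
    have h1 : t ^ 2 ≤ (s + t) ^ 2 := by nlinarith
    have := mul_le_mul_of_nonneg_left h1 hU0
    rw [hU] at this
    nlinarith
  have i1 : (s ^ 2 - t ^ 2) ^ 2 * D ^ 2 / (2 * (s * t)) ≤ D ^ 2 * (s ^ 2 - t ^ 2) ^ 2 / t ^ 2 := by
    have h2 : t ^ 2 ≤ 2 * (s * t) := by nlinarith
    have h3 : 0 ≤ D ^ 2 * (s ^ 2 - t ^ 2) ^ 2 := by positivity
    rw [show (s ^ 2 - t ^ 2) ^ 2 * D ^ 2 = D ^ 2 * (s ^ 2 - t ^ 2) ^ 2 by ring]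
    exact div_le_div_of_nonneg_left h3 t2 h2
  have i3 : t * (s - t) ^ 2 * (s + 2 * t) / (4 * q) * D ^ 2 ≤ 5 * U := by
    have h4 : t * (s - t) ^ 2 * (s + 2 * t) / (4 * q) ≤ 5 * (s - t) ^ 2 := by
      rw [div_le_iff₀ (by positivity)]
      have hst2 : t * (s + 2 * t) ≤ 20 * q := by nlinarith
      have hh : 0 ≤ (s - t) ^ 2 := sq_nonneg _
      nlinarith [mul_le_mul_of_nonneg_left hst2 hh]
    have := mul_le_mul_of_nonneg_right h4 hD2
    rw [hU]; linarith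
  have e : 7 * D ^ 2 * (s ^ 2 - t ^ 2) ^ 2 / t ^ 2 = 7 * (D ^ 2 * (s ^ 2 - t ^ 2) ^ 2 / t ^ 2) := by
    ring
  rw [e]
  linarith

/-- The scalar core of the per-cell inequality. -/
lemma scalar_core (s t D SA SB nA nB ip : ℝ) (hs : 0 < s) (ht : 0 < t)
    (h1 : t ^ 2 ≤ 2 * s ^ 2) (h2 : 2 * s ^ 2 ≤ 3 * t ^ 2)
    (hnA : 0 ≤ nA) (hnB : 0 ≤ nB) (hSA : nA ≤ SA) (hSB' : SB ≤ D ^ 2)
    (hZ : 0 ≤ nA - 2 * ip + nB)
    (hcs : (nA - nB) ^ 2 ≤ 4 * D ^ 2 * (nA - 2 * ip + nB)) :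
    s * t * (nA - 2 * ip + nB) / 8 ≤
      (2 * s * t * D ^ 2 - (s * t / 2 + (s ^ 2 - t ^ 2) / 4) * SA
        - ((2 * s * t + s ^ 2 - t ^ 2) * s * t / (4 * (s * t + s ^ 2 - t ^ 2))) * SB
        + ((s * t + s ^ 2 - t ^ 2) / 4) * nA - (s * t / 2) * ip
        + (s ^ 2 * t ^ 2 / (4 * (s * t + s ^ 2 - t ^ 2))) * nB)
      - (s ^ 2 * (2 * D ^ 2 - SA) + t ^ 2 * (2 * D ^ 2 - SB)) / 2
      + 7 * D ^ 2 * (s ^ 2 - t ^ 2) ^ 2 / t ^ 2 := by
  have hs7 : 7 / 10 * t ≤ s := by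
    by_contra hcon
    have hcon' := lt_of_not_ge hcon
    nlinarith
  have hs5 : s ≤ 5 / 4 * t := by
    by_contra hcon
    have hcon' := lt_of_not_ge hcon
    nlinarith
  have hq5 : t ^ 2 / 5 ≤ s * t + s ^ 2 - t ^ 2 := by nlinarith
  have hq0 : 0 < s * t + s ^ 2 - t ^ 2 := by have := sq_pos_of_pos ht; linarith
  have hst : 0 < s * t := mul_pos hs ht
  have e1 := e1_identity s t D SA SB nA nB ip (s * t + s ^ 2 - t ^ 2) hs.ne' ht.ne' hq0.ne' rfl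
  have b1 := key1 (s * t) (s ^ 2 - t ^ 2) D (nA - 2 * ip + nB) nA nB hst hZ hcs
  have b2 : 0 ≤ (s - t) ^ 2 * (SA - nA) / 4 := by
    have : 0 ≤ SA - nA := by linarith
    positivity
  have b3 : 0 ≤ (s - t) ^ 2 * (nA + nB) / 4 := by positivity
  have b4 : 0 ≤ t * (s - t) ^ 2 * (s + 2 * t) / (4 * (s * t + s ^ 2 - t ^ 2))
      * (D ^ 2 - (SB - nB)) := by
    apply mul_nonneg
    · positivity
    · linarith
  have b5 := b5_bound s t D (s * t + s ^ 2 - t ^ 2) hs ht hs7 hs5 hq5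
  linarith


variable {E : Type*} [NormedAddCommGroup E] [InnerProductSpace ℝ E]




/-- Per-cell algebra: from the Prékopa–Leindler family of inequalities to the centroid bound. -/
lemma cell_ineq (a b D I M2A M2B : ℝ) (M1A M1B : E) (ha : 0 < a) (hb : 0 < b)
    (hab : |a - b| ≤ b / 2) (hI : 0 ≤ I)
    (hA1 : ‖M1A‖ ^ 2 ≤ a * M2A) (hA2 : M2A ≤ D ^ 2 * a)
    (hB1 : ‖M1B‖ ^ 2 ≤ b * M2B) (hB2 : M2B ≤ D ^ 2 * b)
    (H : ∀ (lam c : ℝ) (p : E), 0 < 1 + 4 * lam →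
      0 ≤ (D ^ 2 + c) * a - (1 / 2 + lam) * M2A + inner ℝ p M1A →
      0 ≤ (D ^ 2 - c - ‖p‖ ^ 2 / (1 + 4 * lam)) * b - (1 / 2 - lam / (1 + 4 * lam)) * M2B
            - inner ℝ p M1B / (1 + 4 * lam) →
      ((D ^ 2 + c) * a - (1 / 2 + lam) * M2A + inner ℝ p M1A) *
        ((D ^ 2 - c - ‖p‖ ^ 2 / (1 + 4 * lam)) * b - (1 / 2 - lam / (1 + 4 * lam)) * M2B
            - inner ℝ p M1B / (1 + 4 * lam)) ≤ (I / 2) ^ 2) :
    Real.sqrt a * Real.sqrt b * ‖b⁻¹ • M1B - a⁻¹ • M1A‖ ^ 2 / 8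
      ≤ I - ((2 * D ^ 2 * a - M2A) + (2 * D ^ 2 * b - M2B)) / 2 + 7 * D ^ 2 * (a - b) ^ 2 / b := by
  obtain ⟨hab1, hab2⟩ := abs_le.mp hab
  set s := Real.sqrt a with hs_def
  set t := Real.sqrt b with ht_def
  have hs : 0 < s := Real.sqrt_pos.mpr ha
  have ht : 0 < t := Real.sqrt_pos.mpr hb
  have hsa : s ^ 2 = a := Real.sq_sqrt ha.le
  have htb : t ^ 2 = b := Real.sq_sqrt hb.le
  have h1 : t ^ 2 ≤ 2 * s ^ 2 := by rw [hsa, htb]; linarith
  have h2 : 2 * s ^ 2 ≤ 3 * t ^ 2 := by rw [hsa, htb]; linarith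
  have hst : 0 < s * t := mul_pos hs ht
  set q := s * t + s ^ 2 - t ^ 2 with hq
  have hq0 : 0 < q := by
    have hs7 : 7 / 10 * t ≤ s := by
      by_contra hcon
      have hcon' := lt_of_not_ge hcon
      nlinarith
    have := sq_pos_of_pos ht
    nlinarith
  set lam := (a - b) / (4 * (s * t)) with hlam
  set α := 1 + 4 * lam with hα
  have hαq : α = q / (s * t) := by
    rw [hα, hlam, hq, ← hsa, ← htb]; field_simp; ring
  have hα0 : 0 < α := by rw [hαq]; positivity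
  set cA := a⁻¹ • M1A with hcA
  set cB := b⁻¹ • M1B with hcB
  have hM1A : M1A = a • cA := by rw [hcA, smul_smul, mul_inv_cancel₀ ha.ne', one_smul]
  have hM1B : M1B = b • cB := by rw [hcB, smul_smul, mul_inv_cancel₀ hb.ne', one_smul]
  set SA := M2A / a with hSA
  set SB := M2B / b with hSB
  have hM2A : M2A = a * SA := by rw [hSA]; field_simp
  have hM2B : M2B = b * SB := by rw [hSB]; field_simp
  set nA := ‖cA‖ ^ 2 with hnA
  set nB := ‖cB‖ ^ 2 with hnB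
  set ip := inner ℝ cA cB with hip
  have hnA0 : 0 ≤ nA := sq_nonneg _
  have hnB0 : 0 ≤ nB := sq_nonneg _
  have hnASA : nA ≤ SA := by
    rw [hnA, hcA, norm_smul, mul_pow, hSA, Real.norm_eq_abs, sq_abs]
    rw [inv_pow, inv_mul_le_iff₀ (by positivity), ]
    have : a ^ 2 * (M2A / a) = a * M2A := by field_simp
    rw [this]; exact hA1
  have hnBSB : nB ≤ SB := by
    rw [hnB, hcB, norm_smul, mul_pow, hSB, Real.norm_eq_abs, sq_abs]
    rw [inv_pow, inv_mul_le_iff₀ (by positivity), ]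
    have : b ^ 2 * (M2B / b) = b * M2B := by field_simp
    rw [this]; exact hB1
  have hSAD : SA ≤ D ^ 2 := by rw [hSA, div_le_iff₀ ha]; exact hA2
  have hSBD : SB ≤ D ^ 2 := by rw [hSB, div_le_iff₀ hb]; exact hB2
  -- norms of centroids
  have hD0 : 0 ≤ |D| := abs_nonneg D
  have hcAD : ‖cA‖ ≤ |D| := by
    apply abs_le_of_sq_le_sq' _ hD0 |>.2
    rw [sq_abs]; linarith
  have hcBD : ‖cB‖ ≤ |D| := by
    apply abs_le_of_sq_le_sq' _ hD0 |>.2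
    rw [sq_abs]; linarith
  have hZeq : ‖cB - cA‖ ^ 2 = nA - 2 * ip + nB := by
    rw [norm_sub_sq_real, hnA, hnB, hip, real_inner_comm]; ring
  have hZ0 : 0 ≤ nA - 2 * ip + nB := by rw [← hZeq]; positivity
  have hcs : (nA - nB) ^ 2 ≤ 4 * D ^ 2 * (nA - 2 * ip + nB) := by
    have e : nA - nB = inner ℝ (cA - cB) (cA + cB) := by
      rw [inner_sub_left, inner_add_right, inner_add_right, real_inner_self_eq_norm_sq,
        real_inner_self_eq_norm_sq, real_inner_comm cA cB]; ring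
    have h3 : |inner ℝ (cA - cB) (cA + cB)| ≤ ‖cA - cB‖ * ‖cA + cB‖ := abs_real_inner_le_norm _ _
    have h4 : ‖cA + cB‖ ≤ 2 * |D| := by
      calc ‖cA + cB‖ ≤ ‖cA‖ + ‖cB‖ := norm_add_le _ _
        _ ≤ 2 * |D| := by linarith
    have h5 : |nA - nB| ≤ ‖cA - cB‖ * (2 * |D|) := by
      rw [e]
      exact h3.trans (mul_le_mul_of_nonneg_left h4 (norm_nonneg _))
    have h6 : (nA - nB) ^ 2 ≤ (‖cA - cB‖ * (2 * |D|)) ^ 2 := by
      rw [← sq_abs (nA - nB)]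
      exact pow_le_pow_left₀ (abs_nonneg _) h5 2
    have h7 : ‖cA - cB‖ ^ 2 = nA - 2 * ip + nB := by
      rw [norm_sub_sq_real, hnA, hnB, hip]
    calc (nA - nB) ^ 2 ≤ (‖cA - cB‖ * (2 * |D|)) ^ 2 := h6
      _ = 4 * D ^ 2 * (nA - 2 * ip + nB) := by rw [mul_pow, h7, mul_pow, sq_abs]; ring
  -- the choice of p
  set p := (1 / 2 : ℝ) • (α • cA - cB) with hp
  have hpA : inner ℝ p cA = (α * nA - ip) / 2 := by
    rw [hp, real_inner_smul_left, inner_sub_left, real_inner_smul_left,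
      real_inner_self_eq_norm_sq, real_inner_comm cA cB]; ring
  have hpB : inner ℝ p cB = (α * ip - nB) / 2 := by
    rw [hp, real_inner_smul_left, inner_sub_left, real_inner_smul_left,
      real_inner_self_eq_norm_sq]; ring
  have hpp : ‖p‖ ^ 2 = (α ^ 2 * nA - 2 * α * ip + nB) / 4 := by
    rw [hp, norm_smul, mul_pow, norm_sub_sq_real, norm_smul, mul_pow, real_inner_smul_left,
      Real.norm_eq_abs, Real.norm_eq_abs, sq_abs, sq_abs]; ring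
  -- X, Y, c, Φ
  set X := D ^ 2 - (1 / 2 + lam) * SA + inner ℝ p cA with hX
  set Y := D ^ 2 - ‖p‖ ^ 2 / α - (1 / 2 - lam / α) * SB - inner ℝ p cB / α with hY
  set c := (Y - X) / 2 with hc
  set Φ := (X + Y) / 2 with hΦ
  have hP : (D ^ 2 + c) * a - (1 / 2 + lam) * M2A + inner ℝ p M1A = a * Φ := by
    rw [hM2A, hM1A, real_inner_smul_right, hΦ, hc, hX]; ring
  have hQ : (D ^ 2 - c - ‖p‖ ^ 2 / α) * b - (1 / 2 - lam / α) * M2B - inner ℝ p M1B / α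
      = b * Φ := by
    rw [hM2B, hM1B, real_inner_smul_right, hΦ, hc, hY]; ring
  have hkey : 2 * (s * t) * Φ ≤ I := by
    by_cases hΦ0 : 0 ≤ Φ
    · have h := H lam c p hα0 (by rw [hP]; positivity) (by rw [hQ]; positivity)
      rw [hP, hQ] at h
      have h' : (s * t * Φ) ^ 2 ≤ (I / 2) ^ 2 := by
        have : (s * t * Φ) ^ 2 = a * Φ * (b * Φ) := by rw [← hsa, ← htb]; ring
        rw [this]; exact h
      have := (abs_le_of_sq_le_sq' h' (by positivity)).2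
      linarith
    · have hneg : Φ < 0 := lt_of_not_ge hΦ0
      have : s * t * Φ < 0 := mul_neg_of_pos_of_neg hst hneg
      linarith
  -- express 2 st Φ
  have hΦexp : 2 * (s * t) * Φ =
      2 * s * t * D ^ 2 - (s * t / 2 + (s ^ 2 - t ^ 2) / 4) * SA
        - ((2 * s * t + s ^ 2 - t ^ 2) * s * t / (4 * (s * t + s ^ 2 - t ^ 2))) * SB
        + ((s * t + s ^ 2 - t ^ 2) / 4) * nA - (s * t / 2) * ip
        + (s ^ 2 * t ^ 2 / (4 * (s * t + s ^ 2 - t ^ 2))) * nB := by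
    rw [hΦ, hX, hY, hpA, hpB, hpp, hαq, hlam, ← hsa, ← htb, ← hq]
    have hqne : q ≠ 0 := hq0.ne'
    have hsne : s ≠ 0 := hs.ne'
    have htne : t ≠ 0 := ht.ne'
    field_simp
    rw [hq]
    ring
  have core := scalar_core s t D SA SB nA nB ip hs ht h1 h2 hnA0 hnB0 hnASA hSBD hZ0 hcs
  rw [← hΦexp] at core
  have e3 : s ^ 2 * (2 * D ^ 2 - SA) + t ^ 2 * (2 * D ^ 2 - SB)
      = (2 * D ^ 2 * a - M2A) + (2 * D ^ 2 * b - M2B) := by
    rw [hsa, htb, hM2A, hM2B]; ring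
  rw [e3, hsa, htb] at core
  rw [hZeq]
  linarith




/-- The concave weight `2 D² - ‖x - x₀‖²`. -/
noncomputable def wgt (x₀ : E) (D : ℝ) (x : E) : ℝ := 2 * D ^ 2 - ‖x - x₀‖ ^ 2

/-- First test function. -/
noncomputable def Ffun (x₀ : E) (D lam c : ℝ) (p : E) (x : E) : ℝ :=
  wgt x₀ D x / 2 - lam * ‖x - x₀‖ ^ 2 + inner ℝ p (x - x₀) + c

/-- Second test function. -/
noncomputable def Gfun (x₀ : E) (D lam c : ℝ) (p : E) (y : E) : ℝ :=
  wgt x₀ D y / 2 + lam / (1 + 4 * lam) * ‖y - x₀‖ ^ 2 - inner ℝ p (y - x₀) / (1 + 4 * lam)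
    - ‖p‖ ^ 2 / (1 + 4 * lam) - c

lemma aux_expand (X Y p : E) (α : ℝ) :
    ‖(1 / 2 : ℝ) • (α • X - Y) - p‖ ^ 2
      = α ^ 2 / 4 * ‖X‖ ^ 2 - α / 2 * inner ℝ X Y + ‖Y‖ ^ 2 / 4 - α * inner ℝ p X
        + inner ℝ p Y + ‖p‖ ^ 2 := by
  rw [norm_sub_sq_real, norm_smul, mul_pow, norm_sub_sq_real, norm_smul, mul_pow,
    real_inner_smul_left, real_inner_smul_left, inner_sub_left, real_inner_smul_left,
    Real.norm_eq_abs, Real.norm_eq_abs, sq_abs, sq_abs, real_inner_comm p X,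
    real_inner_comm p Y]
  ring

lemma aux_ineq (X Y p : E) (D lam c : ℝ) (hlam : 0 < 1 + 4 * lam) :
    ((2 * D ^ 2 - ‖X‖ ^ 2) / 2 - lam * ‖X‖ ^ 2 + inner ℝ p X + c)
      + ((2 * D ^ 2 - ‖Y‖ ^ 2) / 2 + lam / (1 + 4 * lam) * ‖Y‖ ^ 2
          - inner ℝ p Y / (1 + 4 * lam) - ‖p‖ ^ 2 / (1 + 4 * lam) - c)
      ≤ 2 * D ^ 2 - ‖(1 / 2 : ℝ) • (X + Y)‖ ^ 2 := by
  have key : 0 ≤ ‖(1 / 2 : ℝ) • ((1 + 4 * lam) • X - Y) - p‖ ^ 2 := sq_nonneg _
  rw [aux_expand] at key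
  have hmidn : ‖(1 / 2 : ℝ) • (X + Y)‖ ^ 2 = (‖X‖ ^ 2 + 2 * inner ℝ X Y + ‖Y‖ ^ 2) / 4 := by
    rw [norm_smul, mul_pow, norm_add_sq_real, Real.norm_eq_abs, sq_abs]; ring
  rw [hmidn]
  have hne : 1 + 4 * lam ≠ 0 := hlam.ne'
  have e : (2 * D ^ 2 - (‖X‖ ^ 2 + 2 * inner ℝ X Y + ‖Y‖ ^ 2) / 4)
      - (((2 * D ^ 2 - ‖X‖ ^ 2) / 2 - lam * ‖X‖ ^ 2 + inner ℝ p X + c)
      + ((2 * D ^ 2 - ‖Y‖ ^ 2) / 2 + lam / (1 + 4 * lam) * ‖Y‖ ^ 2
          - inner ℝ p Y / (1 + 4 * lam) - ‖p‖ ^ 2 / (1 + 4 * lam) - c))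
      = ((1 + 4 * lam) ^ 2 / 4 * ‖X‖ ^ 2 - (1 + 4 * lam) / 2 * inner ℝ X Y + ‖Y‖ ^ 2 / 4
          - (1 + 4 * lam) * inner ℝ p X + inner ℝ p Y + ‖p‖ ^ 2) / (1 + 4 * lam) := by
    field_simp
    ring
  have := div_nonneg key hlam.le
  linarith

lemma F_add_G_le (x₀ : E) (D lam c : ℝ) (p : E) (hlam : 0 < 1 + 4 * lam) (x y : E) :
    Ffun x₀ D lam c p x + Gfun x₀ D lam c p y ≤ wgt x₀ D ((1 / 2 : ℝ) • (x + y)) := by
  have hmid : (1 / 2 : ℝ) • (x + y) - x₀ = (1 / 2 : ℝ) • ((x - x₀) + (y - x₀)) := by module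
  unfold Ffun Gfun wgt
  rw [hmid]
  exact aux_ineq (x - x₀) (y - x₀) p D lam c hlam

lemma continuous_wgt (x₀ : E) (D : ℝ) : Continuous (wgt x₀ D) := by
  unfold wgt; fun_prop

lemma continuous_Ffun (x₀ : E) (D lam c : ℝ) (p : E) : Continuous (Ffun x₀ D lam c p) := by
  unfold Ffun wgt; fun_prop

lemma continuous_Gfun (x₀ : E) (D lam c : ℝ) (p : E) : Continuous (Gfun x₀ D lam c p) := by
  unfold Gfun wgt; fun_prop

section plcell

variable [MeasurableSpace E] [BorelSpace E]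

/-- Prékopa–Leindler applied to one cell triple with the explicit quadratic test functions. -/
lemma pl_cell (μ : Measure E) (hPL : PLHalf E μ) (A B C : Set E) (hA : MeasurableSet A)
    (hB : MeasurableSet B) (hC : MeasurableSet C) (x₀ : E) (D : ℝ)
    (hCw : ∀ z ∈ C, 0 ≤ wgt x₀ D z)
    (hmid : ∀ x ∈ A, ∀ y ∈ B, (1 / 2 : ℝ) • (x + y) ∈ C) (lam c : ℝ) (p : E)
    (hlam : 0 < 1 + 4 * lam)
    (hFi : IntegrableOn (Ffun x₀ D lam c p) A μ) (hGi : IntegrableOn (Gfun x₀ D lam c p) B μ)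
    (hwi : IntegrableOn (wgt x₀ D) C μ)
    (hP : 0 ≤ ∫ x in A, Ffun x₀ D lam c p x ∂μ) :
    (∫ x in A, Ffun x₀ D lam c p x ∂μ) * (∫ y in B, Gfun x₀ D lam c p y ∂μ)
      ≤ ((∫ z in C, wgt x₀ D z ∂μ) / 2) ^ 2 := by
  set F := Ffun x₀ D lam c p with hF
  set G := Gfun x₀ D lam c p with hG
  set w := wgt x₀ D with hw
  have hFm : Measurable F := (continuous_Ffun x₀ D lam c p).measurable
  have hGm : Measurable G := (continuous_Gfun x₀ D lam c p).measurable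
  have hwm : Measurable w := (continuous_wgt x₀ D).measurable
  set f : E → ℝ≥0∞ := A.indicator (fun x => ENNReal.ofReal (F x)) with hf
  set g : E → ℝ≥0∞ := B.indicator (fun y => ENNReal.ofReal (G y)) with hg
  set h : E → ℝ≥0∞ := C.indicator (fun z => ENNReal.ofReal (w z / 2)) with hh
  have hfm : Measurable f := (ENNReal.measurable_ofReal.comp hFm).indicator hA
  have hgm : Measurable g := (ENNReal.measurable_ofReal.comp hGm).indicator hB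
  have hhm : Measurable h := (ENNReal.measurable_ofReal.comp (hwm.div_const 2)).indicator hC
  have H : ∀ x y, f x * g y ≤ h ((1 / 2 : ℝ) • (x + y)) ^ 2 := by
    intro x y
    by_cases hx : x ∈ A
    · by_cases hy : y ∈ B
      · have hm := hmid x hx y hy
        rw [hf, hg, hh, Set.indicator_of_mem hx, Set.indicator_of_mem hy, Set.indicator_of_mem hm]
        have hle := F_add_G_le x₀ D lam c p hlam x y
        have hw0 := hCw _ hm
        by_cases hFx : 0 < F x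
        · by_cases hGy : 0 < G y
          · rw [← ENNReal.ofReal_mul hFx.le, ← ENNReal.ofReal_pow (by linarith)]
            apply ENNReal.ofReal_le_ofReal
            have h1 : 0 ≤ w ((1 / 2 : ℝ) • (x + y)) - (F x + G y) := by
              rw [hw, hF, hG]; linarith
            have h2 : 0 ≤ w ((1 / 2 : ℝ) • (x + y)) + (F x + G y) := by linarith
            nlinarith [sq_nonneg (F x - G y), mul_nonneg h1 h2]
          · rw [ENNReal.ofReal_of_nonpos (not_lt.mp hGy), mul_zero]; exact zero_le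
        · rw [ENNReal.ofReal_of_nonpos (not_lt.mp hFx), zero_mul]; exact zero_le
      · rw [hg, Set.indicator_of_notMem hy, mul_zero]; exact zero_le
    · rw [hf, Set.indicator_of_notMem hx, zero_mul]; exact zero_le
  have key := hPL f g h hfm hgm hhm H
  rw [hf, hg, hh, lintegral_indicator hA, lintegral_indicator hB, lintegral_indicator hC] at key
  -- lower bounds for the left side
  have hP' : ENNReal.ofReal (∫ x in A, F x ∂μ) ≤ ∫⁻ x in A, ENNReal.ofReal (F x) ∂μ := by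
    rw [integral_eq_lintegral_pos_part_sub_lintegral_neg_part hFi]
    refine (ENNReal.ofReal_le_ofReal (sub_le_self _ ENNReal.toReal_nonneg)).trans ?_
    exact ENNReal.ofReal_toReal_le
  have hQ' : ENNReal.ofReal (∫ y in B, G y ∂μ) ≤ ∫⁻ y in B, ENNReal.ofReal (G y) ∂μ := by
    rw [integral_eq_lintegral_pos_part_sub_lintegral_neg_part hGi]
    refine (ENNReal.ofReal_le_ofReal (sub_le_self _ ENNReal.toReal_nonneg)).trans ?_
    exact ENNReal.ofReal_toReal_le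
  have hI' : ∫⁻ z in C, ENNReal.ofReal (w z / 2) ∂μ = ENNReal.ofReal ((∫ z in C, w z ∂μ) / 2) := by
    rw [← integral_div]
    refine (ofReal_integral_eq_lintegral_ofReal (hwi.div_const 2) ?_).symm
    rw [Filter.EventuallyLE, ae_restrict_iff' hC]
    exact Filter.Eventually.of_forall fun z hz => by
      have := hCw z hz
      simp only [Pi.zero_apply]
      rw [hw]; linarith
  have hI0 : 0 ≤ (∫ z in C, w z ∂μ) / 2 := by
    apply div_nonneg _ (by norm_num)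
    apply setIntegral_nonneg hC
    intro z hz; exact hCw z hz
  rw [hI'] at key
  have key2 : ENNReal.ofReal ((∫ x in A, F x ∂μ) * (∫ y in B, G y ∂μ))
      ≤ ENNReal.ofReal (((∫ z in C, w z ∂μ) / 2) ^ 2) := by
    rw [ENNReal.ofReal_mul hP, ENNReal.ofReal_pow hI0]
    exact (mul_le_mul' hP' hQ').trans key
  exact (ENNReal.ofReal_le_ofReal_iff (by positivity)).mp key2


end plcell

section moments

variable [MeasurableSpace E] [BorelSpace E] [SecondCountableTopology E] [CompleteSpace E]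
variable {μ : Measure E} {S : Set E} {x₀ : E} {D : ℝ}

lemma norm_sub_le_of_subset (hSD : S ⊆ Metric.closedBall x₀ D) {x : E} (hx : x ∈ S) :
    ‖x - x₀‖ ≤ D := by
  have := hSD hx
  rwa [Metric.mem_closedBall, dist_eq_norm] at this

lemma integrableOn_sub (hS : MeasurableSet S) (hfin : μ S ≠ ∞)
    (hSD : S ⊆ Metric.closedBall x₀ D) : IntegrableOn (fun x => x - x₀) S μ := by
  refine Measure.integrableOn_of_bounded hfin
    (by fun_prop : Continuous fun x : E => x - x₀).aestronglyMeasurable (M := D) ?_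
  exact (ae_restrict_mem hS).mono fun x hx => norm_sub_le_of_subset hSD hx

lemma integrableOn_normsq (hS : MeasurableSet S) (hfin : μ S ≠ ∞)
    (hSD : S ⊆ Metric.closedBall x₀ D) : IntegrableOn (fun x => ‖x - x₀‖ ^ 2) S μ := by
  refine Measure.integrableOn_of_bounded hfin
    (by fun_prop : Continuous fun x : E => ‖x - x₀‖ ^ 2).aestronglyMeasurable (M := D ^ 2) ?_
  refine (ae_restrict_mem hS).mono fun x hx => ?_
  have h := norm_sub_le_of_subset hSD hx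
  rw [Real.norm_eq_abs, abs_of_nonneg (sq_nonneg _)]
  exact pow_le_pow_left₀ (norm_nonneg _) h 2

lemma integrableOn_inner (hS : MeasurableSet S) (hfin : μ S ≠ ∞)
    (hSD : S ⊆ Metric.closedBall x₀ D) (p : E) :
    IntegrableOn (fun x => inner ℝ p (x - x₀)) S μ :=
  (integrableOn_sub hS hfin hSD).const_inner p

lemma integral_normsq_le (hS : MeasurableSet S) (hfin : μ S ≠ ∞)
    (hSD : S ⊆ Metric.closedBall x₀ D) :
    ∫ x in S, ‖x - x₀‖ ^ 2 ∂μ ≤ D ^ 2 * (μ S).toReal := by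
  have h1 : ∫ x in S, ‖x - x₀‖ ^ 2 ∂μ ≤ ∫ _ in S, D ^ 2 ∂μ := by
    refine setIntegral_mono_on (integrableOn_normsq hS hfin hSD)
      (integrableOn_const hfin) hS fun x hx => ?_
    exact pow_le_pow_left₀ (norm_nonneg _) (norm_sub_le_of_subset hSD hx) 2
  rw [setIntegral_const, smul_eq_mul, Measure.real] at h1
  linarith

lemma integral_Ffun (hS : MeasurableSet S) (hfin : μ S ≠ ∞)
    (hSD : S ⊆ Metric.closedBall x₀ D) (lam c : ℝ) (p : E) :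
    IntegrableOn (Ffun x₀ D lam c p) S μ ∧
    ∫ x in S, Ffun x₀ D lam c p x ∂μ = (D ^ 2 + c) * (μ S).toReal
      - (1 / 2 + lam) * ∫ x in S, ‖x - x₀‖ ^ 2 ∂μ + inner ℝ p (∫ x in S, (x - x₀) ∂μ) := by
  have e : Ffun x₀ D lam c p
      = fun x => (D ^ 2 + c) - (1 / 2 + lam) * ‖x - x₀‖ ^ 2 + inner ℝ p (x - x₀) := by
    funext x; unfold Ffun wgt; ring
  have i1 : IntegrableOn (fun _ : E => D ^ 2 + c) S μ := integrableOn_const hfin
  have i2 := (integrableOn_normsq hS hfin hSD).const_mul (1 / 2 + lam)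
  have i3 := integrableOn_inner hS hfin hSD p
  refine ⟨by rw [e]; exact (i1.sub i2).add i3, ?_⟩
  have h1 : ∫ x in S, ((D ^ 2 + c) - (1 / 2 + lam) * ‖x - x₀‖ ^ 2 + inner ℝ p (x - x₀)) ∂μ
      = (∫ x in S, ((D ^ 2 + c) - (1 / 2 + lam) * ‖x - x₀‖ ^ 2) ∂μ)
        + ∫ x in S, inner ℝ p (x - x₀) ∂μ := integral_add (i1.sub i2) i3
  have h2 : ∫ x in S, ((D ^ 2 + c) - (1 / 2 + lam) * ‖x - x₀‖ ^ 2) ∂μ
      = (∫ _ in S, (D ^ 2 + c) ∂μ) - ∫ x in S, (1 / 2 + lam) * ‖x - x₀‖ ^ 2 ∂μ :=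
    integral_sub i1 i2
  rw [e]
  beta_reduce
  rw [h1, h2, setIntegral_const, integral_const_mul,
    integral_inner (integrableOn_sub hS hfin hSD), smul_eq_mul, Measure.real]
  ring

lemma integral_Gfun (hS : MeasurableSet S) (hfin : μ S ≠ ∞)
    (hSD : S ⊆ Metric.closedBall x₀ D) (lam c : ℝ) (p : E) :
    IntegrableOn (Gfun x₀ D lam c p) S μ ∧
    ∫ x in S, Gfun x₀ D lam c p x ∂μ = (D ^ 2 - c - ‖p‖ ^ 2 / (1 + 4 * lam)) * (μ S).toReal
      - (1 / 2 - lam / (1 + 4 * lam)) * ∫ x in S, ‖x - x₀‖ ^ 2 ∂μ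
      - inner ℝ p (∫ x in S, (x - x₀) ∂μ) / (1 + 4 * lam) := by
  have e : Gfun x₀ D lam c p
      = fun x => (D ^ 2 - c - ‖p‖ ^ 2 / (1 + 4 * lam))
          - (1 / 2 - lam / (1 + 4 * lam)) * ‖x - x₀‖ ^ 2
          - (1 + 4 * lam)⁻¹ * inner ℝ p (x - x₀) := by
    funext x; unfold Gfun wgt; ring
  have i1 : IntegrableOn (fun _ : E => D ^ 2 - c - ‖p‖ ^ 2 / (1 + 4 * lam)) S μ :=
    integrableOn_const hfin
  have i2 := (integrableOn_normsq hS hfin hSD).const_mul (1 / 2 - lam / (1 + 4 * lam))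
  have i3 := (integrableOn_inner hS hfin hSD p).const_mul (1 + 4 * lam)⁻¹
  refine ⟨by rw [e]; exact (i1.sub i2).sub i3, ?_⟩
  have h1 : ∫ x in S, ((D ^ 2 - c - ‖p‖ ^ 2 / (1 + 4 * lam))
          - (1 / 2 - lam / (1 + 4 * lam)) * ‖x - x₀‖ ^ 2
          - (1 + 4 * lam)⁻¹ * inner ℝ p (x - x₀)) ∂μ
      = (∫ x in S, ((D ^ 2 - c - ‖p‖ ^ 2 / (1 + 4 * lam))
          - (1 / 2 - lam / (1 + 4 * lam)) * ‖x - x₀‖ ^ 2) ∂μ)
        - ∫ x in S, (1 + 4 * lam)⁻¹ * inner ℝ p (x - x₀) ∂μ := integral_sub (i1.sub i2) i3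
  have h2 : ∫ x in S, ((D ^ 2 - c - ‖p‖ ^ 2 / (1 + 4 * lam))
          - (1 / 2 - lam / (1 + 4 * lam)) * ‖x - x₀‖ ^ 2) ∂μ
      = (∫ _ in S, (D ^ 2 - c - ‖p‖ ^ 2 / (1 + 4 * lam)) ∂μ)
        - ∫ x in S, (1 / 2 - lam / (1 + 4 * lam)) * ‖x - x₀‖ ^ 2 ∂μ := integral_sub i1 i2
  rw [e]
  beta_reduce
  rw [h1, h2, setIntegral_const, integral_const_mul,
    integral_const_mul, integral_inner (integrableOn_sub hS hfin hSD), smul_eq_mul, Measure.real]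
  ring

lemma integral_wgt (hS : MeasurableSet S) (hfin : μ S ≠ ∞)
    (hSD : S ⊆ Metric.closedBall x₀ D) :
    IntegrableOn (wgt x₀ D) S μ ∧
    ∫ x in S, wgt x₀ D x ∂μ = 2 * D ^ 2 * (μ S).toReal - ∫ x in S, ‖x - x₀‖ ^ 2 ∂μ := by
  have i1 : IntegrableOn (fun _ : E => 2 * D ^ 2) S μ := integrableOn_const hfin
  have i2 := integrableOn_normsq hS hfin hSD
  refine ⟨i1.sub i2, ?_⟩
  have h1 : ∫ x in S, (2 * D ^ 2 - ‖x - x₀‖ ^ 2) ∂μ
      = (∫ _ in S, (2 * D ^ 2) ∂μ) - ∫ x in S, ‖x - x₀‖ ^ 2 ∂μ := integral_sub i1 i2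
  unfold wgt
  rw [h1, setIntegral_const, smul_eq_mul, Measure.real]
  ring

lemma norm_sq_integral_le (hS : MeasurableSet S) (hfin : μ S ≠ ∞) (hpos : 0 < (μ S).toReal)
    (hSD : S ⊆ Metric.closedBall x₀ D) :
    ‖∫ x in S, (x - x₀) ∂μ‖ ^ 2 ≤ (μ S).toReal * ∫ x in S, ‖x - x₀‖ ^ 2 ∂μ := by
  set m := (μ S).toReal with hm
  set M1 := ∫ x in S, (x - x₀) ∂μ with hM1
  set v := m⁻¹ • M1 with hv
  have i1 := integrableOn_normsq hS hfin hSD
  have i2 := (integrableOn_inner hS hfin hSD v).const_mul 2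
  have i3 : IntegrableOn (fun _ : E => ‖v‖ ^ 2) S μ := integrableOn_const hfin
  have h0 : 0 ≤ ∫ x in S, ‖(x - x₀) - v‖ ^ 2 ∂μ :=
    setIntegral_nonneg hS fun x _ => sq_nonneg _
  have e : (fun x => ‖(x - x₀) - v‖ ^ 2)
      = fun x => ‖x - x₀‖ ^ 2 - 2 * inner ℝ v (x - x₀) + ‖v‖ ^ 2 := by
    funext x; rw [norm_sub_sq_real, real_inner_comm]
  have h1 : ∫ x in S, (‖x - x₀‖ ^ 2 - 2 * inner ℝ v (x - x₀) + ‖v‖ ^ 2) ∂μ
      = (∫ x in S, (‖x - x₀‖ ^ 2 - 2 * inner ℝ v (x - x₀)) ∂μ) + ∫ _ in S, ‖v‖ ^ 2 ∂μ :=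
    integral_add (i1.sub i2) i3
  have h2 : ∫ x in S, (‖x - x₀‖ ^ 2 - 2 * inner ℝ v (x - x₀)) ∂μ
      = (∫ x in S, ‖x - x₀‖ ^ 2 ∂μ) - ∫ x in S, 2 * inner ℝ v (x - x₀) ∂μ := integral_sub i1 i2
  rw [e] at h0
  beta_reduce at h0
  rw [h1, h2, integral_const_mul,
    integral_inner (integrableOn_sub hS hfin hSD), setIntegral_const, smul_eq_mul,
    Measure.real, ← hm, ← hM1] at h0
  have hvM : inner ℝ v M1 = m⁻¹ * ‖M1‖ ^ 2 := by
    rw [hv, real_inner_smul_left, real_inner_self_eq_norm_sq]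
  have hvv : ‖v‖ ^ 2 = (m⁻¹) ^ 2 * ‖M1‖ ^ 2 := by
    rw [hv, norm_smul, mul_pow, Real.norm_eq_abs, sq_abs]
  rw [hvM, hvv] at h0
  have : ∫ x in S, ‖x - x₀‖ ^ 2 ∂μ - 2 * (m⁻¹ * ‖M1‖ ^ 2) + m * ((m⁻¹) ^ 2 * ‖M1‖ ^ 2)
      = ∫ x in S, ‖x - x₀‖ ^ 2 ∂μ - m⁻¹ * ‖M1‖ ^ 2 := by
    field_simp; ring
  rw [this] at h0
  have h1 : m⁻¹ * ‖M1‖ ^ 2 ≤ ∫ x in S, ‖x - x₀‖ ^ 2 ∂μ := by linarith
  rwa [inv_mul_le_iff₀ hpos] at h1

end moments


section main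

variable [MeasurableSpace E] [BorelSpace E] [SecondCountableTopology E] [CompleteSpace E]

/-- **Abstract centroid lemma (L).** -/
theorem pl_centroid (μ : Measure E) (hPL : PLHalf E μ) {ι : Type*} [Fintype ι]
    (K : Set E) (hK : MeasurableSet K) (hKfin : μ K ≠ ∞) (x₀ : E) (D : ℝ)
    (hKD : K ⊆ Metric.closedBall x₀ D)
    (A B C : ι → Set E)
    (hAm : ∀ i, MeasurableSet (A i)) (hBm : ∀ i, MeasurableSet (B i))
    (hCm : ∀ i, MeasurableSet (C i))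
    (hAK : ∀ i, A i ⊆ K) (hBK : ∀ i, B i ⊆ K) (hCK : ∀ i, C i ⊆ K)
    (hAd : Pairwise (Function.onFun (AEDisjoint μ) A))
    (hBd : Pairwise (Function.onFun (AEDisjoint μ) B))
    (hCd : Pairwise (Function.onFun (AEDisjoint μ) C))
    (hAc : μ (K \ ⋃ i, A i) = 0) (hBc : μ (K \ ⋃ i, B i) = 0)
    (hmid : ∀ i, ∀ x ∈ A i, ∀ y ∈ B i, (1 / 2 : ℝ) • (x + y) ∈ C i)
    (hApos : ∀ i, 0 < μ (A i)) (hBpos : ∀ i, 0 < μ (B i))
    (hab : ∀ i, |(μ (A i)).toReal - (μ (B i)).toReal| ≤ (μ (B i)).toReal / 2) :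
    ∑ i, (μ (A i)).toReal * ‖(μ (B i)).toReal⁻¹ • ∫ x in B i, (x - x₀) ∂μ
        - (μ (A i)).toReal⁻¹ • ∫ x in A i, (x - x₀) ∂μ‖ ^ 2
      ≤ 70 * D ^ 2 * ∑ i, ((μ (A i)).toReal - (μ (B i)).toReal) ^ 2 / (μ (B i)).toReal := by
  classical
  have hAfin : ∀ i, μ (A i) ≠ ∞ := fun i => ne_top_of_le_ne_top hKfin (measure_mono (hAK i))
  have hBfin : ∀ i, μ (B i) ≠ ∞ := fun i => ne_top_of_le_ne_top hKfin (measure_mono (hBK i))
  have hCfin : ∀ i, μ (C i) ≠ ∞ := fun i => ne_top_of_le_ne_top hKfin (measure_mono (hCK i))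
  have hAD : ∀ i, A i ⊆ Metric.closedBall x₀ D := fun i => (hAK i).trans hKD
  have hBD : ∀ i, B i ⊆ Metric.closedBall x₀ D := fun i => (hBK i).trans hKD
  have hCD : ∀ i, C i ⊆ Metric.closedBall x₀ D := fun i => (hCK i).trans hKD
  have hwK := integral_wgt (μ := μ) hK hKfin hKD
  have hw0 : ∀ z ∈ K, 0 ≤ wgt x₀ D z := by
    intro z hz
    have h := norm_sub_le_of_subset hKD hz
    have h2 : ‖z - x₀‖ ^ 2 ≤ D ^ 2 := pow_le_pow_left₀ (norm_nonneg _) h 2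
    unfold wgt
    nlinarith [sq_nonneg D]
  -- per-cell inequality
  have cell : ∀ i, (μ (A i)).toReal * ‖(μ (B i)).toReal⁻¹ • ∫ x in B i, (x - x₀) ∂μ
        - (μ (A i)).toReal⁻¹ • ∫ x in A i, (x - x₀) ∂μ‖ ^ 2
      ≤ 10 * ((∫ z in C i, wgt x₀ D z ∂μ)
            - ((∫ z in A i, wgt x₀ D z ∂μ) + (∫ z in B i, wgt x₀ D z ∂μ)) / 2)
        + 70 * D ^ 2 * (((μ (A i)).toReal - (μ (B i)).toReal) ^ 2 / (μ (B i)).toReal) := by
    intro i
    set a := (μ (A i)).toReal with ha_def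
    set b := (μ (B i)).toReal with hb_def
    have ha : 0 < a := ENNReal.toReal_pos (hApos i).ne' (hAfin i)
    have hb : 0 < b := ENNReal.toReal_pos (hBpos i).ne' (hBfin i)
    have hI : 0 ≤ ∫ z in C i, wgt x₀ D z ∂μ :=
      setIntegral_nonneg (hCm i) fun z hz => hw0 z (hCK i hz)
    have hci := cell_ineq a b D (∫ z in C i, wgt x₀ D z ∂μ) (∫ x in A i, ‖x - x₀‖ ^ 2 ∂μ)
      (∫ x in B i, ‖x - x₀‖ ^ 2 ∂μ) (∫ x in A i, (x - x₀) ∂μ) (∫ x in B i, (x - x₀) ∂μ)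
      ha hb (hab i) hI
      (norm_sq_integral_le (hAm i) (hAfin i) ha (hAD i))
      (integral_normsq_le (hAm i) (hAfin i) (hAD i))
      (norm_sq_integral_le (hBm i) (hBfin i) hb (hBD i))
      (integral_normsq_le (hBm i) (hBfin i) (hBD i))
      (by
        intro lam c p hlam hP _
        obtain ⟨iF, eF⟩ := integral_Ffun (μ := μ) (hAm i) (hAfin i) (hAD i) lam c p
        obtain ⟨iG, eG⟩ := integral_Gfun (μ := μ) (hBm i) (hBfin i) (hBD i) lam c p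
        have h := pl_cell μ hPL (A i) (B i) (C i) (hAm i) (hBm i) (hCm i) x₀ D
          (fun z hz => hw0 z (hCK i hz)) (hmid i) lam c p hlam iF iG
          (integral_wgt (hCm i) (hCfin i) (hCD i)).1 (by rw [eF]; exact hP)
        rw [eF, eG] at h
        exact h)
    rw [← (integral_wgt (μ := μ) (hAm i) (hAfin i) (hAD i)).2,
      ← (integral_wgt (μ := μ) (hBm i) (hBfin i) (hBD i)).2] at hci
    -- convert the prefactor
    obtain ⟨hab1, hab2⟩ := abs_le.mp (hab i)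
    set s := Real.sqrt a with hs_def
    set t := Real.sqrt b with ht_def
    have hs : 0 < s := Real.sqrt_pos.mpr ha
    have ht : 0 < t := Real.sqrt_pos.mpr hb
    have hsa : s ^ 2 = a := Real.sq_sqrt ha.le
    have htb : t ^ 2 = b := Real.sq_sqrt hb.le
    have hs5 : s ≤ 5 / 4 * t := by
      by_contra hcon
      have hcon' := lt_of_not_ge hcon
      nlinarith
    set Z := ‖b⁻¹ • ∫ x in B i, (x - x₀) ∂μ - a⁻¹ • ∫ x in A i, (x - x₀) ∂μ‖ ^ 2 with hZ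
    have hZ0 : 0 ≤ Z := sq_nonneg _
    have h1 : a * Z ≤ 5 / 4 * (s * t * Z) := by
      have : a ≤ 5 / 4 * (s * t) := by rw [← hsa]; nlinarith
      nlinarith [mul_le_mul_of_nonneg_right this hZ0]
    have e : 7 * D ^ 2 * (a - b) ^ 2 / b = 7 * D ^ 2 * ((a - b) ^ 2 / b) := by ring
    rw [e] at hci
    linarith
  have hsum1 : ∑ i, ∫ z in C i, wgt x₀ D z ∂μ ≤ ∫ z in K, wgt x₀ D z ∂μ := by
    have h := integral_iUnion_ae (μ := μ) (f := wgt x₀ D)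
      (fun i => (hCm i).nullMeasurableSet) hCd (hwK.1.mono_set (Set.iUnion_subset hCK))
    rw [tsum_fintype] at h
    rw [← h]
    refine setIntegral_mono_set hwK.1 ?_ (Set.iUnion_subset hCK).eventuallyLE
    exact ae_restrict_of_forall_mem hK hw0
  have cover : ∀ (S : ι → Set E), (∀ i, MeasurableSet (S i)) → (∀ i, S i ⊆ K) →
      Pairwise (Function.onFun (AEDisjoint μ) S) → μ (K \ ⋃ i, S i) = 0 →
      ∫ z in K, wgt x₀ D z ∂μ ≤ ∑ i, ∫ z in S i, wgt x₀ D z ∂μ := by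
    intro S hSm hSK hSd hSc
    have hU : IntegrableOn (wgt x₀ D) (⋃ i, S i) μ := hwK.1.mono_set (Set.iUnion_subset hSK)
    have h := integral_iUnion_ae (μ := μ) (f := wgt x₀ D)
      (fun i => (hSm i).nullMeasurableSet) hSd hU
    rw [tsum_fintype] at h
    rw [← h]
    refine setIntegral_mono_set hU ?_ (ae_le_set.mpr hSc)
    exact ae_restrict_of_forall_mem (MeasurableSet.iUnion hSm)
      fun z hz => hw0 z (Set.iUnion_subset hSK hz)
  have hsum2 := cover A hAm hAK hAd hAc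
  have hsum3 := cover B hBm hBK hBd hBc
  calc ∑ i, (μ (A i)).toReal * ‖(μ (B i)).toReal⁻¹ • ∫ x in B i, (x - x₀) ∂μ
        - (μ (A i)).toReal⁻¹ • ∫ x in A i, (x - x₀) ∂μ‖ ^ 2
      ≤ ∑ i, (10 * ((∫ z in C i, wgt x₀ D z ∂μ)
            - ((∫ z in A i, wgt x₀ D z ∂μ) + (∫ z in B i, wgt x₀ D z ∂μ)) / 2)
        + 70 * D ^ 2 * (((μ (A i)).toReal - (μ (B i)).toReal) ^ 2 / (μ (B i)).toReal)) :=
        Finset.sum_le_sum fun i _ => cell i
    _ = 10 * ((∑ i, ∫ z in C i, wgt x₀ D z ∂μ)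
            - ((∑ i, ∫ z in A i, wgt x₀ D z ∂μ) + (∑ i, ∫ z in B i, wgt x₀ D z ∂μ)) / 2)
        + 70 * D ^ 2 * ∑ i, ((μ (A i)).toReal - (μ (B i)).toReal) ^ 2 / (μ (B i)).toReal := by
        rw [Finset.sum_add_distrib, ← Finset.mul_sum, ← Finset.mul_sum, Finset.sum_sub_distrib,
          ← Finset.sum_div, Finset.sum_add_distrib]
    _ ≤ 70 * D ^ 2 * ∑ i, ((μ (A i)).toReal - (μ (B i)).toReal) ^ 2 / (μ (B i)).toReal := by
        linarith

end main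

end Crest.Agent.S0109.Helper6
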