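import Mathlib
import Crest.Agent.Lib.S0109.Defs
import Crest.Agent.Lib.S0109.Helper6PL
import Crest.Agent.Lib.S0109.Helper6PLCentroid

/-! Row 82, package P5 (helper43): abstract centroid stability for finite cell families with a
density `1 + u` on the second family, deduced from helper6's volume-only centroid lemma
`Helper6.pl_centroid` (uniform centroids) by comparing uniform and weighted first moments. -/

set_option autoImplicit false
open MeasureTheory Filter
open scoped ENNReal NNReal

namespace Crest.Agent.S0109.Helper43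

variable {d : ℕ}

/-- Bounded a.e.-strongly-measurable functions are integrable on sets of finite volume. -/
lemma intOn_of_bdd {F : Type*} [NormedAddCommGroup F] {S : Set (E d)} (hS : MeasurableSet S)
    (hfin : volume S ≠ ⊤) {f : E d → F} (hf : AEStronglyMeasurable f volume) {M : ℝ}
    (hM : ∀ x ∈ S, ‖f x‖ ≤ M) : IntegrableOn f S volume :=
  Measure.integrableOn_of_bounded hfin hf ((ae_restrict_iff' hS).mpr (Eventually.of_forall hM))

/-- Cauchy–Schwarz on a set of finite volume. -/
lemma sq_setIntegral_le {S : Set (E d)} (hfin : volume S ≠ ⊤)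
    {f : E d → ℝ} (hf : IntegrableOn f S volume)
    (hf2 : IntegrableOn (fun x => f x ^ 2) S volume) :
    (∫ x in S, f x) ^ 2 ≤ (volume S).toReal * ∫ x in S, f x ^ 2 := by
  set b := (volume S).toReal with hb
  set G := ∫ x in S, f x with hG
  set Q := ∫ x in S, f x ^ 2 with hQ
  have key : ∀ t : ℝ, 0 ≤ Q - 2 * t * G + t ^ 2 * b := by
    intro t
    have h0 : 0 ≤ ∫ x in S, (f x - t) ^ 2 := integral_nonneg fun x => sq_nonneg _
    have e : ∫ x in S, (f x - t) ^ 2 = Q - 2 * t * G + t ^ 2 * b := by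
      have e1 : ∀ x, (f x - t) ^ 2 = f x ^ 2 - 2 * t * f x + t ^ 2 := fun x => by ring
      simp_rw [e1]
      have ic : Integrable (fun _ : E d => t ^ 2) (volume.restrict S) := integrableOn_const hfin
      have i1 : Integrable (fun x => 2 * t * f x) (volume.restrict S) := hf.const_mul _
      have i2 : Integrable (fun x => f x ^ 2 - 2 * t * f x) (volume.restrict S) := hf2.sub i1
      rw [integral_add i2 ic, integral_sub hf2 i1, integral_const_mul, setIntegral_const,
        smul_eq_mul, Measure.real]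
      ring
    rw [e] at h0
    exact h0
  have hb0 : 0 ≤ b := ENNReal.toReal_nonneg
  by_cases hbz : b = 0
  · have hS0 : volume S = 0 := by
      rcases (ENNReal.toReal_eq_zero_iff _).mp hbz with h | h
      · exact h
      · exact absurd h hfin
    have hG0 : G = 0 := by
      rw [hG, Measure.restrict_eq_zero.mpr hS0, integral_zero_measure]
    rw [hG0, hbz]
    simp
  · have hbpos : 0 < b := lt_of_le_of_ne hb0 (Ne.symm hbz)
    have h1 := key (G / b)
    have e : Q - 2 * (G / b) * G + (G / b) ^ 2 * b = Q - G ^ 2 / b := by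
      field_simp
      ring
    rw [e] at h1
    have h2 : G ^ 2 / b ≤ Q := by linarith
    rw [div_le_iff₀ hbpos] at h2
    linarith


/-- **Abstract centroid stability** (density `1 + u` on the second family), constant `156`. -/
theorem centroid_alg_pos (hPL : Helper6.PLHalf (E d) volume) {ι : Type*} [Fintype ι]
    (K : Set (E d)) (hKm : MeasurableSet K) (hKfin : volume K ≠ ⊤) (x0 : E d) (D : ℝ)
    (hD : ∀ x ∈ K, ‖x - x0‖ ≤ D) (u : E d → ℝ) (hu : Measurable u)
    (hub : ∀ x ∈ K, |u x| ≤ 1 / 2) (A B C : ι → Set (E d))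
    (hAm : ∀ i, MeasurableSet (A i)) (hBm : ∀ i, MeasurableSet (B i))
    (hCm : ∀ i, MeasurableSet (C i)) (hAK : ∀ i, A i ⊆ K) (hBK : ∀ i, B i ⊆ K)
    (hCK : ∀ i, C i ⊆ K)
    (hmid : ∀ i, ∀ x ∈ A i, ∀ y ∈ B i, (1 / 2 : ℝ) • (x + y) ∈ C i)
    (hCdisj : ∀ i j, i ≠ j → Disjoint (C i) (C j))
    (hAdisj : ∀ i j, i ≠ j → Disjoint (A i) (A j))
    (hAcov : volume (K \ ⋃ i, A i) = 0)
    (hBdisj : ∀ i j, i ≠ j → Disjoint (B i) (B j))
    (hBcov : volume (K \ ⋃ i, B i) = 0)
    (hApos : ∀ i, 0 < volume (A i))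
    (hmass : ∀ i, ∫ y in B i, (1 + u y) = (volume (A i)).toReal) :
    ∑ i, (volume (A i)).toReal⁻¹ * ‖(∫ y in B i, (1 + u y) • y) - ∫ x in A i, x‖ ^ 2
      ≤ 156 * D ^ 2 * ∫ x in K, u x ^ 2 := by
  classical
  have hAfin : ∀ i, volume (A i) ≠ ⊤ := fun i => ne_top_of_le_ne_top hKfin (measure_mono (hAK i))
  have hBfin : ∀ i, volume (B i) ≠ ⊤ := fun i => ne_top_of_le_ne_top hKfin (measure_mono (hBK i))
  have hu2m : AEStronglyMeasurable (fun x => u x ^ 2) (volume : Measure (E d)) :=
    (hu.pow_const 2).aestronglyMeasurable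
  have hu2b : ∀ x ∈ K, ‖u x ^ 2‖ ≤ 1 / 4 := by
    intro x hx
    rw [Real.norm_eq_abs, abs_pow]
    have h1 := hub x hx
    nlinarith [abs_nonneg (u x)]
  -- per-cell estimates
  have cell : ∀ i,
      ((volume (A i)).toReal⁻¹ * ‖(∫ y in B i, (1 + u y) • y) - ∫ x in A i, x‖ ^ 2
        ≤ 2 * ((volume (A i)).toReal * ‖(volume (B i)).toReal⁻¹ • (∫ x in B i, (x - x0))
            - (volume (A i)).toReal⁻¹ • ∫ x in A i, (x - x0)‖ ^ 2)
          + 16 * D ^ 2 * ∫ x in B i, u x ^ 2)
      ∧ ((volume (A i)).toReal - (volume (B i)).toReal) ^ 2 / (volume (B i)).toReal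
          ≤ ∫ x in B i, u x ^ 2
      ∧ 0 < volume (B i)
      ∧ |(volume (A i)).toReal - (volume (B i)).toReal| ≤ (volume (B i)).toReal / 2 := by
    intro i
    set a := (volume (A i)).toReal with ha
    set b := (volume (B i)).toReal with hb
    have hapos : 0 < a := ENNReal.toReal_pos (hApos i).ne' (hAfin i)
    have hub' : ∀ x ∈ B i, ‖u x‖ ≤ 1 / 2 := fun x hx => by
      rw [Real.norm_eq_abs]
      exact hub x (hBK i hx)
    have iu : IntegrableOn u (B i) volume :=
      intOn_of_bdd (hBm i) (hBfin i) hu.aestronglyMeasurable hub'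
    have iu2 : IntegrableOn (fun x => u x ^ 2) (B i) volume :=
      intOn_of_bdd (hBm i) (hBfin i) hu2m (fun x hx => hu2b x (hBK i hx))
    have izB : IntegrableOn (fun x : E d => x - x0) (B i) volume :=
      intOn_of_bdd (hBm i) (hBfin i)
        (by fun_prop : Continuous fun x : E d => x - x0).aestronglyMeasurable
        (fun x hx => hD x (hBK i hx))
    have izA : IntegrableOn (fun x : E d => x - x0) (A i) volume :=
      intOn_of_bdd (hAm i) (hAfin i)
        (by fun_prop : Continuous fun x : E d => x - x0).aestronglyMeasurable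
        (fun x hx => hD x (hAK i hx))
    have iuz : IntegrableOn (fun x : E d => u x • (x - x0)) (B i) volume :=
      intOn_of_bdd (hBm i) (hBfin i)
        (hu.smul (measurable_id.sub_const x0)).aestronglyMeasurable (M := 1 / 2 * D)
        (fun x hx => by
          rw [norm_smul]
          exact mul_le_mul (hub' x hx) (hD x (hBK i hx)) (norm_nonneg _) (by norm_num))
    have i1B : Integrable (fun _ : E d => (1 : ℝ)) (volume.restrict (B i)) :=
      integrableOn_const (hBfin i)
    set G := ∫ x in B i, u x with hG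
    have hab : a = b + G := by
      have h1 := hmass i
      rw [integral_add i1B iu, setIntegral_const, smul_eq_mul, mul_one, Measure.real] at h1
      linarith
    have hGb : |G| ≤ b / 2 := by
      have h1 := norm_setIntegral_le_of_norm_le_const (μ := volume) (hBfin i).lt_top hub'
      rw [Real.norm_eq_abs, Measure.real] at h1
      linarith
    have hGb' := abs_le.mp hGb
    have hbpos : 0 < b := by linarith [hGb'.1, hGb'.2]
    have hCS : G ^ 2 ≤ b * ∫ x in B i, u x ^ 2 := sq_setIntegral_le (hBfin i) iu iu2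
    have hQ0 : 0 ≤ ∫ x in B i, u x ^ 2 := integral_nonneg fun x => sq_nonneg _
    set cA := a⁻¹ • ∫ x in A i, (x - x0) with hcA
    set cB := b⁻¹ • ∫ x in B i, (x - x0) with hcB
    have hcBn : ‖cB‖ ≤ D := by
      rw [hcB, norm_smul, Real.norm_of_nonneg (inv_nonneg.mpr hbpos.le)]
      have h1 := norm_setIntegral_le_of_norm_le_const (μ := volume) (f := fun x : E d => x - x0)
        (hBfin i).lt_top (fun x hx => hD x (hBK i hx))
      rw [Measure.real] at h1
      rw [inv_mul_le_iff₀ hbpos]
      linarith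
    set W := ∫ x in B i, u x • (x - x0 - cB) with hW
    have hdec : (∫ y in B i, (1 + u y) • y) - ∫ x in A i, x = a • (cB - cA) + W := by
      have e1 : ∫ y in B i, (1 + u y) • y
          = (∫ y in B i, (y - x0)) + (∫ y in B i, u y • (y - x0)) + a • x0 := by
        have h1 : ∀ y : E d, (1 + u y) • y = ((y - x0) + u y • (y - x0)) + (1 + u y) • x0 :=
          fun y => by module
        have i3 : Integrable (fun y : E d => (1 + u y) • x0) (volume.restrict (B i)) :=
          (i1B.add iu).smul_const x0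
        have i4 : Integrable (fun y : E d => (y - x0) + u y • (y - x0)) (volume.restrict (B i)) :=
          izB.add iuz
        simp_rw [h1]
        rw [integral_add i4 i3, integral_add izB iuz, integral_smul_const, hmass i]
      have e2 : ∫ x in A i, x = (∫ x in A i, (x - x0)) + a • x0 := by
        have icA : Integrable (fun _ : E d => x0) (volume.restrict (A i)) :=
          integrableOn_const (hAfin i)
        have h2 : ∫ x in A i, x = ∫ x in A i, ((x - x0) + x0) := by
          refine integral_congr_ae (Eventually.of_forall fun x => ?_)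
          simp
        rw [h2, integral_add izA icA, setIntegral_const, Measure.real]
      have e3 : W = (∫ y in B i, u y • (y - x0)) - G • cB := by
        have h3 : ∀ y : E d, u y • (y - x0 - cB) = u y • (y - x0) - u y • cB :=
          fun y => smul_sub _ _ _
        have i5 : Integrable (fun y : E d => u y • cB) (volume.restrict (B i)) :=
          iu.smul_const cB
        rw [hW]
        simp_rw [h3]
        rw [integral_sub iuz i5, integral_smul_const]
      have e4 : ∫ y in B i, (y - x0) = b • cB := by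
        rw [hcB, smul_smul, mul_inv_cancel₀ hbpos.ne', one_smul]
      have e5 : ∫ x in A i, (x - x0) = a • cA := by
        rw [hcA, smul_smul, mul_inv_cancel₀ hapos.ne', one_smul]
      rw [e1, e2, e3, e4, e5, hab]
      module
    have hWn : ‖W‖ ^ 2 ≤ 4 * D ^ 2 * (b * ∫ x in B i, u x ^ 2) := by
      have iabs : Integrable (fun x => |u x|) (volume.restrict (B i)) := iu.abs
      have h1 : ‖W‖ ≤ ∫ x in B i, 2 * D * |u x| := by
        rw [hW]
        refine norm_integral_le_of_norm_le (iabs.const_mul (2 * D)) ?_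
        refine (ae_restrict_iff' (hBm i)).mpr (Eventually.of_forall fun x hx => ?_)
        rw [norm_smul, Real.norm_eq_abs, mul_comm]
        refine mul_le_mul_of_nonneg_right ?_ (abs_nonneg _)
        calc ‖x - x0 - cB‖ ≤ ‖x - x0‖ + ‖cB‖ := norm_sub_le _ _
          _ ≤ D + D := add_le_add (hD x (hBK i hx)) hcBn
          _ = 2 * D := by ring
      rw [integral_const_mul] at h1
      have iabs2 : IntegrableOn (fun x => |u x| ^ 2) (B i) volume := by
        simp_rw [sq_abs]
        exact iu2
      have h2 : (∫ x in B i, |u x|) ^ 2 ≤ b * ∫ x in B i, |u x| ^ 2 :=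
        sq_setIntegral_le (hBfin i) iabs iabs2
      have h3 : ∫ x in B i, |u x| ^ 2 = ∫ x in B i, u x ^ 2 := by
        simp_rw [sq_abs]
      rw [h3] at h2
      calc ‖W‖ ^ 2 ≤ (2 * D * ∫ x in B i, |u x|) ^ 2 := pow_le_pow_left₀ (norm_nonneg _) h1 2
        _ = 4 * D ^ 2 * (∫ x in B i, |u x|) ^ 2 := by ring
        _ ≤ 4 * D ^ 2 * (b * ∫ x in B i, u x ^ 2) :=
            mul_le_mul_of_nonneg_left h2 (by positivity)
    refine ⟨?_, ?_, ?_, ?_⟩
    · show a⁻¹ * ‖(∫ y in B i, (1 + u y) • y) - ∫ x in A i, x‖ ^ 2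
        ≤ 2 * (a * ‖cB - cA‖ ^ 2) + 16 * D ^ 2 * ∫ x in B i, u x ^ 2
      rw [hdec]
      have h1 : ‖a • (cB - cA) + W‖ ^ 2 ≤ 2 * ‖a • (cB - cA)‖ ^ 2 + 2 * ‖W‖ ^ 2 := by
        have h0 := norm_add_le (a • (cB - cA)) W
        nlinarith [norm_nonneg (a • (cB - cA)), norm_nonneg W,
          norm_nonneg (a • (cB - cA) + W), sq_nonneg (‖a • (cB - cA)‖ - ‖W‖)]
      have h2 : ‖a • (cB - cA)‖ ^ 2 = a ^ 2 * ‖cB - cA‖ ^ 2 := by
        rw [norm_smul, Real.norm_of_nonneg hapos.le, mul_pow]
      have hb2a : b ≤ 2 * a := by linarith [hGb'.1, hGb'.2]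
      have h3 : 4 * D ^ 2 * (b * ∫ x in B i, u x ^ 2)
          ≤ 4 * D ^ 2 * (2 * a * ∫ x in B i, u x ^ 2) :=
        mul_le_mul_of_nonneg_left (mul_le_mul_of_nonneg_right hb2a hQ0) (by positivity)
      rw [inv_mul_le_iff₀ hapos]
      rw [h2] at h1
      nlinarith
    · have h1 : a - b = G := by linarith
      rw [h1, div_le_iff₀ hbpos]
      linarith
    · exact (ENNReal.toReal_pos_iff.mp hbpos).1
    · have h1 : a - b = G := by linarith
      rw [h1]
      exact hGb
  have hL := Helper6.pl_centroid volume hPL K hKm hKfin x0 D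
    (fun x hx => by
      rw [Metric.mem_closedBall, dist_eq_norm]
      exact hD x hx)
    A B C hAm hBm hCm hAK hBK hCK
    (fun i j hij => (hAdisj i j hij).aedisjoint) (fun i j hij => (hBdisj i j hij).aedisjoint)
    (fun i j hij => (hCdisj i j hij).aedisjoint) hAcov hBcov hmid hApos
    (fun i => (cell i).2.2.1) (fun i => (cell i).2.2.2)
  have iK : IntegrableOn (fun x => u x ^ 2) K volume := intOn_of_bdd hKm hKfin hu2m hu2b
  have hsumB : ∑ i, ∫ x in B i, u x ^ 2 ≤ ∫ x in K, u x ^ 2 := by
    have h := integral_biUnion_finset (μ := volume) (f := fun x => u x ^ 2) Finset.univ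
      (fun i _ => hBm i) (fun i _ j _ hij => hBdisj i j hij) (fun i _ => iK.mono_set (hBK i))
    rw [← h]
    refine setIntegral_mono_set iK (Eventually.of_forall fun x => sq_nonneg _) ?_
    exact (Set.iUnion₂_subset fun i _ => hBK i).eventuallyLE
  have hD2 : 0 ≤ D ^ 2 := sq_nonneg D
  calc ∑ i, (volume (A i)).toReal⁻¹ * ‖(∫ y in B i, (1 + u y) • y) - ∫ x in A i, x‖ ^ 2
      ≤ ∑ i, (2 * ((volume (A i)).toReal * ‖(volume (B i)).toReal⁻¹ • (∫ x in B i, (x - x0))
            - (volume (A i)).toReal⁻¹ • ∫ x in A i, (x - x0)‖ ^ 2)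
          + 16 * D ^ 2 * ∫ x in B i, u x ^ 2) := Finset.sum_le_sum fun i _ => (cell i).1
    _ = 2 * ∑ i, (volume (A i)).toReal * ‖(volume (B i)).toReal⁻¹ • (∫ x in B i, (x - x0))
            - (volume (A i)).toReal⁻¹ • ∫ x in A i, (x - x0)‖ ^ 2
          + 16 * D ^ 2 * ∑ i, ∫ x in B i, u x ^ 2 := by
        rw [Finset.sum_add_distrib, ← Finset.mul_sum, ← Finset.mul_sum]
    _ ≤ 2 * (70 * D ^ 2 * ∑ i, ((volume (A i)).toReal - (volume (B i)).toReal) ^ 2
            / (volume (B i)).toReal) + 16 * D ^ 2 * ∑ i, ∫ x in B i, u x ^ 2 :=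
        add_le_add (mul_le_mul_of_nonneg_left hL (by norm_num)) le_rfl
    _ ≤ 2 * (70 * D ^ 2 * ∑ i, ∫ x in B i, u x ^ 2) + 16 * D ^ 2 * ∑ i, ∫ x in B i, u x ^ 2 := by
        have h1 : ∑ i, ((volume (A i)).toReal - (volume (B i)).toReal) ^ 2 / (volume (B i)).toReal
            ≤ ∑ i, ∫ x in B i, u x ^ 2 := Finset.sum_le_sum fun i _ => (cell i).2.1
        nlinarith
    _ = 156 * D ^ 2 * ∑ i, ∫ x in B i, u x ^ 2 := by ring
    _ ≤ 156 * D ^ 2 * ∫ x in K, u x ^ 2 := mul_le_mul_of_nonneg_left hsumB (by positivity)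

end Crest.Agent.S0109.Helper43
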