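import Mathlib
import Crest.Prelude.Def_QuadraticTransport
import Crest.Agent.Lib.S0109.Defs
import Crest.Agent.Lib.S0109.Basic
import Crest.Agent.Lib.S0109.Opt
import Crest.Agent.Lib.S0109.Helper39PLHalf
import Crest.Agent.Lib.S0109.Helper6PLCentroid
import Crest.Agent.Lib.S0109.Helper43CentroidAlg
import Crest.Agent.Lib.S0109.CentroidCells

/-! Row 82, package P5 (helper43): centroid stability (Step A), assembled from
* Prékopa–Leindler at `t = 1/2` on `E d` (`Helper39.plHalf_euclidean`),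
* helper6's abstract (volume-only) centroid lemma `Helper6.pl_centroid`, through
  `Helper43.centroid_alg_pos` (density `1 + u` on the second family, constant `156`),
* the strict Laguerre cells of the atoms of positive mass (`CentroidCells`). -/

set_option autoImplicit false
open MeasureTheory Filter Topology
open scoped ENNReal NNReal
open Crest.AnalysisR.OT

namespace Crest.Agent.S0109

namespace Helper43

variable {d : ℕ} {K : Set (E d)}

theorem uniformProbOn_apply {s : Set (E d)} (hs : MeasurableSet s) :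
    uniformProbOn K s = (volume K)⁻¹ * volume (K ∩ s) := by
  unfold uniformProbOn
  rw [Measure.smul_apply, Measure.restrict_apply hs, smul_eq_mul, Set.inter_comm]

theorem setIntegral_uniformProbOn {F : Type*} [NormedAddCommGroup F] [NormedSpace ℝ F]
    {s : Set (E d)} (hs : MeasurableSet s) (f : E d → F) :
    ∫ x in s, f x ∂(uniformProbOn K) = (volume K).toReal⁻¹ • ∫ x in K ∩ s, f x := by
  unfold uniformProbOn
  rw [Measure.restrict_smul, integral_smul_measure, Measure.restrict_restrict hs,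
    ENNReal.toReal_inv, Set.inter_comm]

theorem srcG_apply {g : E d → ℝ} {s : Set (E d)} (hs : MeasurableSet s) :
    srcG K g s = (volume K)⁻¹ * ∫⁻ x in K ∩ s, ENNReal.ofReal (1 + g x) := by
  unfold srcG
  rw [withDensity_apply _ hs]
  unfold uniformProbOn
  rw [Measure.restrict_smul, lintegral_smul_measure, Measure.restrict_restrict hs, smul_eq_mul,
    Set.inter_comm]

theorem setIntegral_srcG (hKc : IsCompact K) {g : E d → ℝ} (hg : Measurable g)
    (hgb : ∀ x ∈ K, |g x| ≤ 1 / 2) {F : Type*} [NormedAddCommGroup F] [NormedSpace ℝ F]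
    {s : Set (E d)} (hs : MeasurableSet s) (f : E d → F) :
    ∫ x in s, f x ∂(srcG K g) = (volume K).toReal⁻¹ • ∫ x in K ∩ s, (1 + g x) • f x := by
  rw [← integral_indicator hs, integral_srcG hKc hg hgb, ← setIntegral_uniformProbOn hs,
    ← integral_indicator hs]
  refine integral_congr_ae (Eventually.of_forall fun x => ?_)
  by_cases hx : x ∈ s
  · simp [hx]
  · simp [hx]

/-- Centroid stability with the explicit constant `156 * diam K ^ 2`. -/
theorem centroid_aux (hKc : IsCompact K) (hKv : Convex ℝ K) (hKi : (interior K).Nonempty)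
    {g : E d → ℝ} (hg : Measurable g) (hgb : ∀ x ∈ K, |g x| ≤ 1 / 2)
    (μ : Measure (E d)) [IsProbabilityMeasure μ] (S : Finset (E d)) (ψ0 ψg : E d → ℝ)
    (T0 Tg : E d → E d) (h0 : IsPotMap (uniformProbOn K) μ S ψ0 T0)
    (h1 : IsPotMap (srcG K g) μ S ψg Tg) :
    ∑ y ∈ S, (μ.real {y})⁻¹ *
        ‖∫ x in Tg ⁻¹' {y}, x ∂(srcG K g) - ∫ x in T0 ⁻¹' {y}, x ∂(uniformProbOn K)‖ ^ 2
      ≤ 156 * Metric.diam K ^ 2 * ∫ x, g x ^ 2 ∂(uniformProbOn K) := by
  classical
  set S' : Finset (E d) := posAtoms μ S with hS'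
  set V : ℝ := (volume K).toReal with hV
  have hK0 : volume K ≠ 0 := (volume_K_pos hKi).ne'
  have hKtop : volume K ≠ ⊤ := (volume_K_lt_top hKc).ne
  have hVpos : 0 < V := ENNReal.toReal_pos hK0 hKtop
  have hρac : uniformProbOn K ≪ volume := uniformProbOn_absolutelyContinuous
  have hσac : srcG K g ≪ volume := (srcG_absolutelyContinuous g).trans hρac
  have hS'ne : S'.Nonempty := posAtoms_nonempty h0.target_compl
  obtain ⟨x0, hx0⟩ := hKi
  have hx0K : x0 ∈ K := interior_subset hx0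
  have hinv0 : (volume K)⁻¹ ≠ 0 := ENNReal.inv_ne_zero.mpr hKtop
  have hinvtop : (volume K)⁻¹ ≠ ⊤ := ENNReal.inv_ne_top.mpr hK0
  -- masses
  have hmassA : ∀ y ∈ S', μ {y} = (volume K)⁻¹ * volume (K ∩ scell S' ψ0 y) := by
    intro y hy
    rw [← uniformProbOn_apply (measurableSet_scell S' ψ0 y),
      ← measure_congr (h0.preimage_ae_eq_scell hρac hy),
      ← Measure.map_apply h0.1 (measurableSet_singleton y), h0.2.1]
  have hmassB : ∀ y ∈ S',
      μ {y} = (volume K)⁻¹ * ∫⁻ x in K ∩ scell S' ψg y, ENNReal.ofReal (1 + g x) := by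
    intro y hy
    rw [← srcG_apply (measurableSet_scell S' ψg y),
      ← measure_congr (h1.preimage_ae_eq_scell hσac hy),
      ← Measure.map_apply h1.1 (measurableSet_singleton y), h1.2.1]
  -- barycentre integrals
  have hintA : ∀ y ∈ S', ∫ x in T0 ⁻¹' {y}, x ∂(uniformProbOn K)
      = V⁻¹ • ∫ x in K ∩ scell S' ψ0 y, x := by
    intro y hy
    rw [setIntegral_congr_set (h0.preimage_ae_eq_scell hρac hy),
      setIntegral_uniformProbOn (measurableSet_scell S' ψ0 y)]
  have hintB : ∀ y ∈ S', ∫ x in Tg ⁻¹' {y}, x ∂(srcG K g)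
      = V⁻¹ • ∫ x in K ∩ scell S' ψg y, (1 + g x) • x := by
    intro y hy
    rw [setIntegral_congr_set (h1.preimage_ae_eq_scell hσac hy),
      setIntegral_srcG hKc hg hgb (measurableSet_scell S' ψg y)]
  -- the abstract lemma
  have hKm : MeasurableSet K := hKc.measurableSet
  have key := centroid_alg_pos (Helper39.plHalf_euclidean d) (ι := S') K hKm hKtop x0
    (Metric.diam K)
    (fun x hx => by
      rw [← dist_eq_norm]
      exact Metric.dist_le_diam_of_mem hKc.isBounded hx hx0K)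
    g hg hgb
    (fun i => K ∩ scell S' ψ0 i) (fun i => K ∩ scell S' ψg i)
    (fun i => K ∩ scell S' (fun w => (ψ0 w + ψg w) / 2) i)
    (fun i => hKm.inter (measurableSet_scell S' ψ0 i))
    (fun i => hKm.inter (measurableSet_scell S' ψg i))
    (fun i => hKm.inter (measurableSet_scell S' _ i))
    (fun i => Set.inter_subset_left) (fun i => Set.inter_subset_left)
    (fun i => Set.inter_subset_left)
    (fun i x hx y hy => by
      refine ⟨?_, midpoint_mem_scell hx.2 hy.2⟩
      have := hKv hx.1 hy.1 (by norm_num : (0 : ℝ) ≤ 1 / 2) (by norm_num : (0 : ℝ) ≤ 1 / 2)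
        (by norm_num : (1 / 2 : ℝ) + 1 / 2 = 1)
      rwa [← smul_add] at this)
    (fun i j hij => (disjoint_scell (fun w => (ψ0 w + ψg w) / 2) i.2 j.2
        (fun h => hij (Subtype.ext h))).mono Set.inter_subset_right Set.inter_subset_right)
    (fun i j hij => (disjoint_scell ψ0 i.2 j.2
        (fun h => hij (Subtype.ext h))).mono Set.inter_subset_right Set.inter_subset_right)
    (by
      have hcov := ae_exists_mem_scell (Measure.AbsolutelyContinuous.refl volume) hS'ne ψ0
      rw [ae_iff] at hcov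
      refine measure_mono_null (fun x hx => ?_) hcov
      intro hex
      obtain ⟨y, hy, hxy⟩ := hex
      exact hx.2 (Set.mem_iUnion.mpr ⟨⟨y, hy⟩, hx.1, hxy⟩))
    (fun i j hij => (disjoint_scell ψg i.2 j.2
        (fun h => hij (Subtype.ext h))).mono Set.inter_subset_right Set.inter_subset_right)
    (by
      have hcov := ae_exists_mem_scell (Measure.AbsolutelyContinuous.refl volume) hS'ne ψg
      rw [ae_iff] at hcov
      refine measure_mono_null (fun x hx => ?_) hcov
      intro hex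
      obtain ⟨y, hy, hxy⟩ := hex
      exact hx.2 (Set.mem_iUnion.mpr ⟨⟨y, hy⟩, hx.1, hxy⟩))
    (fun i => by
      have e1 := hmassA i i.2
      have hne : μ {(i : E d)} ≠ 0 := (mem_posAtoms.mp i.2).2
      rw [e1] at hne
      exact pos_iff_ne_zero.mpr (right_ne_zero_of_mul hne))
    (fun i => by
      have hBm : MeasurableSet (K ∩ scell S' ψg i) := hKm.inter (measurableSet_scell S' ψg i)
      have e1 := hmassA i i.2
      rw [hmassB i i.2] at e1
      have e2 := (ENNReal.mul_right_inj hinv0 hinvtop).mp e1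
      rw [← e2]
      refine integral_eq_lintegral_of_nonneg_ae ?_ ?_
      · refine (ae_restrict_iff' hBm).mpr (Eventually.of_forall fun x hx => ?_)
        have := abs_le.mp (hgb x hx.1)
        show (0 : ℝ) ≤ 1 + g x
        linarith [this.1]
      · exact (measurable_const.add hg).aestronglyMeasurable)
  -- rewrite the sum
  have hsub : ∑ y ∈ S, (μ.real {y})⁻¹ *
        ‖∫ x in Tg ⁻¹' {y}, x ∂(srcG K g) - ∫ x in T0 ⁻¹' {y}, x ∂(uniformProbOn K)‖ ^ 2
      = ∑ y ∈ S', (μ.real {y})⁻¹ *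
        ‖∫ x in Tg ⁻¹' {y}, x ∂(srcG K g) - ∫ x in T0 ⁻¹' {y}, x ∂(uniformProbOn K)‖ ^ 2 := by
    symm
    refine Finset.sum_subset (fun y hy => (mem_posAtoms.mp hy).1) (fun y hy hny => ?_)
    have hμy : μ {y} = 0 := by
      by_contra hne
      exact hny (mem_posAtoms.mpr ⟨hy, hne⟩)
    simp [Measure.real, hμy]
  have hterm : ∀ y ∈ S', (μ.real {y})⁻¹ *
        ‖∫ x in Tg ⁻¹' {y}, x ∂(srcG K g) - ∫ x in T0 ⁻¹' {y}, x ∂(uniformProbOn K)‖ ^ 2
      = V⁻¹ * ((volume (K ∩ scell S' ψ0 y)).toReal⁻¹ *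
          ‖(∫ x in K ∩ scell S' ψg y, (1 + g x) • x) - ∫ x in K ∩ scell S' ψ0 y, x‖ ^ 2) := by
    intro y hy
    have hμ : μ.real {y} = V⁻¹ * (volume (K ∩ scell S' ψ0 y)).toReal := by
      rw [Measure.real, hmassA y hy, ENNReal.toReal_mul, ENNReal.toReal_inv]
    rw [hμ, hintA y hy, hintB y hy, ← smul_sub, norm_smul, Real.norm_of_nonneg (inv_nonneg.mpr hVpos.le),
      mul_inv, inv_inv, mul_pow]
    generalize (volume (K ∩ scell S' ψ0 y)).toReal⁻¹ = b
    field_simp
  rw [hsub, Finset.sum_congr rfl hterm, ← Finset.mul_sum,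
    ← Finset.sum_coe_sort S' (fun y => (volume (K ∩ scell S' ψ0 y)).toReal⁻¹ *
          ‖(∫ x in K ∩ scell S' ψg y, (1 + g x) • x) - ∫ x in K ∩ scell S' ψ0 y, x‖ ^ 2),
    integral_uniformProbOn, smul_eq_mul]
  calc V⁻¹ * ∑ i : S', (volume (K ∩ scell S' ψ0 i)).toReal⁻¹ *
          ‖(∫ x in K ∩ scell S' ψg i, (1 + g x) • x) - ∫ x in K ∩ scell S' ψ0 i, x‖ ^ 2
      ≤ V⁻¹ * (156 * Metric.diam K ^ 2 * ∫ x in K, g x ^ 2) :=
        mul_le_mul_of_nonneg_left key (inv_nonneg.mpr hVpos.le)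
    _ = 156 * Metric.diam K ^ 2 * (V⁻¹ * ∫ x in K, g x ^ 2) := by ring

end Helper43

/-- Centroid stability (Step A): the barycentres of the Laguerre cells move `L²`-Lipschitzly when
the source `ρ` is replaced by `(1+g)ρ` (same discrete target `μ`). `(μ.real {y})⁻¹ = 0` for
null atoms. -/
theorem centroid_stability {d : ℕ} (K : Set (E d)) (hKc : IsCompact K) (hKv : Convex ℝ K)
    (hKi : (interior K).Nonempty) :
    ∃ C : ℝ, 0 ≤ C ∧ ∀ (g : E d → ℝ), (∃ L : ℝ≥0, LipschitzWith L g) → (∀ x ∈ K, |g x| ≤ 1 / 2) →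
      ∫ x, g x ∂(uniformProbOn K) = 0 →
      ∀ (μ : Measure (E d)), IsProbabilityMeasure μ →
      ∀ (S : Finset (E d)) (ψ0 ψg : E d → ℝ) (T0 Tg : E d → E d),
        IsPotMap (uniformProbOn K) μ S ψ0 T0 → IsPotMap (srcG K g) μ S ψg Tg →
        ∑ y ∈ S, (μ.real {y})⁻¹ *
            ‖∫ x in Tg ⁻¹' {y}, x ∂(srcG K g) - ∫ x in T0 ⁻¹' {y}, x ∂(uniformProbOn K)‖ ^ 2
          ≤ C * ∫ x, g x ^ 2 ∂(uniformProbOn K) := by
  refine ⟨156 * Metric.diam K ^ 2, by positivity, ?_⟩
  intro g hgL hgb _ μ hμ S ψ0 ψg T0 Tg h0 h1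
  obtain ⟨L, hL⟩ := hgL
  exact Helper43.centroid_aux hKc hKv hKi hL.continuous.measurable hgb μ S ψ0 ψg T0 Tg h0 h1

end Crest.Agent.S0109
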