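import Mathlib
import Crest.Prelude.Def_QuadraticTransport
import Crest.Agent.Lib.S0109.Defs
import Crest.Agent.Lib.S0109.Basic

/-!
Row 82, package P6b (helper82): auxiliary lemmas for `tendsto_pot_integral`
(continuity of the discrete potentials as the perturbation of the source tends to zero).

Route: weak duality for the Kantorovich functional `kant σ μ S ψ = ∫ pot S ψ dσ + ∑ μ{a} ψ a`
(every Laguerre weight minimises it), the equality case (a minimiser differs from a Laguerre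
potential by a constant on `K`), boundedness of normalised weights and a compactness argument.
-/

set_option autoImplicit false
open MeasureTheory Filter Topology
open scoped ENNReal NNReal
open Crest.AnalysisR.OT

namespace Crest.Agent.S0109.Helper82

open Crest.Agent.S0109

variable {d : ℕ}

/-! ### Elementary facts on `pot` -/

section potLemmas

variable {S : Finset (E d)} {ψ ψ' : E d → ℝ}

theorem pot_congr (h : ∀ y ∈ S, ψ y = ψ' y) (x : E d) : pot S ψ x = pot S ψ' x := by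
  unfold pot
  congr 1
  funext y
  rw [h y y.2]

theorem pot_le_pot_add (hS : S.Nonempty) {δ : ℝ} (h : ∀ y ∈ S, ψ' y ≤ ψ y + δ) (x : E d) :
    pot S ψ x ≤ pot S ψ' x + δ := by
  apply pot_le hS
  intro y hy
  have h1 := le_pot (ψ := ψ') hy x
  have h2 := h y hy
  linarith

theorem abs_pot_sub_pot_le (hS : S.Nonempty) {δ : ℝ} (h : ∀ y ∈ S, |ψ y - ψ' y| ≤ δ) (x : E d) :
    |pot S ψ x - pot S ψ' x| ≤ δ := by
  rw [abs_sub_le_iff]
  constructor
  · have h1 := pot_le_pot_add hS (ψ := ψ) (ψ' := ψ') (δ := δ)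
      (fun y hy => by have := (abs_sub_le_iff.1 (h y hy)).2; linarith) x
    linarith
  · have h1 := pot_le_pot_add hS (ψ := ψ') (ψ' := ψ) (δ := δ)
      (fun y hy => by have := (abs_sub_le_iff.1 (h y hy)).1; linarith) x
    linarith

theorem pot_sub_const (hS : S.Nonempty) (ψ : E d → ℝ) (c : ℝ) (x : E d) :
    pot S (fun y => ψ y - c) x = pot S ψ x + c := by
  apply le_antisymm
  · exact pot_le_pot_add hS (ψ := fun y => ψ y - c) (ψ' := ψ) (δ := c) (fun y _ => by simp) x
  · have h1 := pot_le_pot_add hS (ψ := ψ) (ψ' := fun y => ψ y - c) (δ := -c)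
      (fun y _ => by simp) x
    linarith

end potLemmas

/-! ### Measurable modification of the weights -/

/-- A measurable function agreeing with `ψ` on `S`. -/
noncomputable def wmod (S : Finset (E d)) (ψ : E d → ℝ) : E d → ℝ :=
  fun y => ∑ a ∈ S, Set.indicator {a} (fun _ => ψ a) y

theorem wmod_apply_of_mem {S : Finset (E d)} (ψ : E d → ℝ) {y : E d} (hy : y ∈ S) :
    wmod S ψ y = ψ y := by
  unfold wmod
  rw [Finset.sum_eq_single y]
  · simp
  · intro b _ hb
    simp [Set.indicator, Ne.symm hb]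
  · intro h; exact absurd hy h

theorem measurable_wmod (S : Finset (E d)) (ψ : E d → ℝ) : Measurable (wmod S ψ) := by
  unfold wmod
  apply Finset.measurable_sum
  intro a _
  exact measurable_const.indicator (measurableSet_singleton a)

theorem abs_wmod_le (S : Finset (E d)) (ψ : E d → ℝ) (y : E d) :
    |wmod S ψ y| ≤ ∑ a ∈ S, |ψ a| := by
  unfold wmod
  refine (Finset.abs_sum_le_sum_abs _ _).trans (Finset.sum_le_sum fun a _ => ?_)
  by_cases h : y ∈ ({a} : Set (E d))
  · simp [Set.indicator, h]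
  · simp [Set.indicator, h]

theorem integral_wmod (S : Finset (E d)) (ψ : E d → ℝ) (μ : Measure (E d)) [IsFiniteMeasure μ] :
    ∫ y, wmod S ψ y ∂μ = ∑ a ∈ S, μ.real {a} * ψ a := by
  unfold wmod
  rw [integral_finsetSum]
  · refine Finset.sum_congr rfl fun a _ => ?_
    rw [integral_indicator_const _ (measurableSet_singleton a)]
    simp [smul_eq_mul]
  · intro a _
    exact (integrable_const (ψ a)).indicator (measurableSet_singleton a)

/-! ### Generalities on a source `σ` carried by a compact set -/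

section source

variable {σ μ : Measure (E d)} {K : Set (E d)}

theorem ae_mem_of_compl (hσK : σ Kᶜ = 0) : ∀ᵐ x ∂σ, x ∈ K := by
  have := measure_eq_zero_iff_ae_notMem.1 hσK
  filter_upwards [this] with x hx
  simpa using hx

theorem integrable_of_continuous [IsFiniteMeasure σ] (hKc : IsCompact K) (hσK : σ Kᶜ = 0)
    {f : E d → ℝ} (hf : Continuous f) : Integrable f σ := by
  have h1 : IntegrableOn f K σ := hf.continuousOn.integrableOn_compact hKc
  have h2 : σ.restrict K = σ := Measure.restrict_eq_self_of_ae_mem (ae_mem_of_compl hσK)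
  rwa [IntegrableOn, h2] at h1

/-- The fibre `T ⁻¹' {y}` of a Laguerre map has the mass of the atom. -/
theorem potMap_fibre_measure {S : Finset (E d)} {ψ : E d → ℝ} {T : E d → E d}
    (h : IsPotMap σ μ S ψ T) (y : E d) : σ (T ⁻¹' {y}) = μ {y} := by
  rw [← h.2.1, Measure.map_apply h.1 (measurableSet_singleton y)]

/-- Invariance of `IsPotMap` under a shift of the weights by a constant (and a change off `S`). -/
theorem potMap_congr_shift {S : Finset (E d)} {ψ ψ' : E d → ℝ} {T : E d → E d}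
    (h : IsPotMap σ μ S ψ T) (c : ℝ) (hψ : ∀ y ∈ S, ψ' y = ψ y - c) : IsPotMap σ μ S ψ' T := by
  refine ⟨h.1, h.2.1, ?_⟩
  filter_upwards [h.2.2] with x hx
  refine ⟨hx.1, fun y hy => ?_⟩
  have h1 := hx.2 y hy
  rw [hψ y hy, hψ (T x) hx.1]
  linarith

/-- Restriction of a Laguerre map to the atoms of positive mass. -/
theorem potMap_filter_pos {S : Finset (E d)} {ψ : E d → ℝ} {T : E d → E d}
    (h : IsPotMap σ μ S ψ T) (S' : Finset (E d)) (hS' : S' ⊆ S)
    (hS'' : ∀ y ∈ S, μ {y} ≠ 0 → y ∈ S') : IsPotMap σ μ S' ψ T := by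
  refine ⟨h.1, h.2.1, ?_⟩
  have h0 : ∀ y ∈ S, y ∉ S' → ∀ᵐ x ∂σ, T x ≠ y := by
    intro y hy hy'
    have hμ : μ {y} = 0 := by
      by_contra hne
      exact hy' (hS'' y hy hne)
    have : σ (T ⁻¹' {y}) = 0 := by rw [potMap_fibre_measure h, hμ]
    have := measure_eq_zero_iff_ae_notMem.1 this
    filter_upwards [this] with x hx
    simpa using hx
  have h1 : ∀ᵐ x ∂σ, ∀ y ∈ S, y ∉ S' → T x ≠ y := by
    have := (ae_ball_iff (μ := σ) (S := (S : Set (E d))) S.countable_toSet
      (p := fun x y _ => y ∉ S' → T x ≠ y)).2 (fun y hy => by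
        by_cases hy' : y ∈ S'
        · exact Eventually.of_forall fun x h => absurd hy' h
        · filter_upwards [h0 y hy hy'] with x hx _ using hx)
    filter_upwards [this] with x hx y hy using hx y hy
  filter_upwards [h.2.2, h1] with x hx hx1
  refine ⟨?_, fun y hy => hx.2 y (hS' hy)⟩
  by_contra hT
  exact hx1 (T x) hx.1 hT rfl

/-- Bounded oscillation of Laguerre weights between an atom of positive mass and any other atom. -/
theorem potMap_weight_sub_le {S : Finset (E d)} {ψ : E d → ℝ} {T : E d → E d}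
    (h : IsPotMap σ μ S ψ T) {R : ℝ} (hR : ∀ᵐ x ∂σ, ‖x‖ ≤ R) {y z : E d} (hy : μ {y} ≠ 0)
    (hz : z ∈ S) : ψ y - ψ z ≤ R * ‖y - z‖ := by
  have hne : σ (T ⁻¹' {y}) ≠ 0 := by rw [potMap_fibre_measure h]; exact hy
  have hae : ∀ᵐ x ∂σ.restrict (T ⁻¹' {y}),
      ‖x‖ ≤ R ∧ ∀ z ∈ S, inner ℝ x z - ψ z ≤ inner ℝ x (T x) - ψ (T x) := by
    apply ae_restrict_of_ae
    filter_upwards [hR, h.2.2] with x hx1 hx2 using ⟨hx1, hx2.2⟩
  obtain ⟨x, hxy, hxR, hx⟩ := Measure.exists_mem_of_measure_ne_zero_of_ae hne hae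
  have hTx : T x = y := hxy
  have h1 := hx z hz
  rw [hTx] at h1
  have h2 : inner ℝ x (y - z) ≤ ‖x‖ * ‖y - z‖ := real_inner_le_norm x (y - z)
  have h3 : ‖x‖ * ‖y - z‖ ≤ R * ‖y - z‖ := mul_le_mul_of_nonneg_right hxR (norm_nonneg _)
  have h4 : inner ℝ x (y - z) = inner ℝ x y - inner ℝ x z := inner_sub_right x y z
  linarith

end source

/-! ### The Kantorovich functional: weak duality and the equality case -/

/-- The Kantorovich functional of the weights `ψ` (atoms in `S`). -/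
noncomputable def kant (σ μ : Measure (E d)) (S : Finset (E d)) (ψ : E d → ℝ) : ℝ :=
  ∫ x, pot S ψ x ∂σ + ∑ a ∈ S, μ.real {a} * ψ a

section duality

variable {σ μ : Measure (E d)} {K : Set (E d)} {S : Finset (E d)} {ψ : E d → ℝ} {T : E d → E d}

/-- The duality gap integrand of the weights `ψ'` along the Laguerre map `T`. -/
noncomputable def gapFun (S : Finset (E d)) (ψ' : E d → ℝ) (T : E d → E d) (x : E d) : ℝ :=
  pot S ψ' x - (inner ℝ x (T x) - wmod S ψ' (T x))

theorem gapFun_nonneg (h : IsPotMap σ μ S ψ T) (ψ' : E d → ℝ) :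
    ∀ᵐ x ∂σ, 0 ≤ gapFun S ψ' T x := by
  filter_upwards [h.2.2] with x hx
  unfold gapFun
  rw [wmod_apply_of_mem ψ' hx.1]
  have := le_pot (ψ := ψ') hx.1 x
  linarith

theorem gapFun_self (h : IsPotMap σ μ S ψ T) : ∀ᵐ x ∂σ, gapFun S ψ T x = 0 := by
  filter_upwards [h.2.2, h.pot_eq] with x hx hx2
  unfold gapFun
  rw [wmod_apply_of_mem ψ hx.1, hx2]
  ring

theorem integrable_inner_map [IsFiniteMeasure σ] (hKc : IsCompact K) (hσK : σ Kᶜ = 0)
    (h : IsPotMap σ μ S ψ T) : Integrable (fun x => inner ℝ x (T x)) σ := by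
  obtain ⟨R, hR⟩ := hKc.isBounded.exists_norm_le
  obtain ⟨M, hM⟩ := (S.finite_toSet.isBounded).exists_norm_le
  have hmeas : Measurable (fun x => (inner ℝ x (T x) : ℝ)) := measurable_id.inner h.1
  refine (integrable_const (R * M)).mono' hmeas.aestronglyMeasurable ?_
  filter_upwards [ae_mem_of_compl hσK, h.2.2] with x hxK hx
  have h1 : |(inner ℝ x (T x) : ℝ)| ≤ ‖x‖ * ‖T x‖ := abs_real_inner_le_norm x (T x)
  have h2 : ‖x‖ * ‖T x‖ ≤ R * M :=
    mul_le_mul (hR x hxK) (hM (T x) hx.1) (norm_nonneg _) ((norm_nonneg x).trans (hR x hxK))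
  rw [Real.norm_eq_abs]
  exact h1.trans h2

theorem integrable_wmod_comp [IsFiniteMeasure σ] (h : IsPotMap σ μ S ψ T) (ψ' : E d → ℝ) :
    Integrable (fun x => wmod S ψ' (T x)) σ := by
  have hmeas : Measurable (fun x => wmod S ψ' (T x)) := (measurable_wmod S ψ').comp h.1
  refine (integrable_const (∑ a ∈ S, |ψ' a|)).mono' hmeas.aestronglyMeasurable ?_
  refine Eventually.of_forall fun x => ?_
  rw [Real.norm_eq_abs]
  exact abs_wmod_le S ψ' (T x)

theorem integral_wmod_comp [IsFiniteMeasure σ] (h : IsPotMap σ μ S ψ T) (ψ' : E d → ℝ) :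
    ∫ x, wmod S ψ' (T x) ∂σ = ∑ a ∈ S, μ.real {a} * ψ' a := by
  have hfin : IsFiniteMeasure μ := by
    rw [← h.2.1]; exact Measure.isFiniteMeasure_map σ T
  rw [← integral_wmod S ψ' μ, ← h.2.1]
  exact (integral_map h.1.aemeasurable (measurable_wmod S ψ').aestronglyMeasurable).symm

theorem integrable_gapFun [IsFiniteMeasure σ] (hKc : IsCompact K) (hσK : σ Kᶜ = 0)
    (h : IsPotMap σ μ S ψ T) (ψ' : E d → ℝ) : Integrable (gapFun S ψ' T) σ := by
  have hA := integrable_of_continuous hKc hσK (continuous_pot S ψ')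
  have hB := integrable_inner_map hKc hσK h
  have hC := integrable_wmod_comp h ψ'
  have hBC : Integrable (fun x => inner ℝ x (T x) - wmod S ψ' (T x)) σ := hB.sub hC
  exact hA.sub hBC

/-- The duality gap: `kant ψ' - corr T = ∫ gap`. -/
theorem kant_sub_corr [IsFiniteMeasure σ] (hKc : IsCompact K) (hσK : σ Kᶜ = 0)
    (h : IsPotMap σ μ S ψ T) (ψ' : E d → ℝ) :
    kant σ μ S ψ' - corr σ T = ∫ x, gapFun S ψ' T x ∂σ := by
  have hA := integrable_of_continuous hKc hσK (continuous_pot S ψ')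
  have hB := integrable_inner_map hKc hσK h
  have hC := integrable_wmod_comp h ψ'
  have hBC : Integrable (fun x => inner ℝ x (T x) - wmod S ψ' (T x)) σ := hB.sub hC
  unfold gapFun kant corr
  rw [integral_sub hA hBC, integral_sub hB hC, integral_wmod_comp h ψ']
  ring

theorem kant_eq_corr [IsFiniteMeasure σ] (hKc : IsCompact K) (hσK : σ Kᶜ = 0)
    (h : IsPotMap σ μ S ψ T) : kant σ μ S ψ = corr σ T := by
  have h1 := kant_sub_corr hKc hσK h ψ
  rw [integral_congr_ae (gapFun_self h)] at h1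
  simp at h1
  linarith

/-- Weak duality: Laguerre weights minimise the Kantorovich functional. -/
theorem kant_le [IsFiniteMeasure σ] (hKc : IsCompact K) (hσK : σ Kᶜ = 0)
    (h : IsPotMap σ μ S ψ T) (ψ' : E d → ℝ) : kant σ μ S ψ ≤ kant σ μ S ψ' := by
  have h1 := kant_sub_corr hKc hσK h ψ'
  have h2 : 0 ≤ ∫ x, gapFun S ψ' T x ∂σ := integral_nonneg_of_ae (gapFun_nonneg h ψ')
  rw [kant_eq_corr hKc hσK h]
  linarith

/-- Equality case: a minimiser of the Kantorovich functional differs from the Laguerre potential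
by a constant on `K` (`K` connected, `σ` charging every open set that meets `K`). -/
theorem pot_sub_pot_const [IsFiniteMeasure σ] (hKc : IsCompact K) (hσK : σ Kᶜ = 0)
    (hKpre : IsPreconnected K) (hpos : ∀ U : Set (E d), IsOpen U → (U ∩ K).Nonempty → 0 < σ U)
    (h : IsPotMap σ μ S ψ T) (ψ' : E d → ℝ) (hle : kant σ μ S ψ' ≤ kant σ μ S ψ) :
    ∃ c : ℝ, ∀ x ∈ K, pot S ψ' x - pot S ψ x = c := by
  -- the gap of ψ' vanishes a.e.
  have h1 := kant_sub_corr hKc hσK h ψ'
  have h2 : ∫ x, gapFun S ψ' T x ∂σ = 0 := by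
    have h3 : 0 ≤ ∫ x, gapFun S ψ' T x ∂σ := integral_nonneg_of_ae (gapFun_nonneg h ψ')
    have h4 := kant_eq_corr hKc hσK h
    linarith
  have h5 : gapFun S ψ' T =ᵐ[σ] 0 :=
    (integral_eq_zero_iff_of_nonneg_ae (gapFun_nonneg h ψ') (integrable_gapFun hKc hσK h ψ')).1 h2
  -- finitely many values a.e.
  let F : Finset ℝ := S.image (fun y => ψ y - ψ' y)
  let f : E d → ℝ := fun x => pot S ψ' x - pot S ψ x
  have hf : Continuous f := (continuous_pot S ψ').sub (continuous_pot S ψ)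
  have h6 : ∀ᵐ x ∂σ, f x ∈ (F : Set ℝ) := by
    filter_upwards [h5, h.2.2, h.pot_eq] with x hx1 hx2 hx3
    have hx1' : pot S ψ' x - (inner ℝ x (T x) - wmod S ψ' (T x)) = 0 := hx1
    rw [wmod_apply_of_mem ψ' hx2.1] at hx1'
    have : f x = ψ (T x) - ψ' (T x) := by
      show pot S ψ' x - pot S ψ x = _
      rw [hx3]; linarith
    rw [this]
    exact Finset.mem_coe.2 (Finset.mem_image.2 ⟨T x, hx2.1, rfl⟩)
  have hU : IsOpen (f ⁻¹' (F : Set ℝ)ᶜ) := (F.finite_toSet.isClosed.isOpen_compl).preimage hf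
  have hU0 : σ (f ⁻¹' (F : Set ℝ)ᶜ) = 0 := by
    rw [measure_eq_zero_iff_ae_notMem]
    filter_upwards [h6] with x hx
    simpa using hx
  have h7 : ∀ x ∈ K, f x ∈ (F : Set ℝ) := by
    intro x hx
    by_contra hxF
    have : 0 < σ (f ⁻¹' (F : Set ℝ)ᶜ) := hpos _ hU ⟨x, hxF, hx⟩
    rw [hU0] at this
    exact lt_irrefl _ this
  -- a connected set with finitely many values
  have hpre : IsPreconnected (f '' K) := hKpre.image f hf.continuousOn
  have hsub : f '' K ⊆ (F : Set ℝ) := by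
    rintro _ ⟨x, hx, rfl⟩; exact h7 x hx
  have hconst : ∀ x ∈ K, ∀ x' ∈ K, f x ≤ f x' := by
    intro x hx x' hx'
    by_contra hlt
    rw [not_le] at hlt
    have hIcc : Set.Icc (f x') (f x) ⊆ f '' K :=
      hpre.Icc_subset ⟨x', hx', rfl⟩ ⟨x, hx, rfl⟩
    exact (Set.Icc_infinite hlt) ((F.finite_toSet.subset hsub).subset hIcc)
  rcases K.eq_empty_or_nonempty with hK | ⟨x0, hx0⟩
  · exact ⟨0, fun x hx => by simp [hK] at hx⟩
  · exact ⟨f x0, fun x hx => le_antisymm (hconst x hx x0 hx0) (hconst x0 hx0 x hx)⟩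

/-- Two Laguerre maps with the same weights (atoms `S` and `S'`): the potentials agree on `K`. -/
theorem pot_eq_on_of_isPotMap (hpos : ∀ U : Set (E d), IsOpen U → (U ∩ K).Nonempty → 0 < σ U)
    {S' : Finset (E d)} (h : IsPotMap σ μ S ψ T) (h' : IsPotMap σ μ S' ψ T) :
    ∀ x ∈ K, pot S ψ x = pot S' ψ x := by
  have hU : IsOpen {x | pot S ψ x ≠ pot S' ψ x} :=
    isOpen_ne_fun (continuous_pot S ψ) (continuous_pot S' ψ)
  have hU0 : σ {x | pot S ψ x ≠ pot S' ψ x} = 0 := by
    rw [measure_eq_zero_iff_ae_notMem]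
    filter_upwards [h.pot_eq, h'.pot_eq] with x hx hx'
    show ¬ (pot S ψ x ≠ pot S' ψ x)
    rw [not_not, hx, hx']
  intro x hx
  by_contra hne
  have : 0 < σ {x | pot S ψ x ≠ pot S' ψ x} := hpos _ hU ⟨x, hne, hx⟩
  rw [hU0] at this
  exact lt_irrefl _ this

end duality

/-! ### Quantitative continuity in the weights, and sources charging open sets -/

section quant

variable {ρ μ : Measure (E d)} {K : Set (E d)} {S : Finset (E d)} {ψ ψ' : E d → ℝ}

theorem abs_integral_pot_mul_sub_le [IsProbabilityMeasure ρ] (hKc : IsCompact K) (hρK : ρ Kᶜ = 0)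
    {g : E d → ℝ} (hg : Continuous g) (hgb : ∀ x ∈ K, |g x| ≤ 1) (hS : S.Nonempty) {δ : ℝ}
    (h : ∀ y ∈ S, |ψ y - ψ' y| ≤ δ) :
    |∫ x, pot S ψ x * g x ∂ρ - ∫ x, pot S ψ' x * g x ∂ρ| ≤ δ := by
  obtain ⟨y0, hy0⟩ := hS
  have hδ : 0 ≤ δ := (abs_nonneg _).trans (h y0 hy0)
  have i1 : Integrable (fun x => pot S ψ x * g x) ρ :=
    integrable_of_continuous hKc hρK ((continuous_pot S ψ).mul hg)
  have i2 : Integrable (fun x => pot S ψ' x * g x) ρ :=
    integrable_of_continuous hKc hρK ((continuous_pot S ψ').mul hg)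
  rw [← integral_sub i1 i2]
  have hb : ∀ᵐ x ∂ρ, ‖pot S ψ x * g x - pot S ψ' x * g x‖ ≤ δ := by
    filter_upwards [ae_mem_of_compl hρK] with x hx
    have h1 : pot S ψ x * g x - pot S ψ' x * g x = (pot S ψ x - pot S ψ' x) * g x := by ring
    rw [h1, Real.norm_eq_abs, abs_mul]
    have h2 := abs_pot_sub_pot_le ⟨y0, hy0⟩ h x
    have h3 := hgb x hx
    calc |pot S ψ x - pot S ψ' x| * |g x| ≤ δ * 1 :=
          mul_le_mul h2 h3 (abs_nonneg _) hδ
      _ = δ := mul_one δ
  have h4 := norm_integral_le_of_norm_le_const hb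
  rw [Real.norm_eq_abs] at h4
  simpa using h4

theorem abs_integral_pot_sub_le [IsProbabilityMeasure ρ] (hKc : IsCompact K) (hρK : ρ Kᶜ = 0)
    (hS : S.Nonempty) {δ : ℝ} (h : ∀ y ∈ S, |ψ y - ψ' y| ≤ δ) :
    |∫ x, pot S ψ x ∂ρ - ∫ x, pot S ψ' x ∂ρ| ≤ δ := by
  have := abs_integral_pot_mul_sub_le (ρ := ρ) hKc hρK (g := fun _ => (1 : ℝ)) continuous_const
    (fun _ _ => by simp) hS h
  simpa using this

theorem abs_kant_sub_le [IsProbabilityMeasure ρ] (hKc : IsCompact K) (hρK : ρ Kᶜ = 0)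
    (hS : S.Nonempty) {δ : ℝ} (h : ∀ y ∈ S, |ψ y - ψ' y| ≤ δ) :
    |kant ρ μ S ψ - kant ρ μ S ψ'| ≤ (1 + ∑ a ∈ S, μ.real {a}) * δ := by
  have h1 := abs_integral_pot_sub_le (ρ := ρ) hKc hρK hS h
  have h2 : |∑ a ∈ S, μ.real {a} * ψ a - ∑ a ∈ S, μ.real {a} * ψ' a|
      ≤ (∑ a ∈ S, μ.real {a}) * δ := by
    rw [← Finset.sum_sub_distrib, Finset.sum_mul]
    refine (Finset.abs_sum_le_sum_abs _ _).trans (Finset.sum_le_sum fun a ha => ?_)
    rw [← mul_sub, abs_mul, abs_of_nonneg measureReal_nonneg]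
    exact mul_le_mul_of_nonneg_left (h a ha) measureReal_nonneg
  unfold kant
  have h3 : (∫ x, pot S ψ x ∂ρ + ∑ a ∈ S, μ.real {a} * ψ a)
      - (∫ x, pot S ψ' x ∂ρ + ∑ a ∈ S, μ.real {a} * ψ' a)
      = (∫ x, pot S ψ x ∂ρ - ∫ x, pot S ψ' x ∂ρ)
        + (∑ a ∈ S, μ.real {a} * ψ a - ∑ a ∈ S, μ.real {a} * ψ' a) := by ring
  rw [h3]
  refine (abs_add_le _ _).trans ?_
  linarith

/-- Potentials differing by a constant on `K` have the same integral against a mean-zero `g`. -/
theorem integral_mul_eq_of_sub_const [IsFiniteMeasure ρ] (hKc : IsCompact K) (hρK : ρ Kᶜ = 0)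
    {g : E d → ℝ} (hg : Continuous g) (hg0 : ∫ x, g x ∂ρ = 0) {f1 f2 : E d → ℝ}
    (hf2 : Continuous f2) {c : ℝ} (h : ∀ x ∈ K, f1 x = f2 x + c) :
    ∫ x, f1 x * g x ∂ρ = ∫ x, f2 x * g x ∂ρ := by
  have i2 : Integrable (fun x => f2 x * g x) ρ :=
    integrable_of_continuous hKc hρK (hf2.mul hg)
  have i3 : Integrable (fun x => c * g x) ρ := (integrable_of_continuous hKc hρK hg).const_mul c
  have h1 : ∫ x, f1 x * g x ∂ρ = ∫ x, (f2 x * g x + c * g x) ∂ρ := by
    apply integral_congr_ae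
    filter_upwards [ae_mem_of_compl hρK] with x hx
    rw [h x hx]; ring
  rw [h1, integral_add i2 i3, integral_const_mul, hg0, mul_zero, add_zero]

/-- The uniform probability measure on a convex body charges every open set meeting the body. -/
theorem uniformProbOn_pos_of_isOpen (hKc : IsCompact K) (hKv : Convex ℝ K)
    (hKi : (interior K).Nonempty) {U : Set (E d)} (hU : IsOpen U) (hUK : (U ∩ K).Nonempty) :
    0 < uniformProbOn K U := by
  obtain ⟨x, hxU, hxK⟩ := hUK
  have hcl : x ∈ closure (interior K) := by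
    rw [hKv.closure_interior_eq_closure_of_nonempty_interior hKi]
    exact subset_closure hxK
  obtain ⟨z, hzU, hzK⟩ := mem_closure_iff.1 hcl U hU hxU
  have hV : IsOpen (U ∩ interior K) := hU.inter isOpen_interior
  have hVpos : 0 < volume (U ∩ interior K) := hV.measure_pos volume ⟨z, hzU, hzK⟩
  have hle : volume (U ∩ interior K) ≤ volume (U ∩ K) :=
    measure_mono (Set.inter_subset_inter_right U interior_subset)
  unfold uniformProbOn
  rw [Measure.smul_apply, Measure.restrict_apply hU.measurableSet, smul_eq_mul]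
  exact ENNReal.mul_pos (ENNReal.inv_ne_zero.2 hKc.measure_lt_top.ne) (hVpos.trans_le hle).ne'

end quant

end Crest.Agent.S0109.Helper82
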