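import Mathlib
import Crest.Prelude.Def_QuadraticTransport
import Crest.Agent.Lib.S0109.Defs
import Crest.Agent.Lib.S0109.Basic
import Crest.Agent.Lib.S0109.Helper82Cont

/-! Row 82, package P6b: continuity of the discrete potentials as the perturbation of the source
tends to zero (helper82).  Auxiliary lemmas: `Crest.Agent.Lib.S0109.Helper82Cont`. -/

set_option autoImplicit false
open MeasureTheory Filter Topology
open scoped ENNReal NNReal
open Crest.AnalysisR.OT

namespace Crest.Agent.S0109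

/-- Continuity of the discrete potentials as the perturbation of the source tends to zero. -/
theorem tendsto_pot_integral {d : ℕ} (K : Set (E d)) (hKc : IsCompact K) (hKv : Convex ℝ K)
    (hKi : (interior K).Nonempty)
    (g : E d → ℝ) (hg : Continuous g) (hgb : ∀ x ∈ K, |g x| ≤ 1 / 2)
    (hg0 : ∫ x, g x ∂(uniformProbOn K) = 0)
    (μ : Measure (E d)) [IsProbabilityMeasure μ] (S : Finset (E d))
    (ψ0 : E d → ℝ) (T0 : E d → E d) (h0 : IsPotMap (uniformProbOn K) μ S ψ0 T0)
    (s : ℕ → ℝ) (hs : ∀ n, 0 < s n ∧ s n ≤ 1) (hs0 : Tendsto s atTop (𝓝 0))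
    (ψ : ℕ → E d → ℝ) (T : ℕ → E d → E d)
    (h : ∀ n, IsPotMap (srcG K (fun x => s n * g x)) μ S (ψ n) (T n)) :
    Tendsto (fun n => ∫ x, pot S (ψ n) x * g x ∂(uniformProbOn K)) atTop
      (𝓝 (∫ x, pot S ψ0 x * g x ∂(uniformProbOn K))) := by
  classical
  -- the sources
  have hρprob : IsProbabilityMeasure (uniformProbOn K) :=
    isProbabilityMeasure_uniformProbOn hKc hKi
  have hρK : uniformProbOn K Kᶜ = 0 := uniformProbOn_compl hKc
  have hgm : Measurable g := hg.measurable
  have hgn_meas : ∀ n, Measurable (fun x => s n * g x) := fun n => hgm.const_mul (s n)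
  have hgn_b : ∀ n, ∀ x ∈ K, |s n * g x| ≤ 1 / 2 := by
    intro n x hx
    rw [abs_mul, abs_of_pos (hs n).1]
    have h1 := hgb x hx
    have h2 : s n * |g x| ≤ 1 * |g x| := mul_le_mul_of_nonneg_right (hs n).2 (abs_nonneg _)
    linarith
  have hgn_0 : ∀ n, ∫ x, s n * g x ∂(uniformProbOn K) = 0 := by
    intro n; rw [integral_const_mul, hg0, mul_zero]
  have hρn_prob : ∀ n, IsProbabilityMeasure (srcG K (fun x => s n * g x)) := fun n =>
    isProbabilityMeasure_srcG hKc hKi (hgn_meas n) (hgn_b n) (hgn_0 n)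
  have hρn_K : ∀ n, srcG K (fun x => s n * g x) Kᶜ = 0 := fun n => srcG_compl hKc _
  have hgb1 : ∀ x ∈ K, |g x| ≤ 1 := fun x hx => (hgb x hx).trans (by norm_num)
  -- the sources charge open sets meeting `K`
  have hposρ : ∀ U : Set (E d), IsOpen U → (U ∩ K).Nonempty → 0 < uniformProbOn K U :=
    fun U hU hUK => Helper82.uniformProbOn_pos_of_isOpen hKc hKv hKi hU hUK
  have hposn : ∀ n, ∀ U : Set (E d), IsOpen U → (U ∩ K).Nonempty →
      0 < srcG K (fun x => s n * g x) U := by
    intro n U hU hUK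
    rw [pos_iff_ne_zero]
    intro hzero
    have := uniformProbOn_absolutelyContinuous_srcG hKc (hgn_meas n) (hgn_b n) hzero
    exact (hposρ U hU hUK).ne' this
  -- restriction to the atoms of positive mass
  set Sp : Finset (E d) := S.filter (fun y => μ {y} ≠ 0) with hSpdef
  have hSpS : Sp ⊆ S := Finset.filter_subset _ _
  have hSp' : ∀ y ∈ S, μ {y} ≠ 0 → y ∈ Sp := fun y hy hne => Finset.mem_filter.2 ⟨hy, hne⟩
  have hSp_pos : ∀ y ∈ Sp, μ {y} ≠ 0 := fun y hy => (Finset.mem_filter.1 hy).2
  have h0p : IsPotMap (uniformProbOn K) μ Sp ψ0 T0 := Helper82.potMap_filter_pos h0 Sp hSpS hSp'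
  have hp : ∀ n, IsPotMap (srcG K (fun x => s n * g x)) μ Sp (ψ n) (T n) := fun n =>
    Helper82.potMap_filter_pos (h n) Sp hSpS hSp'
  have hSp_ne : Sp.Nonempty := by
    obtain ⟨x, hx⟩ := (h0p.2.2).exists
    exact ⟨T0 x, hx.1⟩
  obtain ⟨y0, hy0⟩ := hSp_ne
  have hSp_ne : Sp.Nonempty := ⟨y0, hy0⟩
  -- bounds
  obtain ⟨R, hR⟩ := hKc.isBounded.exists_norm_le
  obtain ⟨M, hM⟩ := (Sp.finite_toSet.isBounded).exists_norm_le
  have hR0 : 0 ≤ R := by
    obtain ⟨x0, hx0⟩ := hKi
    exact (norm_nonneg x0).trans (hR x0 (interior_subset hx0))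
  have hRae : ∀ n, ∀ᵐ x ∂(srcG K (fun x => s n * g x)), ‖x‖ ≤ R := fun n => by
    filter_upwards [Helper82.ae_mem_of_compl (hρn_K n)] with x hx using hR x hx
  set B : ℝ := R * (2 * M) with hBdef
  have hdist : ∀ y ∈ Sp, ∀ z ∈ Sp, R * ‖y - z‖ ≤ B := by
    intro y hy z hz
    have h1 : ‖y - z‖ ≤ ‖y‖ + ‖z‖ := norm_sub_le y z
    have h2 := hM y (Finset.mem_coe.2 hy)
    have h3 := hM z (Finset.mem_coe.2 hz)
    exact mul_le_mul_of_nonneg_left (by linarith) hR0
  have hB0 : 0 ≤ B := by
    have := hdist y0 hy0 y0 hy0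
    simp only [sub_self, norm_zero, mul_zero] at this
    exact this
  -- normalised weights, as vectors indexed by the atoms of positive mass
  let ext : (Sp → ℝ) → E d → ℝ := fun v y => if hy : y ∈ Sp then v ⟨y, hy⟩ else 0
  have hext : ∀ (v : Sp → ℝ) (y : E d) (hy : y ∈ Sp), ext v y = v ⟨y, hy⟩ := by
    intro v y hy
    simp only [ext, dif_pos hy]
  let w : ℕ → Sp → ℝ := fun n y => ψ n y - ψ n y0
  have hwn : ∀ n, IsPotMap (srcG K (fun x => s n * g x)) μ Sp (ext (w n)) (T n) := fun n =>
    Helper82.potMap_congr_shift (hp n) (ψ n y0) (fun y hy => by rw [hext _ y hy])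
  have hwB : ∀ n, ‖w n‖ ≤ B := by
    intro n
    rw [pi_norm_le_iff_of_nonneg hB0]
    intro y
    rw [Real.norm_eq_abs, abs_sub_le_iff]
    constructor
    · exact (Helper82.potMap_weight_sub_le (hp n) (hRae n) (hSp_pos y y.2) hy0).trans
        (hdist y y.2 y0 hy0)
    · exact (Helper82.potMap_weight_sub_le (hp n) (hRae n) (hSp_pos y0 hy0) y.2).trans
        (hdist y0 hy0 y y.2)
  have hextdist : ∀ (v v' : Sp → ℝ), ∀ y ∈ Sp, |ext v y - ext v' y| ≤ dist v v' := by
    intro v v' y hy
    rw [hext v y hy, hext v' y hy, dist_eq_norm]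
    have := norm_le_pi_norm (v - v') ⟨y, hy⟩
    simpa [Real.norm_eq_abs] using this
  -- the integrals in terms of the normalised weights
  let I : (E d → ℝ) → ℝ := fun ψ' => ∫ x, pot Sp ψ' x * g x ∂(uniformProbOn K)
  have ha : ∀ n, ∫ x, pot S (ψ n) x * g x ∂(uniformProbOn K) = I (ext (w n)) := by
    intro n
    apply Helper82.integral_mul_eq_of_sub_const hKc hρK hg hg0 (continuous_pot Sp (ext (w n)))
      (c := -ψ n y0)
    intro x hx
    rw [Helper82.pot_eq_on_of_isPotMap (hposn n) (h n) (hp n) x hx,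
      Helper82.pot_congr (S := Sp) (ψ := ext (w n)) (ψ' := fun y => ψ n y - ψ n y0)
        (fun y hy => by rw [hext _ y hy]) x,
      Helper82.pot_sub_const hSp_ne]
    ring
  have hL : ∫ x, pot S ψ0 x * g x ∂(uniformProbOn K) = I ψ0 := by
    apply Helper82.integral_mul_eq_of_sub_const hKc hρK hg hg0 (continuous_pot Sp ψ0) (c := 0)
    intro x hx
    rw [Helper82.pot_eq_on_of_isPotMap hposρ h0 h0p x hx, add_zero]
  -- Lipschitz dependence on the weight vector
  have hIlip : LipschitzWith 1 (fun v : Sp → ℝ => I (ext v)) := by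
    apply LipschitzWith.of_dist_le_mul
    intro v v'
    rw [Real.dist_eq, NNReal.coe_one, one_mul]
    exact Helper82.abs_integral_pot_mul_sub_le hKc hρK hg hgb1 hSp_ne (hextdist v v')
  set m : ℝ := ∑ a ∈ Sp, μ.real {a} with hmdef
  have hm0 : 0 ≤ m := Finset.sum_nonneg fun a _ => measureReal_nonneg
  have hKlip : LipschitzWith (Real.toNNReal (1 + m))
      (fun v : Sp → ℝ => Helper82.kant (uniformProbOn K) μ Sp (ext v)) := by
    apply LipschitzWith.of_dist_le_mul
    intro v v'
    rw [Real.dist_eq, Real.coe_toNNReal _ (by linarith)]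
    exact Helper82.abs_kant_sub_le hKc hρK hSp_ne (hextdist v v')
  -- the Kantorovich functional of the perturbed source
  have hkant_n : ∀ n (ψ' : E d → ℝ),
      Helper82.kant (srcG K (fun x => s n * g x)) μ Sp ψ'
        = Helper82.kant (uniformProbOn K) μ Sp ψ' + s n * I ψ' := by
    intro n ψ'
    unfold Helper82.kant
    have i1 : Integrable (fun x => pot Sp ψ' x) (uniformProbOn K) :=
      Helper82.integrable_of_continuous hKc hρK (continuous_pot Sp ψ')
    have i2 : Integrable (fun x => s n * (pot Sp ψ' x * g x)) (uniformProbOn K) :=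
      (Helper82.integrable_of_continuous hKc hρK ((continuous_pot Sp ψ').mul hg)).const_mul (s n)
    have e1 : ∫ x, pot Sp ψ' x ∂(srcG K (fun x => s n * g x))
        = ∫ x, (pot Sp ψ' x + s n * (pot Sp ψ' x * g x)) ∂(uniformProbOn K) := by
      rw [integral_srcG hKc (hgn_meas n) (hgn_b n) (pot Sp ψ')]
      apply integral_congr_ae
      refine Eventually.of_forall fun x => ?_
      simp only [smul_eq_mul]
      ring
    rw [e1, integral_add i1 i2, integral_const_mul]
    ring
  -- uniform bound on the first-order term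
  set C1 : ℝ := |I ψ0| + |I (ext 0)| + B with hC1def
  have hstep : ∀ n, Helper82.kant (uniformProbOn K) μ Sp (ext (w n))
      ≤ Helper82.kant (uniformProbOn K) μ Sp ψ0 + s n * C1 := by
    intro n
    have := hρn_prob n
    have h1 := Helper82.kant_le hKc (hρn_K n) (hwn n) ψ0
    rw [hkant_n n (ext (w n)), hkant_n n ψ0] at h1
    have h2 : |I (ext (w n)) - I (ext 0)| ≤ B := by
      apply Helper82.abs_integral_pot_mul_sub_le hKc hρK hg hgb1 hSp_ne
      intro y hy
      rw [hext _ y hy, hext _ y hy]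
      have := norm_le_pi_norm (w n) ⟨y, hy⟩
      simp only [Pi.zero_apply, sub_zero]
      rw [Real.norm_eq_abs] at this
      exact this.trans (hwB n)
    have h3 := (abs_sub_le_iff.1 h2).2
    have h4 := le_abs_self (I ψ0)
    have h5 := neg_abs_le (I (ext 0))
    have h6 : I ψ0 - I (ext (w n)) ≤ C1 := by rw [hC1def]; linarith
    have h7 : s n * (I ψ0 - I (ext (w n))) ≤ s n * C1 :=
      mul_le_mul_of_nonneg_left h6 (hs n).1.le
    linarith
  -- subsequence argument
  apply tendsto_of_subseq_tendsto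
  intro ns hns
  have hcpt : IsCompact (Metric.closedBall (0 : Sp → ℝ) B) := isCompact_closedBall 0 B
  obtain ⟨v, -, φ, hφ, hv⟩ := hcpt.tendsto_subseq (x := fun k => w (ns k))
    (fun k => by rw [mem_closedBall_zero_iff]; exact hwB (ns k))
  refine ⟨φ, ?_⟩
  have hnsφ : Tendsto (fun k => ns (φ k)) atTop atTop := hns.comp hφ.tendsto_atTop
  -- the limit weights minimise the Kantorovich functional of the unperturbed source
  have hA : Helper82.kant (uniformProbOn K) μ Sp (ext v)
      ≤ Helper82.kant (uniformProbOn K) μ Sp ψ0 := by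
    have hl : Tendsto (fun k => Helper82.kant (uniformProbOn K) μ Sp (ext (w (ns (φ k))))) atTop
        (𝓝 (Helper82.kant (uniformProbOn K) μ Sp (ext v))) :=
      (hKlip.continuous.tendsto v).comp hv
    have hr : Tendsto (fun k => Helper82.kant (uniformProbOn K) μ Sp ψ0 + s (ns (φ k)) * C1) atTop
        (𝓝 (Helper82.kant (uniformProbOn K) μ Sp ψ0 + 0 * C1)) :=
      tendsto_const_nhds.add ((hs0.comp hnsφ).mul_const C1)
    have := le_of_tendsto_of_tendsto' hl hr (fun k => hstep (ns (φ k)))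
    simpa using this
  -- hence the limit potential differs from the Laguerre potential by a constant on `K`
  obtain ⟨c, hc⟩ := Helper82.pot_sub_pot_const hKc hρK hKv.isPreconnected hposρ h0p (ext v) hA
  have hIv : I (ext v) = I ψ0 := by
    apply Helper82.integral_mul_eq_of_sub_const hKc hρK hg hg0 (continuous_pot Sp ψ0) (c := c)
    intro x hx
    have := hc x hx
    linarith
  -- conclusion
  have hfinal : Tendsto (fun k => I (ext (w (ns (φ k))))) atTop (𝓝 (I (ext v))) :=
    (hIlip.continuous.tendsto v).comp hv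
  rw [hL, ← hIv]
  refine hfinal.congr (fun k => ?_)
  exact (ha (ns (φ k))).symm

end Crest.Agent.S0109
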