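import Mathlib

/-!
# Row 82 / S0109, helper89: the one-dimensional Gagliardo–Nirenberg step for convex functions

For convex `L`-Lipschitz `U V : ℝ → ℝ` with right derivatives `p`, `q`:
`(∫_a^b (p - q)^2)^3 ≤ 8192 * L^4 * ∫_a^b (U - V)^2`.

The proof uses forward difference quotients only (no integration by parts for BV functions):
a "continuous Abel summation" gives `∫_a^b (dq U h - dq V h)^2 ≤ 8 L (sup |U - V| + 2 L h)`,
then `h → 0+` by dominated convergence, and finally a Lipschitz lower bound for `∫ (U - V)^2`.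
-/

set_option autoImplicit false
open MeasureTheory Set Filter Topology
open scoped NNReal ENNReal

namespace Crest.Agent.S0109.Helper89

/-- forward difference quotient -/
noncomputable def dq (U : ℝ → ℝ) (h x : ℝ) : ℝ := (U (x + h) - U x) / h

theorem dq_mono {U : ℝ → ℝ} (hU : ConvexOn ℝ univ U) {h : ℝ} (hh : 0 < h) :
    Monotone (dq U h) := by
  intro x y hxy
  unfold dq
  rcases hxy.eq_or_lt with rfl | hlt
  · exact le_rfl
  have hD : 0 < y + h - x := by linarith
  obtain ⟨θ, hθ⟩ : ∃ θ : ℝ, θ = h / (y + h - x) := ⟨_, rfl⟩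
  have hθD : θ * (y + h - x) = h := by rw [hθ]; field_simp
  have hθ0 : 0 ≤ θ := by rw [hθ]; positivity
  have hθ1 : θ ≤ 1 := by rw [hθ, div_le_one hD]; linarith
  have h1 : U (x + h) ≤ (1 - θ) * U x + θ * U (y + h) := by
    have := hU.2 (mem_univ x) (mem_univ (y + h)) (by linarith : 0 ≤ 1 - θ) hθ0 (by ring)
    have e : (1 - θ) • x + θ • (y + h) = x + h := by
      simp only [smul_eq_mul]; linear_combination hθD
    rw [e] at this; simpa using this
  have h2 : U y ≤ θ * U x + (1 - θ) * U (y + h) := by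
    have := hU.2 (mem_univ x) (mem_univ (y + h)) hθ0 (by linarith : 0 ≤ 1 - θ) (by ring)
    have e : θ • x + (1 - θ) • (y + h) = y := by
      simp only [smul_eq_mul]; linear_combination (-1 : ℝ) * hθD
    rw [e] at this; simpa using this
  rw [div_le_div_iff_of_pos_right hh]
  linarith

theorem dq_abs_le {U : ℝ → ℝ} {L : ℝ≥0} (hUL : LipschitzWith L U) {h : ℝ} (hh : 0 < h)
    (x : ℝ) : |dq U h x| ≤ L := by
  unfold dq
  rw [abs_div, abs_of_pos hh, div_le_iff₀ hh]
  have := hUL.dist_le_mul (x + h) x
  rw [Real.dist_eq, Real.dist_eq] at this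
  simpa [abs_of_pos hh] using this

theorem dq_continuous {U : ℝ → ℝ} (hU : Continuous U) (h : ℝ) : Continuous (dq U h) := by
  unfold dq; fun_prop

theorem dq_tendsto {U : ℝ → ℝ} (hU : ConvexOn ℝ univ U) (x : ℝ) :
    Tendsto (fun h => dq U h x) (𝓝[>] 0) (𝓝 (derivWithin U (Ioi x) x)) := by
  have h1 : HasDerivWithinAt U (derivWithin U (Ioi x) x) (Ioi x) x :=
    hU.hasDerivWithinAt_rightDeriv_of_mem_interior (by simp)
  rw [hasDerivWithinAt_iff_tendsto_slope] at h1
  have h2 : Tendsto (fun h : ℝ => x + h) (𝓝[>] 0) (𝓝[Ioi x \ {x}] x) := by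
    apply tendsto_nhdsWithin_of_tendsto_nhds_of_eventually_within
    · have : Tendsto (fun h : ℝ => x + h) (𝓝 0) (𝓝 (x + 0)) :=
        (continuous_const.add continuous_id).tendsto 0
      simpa using this.mono_left nhdsWithin_le_nhds
    · filter_upwards [self_mem_nhdsWithin] with h hh
      have hh' : (0:ℝ) < h := hh
      refine ⟨by simp [hh'], ?_⟩
      simp only [mem_singleton_iff]
      intro hx; linarith
  have h3 := h1.comp h2
  refine h3.congr (fun h => ?_)
  simp [dq, slope_def_field]

theorem rightDeriv_abs_le {U : ℝ → ℝ} {L : ℝ≥0} (hU : ConvexOn ℝ univ U)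
    (hUL : LipschitzWith L U) (x : ℝ) : |derivWithin U (Ioi x) x| ≤ L := by
  refine le_of_tendsto (dq_tendsto hU x).abs ?_
  filter_upwards [self_mem_nhdsWithin] with h hh
  exact dq_abs_le hUL hh x

/-- continuous Abel summation against a monotone continuous weight -/
theorem h89_key {w f : ℝ → ℝ} {L M a b h : ℝ} (hw : Monotone w) (hwc : Continuous w)
    (hfc : Continuous f) (hwL : ∀ x, |w x| ≤ L) (hM : ∀ x ∈ Icc a b, |f x| ≤ M) (hh : 0 < h)
    (h2 : 2 * h ≤ b - a) :
    |∫ x in a..(b - h), w x * (f (x + h) - f x)| ≤ 4 * L * M * h := by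
  have hL0 : 0 ≤ L := (abs_nonneg _).trans (hwL 0)
  have hM0 : 0 ≤ M := (abs_nonneg _).trans (hM a ⟨le_rfl, by linarith⟩)
  have hwf : Continuous (fun x => w x * f x) := hwc.mul hfc
  have hws : Continuous (fun x => w (x - h)) := hwc.comp (continuous_id.sub continuous_const)
  have hwsf : Continuous (fun x => w (x - h) * f x) := hws.mul hfc
  have e1 : ∫ x in a..(b - h), w x * (f (x + h) - f x)
      = (∫ x in (a + h)..b, w (x - h) * f x) - ∫ x in a..(b - h), w x * f x := by
    have t : ∫ x in a..(b - h), w x * f (x + h) = ∫ x in (a + h)..b, w (x - h) * f x := by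
      have := intervalIntegral.integral_comp_add_right (a := a) (b := b - h)
        (fun x => w (x - h) * f x) h
      simp only [add_sub_cancel_right, sub_add_cancel] at this
      exact this
    rw [← t, ← intervalIntegral.integral_sub]
    · congr 1; ext x; ring
    · exact (hwc.mul (hfc.comp (continuous_id.add continuous_const))).intervalIntegrable _ _
    · exact hwf.intervalIntegrable _ _
  have e2 : ∫ x in (a + h)..b, w (x - h) * f x
      = (∫ x in (a + h)..(b - h), w (x - h) * f x) + ∫ x in (b - h)..b, w (x - h) * f x :=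
    (intervalIntegral.integral_add_adjacent_intervals (hwsf.intervalIntegrable _ _)
      (hwsf.intervalIntegrable _ _)).symm
  have e3 : ∫ x in a..(b - h), w x * f x
      = (∫ x in a..(a + h), w x * f x) + ∫ x in (a + h)..(b - h), w x * f x :=
    (intervalIntegral.integral_add_adjacent_intervals (hwf.intervalIntegrable _ _)
      (hwf.intervalIntegrable _ _)).symm
  have e4 : (∫ x in (a + h)..(b - h), w (x - h) * f x) - ∫ x in (a + h)..(b - h), w x * f x
      = ∫ x in (a + h)..(b - h), (w (x - h) - w x) * f x := by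
    rw [← intervalIntegral.integral_sub (hwsf.intervalIntegrable _ _)
      (hwf.intervalIntegrable _ _)]
    congr 1; ext x; ring
  have b1 : |∫ x in (b - h)..b, w (x - h) * f x| ≤ L * M * h := by
    have := intervalIntegral.norm_integral_le_of_norm_le_const (a := b - h) (b := b)
      (C := L * M) (f := fun x => w (x - h) * f x) ?_
    · simpa [abs_of_pos hh] using this
    · intro x hx
      rw [uIoc_of_le (by linarith)] at hx
      rw [Real.norm_eq_abs, abs_mul]
      exact mul_le_mul (hwL _) (hM x ⟨by linarith [hx.1], hx.2⟩) (abs_nonneg _) hL0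
  have b2 : |∫ x in a..(a + h), w x * f x| ≤ L * M * h := by
    have := intervalIntegral.norm_integral_le_of_norm_le_const (a := a) (b := a + h)
      (C := L * M) (f := fun x => w x * f x) ?_
    · simpa [abs_of_pos hh] using this
    · intro x hx
      rw [uIoc_of_le (by linarith)] at hx
      rw [Real.norm_eq_abs, abs_mul]
      exact mul_le_mul (hwL _) (hM x ⟨by linarith [hx.1], by linarith [hx.2]⟩) (abs_nonneg _) hL0
  have b3 : |∫ x in (a + h)..(b - h), (w (x - h) - w x) * f x| ≤ 2 * L * M * h := by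
    have hab' : a + h ≤ b - h := by linarith
    have hg : Continuous (fun x => M * (w x - w (x - h))) :=
      continuous_const.mul (hwc.sub hws)
    have s1 : ‖∫ x in (a + h)..(b - h), (w (x - h) - w x) * f x‖
        ≤ ∫ x in (a + h)..(b - h), M * (w x - w (x - h)) := by
      apply intervalIntegral.norm_integral_le_of_norm_le hab' _ (hg.intervalIntegrable _ _)
      refine Filter.Eventually.of_forall (fun x hx => ?_)
      have hmono : 0 ≤ w x - w (x - h) := sub_nonneg.mpr (hw (by linarith))
      rw [Real.norm_eq_abs, abs_mul, abs_sub_comm, abs_of_nonneg hmono, mul_comm]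
      exact mul_le_mul_of_nonneg_right (hM x ⟨by linarith [hx.1], by linarith [hx.2]⟩) hmono
    have s2 : ∫ x in (a + h)..(b - h), M * (w x - w (x - h))
        = M * ((∫ x in (b - 2 * h)..(b - h), w x) - ∫ x in a..(a + h), w x) := by
      rw [intervalIntegral.integral_const_mul,
        intervalIntegral.integral_sub (hwc.intervalIntegrable _ _) (hws.intervalIntegrable _ _)]
      congr 1
      have t : ∫ x in (a + h)..(b - h), w (x - h) = ∫ x in a..(b - 2 * h), w x := by
        have := intervalIntegral.integral_comp_sub_right (a := a + h) (b := b - h) w h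
        simp only [add_sub_cancel_right] at this
        rw [this]; congr 1; ring
      rw [t]
      have u1 := intervalIntegral.integral_add_adjacent_intervals
        (hwc.intervalIntegrable (μ := volume) a (a + h))
        (hwc.intervalIntegrable (μ := volume) (a + h) (b - h))
      have u2 := intervalIntegral.integral_add_adjacent_intervals
        (hwc.intervalIntegrable (μ := volume) a (b - 2 * h))
        (hwc.intervalIntegrable (μ := volume) (b - 2 * h) (b - h))
      linarith
    have s3 : |∫ x in (b - 2 * h)..(b - h), w x| ≤ L * h := by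
      have := intervalIntegral.norm_integral_le_of_norm_le_const (a := b - 2 * h) (b := b - h)
        (C := L) (f := w) (fun x _ => by simpa using hwL x)
      have e : |b - h - (b - 2 * h)| = h := by
        rw [show b - h - (b - 2 * h) = h by ring, abs_of_pos hh]
      rw [e] at this
      simpa using this
    have s4 : |∫ x in a..(a + h), w x| ≤ L * h := by
      have := intervalIntegral.norm_integral_le_of_norm_le_const (a := a) (b := a + h)
        (C := L) (f := w) (fun x _ => by simpa using hwL x)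
      have e : |a + h - a| = h := by
        rw [show a + h - a = h by ring, abs_of_pos hh]
      rw [e] at this
      simpa using this
    rw [Real.norm_eq_abs] at s1
    calc |∫ x in (a + h)..(b - h), (w (x - h) - w x) * f x|
        ≤ ∫ x in (a + h)..(b - h), M * (w x - w (x - h)) := s1
      _ = M * ((∫ x in (b - 2 * h)..(b - h), w x) - ∫ x in a..(a + h), w x) := s2
      _ ≤ M * (L * h + L * h) := by
          apply mul_le_mul_of_nonneg_left _ hM0
          have := abs_le.mp s3; have := abs_le.mp s4; linarith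
      _ = 2 * L * M * h := by ring
  rw [e1, e2, e3]
  have e5 : (∫ x in (a + h)..(b - h), w (x - h) * f x) + (∫ x in (b - h)..b, w (x - h) * f x)
      - ((∫ x in a..(a + h), w x * f x) + ∫ x in (a + h)..(b - h), w x * f x)
      = (∫ x in (a + h)..(b - h), (w (x - h) - w x) * f x)
        + (∫ x in (b - h)..b, w (x - h) * f x) - ∫ x in a..(a + h), w x * f x := by
    rw [← e4]; ring
  rw [e5]
  have := abs_le.mp b1; have := abs_le.mp b2; have := abs_le.mp b3
  rw [abs_le]; constructor <;> linarith

theorem h89_energy_dq {U V : ℝ → ℝ} {L : ℝ≥0} (hU : ConvexOn ℝ univ U)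
    (hV : ConvexOn ℝ univ V) (hUL : LipschitzWith L U) (hVL : LipschitzWith L V)
    {a b M h : ℝ} (hM : ∀ x ∈ Icc a b, |U x - V x| ≤ M) (hh : 0 < h) (h2 : 2 * h ≤ b - a) :
    ∫ x in a..(b - h), (dq U h x - dq V h x) ^ 2 ≤ 8 * L * M := by
  have hfc : Continuous (fun x => U x - V x) := hUL.continuous.sub hVL.continuous
  have kU := h89_key (f := fun x => U x - V x) (dq_mono hU hh) (dq_continuous hUL.continuous h)
    hfc (dq_abs_le hUL hh) hM hh h2
  have kV := h89_key (f := fun x => U x - V x) (dq_mono hV hh) (dq_continuous hVL.continuous h)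
    hfc (dq_abs_le hVL hh) hM hh h2
  have hshift : Continuous (fun x => (U (x + h) - V (x + h)) - (U x - V x)) :=
    (hfc.comp (continuous_id.add continuous_const)).sub hfc
  have e : ∫ x in a..(b - h), (dq U h x - dq V h x) ^ 2
      = (1 / h) * ((∫ x in a..(b - h), dq U h x * ((U (x + h) - V (x + h)) - (U x - V x)))
        - ∫ x in a..(b - h), dq V h x * ((U (x + h) - V (x + h)) - (U x - V x))) := by
    rw [← intervalIntegral.integral_sub, ← intervalIntegral.integral_const_mul]
    · congr 1; ext x; unfold dq; field_simp; ring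
    · exact ((dq_continuous hUL.continuous h).mul hshift).intervalIntegrable _ _
    · exact ((dq_continuous hVL.continuous h).mul hshift).intervalIntegrable _ _
  rw [e]
  have := abs_le.mp kU; have := abs_le.mp kV
  rw [one_div, inv_mul_le_iff₀ hh]
  linarith

theorem h89_energy {U V : ℝ → ℝ} {L : ℝ≥0} (hU : ConvexOn ℝ univ U)
    (hV : ConvexOn ℝ univ V) (hUL : LipschitzWith L U) (hVL : LipschitzWith L V)
    {a b M : ℝ} (hab : a ≤ b) (hM : ∀ x ∈ Icc a b, |U x - V x| ≤ M) :
    ∫ x in a..b, (derivWithin U (Ioi x) x - derivWithin V (Ioi x) x) ^ 2 ≤ 8 * L * M := by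
  have hM0 : 0 ≤ M := (abs_nonneg _).trans (hM a ⟨le_rfl, hab⟩)
  have hL0 : (0:ℝ) ≤ L := L.2
  rcases hab.eq_or_lt with rfl | hlt
  · simp only [intervalIntegral.integral_same]; positivity
  have hMh : ∀ h : ℝ, 0 < h → ∀ x ∈ Icc a (b + h), |U x - V x| ≤ M + 2 * L * h := by
    intro h hh x hx
    by_cases hxb : x ≤ b
    · have := hM x ⟨hx.1, hxb⟩
      have : 0 ≤ 2 * (L:ℝ) * h := by positivity
      linarith
    · rw [not_le] at hxb
      have hb := hM b ⟨hlt.le, le_rfl⟩
      have d1 := hUL.dist_le_mul x b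
      have d2 := hVL.dist_le_mul x b
      rw [Real.dist_eq, Real.dist_eq] at d1 d2
      have hxb' : |x - b| ≤ h := by rw [abs_of_pos (by linarith)]; linarith [hx.2]
      have d1' : |U x - U b| ≤ L * h := d1.trans (mul_le_mul_of_nonneg_left hxb' hL0)
      have d2' : |V x - V b| ≤ L * h := d2.trans (mul_le_mul_of_nonneg_left hxb' hL0)
      have e : U x - V x = (U b - V b) + (U x - U b) - (V x - V b) := by ring
      rw [e]
      calc |(U b - V b) + (U x - U b) - (V x - V b)|
          ≤ |(U b - V b) + (U x - U b)| + |V x - V b| := abs_sub _ _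
        _ ≤ |U b - V b| + |U x - U b| + |V x - V b| := by
            gcongr; exact abs_add_le _ _
        _ ≤ M + 2 * L * h := by linarith
  have T1 : Tendsto (fun h => ∫ x in a..b, (dq U h x - dq V h x) ^ 2) (𝓝[>] 0)
      (𝓝 (∫ x in a..b, (derivWithin U (Ioi x) x - derivWithin V (Ioi x) x) ^ 2)) := by
    apply intervalIntegral.tendsto_integral_filter_of_dominated_convergence
      (fun _ => (2 * (L:ℝ)) ^ 2)
    · exact Filter.Eventually.of_forall fun h =>
        (((dq_continuous hUL.continuous h).sub (dq_continuous hVL.continuous h)).pow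
          2).aestronglyMeasurable
    · filter_upwards [self_mem_nhdsWithin] with h hh
      refine Filter.Eventually.of_forall fun x _ => ?_
      have h1 := dq_abs_le hUL hh x
      have h2 := dq_abs_le hVL hh x
      rw [Real.norm_eq_abs, abs_pow]
      apply pow_le_pow_left₀ (abs_nonneg _)
      calc |dq U h x - dq V h x| ≤ |dq U h x| + |dq V h x| := abs_sub _ _
        _ ≤ 2 * L := by linarith
    · exact intervalIntegrable_const
    · refine Filter.Eventually.of_forall fun x _ => ?_
      exact ((dq_tendsto hU x).sub (dq_tendsto hV x)).pow 2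
  have T3 : Tendsto (fun h : ℝ => 8 * (L:ℝ) * (M + 2 * L * h)) (𝓝[>] 0) (𝓝 (8 * L * M)) := by
    have hc : Continuous (fun h : ℝ => 8 * (L:ℝ) * (M + 2 * L * h)) := by fun_prop
    have := (hc.tendsto 0).mono_left (nhdsWithin_le_nhds (s := Ioi (0:ℝ)))
    simpa using this
  have T2 : ∀ᶠ h in 𝓝[>] (0:ℝ), ∫ x in a..b, (dq U h x - dq V h x) ^ 2
      ≤ 8 * (L:ℝ) * (M + 2 * L * h) := by
    have hev : ∀ᶠ h in 𝓝[>] (0:ℝ), h < b - a :=
      (eventually_lt_nhds (by linarith)).filter_mono nhdsWithin_le_nhds
    filter_upwards [self_mem_nhdsWithin, hev] with h hh hlt'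
    have := h89_energy_dq hU hV hUL hVL (a := a) (b := b + h) (hMh h hh) hh (by linarith)
    simpa using this
  exact le_of_tendsto_of_tendsto T1 T3 T2

/-- **1-D Gagliardo–Nirenberg for convex functions**, cubed form. -/
theorem h89_oneD {U V : ℝ → ℝ} {L : ℝ≥0} (hU : ConvexOn ℝ univ U)
    (hV : ConvexOn ℝ univ V) (hUL : LipschitzWith L U) (hVL : LipschitzWith L V)
    {a b : ℝ} (hab : a ≤ b) :
    (∫ x in a..b, (derivWithin U (Ioi x) x - derivWithin V (Ioi x) x) ^ 2) ^ 3
      ≤ 8192 * (L:ℝ) ^ 4 * ∫ x in a..b, (U x - V x) ^ 2 := by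
  obtain ⟨I, hI⟩ : ∃ I : ℝ,
      I = ∫ x in a..b, (derivWithin U (Ioi x) x - derivWithin V (Ioi x) x) ^ 2 := ⟨_, rfl⟩
  obtain ⟨J, hJ⟩ : ∃ J : ℝ, J = ∫ x in a..b, (U x - V x) ^ 2 := ⟨_, rfl⟩
  rw [← hI, ← hJ]
  have hfc : Continuous (fun x => U x - V x) := hUL.continuous.sub hVL.continuous
  have hf2c : Continuous (fun x => (U x - V x) ^ 2) := hfc.pow 2
  have hI0 : 0 ≤ I := by
    rw [hI]; exact intervalIntegral.integral_nonneg hab (fun x _ => sq_nonneg _)
  have hJ0 : 0 ≤ J := by
    rw [hJ]; exact intervalIntegral.integral_nonneg hab (fun x _ => sq_nonneg _)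
  have hL0 : (0:ℝ) ≤ L := L.2
  obtain ⟨x0, hx0, hmax⟩ := isCompact_Icc.exists_isMaxOn (nonempty_Icc.mpr hab)
    (continuous_abs.comp hfc).continuousOn
  obtain ⟨M, hMdef⟩ : ∃ M : ℝ, M = |U x0 - V x0| := ⟨_, rfl⟩
  have hM : ∀ x ∈ Icc a b, |U x - V x| ≤ M := fun x hx => by rw [hMdef]; exact hmax hx
  have hM0 : 0 ≤ M := by rw [hMdef]; exact abs_nonneg _
  have hE : I ≤ 8 * L * M := by rw [hI]; exact h89_energy hU hV hUL hVL hab hM
  have hLip : ∀ x, M - 2 * L * |x - x0| ≤ |U x - V x| := by
    intro x
    have d1 := hUL.dist_le_mul x x0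
    have d2 := hVL.dist_le_mul x x0
    rw [Real.dist_eq, Real.dist_eq] at d1 d2
    have : |U x0 - V x0| ≤ |U x - V x| + |U x - U x0| + |V x - V x0| := by
      have e : U x0 - V x0 = (U x - V x) - (U x - U x0) + (V x - V x0) := by ring
      rw [e]
      calc |(U x - V x) - (U x - U x0) + (V x - V x0)|
          ≤ |(U x - V x) - (U x - U x0)| + |V x - V x0| := abs_add_le _ _
        _ ≤ |U x - V x| + |U x - U x0| + |V x - V x0| := by
            gcongr; exact abs_sub _ _
    rw [hMdef]; linarith
  rcases eq_or_lt_of_le hL0 with hL | hL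
  · have h1 : I ≤ 0 := by rw [← hL] at hE; simpa using hE
    have hI' : I = 0 := le_antisymm h1 hI0
    rw [hI', ← hL]; simp
  obtain ⟨δ, hδ⟩ : ∃ δ : ℝ, δ = M / (4 * L) := ⟨_, rfl⟩
  have hδ0 : 0 ≤ δ := by rw [hδ]; positivity
  have hδL : 4 * L * δ = M := by rw [hδ]; field_simp
  by_cases hcase : δ ≤ b - a
  · obtain ⟨c, hc⟩ : ∃ c : ℝ, c = min x0 (b - δ) := ⟨_, rfl⟩
    have hca : a ≤ c := by rw [hc]; exact le_min hx0.1 (by linarith)
    have hcx : c ≤ x0 := by rw [hc]; exact min_le_left _ _
    have hcb : c + δ ≤ b := by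
      have := min_le_right x0 (b - δ); rw [← hc] at this; linarith
    have hxc : x0 ≤ c + δ := by
      rcases min_choice x0 (b - δ) with h | h <;> rw [hc, h] <;> linarith [hx0.2]
    have lower : δ * (M / 2) ^ 2 ≤ ∫ x in c..(c + δ), (U x - V x) ^ 2 := by
      have h1 : ∫ x in c..(c + δ), (M / 2) ^ 2 ≤ ∫ x in c..(c + δ), (U x - V x) ^ 2 := by
        apply intervalIntegral.integral_mono_on (by linarith) intervalIntegrable_const
          (hf2c.intervalIntegrable _ _)
        intro x hx
        have hxx : |x - x0| ≤ δ := by rw [abs_le]; constructor <;> linarith [hx.1, hx.2]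
        have h1 := hLip x
        have h2 : M / 2 ≤ |U x - V x| := by nlinarith
        calc (M / 2) ^ 2 ≤ |U x - V x| ^ 2 := pow_le_pow_left₀ (by positivity) h2 2
          _ = (U x - V x) ^ 2 := sq_abs _
      have e : ∫ x in c..(c + δ), (M / 2) ^ 2 = δ * (M / 2) ^ 2 := by simp
      linarith
    have mono : ∫ x in c..(c + δ), (U x - V x) ^ 2 ≤ J := by
      rw [hJ]
      apply intervalIntegral.integral_mono_interval hca (by linarith) hcb
      · exact Filter.Eventually.of_forall (fun x => sq_nonneg _)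
      · exact hf2c.intervalIntegrable _ _
    have hJM : M ^ 3 ≤ 16 * L * J := by
      have h1 : δ * (M / 2) ^ 2 ≤ J := lower.trans mono
      calc M ^ 3 = 16 * L * (δ * (M / 2) ^ 2) := by rw [← hδL]; ring
        _ ≤ 16 * L * J := by gcongr
    calc I ^ 3 ≤ (8 * L * M) ^ 3 := pow_le_pow_left₀ hI0 hE 3
      _ = 512 * L ^ 3 * M ^ 3 := by ring
      _ ≤ 512 * L ^ 3 * (16 * L * J) := by gcongr
      _ = 8192 * (L:ℝ) ^ 4 * J := by ring
  · rw [not_le] at hcase
    have hI2 : I ≤ (2 * L) ^ 2 * (b - a) := by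
      have := intervalIntegral.norm_integral_le_of_norm_le_const (a := a) (b := b)
        (C := (2 * (L:ℝ)) ^ 2)
        (f := fun x => (derivWithin U (Ioi x) x - derivWithin V (Ioi x) x) ^ 2) ?_
      · rw [Real.norm_eq_abs, abs_of_nonneg (sub_nonneg.mpr hab)] at this
        rw [hI]; exact (le_abs_self _).trans this
      · intro x _
        have h1 := rightDeriv_abs_le hU hUL x
        have h2 := rightDeriv_abs_le hV hVL x
        rw [Real.norm_eq_abs, abs_pow]
        apply pow_le_pow_left₀ (abs_nonneg _)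
        calc |derivWithin U (Ioi x) x - derivWithin V (Ioi x) x|
            ≤ |derivWithin U (Ioi x) x| + |derivWithin V (Ioi x) x| := abs_sub _ _
          _ ≤ 2 * L := by linarith
    have hlow : 4 * L ^ 2 * (b - a) ^ 3 ≤ J := by
      have h1 : ∫ x in a..b, (2 * (L:ℝ) * (b - a)) ^ 2 ≤ ∫ x in a..b, (U x - V x) ^ 2 := by
        apply intervalIntegral.integral_mono_on hab intervalIntegrable_const
          (hf2c.intervalIntegrable _ _)
        intro x hx
        have hxx : |x - x0| ≤ b - a := by
          rw [abs_le]; constructor <;> linarith [hx.1, hx.2, hx0.1, hx0.2]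
        have h1 := hLip x
        have h2 : 2 * L * (b - a) ≤ |U x - V x| := by nlinarith
        calc (2 * (L:ℝ) * (b - a)) ^ 2 ≤ |U x - V x| ^ 2 :=
              pow_le_pow_left₀ (by nlinarith) h2 2
          _ = (U x - V x) ^ 2 := sq_abs _
      have e : ∫ x in a..b, (2 * (L:ℝ) * (b - a)) ^ 2 = 4 * L ^ 2 * (b - a) ^ 3 := by
        simp; ring
      rw [hJ]; linarith
    have hba : 0 ≤ b - a := sub_nonneg.mpr hab
    calc I ^ 3 ≤ ((2 * L) ^ 2 * (b - a)) ^ 3 := pow_le_pow_left₀ hI0 hI2 3
      _ = 16 * L ^ 4 * (4 * L ^ 2 * (b - a) ^ 3) := by ring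
      _ ≤ 16 * L ^ 4 * J := by gcongr
      _ ≤ 8192 * (L:ℝ) ^ 4 * J := by
          have : 0 ≤ (L:ℝ) ^ 4 * J := by positivity
          linarith

end Crest.Agent.S0109.Helper89
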