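import Mathlib
import Crest.Agent.Lib.S0109.Defs
import Crest.Agent.Lib.S0109.Helper89GN1D

/-!
# Row 82 / S0109, helper89: restriction to lines, right directional derivatives, chord bound
-/

set_option autoImplicit false
open MeasureTheory Set Filter Topology
open scoped NNReal ENNReal

namespace Crest.Agent.S0109.Helper89

open Crest.Agent.S0109

variable {d : ℕ}

/-- restriction of `u` to the line through `x` with direction `e` -/
def lineFn (u : E d → ℝ) (e x : E d) (t : ℝ) : ℝ := u (x + t • e)

theorem line_comb (x e : E d) {a b : ℝ} (hab : a + b = 1) (s t : ℝ) :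
    x + (a • s + b • t) • e = a • (x + s • e) + b • (x + t • e) := by
  have h1 : a • (x + s • e) + b • (x + t • e) = (a + b) • x + (a * s + b * t) • e := by module
  rw [h1, hab, one_smul]; simp [smul_eq_mul]

theorem lineFn_convex {u : E d → ℝ} (hu : ConvexOn ℝ univ u) (e x : E d) :
    ConvexOn ℝ univ (lineFn u e x) := by
  refine ⟨convex_univ, fun s _ t _ a b ha hb hab => ?_⟩
  unfold lineFn
  rw [line_comb x e hab]
  exact hu.2 (mem_univ _) (mem_univ _) ha hb hab

theorem lineFn_lipschitz {u : E d → ℝ} {L : ℝ≥0} (hu : LipschitzWith L u) {e : E d}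
    (he : ‖e‖ = 1) (x : E d) : LipschitzWith L (lineFn u e x) := by
  refine LipschitzWith.of_dist_le_mul fun s t => ?_
  unfold lineFn
  refine (hu.dist_le_mul _ _).trans ?_
  rw [dist_add_left, dist_eq_norm, ← sub_smul, norm_smul, he, mul_one, Real.dist_eq,
    Real.norm_eq_abs]

/-- right derivative of `u` at `x` in direction `e` -/
noncomputable def rdir (u : E d → ℝ) (e x : E d) : ℝ := derivWithin (lineFn u e x) (Ioi 0) 0

theorem rdir_shift {u : E d → ℝ} (hu : ConvexOn ℝ univ u) (e x : E d) (t : ℝ) :
    derivWithin (lineFn u e x) (Ioi t) t = rdir u e (x + t • e) := by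
  have h1 := dq_tendsto (lineFn_convex hu e x) t
  have h2 := dq_tendsto (lineFn_convex hu e (x + t • e)) 0
  have he' : (fun h => dq (lineFn u e (x + t • e)) h 0) = fun h => dq (lineFn u e x) h t := by
    funext h
    simp only [dq, lineFn, zero_add, zero_smul, add_zero]
    rw [add_smul, add_assoc]
  rw [he'] at h2
  exact tendsto_nhds_unique h1 h2

theorem rdir_abs_le {u : E d → ℝ} {L : ℝ≥0} (hu : ConvexOn ℝ univ u) (huL : LipschitzWith L u)
    {e : E d} (he : ‖e‖ = 1) (x : E d) : |rdir u e x| ≤ L :=
  rightDeriv_abs_le (lineFn_convex hu e x) (lineFn_lipschitz huL he x) 0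

theorem rdir_measurable {u : E d → ℝ} (hu : ConvexOn ℝ univ u) (huc : Continuous u) (e : E d) :
    Measurable (rdir u e) := by
  have hseq : Tendsto (fun n : ℕ => (1 : ℝ) / ((n : ℝ) + 1)) atTop (𝓝[>] 0) := by
    apply tendsto_nhdsWithin_of_tendsto_nhds_of_eventually_within
    · exact tendsto_one_div_add_atTop_nhds_zero_nat
    · exact Filter.Eventually.of_forall fun n => by simp only [mem_Ioi]; positivity
  refine measurable_of_tendsto_metrizable
    (f := fun (n : ℕ) x => dq (lineFn u e x) (1 / ((n : ℝ) + 1)) 0) (fun n => ?_) ?_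
  · have : Continuous (fun x => dq (lineFn u e x) (1 / ((n : ℝ) + 1)) 0) := by
      unfold dq lineFn; fun_prop
    exact this.measurable
  · rw [tendsto_pi_nhds]
    intro x
    exact (dq_tendsto (lineFn_convex hu e x) 0).comp hseq

/-- At a point of line-differentiability, the right directional derivative is the pairing with
any subgradient. -/
theorem rdir_eq_inner {u : E d → ℝ} {e x g : E d}
    (hsub : ∀ z, u x + inner ℝ g (z - x) ≤ u z) (hdiff : LineDifferentiableAt ℝ u x e) :
    rdir u e x = inner ℝ g e := by
  have hd : DifferentiableAt ℝ (lineFn u e x) 0 := hdiff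
  have hmin : IsLocalMin (fun t : ℝ => lineFn u e x t - t * inner ℝ g e) 0 := by
    refine Filter.Eventually.of_forall fun t => ?_
    have := hsub (x + t • e)
    simp only [add_sub_cancel_left, inner_smul_right] at this
    simp only [lineFn, zero_smul, add_zero, zero_mul, sub_zero]
    linarith
  have hφd : HasDerivAt (fun t : ℝ => lineFn u e x t - t * inner ℝ g e)
      (deriv (lineFn u e x) 0 - inner ℝ g e) 0 := by
    have h1 := hd.hasDerivAt
    have h2 : HasDerivAt (fun t : ℝ => t * inner ℝ g e) (inner ℝ g e) 0 := by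
      simpa using (hasDerivAt_id (0:ℝ)).mul_const (inner ℝ g e)
    exact h1.sub h2
  have h0 := hmin.hasDerivAt_eq_zero hφd
  have h3 : rdir u e x = deriv (lineFn u e x) 0 := by
    unfold rdir
    exact (hd.hasDerivAt.hasDerivWithinAt).derivWithin (uniqueDiffWithinAt_Ioi 0)
  rw [h3]; linarith

/-- averaging along a direction does not change the integral (Tonelli + translation invariance) -/
theorem lintegral_line_avg {g : E d → ℝ≥0∞} (hg : Measurable g) (e : E d) :
    ∫⁻ x, ∫⁻ t in Icc (0:ℝ) 1, g (x + t • e) = ∫⁻ x, g x := by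
  rw [lintegral_lintegral_swap]
  · have h1 : ∀ t : ℝ, ∫⁻ x : E d, g (x + t • e) = ∫⁻ x, g x :=
      fun t => lintegral_add_right_eq_self g (t • e)
    simp_rw [h1]
    rw [lintegral_const]; simp
  · exact (hg.comp (measurable_fst.add (measurable_snd.smul_const e))).aemeasurable

end Crest.Agent.S0109.Helper89
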