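import Mathlib
import Crest.Agent.Lib.S0109.Defs
import Crest.Agent.Lib.S0109.Helper89GNLine

/-!
# Row 82 / S0109, helper89: the chord bound and the directional Gagliardo–Nirenberg inequality
-/

set_option autoImplicit false
open MeasureTheory Set Filter Topology
open scoped NNReal ENNReal

namespace Crest.Agent.S0109.Helper89

open Crest.Agent.S0109

variable {d : ℕ}

/-- integral over the window `[0,1]` of an indicator along a chord `= Icc a b` -/
theorem chord_lintegral {K : Set (E d)} {e x : E d} {a b : ℝ}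
    (hJ : Icc (0:ℝ) 1 ∩ (fun t : ℝ => x + t • e) ⁻¹' K = Icc a b) (F : E d → ℝ≥0∞) :
    ∫⁻ t in Icc (0:ℝ) 1, K.indicator F (x + t • e) = ∫⁻ t in Icc a b, F (x + t • e) := by
  have hsub : Icc a b ⊆ Icc (0:ℝ) 1 := by rw [← hJ]; exact inter_subset_left
  have h1 : EqOn (fun t : ℝ => K.indicator F (x + t • e))
      ((Icc a b).indicator (fun t => F (x + t • e))) (Icc (0:ℝ) 1) := by
    intro t ht
    by_cases hK : x + t • e ∈ K
    · have : t ∈ Icc a b := by rw [← hJ]; exact ⟨ht, hK⟩
      simp [indicator_of_mem hK, indicator_of_mem this]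
    · have : t ∉ Icc a b := by rw [← hJ]; exact fun h => hK h.2
      simp [indicator_of_notMem hK, indicator_of_notMem this]
  rw [setLIntegral_congr_fun measurableSet_Icc h1, lintegral_indicator measurableSet_Icc,
    Measure.restrict_restrict measurableSet_Icc, inter_eq_left.mpr hsub]

theorem lintegral_Icc_ofReal {φ : ℝ → ℝ} {a b : ℝ} (hab : a ≤ b)
    (hφ : IntegrableOn φ (Icc a b)) (h0 : ∀ t, 0 ≤ φ t) :
    ∫⁻ t in Icc a b, ENNReal.ofReal (φ t) = ENNReal.ofReal (∫ t in a..b, φ t) := by
  rw [intervalIntegral.integral_of_le hab, ← integral_Icc_eq_integral_Ioc,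
    ofReal_integral_eq_lintegral_ofReal hφ (Filter.Eventually.of_forall h0)]

/-- **Chord bound**: the 1-D inequality on the part of the window `x + [0,1] e` inside `K`. -/
theorem chord_bound {u v : E d → ℝ} {L : ℝ≥0} (hu : ConvexOn ℝ univ u)
    (hv : ConvexOn ℝ univ v) (huL : LipschitzWith L u) (hvL : LipschitzWith L v)
    {K : Set (E d)} (hKc : IsCompact K) (hKv : Convex ℝ K) {e : E d} (he : ‖e‖ = 1) (x : E d) :
    (∫⁻ t in Icc (0:ℝ) 1,
        K.indicator (fun y => ENNReal.ofReal ((rdir u e y - rdir v e y) ^ 2)) (x + t • e)) ^ 3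
      ≤ ENNReal.ofReal (8192 * (L:ℝ) ^ 4) * ∫⁻ t in Icc (0:ℝ) 1,
        K.indicator (fun y => ENNReal.ofReal ((u y - v y) ^ 2)) (x + t • e) := by
  obtain ⟨J, hJ⟩ : ∃ J : Set ℝ, J = Icc (0:ℝ) 1 ∩ (fun t : ℝ => x + t • e) ⁻¹' K := ⟨_, rfl⟩
  have hline : Continuous (fun t : ℝ => x + t • e) := by fun_prop
  have hJc : IsCompact J := by
    rw [hJ]; exact isCompact_Icc.inter_right (hKc.isClosed.preimage hline)
  have hJv : Convex ℝ J := by
    rw [hJ]
    intro s hs t ht a b ha hb hab
    refine ⟨(convex_Icc (0:ℝ) 1) hs.1 ht.1 ha hb hab, ?_⟩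
    show x + (a • s + b • t) • e ∈ K
    rw [line_comb x e hab]
    exact hKv hs.2 ht.2 ha hb hab
  rcases J.eq_empty_or_nonempty with hJe | hJne
  · have h0 : EqOn (fun t : ℝ => K.indicator
        (fun y => ENNReal.ofReal ((rdir u e y - rdir v e y) ^ 2)) (x + t • e)) 0 (Icc (0:ℝ) 1) := by
      intro t ht
      apply indicator_of_notMem
      intro hmem
      have : t ∈ J := by rw [hJ]; exact ⟨ht, hmem⟩
      rw [hJe] at this; exact this
    rw [setLIntegral_eq_zero measurableSet_Icc h0]
    simp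
  obtain ⟨a, b, hab, hJab⟩ : ∃ a b : ℝ, a ≤ b ∧ J = Icc a b := by
    have h := eq_Icc_of_connected_compact ⟨hJne, hJv.isPreconnected⟩ hJc
    refine ⟨sInf J, sSup J, ?_, h⟩
    obtain ⟨t, ht⟩ := hJne
    rw [h] at ht
    exact ht.1.trans ht.2
  rw [hJ] at hJab
  rw [chord_lintegral hJab, chord_lintegral hJab]
  -- the two integrands along the chord
  have hUc : ConvexOn ℝ univ (lineFn u e x) := lineFn_convex hu e x
  have hVc : ConvexOn ℝ univ (lineFn v e x) := lineFn_convex hv e x
  have hUL : LipschitzWith L (lineFn u e x) := lineFn_lipschitz huL he x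
  have hVL : LipschitzWith L (lineFn v e x) := lineFn_lipschitz hvL he x
  have hmeas : Measurable (fun t : ℝ => (rdir u e (x + t • e) - rdir v e (x + t • e)) ^ 2) :=
    (((rdir_measurable hu huL.continuous e).comp hline.measurable).sub
      ((rdir_measurable hv hvL.continuous e).comp hline.measurable)).pow_const 2
  have hint1 : IntegrableOn (fun t : ℝ => (rdir u e (x + t • e) - rdir v e (x + t • e)) ^ 2)
      (Icc a b) := by
    apply Measure.integrableOn_of_bounded (M := (2 * (L:ℝ)) ^ 2) measure_Icc_lt_top.ne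
      hmeas.aestronglyMeasurable
    refine Filter.Eventually.of_forall fun t => ?_
    have h1 := rdir_abs_le hu huL he (x + t • e)
    have h2 := rdir_abs_le hv hvL he (x + t • e)
    rw [Real.norm_eq_abs, abs_pow]
    apply pow_le_pow_left₀ (abs_nonneg _)
    calc |rdir u e (x + t • e) - rdir v e (x + t • e)|
        ≤ |rdir u e (x + t • e)| + |rdir v e (x + t • e)| := abs_sub _ _
      _ ≤ 2 * L := by linarith
  have hint2 : IntegrableOn (fun t : ℝ => (u (x + t • e) - v (x + t • e)) ^ 2) (Icc a b) := by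
    have hc : Continuous (fun t : ℝ => (u (x + t • e) - v (x + t • e)) ^ 2) :=
      ((huL.continuous.comp hline).sub (hvL.continuous.comp hline)).pow 2
    exact hc.continuousOn.integrableOn_Icc
  rw [lintegral_Icc_ofReal hab hint1 (fun t => sq_nonneg _),
    lintegral_Icc_ofReal hab hint2 (fun t => sq_nonneg _)]
  have h1D := h89_oneD hUc hVc hUL hVL hab
  have e1 : ∫ t in a..b, (derivWithin (lineFn u e x) (Ioi t) t
      - derivWithin (lineFn v e x) (Ioi t) t) ^ 2
      = ∫ t in a..b, (rdir u e (x + t • e) - rdir v e (x + t • e)) ^ 2 := by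
    congr 1; ext t; rw [rdir_shift hu, rdir_shift hv]
  rw [e1] at h1D
  have hI0 : 0 ≤ ∫ t in a..b, (rdir u e (x + t • e) - rdir v e (x + t • e)) ^ 2 :=
    intervalIntegral.integral_nonneg hab (fun t _ => sq_nonneg _)
  rw [← ENNReal.ofReal_pow hI0, ← ENNReal.ofReal_mul (by positivity)]
  exact ENNReal.ofReal_le_ofReal h1D

end Crest.Agent.S0109.Helper89
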