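import Mathlib
import Crest.Agent.Lib.S0109.Defs
import Crest.Agent.Lib.S0109.Helper89GNChord

/-!
# Row 82 / S0109, helper89: directional Gagliardo–Nirenberg inequality (Hölder over the lines)
-/

set_option autoImplicit false
open MeasureTheory Set Filter Topology
open scoped NNReal ENNReal

namespace Crest.Agent.S0109.Helper89

open Crest.Agent.S0109

variable {d : ℕ}

theorem gn_dir {u v : E d → ℝ} {L : ℝ≥0} (hu : ConvexOn ℝ univ u) (hv : ConvexOn ℝ univ v)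
    (huL : LipschitzWith L u) (hvL : LipschitzWith L v) {K : Set (E d)} (hKc : IsCompact K)
    (hKv : Convex ℝ K) {e : E d} (he : ‖e‖ = 1) :
    ∫⁻ x in K, ENNReal.ofReal ((rdir u e x - rdir v e x) ^ 2)
      ≤ (ENNReal.ofReal (8192 * (L:ℝ) ^ 4) * ∫⁻ x in K, ENNReal.ofReal ((u x - v x) ^ 2))
          ^ (1 / 3 : ℝ) * (volume (Metric.cthickening 1 K)) ^ (1 / (3 / 2) : ℝ) := by
  obtain ⟨g₁, hg₁⟩ : ∃ g₁ : E d → ℝ≥0∞,
      g₁ = K.indicator (fun y => ENNReal.ofReal ((rdir u e y - rdir v e y) ^ 2)) := ⟨_, rfl⟩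
  obtain ⟨g₂, hg₂⟩ : ∃ g₂ : E d → ℝ≥0∞,
      g₂ = K.indicator (fun y => ENNReal.ofReal ((u y - v y) ^ 2)) := ⟨_, rfl⟩
  have hKm : MeasurableSet K := hKc.measurableSet
  have hg₁m : Measurable g₁ := by
    rw [hg₁]
    exact (((rdir_measurable hu huL.continuous e).sub
      (rdir_measurable hv hvL.continuous e)).pow_const 2).ennreal_ofReal.indicator hKm
  have hg₂m : Measurable g₂ := by
    rw [hg₂]
    exact ((huL.continuous.sub hvL.continuous).pow 2).measurable.ennreal_ofReal.indicator hKm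
  obtain ⟨G₁, hG₁⟩ : ∃ G₁ : E d → ℝ≥0∞,
      G₁ = fun x => ∫⁻ t in Icc (0:ℝ) 1, g₁ (x + t • e) := ⟨_, rfl⟩
  obtain ⟨G₂, hG₂⟩ : ∃ G₂ : E d → ℝ≥0∞,
      G₂ = fun x => ∫⁻ t in Icc (0:ℝ) 1, g₂ (x + t • e) := ⟨_, rfl⟩
  have hG₂m : Measurable G₂ := by
    have h1 : Measurable (fun p : E d × ℝ => g₂ (p.1 + p.2 • e)) :=
      hg₂m.comp (measurable_fst.add (measurable_snd.smul_const e))
    rw [hG₂]
    exact h1.lintegral_prod_right'
  have e1 : ∫⁻ x in K, ENNReal.ofReal ((rdir u e x - rdir v e x) ^ 2) = ∫⁻ x, G₁ x := by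
    rw [← lintegral_indicator hKm, hG₁, ← hg₁]; exact (lintegral_line_avg hg₁m e).symm
  have e2 : ∫⁻ x in K, ENNReal.ofReal ((u x - v x) ^ 2) = ∫⁻ x, G₂ x := by
    rw [← lintegral_indicator hKm, hG₂, ← hg₂]; exact (lintegral_line_avg hg₂m e).symm
  obtain ⟨S, hS⟩ : ∃ S : Set (E d), S = Metric.cthickening 1 K := ⟨_, rfl⟩
  have hSm : MeasurableSet S := by rw [hS]; exact Metric.isClosed_cthickening.measurableSet
  obtain ⟨c₀, hc₀⟩ : ∃ c₀ : ℝ≥0∞, c₀ = ENNReal.ofReal (8192 * (L:ℝ) ^ 4) := ⟨_, rfl⟩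
  have hpt : ∀ x, G₁ x ≤ ((fun x => (c₀ * G₂ x) ^ (1 / 3 : ℝ)) * S.indicator 1 : E d → ℝ≥0∞) x := by
    intro x
    by_cases hx : x ∈ S
    · have hcb : G₁ x ^ 3 ≤ c₀ * G₂ x := by
        rw [hG₁, hG₂, hg₁, hg₂, hc₀]
        exact chord_bound hu hv huL hvL hKc hKv he x
      have h3 : G₁ x = (G₁ x ^ 3) ^ (1 / 3 : ℝ) := by
        rw [← ENNReal.rpow_natCast, ← ENNReal.rpow_mul]; norm_num
      simp only [Pi.mul_apply, indicator_of_mem hx, Pi.one_apply, mul_one]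
      rw [h3]
      exact ENNReal.rpow_le_rpow hcb (by norm_num)
    · have h0 : G₁ x = 0 := by
        rw [hG₁]
        apply setLIntegral_eq_zero measurableSet_Icc
        intro t ht
        rw [hg₁]
        apply indicator_of_notMem
        intro hmem
        apply hx
        rw [hS]
        apply Metric.mem_cthickening_of_dist_le x (x + t • e) 1 K hmem
        rw [dist_self_add_right, norm_smul, he, mul_one, Real.norm_eq_abs, abs_of_nonneg ht.1]
        exact ht.2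
      rw [h0]; exact bot_le
  have hholder := ENNReal.lintegral_mul_le_Lp_mul_Lq (volume : Measure (E d)) (p := 3)
    (q := 3 / 2) (Real.holderConjugate_iff.mpr ⟨by norm_num, by norm_num⟩)
    (f := fun x => (c₀ * G₂ x) ^ (1 / 3 : ℝ)) (g := S.indicator 1)
    ((hG₂m.const_mul c₀).pow_const _).aemeasurable
    ((measurable_one.indicator hSm)).aemeasurable
  rw [e1, e2, ← hS, ← hc₀]
  calc ∫⁻ x, G₁ x
      ≤ ∫⁻ x, ((fun x => (c₀ * G₂ x) ^ (1 / 3 : ℝ)) * S.indicator 1 : E d → ℝ≥0∞) x :=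
        lintegral_mono hpt
    _ ≤ (∫⁻ x, ((c₀ * G₂ x) ^ (1 / 3 : ℝ)) ^ (3:ℝ)) ^ (1 / 3 : ℝ)
          * (∫⁻ x, (S.indicator 1 x : ℝ≥0∞) ^ (3 / 2 : ℝ)) ^ (1 / (3 / 2) : ℝ) := hholder
    _ = (c₀ * ∫⁻ x, G₂ x) ^ (1 / 3 : ℝ) * (volume S) ^ (1 / (3 / 2) : ℝ) := by
        congr 2
        · rw [← lintegral_const_mul c₀ hG₂m]
          congr 1; ext x
          rw [← ENNReal.rpow_mul]; norm_num
        · rw [← lintegral_indicator_one hSm]
          congr 1; ext x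
          by_cases hx : x ∈ S
          · simp [hx]
          · simp only [indicator_of_notMem hx]
            exact ENNReal.zero_rpow_of_pos (by norm_num)

end Crest.Agent.S0109.Helper89
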