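import Mathlib
import Crest.Agent.Lib.S0109.Defs
import Crest.Agent.Lib.S0109.Helper89GNDir

/-!
# Row 82 / S0109, helper89: Gagliardo–Nirenberg for differences of convex functions, `lintegral` form
-/

set_option autoImplicit false
open MeasureTheory Set Filter Topology
open scoped NNReal ENNReal

namespace Crest.Agent.S0109.Helper89

open Crest.Agent.S0109

variable {d : ℕ}

theorem gn_lintegral {K : Set (E d)} (hKc : IsCompact K) (hKv : Convex ℝ K) (L : ℝ≥0)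
    {u v : E d → ℝ} {U V : E d → E d} (hu : ConvexOn ℝ univ u) (hv : ConvexOn ℝ univ v)
    (huL : LipschitzWith L u) (hvL : LipschitzWith L v) (hU : Measurable U) (hV : Measurable V)
    (hsu : ∀ᵐ x ∂(volume.restrict K), ∀ z, u x + inner ℝ (U x) (z - x) ≤ u z)
    (hsv : ∀ᵐ x ∂(volume.restrict K), ∀ z, v x + inner ℝ (V x) (z - x) ≤ v z) :
    ∫⁻ x in K, ENNReal.ofReal (‖U x - V x‖ ^ 2)
      ≤ (d : ℝ≥0∞) * ((ENNReal.ofReal (8192 * (L:ℝ) ^ 4)) ^ (1 / 3 : ℝ)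
          * (volume (Metric.cthickening 1 K)) ^ (1 / (3 / 2) : ℝ))
        * (∫⁻ x in K, ENNReal.ofReal ((u x - v x) ^ 2)) ^ (1 / 3 : ℝ) := by
  obtain ⟨B, hB⟩ : ∃ B : ℝ≥0∞, B = ∫⁻ x in K, ENNReal.ofReal ((u x - v x) ^ 2) := ⟨_, rfl⟩
  obtain ⟨Ce, hCe⟩ : ∃ Ce : ℝ≥0∞, Ce = (ENNReal.ofReal (8192 * (L:ℝ) ^ 4)) ^ (1 / 3 : ℝ)
          * (volume (Metric.cthickening 1 K)) ^ (1 / (3 / 2) : ℝ) := ⟨_, rfl⟩
  rw [← hB, ← hCe]
  have hcoord : ∀ i : Fin d, Measurable (fun w : E d => w i) := fun i =>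
    (by fun_prop : Continuous (fun w : E d => w i)).measurable
  have key : ∀ i : Fin d,
      ∫⁻ x in K, ENNReal.ofReal (((U x) i - (V x) i) ^ 2) ≤ Ce * B ^ (1 / 3 : ℝ) := by
    intro i
    obtain ⟨e, he0⟩ : ∃ e : E d, e = EuclideanSpace.single i (1:ℝ) := ⟨_, rfl⟩
    have he : ‖e‖ = 1 := by rw [he0]; simp
    have hdu : ∀ᵐ x ∂(volume.restrict K), LineDifferentiableAt ℝ u x e :=
      ae_restrict_of_ae (huL.ae_lineDifferentiableAt e)
    have hdv : ∀ᵐ x ∂(volume.restrict K), LineDifferentiableAt ℝ v x e :=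
      ae_restrict_of_ae (hvL.ae_lineDifferentiableAt e)
    have hae : ∀ᵐ x ∂(volume.restrict K), ENNReal.ofReal (((U x) i - (V x) i) ^ 2)
        = ENNReal.ofReal ((rdir u e x - rdir v e x) ^ 2) := by
      filter_upwards [hsu, hsv, hdu, hdv] with x h1 h2 h3 h4
      rw [rdir_eq_inner h1 h3, rdir_eq_inner h2 h4, he0]
      simp [EuclideanSpace.inner_single_right]
    rw [lintegral_congr_ae hae]
    calc ∫⁻ x in K, ENNReal.ofReal ((rdir u e x - rdir v e x) ^ 2)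
        ≤ (ENNReal.ofReal (8192 * (L:ℝ) ^ 4) * ∫⁻ x in K, ENNReal.ofReal ((u x - v x) ^ 2))
          ^ (1 / 3 : ℝ) * (volume (Metric.cthickening 1 K)) ^ (1 / (3 / 2) : ℝ) :=
          gn_dir hu hv huL hvL hKc hKv he
      _ = Ce * B ^ (1 / 3 : ℝ) := by
          rw [ENNReal.mul_rpow_of_nonneg _ _ (by norm_num), hCe, hB]; ring
  calc ∫⁻ x in K, ENNReal.ofReal (‖U x - V x‖ ^ 2)
      = ∫⁻ x in K, ∑ i : Fin d, ENNReal.ofReal (((U x) i - (V x) i) ^ 2) := by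
        congr 1; ext x
        rw [EuclideanSpace.real_norm_sq_eq, ENNReal.ofReal_sum_of_nonneg (fun i _ => sq_nonneg _)]
        simp
    _ = ∑ i : Fin d, ∫⁻ x in K, ENNReal.ofReal (((U x) i - (V x) i) ^ 2) := by
        apply lintegral_finsetSum
        intro i _
        exact ((((hcoord i).comp hU).sub ((hcoord i).comp hV)).pow_const 2).ennreal_ofReal
    _ ≤ ∑ _i : Fin d, Ce * B ^ (1 / 3 : ℝ) := Finset.sum_le_sum (fun i _ => key i)
    _ = (d : ℝ≥0∞) * Ce * B ^ (1 / 3 : ℝ) := by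
        simp [mul_assoc]

end Crest.Agent.S0109.Helper89
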