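import Mathlib
import Crest.Prelude.Def_QuadraticTransport
import Crest.Agent.Lib.S0109.Defs
import Crest.Agent.Lib.S0109.Helper89GNMain

/-! Row 82, package P3 (helper89): Gagliardo–Nirenberg step for differences of convex functions.

Proof structure (modules `Helper89GN1D`, `Helper89GNLine`, `Helper89GNChord`, `Helper89GNDir`,
`Helper89GNMain`): 1-D inequality `(∫ (p-q)²)³ ≤ 8192 L⁴ ∫ (U-V)²` for right derivatives of convex
`L`-Lipschitz functions (difference quotients + continuous Abel summation), restriction to the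
windows `x + [0,1] e` (Tonelli + translation invariance, no coordinates), Hölder with exponents
`3, 3/2`, sum over the coordinate directions. -/

set_option autoImplicit false
open MeasureTheory Filter Topology
open scoped ENNReal NNReal
open Crest.AnalysisR.OT

namespace Crest.Agent.S0109

/-- Gagliardo–Nirenberg type inequality for differences of convex Lipschitz functions:
`∫_K |∇u - ∇v|² ≤ C (∫_K (u - v - c)²)^(1/3)`, with `U, V` a.e. subgradient selections. -/
theorem gn_step {d : ℕ} (K : Set (E d)) (hKc : IsCompact K) (hKv : Convex ℝ K)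
    (hKi : (interior K).Nonempty) (L : ℝ≥0) :
    ∃ C : ℝ, 0 ≤ C ∧ ∀ (u v : E d → ℝ) (U V : E d → E d),
      ConvexOn ℝ Set.univ u → ConvexOn ℝ Set.univ v → LipschitzWith L u → LipschitzWith L v →
      Measurable U → Measurable V →
      (∀ᵐ x ∂(volume.restrict K), ∀ z, u x + inner ℝ (U x) (z - x) ≤ u z) →
      (∀ᵐ x ∂(volume.restrict K), ∀ z, v x + inner ℝ (V x) (z - x) ≤ v z) →
      ∀ c : ℝ, ∫ x in K, ‖U x - V x‖ ^ 2 ≤ C * (∫ x in K, (u x - v x - c) ^ 2) ^ (1 / 3 : ℝ) := by
  obtain ⟨Ce, hCe⟩ : ∃ Ce : ℝ≥0∞, Ce = (d : ℝ≥0∞) * ((ENNReal.ofReal (8192 * (L:ℝ) ^ 4))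
      ^ (1 / 3 : ℝ) * (volume (Metric.cthickening 1 K)) ^ (1 / (3 / 2) : ℝ)) := ⟨_, rfl⟩
  have hCe_fin : Ce ≠ ∞ := by
    rw [hCe]
    have hvol : volume (Metric.cthickening 1 K) ≠ ∞ := hKc.cthickening.measure_lt_top.ne
    apply ENNReal.mul_ne_top (ENNReal.natCast_ne_top d)
    apply ENNReal.mul_ne_top
    · exact ENNReal.rpow_ne_top_of_nonneg (by norm_num) ENNReal.ofReal_ne_top
    · exact ENNReal.rpow_ne_top_of_nonneg (by norm_num) hvol
  refine ⟨Ce.toReal, ENNReal.toReal_nonneg, ?_⟩
  intro u v U V hu hv huL hvL hU hV hsu hsv c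
  have hu' : ConvexOn ℝ Set.univ (fun x => u x - c) := by
    refine ⟨convex_univ, fun x _ y _ a b ha hb hab => ?_⟩
    have h1 := hu.2 (Set.mem_univ x) (Set.mem_univ y) ha hb hab
    have h2 : a * c + b * c = c := by rw [← add_mul, hab, one_mul]
    simp only [smul_eq_mul] at h1 ⊢
    linarith
  have huL' : LipschitzWith L (fun x => u x - c) := by
    refine LipschitzWith.of_dist_le_mul fun x y => ?_
    rw [dist_sub_right]
    exact huL.dist_le_mul x y
  have hsu' : ∀ᵐ x ∂(volume.restrict K), ∀ z, (u x - c) + inner ℝ (U x) (z - x) ≤ u z - c := by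
    filter_upwards [hsu] with x hx z
    linarith [hx z]
  have main := Helper89.gn_lintegral hKc hKv L hu' hv huL' hvL hU hV hsu' hsv
  rw [← hCe] at main
  have hcont : Continuous (fun x => (u x - c - v x) ^ 2) :=
    ((huL.continuous.sub continuous_const).sub hvL.continuous).pow 2
  have hB_fin : ∫⁻ x in K, ENNReal.ofReal ((u x - c - v x) ^ 2) ≠ ∞ :=
    (hcont.continuousOn.integrableOn_compact hKc).lintegral_lt_top.ne
  have eA : ∫ x in K, ‖U x - V x‖ ^ 2
      = (∫⁻ x in K, ENNReal.ofReal (‖U x - V x‖ ^ 2)).toReal :=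
    integral_eq_lintegral_of_nonneg_ae (Filter.Eventually.of_forall fun x => sq_nonneg _)
      ((hU.sub hV).norm.pow_const 2).aestronglyMeasurable
  have eB : ∫ x in K, (u x - v x - c) ^ 2
      = (∫⁻ x in K, ENNReal.ofReal ((u x - c - v x) ^ 2)).toReal := by
    have h1 : (fun x => (u x - v x - c) ^ 2) = fun x => (u x - c - v x) ^ 2 := by
      funext x; ring
    rw [h1]
    exact integral_eq_lintegral_of_nonneg_ae (Filter.Eventually.of_forall fun x => sq_nonneg _)
      hcont.aestronglyMeasurable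
  rw [eA, eB, ENNReal.toReal_rpow, ← ENNReal.toReal_mul]
  exact ENNReal.toReal_mono
    (ENNReal.mul_ne_top hCe_fin (ENNReal.rpow_ne_top_of_nonneg (by norm_num) hB_fin)) main

end Crest.Agent.S0109
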