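import Mathlib

/-!
# Semi-discrete optimal transport: existence of Laguerre weights

For a finite measure `σ` on a real inner product space with integrable norm and giving no mass to
hyperplanes, distinct points `y i` and positive masses `m i` summing to the total mass of `σ`,
there are weights `ψ i` such that the Laguerre cells
`{x | ∀ j, ⟪x, y j⟫ - ψ j ≤ ⟪x, y i⟫ - ψ i}` have `σ`-measure `m i`.

The proof minimises the Kantorovich functional
`J ψ = ∫ max_i (⟪x, y i⟫ - ψ i) dσ + ∑ i, m i * ψ i` over a compact box and uses only one-sided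
difference quotients at the minimiser (no differentiability of `J` is needed).
-/

set_option autoImplicit false
open MeasureTheory
open scoped ENNReal NNReal

namespace Crest.Agent.S0109.Helper4

section Defs
variable {E : Type*} [NormedAddCommGroup E] [InnerProductSpace ℝ E]
variable {ι : Type*} [Fintype ι]

/-- The affine function `x ↦ ⟪x, y i⟫ - ψ i`. -/
def aff (y : ι → E) (ψ : ι → ℝ) (i : ι) (x : E) : ℝ := inner ℝ x (y i) - ψ i

/-- The discrete Brenier potential `x ↦ max_i (⟪x, y i⟫ - ψ i)`. -/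
noncomputable def pot [Nonempty ι] (y : ι → E) (ψ : ι → ℝ) (x : E) : ℝ :=
  Finset.univ.sup' Finset.univ_nonempty (fun i => aff y ψ i x)

/-- The closed Laguerre cell of the index `i`. -/
def cell (y : ι → E) (ψ : ι → ℝ) (i : ι) : Set E := {x | ∀ j, aff y ψ j x ≤ aff y ψ i x}

/-- The strict Laguerre cell of the index `i`. -/
def scell (y : ι → E) (ψ : ι → ℝ) (i : ι) : Set E :=
  {x | ∀ j, j ≠ i → aff y ψ j x < aff y ψ i x}

lemma continuous_aff (y : ι → E) (ψ : ι → ℝ) (i : ι) : Continuous (aff y ψ i) := by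
  unfold aff
  fun_prop

lemma aff_le_pot [Nonempty ι] (y : ι → E) (ψ : ι → ℝ) (i : ι) (x : E) :
    aff y ψ i x ≤ pot y ψ x :=
  Finset.le_sup' (fun i => aff y ψ i x) (Finset.mem_univ i)

lemma pot_le_iff [Nonempty ι] (y : ι → E) (ψ : ι → ℝ) (x : E) (c : ℝ) :
    pot y ψ x ≤ c ↔ ∀ i, aff y ψ i x ≤ c := by
  unfold pot
  rw [Finset.sup'_le_iff]
  simp

lemma exists_pot_eq [Nonempty ι] (y : ι → E) (ψ : ι → ℝ) (x : E) :
    ∃ i, pot y ψ x = aff y ψ i x := by
  obtain ⟨i, -, hi⟩ := Finset.exists_mem_eq_sup' Finset.univ_nonempty (fun i => aff y ψ i x)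
  exact ⟨i, hi⟩

lemma continuous_pot [Nonempty ι] (y : ι → E) (ψ : ι → ℝ) : Continuous (pot y ψ) := by
  unfold pot
  exact Continuous.finset_sup'_apply _ (fun i _ => continuous_aff y ψ i)

lemma abs_aff_le (y : ι → E) (ψ : ι → ℝ) (i : ι) (x : E) {R Ψ : ℝ} (hR : ∀ i, ‖y i‖ ≤ R)
    (hΨ : ∀ i, |ψ i| ≤ Ψ) : |aff y ψ i x| ≤ R * ‖x‖ + Ψ := by
  unfold aff
  have h1 : |inner ℝ x (y i)| ≤ ‖x‖ * ‖y i‖ := abs_real_inner_le_norm x (y i)
  have h2 : ‖x‖ * ‖y i‖ ≤ R * ‖x‖ := by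
    rw [mul_comm]; exact mul_le_mul_of_nonneg_right (hR i) (norm_nonneg x)
  have h3 := hΨ i
  rw [abs_le] at *
  constructor <;> linarith [h1.1, h1.2, h3.1, h3.2]

lemma abs_pot_le [Nonempty ι] (y : ι → E) (ψ : ι → ℝ) (x : E) {R Ψ : ℝ} (hR : ∀ i, ‖y i‖ ≤ R)
    (hΨ : ∀ i, |ψ i| ≤ Ψ) : |pot y ψ x| ≤ R * ‖x‖ + Ψ := by
  obtain ⟨i, hi⟩ := exists_pot_eq y ψ x
  rw [hi]
  exact abs_aff_le y ψ i x hR hΨ

lemma pot_le_pot_add_dist [Nonempty ι] (y : ι → E) (ψ ψ' : ι → ℝ) (x : E) :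
    pot y ψ x ≤ pot y ψ' x + dist ψ ψ' := by
  rw [pot_le_iff]
  intro i
  have h1 : aff y ψ' i x ≤ pot y ψ' x := aff_le_pot y ψ' i x
  have h2 : dist (ψ i) (ψ' i) ≤ dist ψ ψ' := dist_le_pi_dist ψ ψ' i
  rw [Real.dist_eq] at h2
  have h3 := abs_le.mp h2
  unfold aff at *
  linarith [h3.1]

lemma abs_pot_sub_pot_le [Nonempty ι] (y : ι → E) (ψ ψ' : ι → ℝ) (x : E) :
    |pot y ψ x - pot y ψ' x| ≤ dist ψ ψ' := by
  rw [abs_le]
  have h1 := pot_le_pot_add_dist y ψ ψ' x
  have h2 := pot_le_pot_add_dist y ψ' ψ x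
  rw [dist_comm] at h2
  constructor <;> linarith

lemma pot_add_const [Nonempty ι] (y : ι → E) (ψ : ι → ℝ) (c : ℝ) (x : E) :
    pot y (fun i => ψ i + c) x = pot y ψ x - c := by
  apply le_antisymm
  · rw [pot_le_iff]
    intro i
    have := aff_le_pot y ψ i x
    unfold aff at *
    linarith
  · have : pot y ψ x ≤ pot y (fun i => ψ i + c) x + c := by
      rw [pot_le_iff]
      intro i
      have := aff_le_pot y (fun i => ψ i + c) i x
      unfold aff at *
      linarith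
    linarith

end Defs

section Measure
variable {E : Type*} [NormedAddCommGroup E] [InnerProductSpace ℝ E] [MeasurableSpace E]
  [BorelSpace E]
variable {ι : Type*} [Fintype ι]

lemma measurable_aff (y : ι → E) (ψ : ι → ℝ) (i : ι) : Measurable (aff y ψ i) :=
  (continuous_aff y ψ i).measurable

lemma measurableSet_cell (y : ι → E) (ψ : ι → ℝ) (i : ι) : MeasurableSet (cell y ψ i) := by
  have : cell y ψ i = ⋂ j, {x | aff y ψ j x ≤ aff y ψ i x} := by
    ext x; simp [cell]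
  rw [this]
  exact MeasurableSet.iInter fun j => measurableSet_le (measurable_aff y ψ j) (measurable_aff y ψ i)

lemma measurableSet_scell (y : ι → E) (ψ : ι → ℝ) (i : ι) : MeasurableSet (scell y ψ i) := by
  have : scell y ψ i = ⋂ j, {x | j ≠ i → aff y ψ j x < aff y ψ i x} := by
    ext x; simp [scell]
  rw [this]
  refine MeasurableSet.iInter fun j => ?_
  by_cases hj : j = i
  · simp [hj]
  · simp only [ne_eq, hj, not_false_eq_true, forall_const]
    exact measurableSet_lt (measurable_aff y ψ j) (measurable_aff y ψ i)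

lemma integrable_pot [Nonempty ι] (σ : Measure E) [IsFiniteMeasure σ]
    (hint : Integrable (fun x : E => ‖x‖) σ) (y : ι → E) (ψ : ι → ℝ) :
    Integrable (pot y ψ) σ := by
  obtain ⟨R, hR⟩ : ∃ R : ℝ, ∀ i, ‖y i‖ ≤ R :=
    ⟨∑ i, ‖y i‖, fun i => Finset.single_le_sum (fun j _ => norm_nonneg (y j)) (Finset.mem_univ i)⟩
  obtain ⟨Ψ, hΨ⟩ : ∃ Ψ : ℝ, ∀ i, |ψ i| ≤ Ψ :=
    ⟨∑ i, |ψ i|, fun i => Finset.single_le_sum (fun j _ => abs_nonneg (ψ j)) (Finset.mem_univ i)⟩
  have hb : Integrable (fun x : E => R * ‖x‖ + Ψ) σ :=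
    (hint.const_mul R).add (integrable_const Ψ)
  refine Integrable.mono' hb (continuous_pot y ψ).aestronglyMeasurable ?_
  filter_upwards with x
  rw [Real.norm_eq_abs]
  exact abs_pot_le y ψ x hR hΨ

/-- The Kantorovich functional. -/
noncomputable def J [Nonempty ι] (σ : Measure E) (y : ι → E) (m : ι → ℝ) (ψ : ι → ℝ) : ℝ :=
  ∫ x, pot y ψ x ∂σ + ∑ i, m i * ψ i

lemma J_add_const [Nonempty ι] (σ : Measure E) [IsFiniteMeasure σ]
    (hint : Integrable (fun x : E => ‖x‖) σ) (y : ι → E) (m : ι → ℝ)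
    (hsum : ∑ i, m i = (σ Set.univ).toReal) (ψ : ι → ℝ) (c : ℝ) :
    J σ y m (fun i => ψ i + c) = J σ y m ψ := by
  unfold J
  have h1 : ∫ x, pot y (fun i => ψ i + c) x ∂σ = ∫ x, pot y ψ x ∂σ - c * (σ Set.univ).toReal := by
    simp_rw [pot_add_const]
    rw [integral_sub (integrable_pot σ hint y ψ) (integrable_const c)]
    simp [Measure.real, mul_comm]
  have h2 : ∑ i, m i * (ψ i + c) = ∑ i, m i * ψ i + c * ∑ i, m i := by
    simp_rw [mul_add]
    rw [Finset.sum_add_distrib, Finset.mul_sum]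
    congr 1
    exact Finset.sum_congr rfl fun i _ => mul_comm _ _
  rw [h1, h2, hsum]
  ring

lemma J_dist_le [Nonempty ι] (σ : Measure E) [IsFiniteMeasure σ]
    (hint : Integrable (fun x : E => ‖x‖) σ) (y : ι → E) (m : ι → ℝ) (ψ ψ' : ι → ℝ) :
    |J σ y m ψ - J σ y m ψ'| ≤ ((σ Set.univ).toReal + ∑ i, |m i|) * dist ψ ψ' := by
  unfold J
  have h1 : |∫ x, pot y ψ x ∂σ - ∫ x, pot y ψ' x ∂σ| ≤ (σ Set.univ).toReal * dist ψ ψ' := by
    rw [← integral_sub (integrable_pot σ hint y ψ) (integrable_pot σ hint y ψ')]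
    have := norm_integral_le_of_norm_le_const (μ := σ) (f := fun x => pot y ψ x - pot y ψ' x)
      (C := dist ψ ψ') (Filter.Eventually.of_forall fun x => by
        rw [Real.norm_eq_abs]; exact abs_pot_sub_pot_le y ψ ψ' x)
    rw [Real.norm_eq_abs] at this
    simpa [Measure.real, mul_comm] using this
  have h2 : |∑ i, m i * ψ i - ∑ i, m i * ψ' i| ≤ (∑ i, |m i|) * dist ψ ψ' := by
    rw [← Finset.sum_sub_distrib, Finset.sum_mul]
    refine (Finset.abs_sum_le_sum_abs _ _).trans (Finset.sum_le_sum fun i _ => ?_)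
    rw [← mul_sub, abs_mul]
    refine mul_le_mul_of_nonneg_left ?_ (abs_nonneg _)
    have := dist_le_pi_dist ψ ψ' i
    rwa [Real.dist_eq] at this
  have h3 : ∫ x, pot y ψ x ∂σ + ∑ i, m i * ψ i - (∫ x, pot y ψ' x ∂σ + ∑ i, m i * ψ' i)
      = (∫ x, pot y ψ x ∂σ - ∫ x, pot y ψ' x ∂σ) + (∑ i, m i * ψ i - ∑ i, m i * ψ' i) := by ring
  rw [h3]
  refine (abs_add_le _ _).trans ?_
  rw [add_mul]
  exact add_le_add h1 h2

lemma continuous_J [Nonempty ι] (σ : Measure E) [IsFiniteMeasure σ]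
    (hint : Integrable (fun x : E => ‖x‖) σ) (y : ι → E) (m : ι → ℝ) :
    Continuous (J σ y m) := by
  have hK : 0 ≤ (σ Set.univ).toReal + ∑ i, |m i| :=
    add_nonneg ENNReal.toReal_nonneg (Finset.sum_nonneg fun i _ => abs_nonneg _)
  have : LipschitzWith ⟨(σ Set.univ).toReal + ∑ i, |m i|, hK⟩ (J σ y m) :=
    LipschitzWith.of_dist_le_mul fun ψ ψ' => by
      rw [Real.dist_eq]
      exact J_dist_le σ hint y m ψ ψ'
  exact this.continuous

end Measure

section Existence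
variable {E : Type*} [NormedAddCommGroup E] [InnerProductSpace ℝ E] [MeasurableSpace E]
  [BorelSpace E]
variable {ι : Type*} [Fintype ι] [Nonempty ι]

lemma neg_le_pot_of_zero (y : ι → E) (ψ : ι → ℝ) {R : ℝ} (hR : ∀ i, ‖y i‖ ≤ R) (i0 : ι)
    (h0 : ψ i0 = 0) (x : E) : -(R * ‖x‖) ≤ pot y ψ x := by
  have h1 := aff_le_pot y ψ i0 x
  have h2 : |inner ℝ x (y i0)| ≤ ‖x‖ * ‖y i0‖ := abs_real_inner_le_norm x (y i0)
  have h3 : ‖x‖ * ‖y i0‖ ≤ R * ‖x‖ := by
    rw [mul_comm]; exact mul_le_mul_of_nonneg_right (hR i0) (norm_nonneg x)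
  have h4 := (abs_le.mp h2).1
  unfold aff at h1
  rw [h0] at h1
  linarith

lemma pot_zero_le (y : ι → E) {R : ℝ} (hR : ∀ i, ‖y i‖ ≤ R) (x : E) :
    pot y (0 : ι → ℝ) x ≤ R * ‖x‖ := by
  rw [pot_le_iff]
  intro i
  have h2 : |inner ℝ x (y i)| ≤ ‖x‖ * ‖y i‖ := abs_real_inner_le_norm x (y i)
  have h3 : ‖x‖ * ‖y i‖ ≤ R * ‖x‖ := by
    rw [mul_comm]; exact mul_le_mul_of_nonneg_right (hR i) (norm_nonneg x)
  have h4 := (abs_le.mp h2).2
  unfold aff
  simp only [Pi.zero_apply, sub_zero]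
  linarith

lemma J_lower (σ : Measure E) [IsFiniteMeasure σ] (hint : Integrable (fun x : E => ‖x‖) σ)
    (y : ι → E) (m : ι → ℝ) (hm : ∀ i, 0 ≤ m i) {R : ℝ} (hR : ∀ i, ‖y i‖ ≤ R) (ψ : ι → ℝ)
    (i0 i1 : ι) (h0 : ψ i0 = 0) (hnn : ∀ i, 0 ≤ ψ i) :
    -(R * ∫ x, ‖x‖ ∂σ) + m i1 * ψ i1 ≤ J σ y m ψ := by
  unfold J
  have h1 : -(R * ∫ x, ‖x‖ ∂σ) ≤ ∫ x, pot y ψ x ∂σ := by
    have : -(R * ∫ x, ‖x‖ ∂σ) = ∫ x, -(R * ‖x‖) ∂σ := by
      rw [integral_neg, integral_const_mul]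
    rw [this]
    exact integral_mono (hint.const_mul R).neg (integrable_pot σ hint y ψ)
      (fun x => neg_le_pot_of_zero y ψ hR i0 h0 x)
  have h2 : m i1 * ψ i1 ≤ ∑ i, m i * ψ i :=
    Finset.single_le_sum (f := fun i => m i * ψ i)
      (fun i _ => mul_nonneg (hm i) (hnn i)) (Finset.mem_univ i1)
  linarith

lemma J_zero_le (σ : Measure E) [IsFiniteMeasure σ] (hint : Integrable (fun x : E => ‖x‖) σ)
    (y : ι → E) (m : ι → ℝ) {R : ℝ} (hR : ∀ i, ‖y i‖ ≤ R) :
    J σ y m 0 ≤ R * ∫ x, ‖x‖ ∂σ := by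
  unfold J
  have h1 : ∫ x, pot y (0 : ι → ℝ) x ∂σ ≤ R * ∫ x, ‖x‖ ∂σ := by
    rw [← integral_const_mul]
    exact integral_mono (integrable_pot σ hint y 0) (hint.const_mul R)
      (fun x => pot_zero_le y hR x)
  simpa using h1

/-- The Kantorovich functional has a global minimiser. -/
lemma exists_min (σ : Measure E) [IsFiniteMeasure σ] (hint : Integrable (fun x : E => ‖x‖) σ)
    (y : ι → E) (m : ι → ℝ) (hm : ∀ i, 0 < m i) (hsum : ∑ i, m i = (σ Set.univ).toReal) :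
    ∃ ψ : ι → ℝ, ∀ ψ', J σ y m ψ ≤ J σ y m ψ' := by
  obtain ⟨R, hR⟩ : ∃ R : ℝ, ∀ i, ‖y i‖ ≤ R :=
    ⟨∑ i, ‖y i‖, fun i => Finset.single_le_sum (fun j _ => norm_nonneg (y j)) (Finset.mem_univ i)⟩
  have hR0 : 0 ≤ R := (norm_nonneg _).trans (hR (Classical.arbitrary ι))
  set I : ℝ := ∫ x, ‖x‖ ∂σ with hI
  have hI0 : 0 ≤ I := integral_nonneg fun x => norm_nonneg x
  obtain ⟨is, -, his⟩ := Finset.exists_min_image Finset.univ m Finset.univ_nonempty
  have hms : 0 < m is := hm is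
  set Λ : ℝ := 2 * R * I / m is + 1 with hΛ
  have hΛ0 : 0 ≤ Λ := by positivity
  have hΛ1 : 2 * R * I < m is * Λ := by
    rw [hΛ, mul_add, mul_div_cancel₀ _ hms.ne']
    linarith
  have hcomp : IsCompact (Set.Icc (0 : ι → ℝ) (fun _ => Λ)) := isCompact_Icc
  have hne : (Set.Icc (0 : ι → ℝ) (fun _ => Λ)).Nonempty :=
    ⟨0, le_refl _, fun _ => hΛ0⟩
  obtain ⟨ψs, hψs, hmin⟩ := hcomp.exists_isMinOn hne (continuous_J σ hint y m).continuousOn
  refine ⟨ψs, fun ψ' => ?_⟩
  have h0mem : (0 : ι → ℝ) ∈ Set.Icc (0 : ι → ℝ) (fun _ => Λ) := ⟨le_refl _, fun _ => hΛ0⟩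
  obtain ⟨i0, -, hi0⟩ := Finset.exists_min_image Finset.univ ψ' Finset.univ_nonempty
  set ψ'' : ι → ℝ := fun i => ψ' i + (-(ψ' i0)) with hψ''
  have hJ : J σ y m ψ'' = J σ y m ψ' := J_add_const σ hint y m hsum ψ' _
  have h00 : ψ'' i0 = 0 := by simp [hψ'']
  have hnn : ∀ i, 0 ≤ ψ'' i := fun i => by
    have := hi0 i (Finset.mem_univ i)
    simp only [hψ'']; linarith
  rw [← hJ]
  by_cases hbox : ∀ i, ψ'' i ≤ Λ
  · exact hmin (⟨fun i => hnn i, fun i => hbox i⟩ : ψ'' ∈ Set.Icc (0 : ι → ℝ) (fun _ => Λ))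
  · simp only [not_forall, not_le] at hbox
    obtain ⟨i1, hi1⟩ := hbox
    have h1 := J_lower σ hint y m (fun i => (hm i).le) hR ψ'' i0 i1 h00 hnn
    have h2 := J_zero_le σ hint y m hR
    have h3 : J σ y m ψs ≤ J σ y m 0 := hmin h0mem
    have h4 : m is * Λ ≤ m i1 * ψ'' i1 :=
      mul_le_mul (his i1 (Finset.mem_univ i1)) hi1.le hΛ0 (hm i1).le
    rw [← hI] at h1 h2
    nlinarith

/-- The set where the `i`-th affine function beats all others by at least `t`. -/
def Uset (y : ι → E) (ψ : ι → ℝ) (i : ι) (t : ℝ) : Set E :=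
  {x | ∀ j, j ≠ i → aff y ψ j x + t ≤ aff y ψ i x}

/-- The set where the `i`-th affine function loses to all others by less than `t`. -/
def Cset (y : ι → E) (ψ : ι → ℝ) (i : ι) (t : ℝ) : Set E :=
  {x | ∀ j, j ≠ i → aff y ψ j x < aff y ψ i x + t}

omit [Nonempty ι] in
lemma measurableSet_Uset (y : ι → E) (ψ : ι → ℝ) (i : ι) (t : ℝ) :
    MeasurableSet (Uset y ψ i t) := by
  have : Uset y ψ i t = ⋂ j, {x | j ≠ i → aff y ψ j x + t ≤ aff y ψ i x} := by
    ext x; simp [Uset]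
  rw [this]
  refine MeasurableSet.iInter fun j => ?_
  by_cases hj : j = i
  · simp [hj]
  · simp only [ne_eq, hj, not_false_eq_true, forall_const]
    exact measurableSet_le ((measurable_aff y ψ j).add_const t) (measurable_aff y ψ i)

omit [Nonempty ι] in
lemma measurableSet_Cset (y : ι → E) (ψ : ι → ℝ) (i : ι) (t : ℝ) :
    MeasurableSet (Cset y ψ i t) := by
  have : Cset y ψ i t = ⋂ j, {x | j ≠ i → aff y ψ j x < aff y ψ i x + t} := by
    ext x; simp [Cset]
  rw [this]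
  refine MeasurableSet.iInter fun j => ?_
  by_cases hj : j = i
  · simp [hj]
  · simp only [ne_eq, hj, not_false_eq_true, forall_const]
    exact measurableSet_lt (measurable_aff y ψ j) ((measurable_aff y ψ i).add_const t)

open Classical in
lemma pot_raise_le (y : ι → E) (ψ : ι → ℝ) (i : ι) {t : ℝ} (ht : 0 ≤ t) (x : E) :
    pot y (fun j => ψ j + if j = i then t else 0) x
      ≤ pot y ψ x - t * (Uset y ψ i t).indicator (fun _ => (1 : ℝ)) x := by
  rw [pot_le_iff]
  intro j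
  have hj := aff_le_pot y ψ j x
  have hi := aff_le_pot y ψ i x
  by_cases hx : x ∈ Uset y ψ i t
  · rw [Set.indicator_of_mem hx]
    by_cases hji : j = i
    · subst hji
      unfold aff at *
      simp only [if_true]
      linarith
    · have := hx j hji
      unfold aff at *
      simp only [hji, if_false]
      linarith
  · rw [Set.indicator_of_notMem hx]
    unfold aff at *
    dsimp only
    split_ifs <;> linarith

open Classical in
lemma pot_lower_le (y : ι → E) (ψ : ι → ℝ) (i : ι) {t : ℝ} (ht : 0 ≤ t) (x : E) :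
    pot y (fun j => ψ j + if j = i then -t else 0) x
      ≤ pot y ψ x + t * (Cset y ψ i t).indicator (fun _ => (1 : ℝ)) x := by
  rw [pot_le_iff]
  intro j
  have hj := aff_le_pot y ψ j x
  by_cases hx : x ∈ Cset y ψ i t
  · rw [Set.indicator_of_mem hx]
    unfold aff at *
    dsimp only
    split_ifs <;> linarith
  · rw [Set.indicator_of_notMem hx]
    simp only [Cset, Set.mem_ofPred_eq, not_forall, not_lt] at hx
    obtain ⟨j0, hj0, hle⟩ := hx
    have hj0' := aff_le_pot y ψ j0 x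
    by_cases hji : j = i
    · subst hji
      unfold aff at *
      simp only [if_true]
      linarith
    · unfold aff at *
      simp only [hji, if_false]
      linarith

open Classical in
lemma sum_shift (m ψ : ι → ℝ) (i : ι) (t : ℝ) :
    ∑ j, m j * (ψ j + if j = i then t else 0) = ∑ j, m j * ψ j + m i * t := by
  simp_rw [mul_add]
  rw [Finset.sum_add_distrib]
  congr 1
  simp

lemma measure_Uset_le (σ : Measure E) [IsFiniteMeasure σ]
    (hint : Integrable (fun x : E => ‖x‖) σ) (y : ι → E) (m : ι → ℝ) (ψ : ι → ℝ)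
    (hmin : ∀ ψ', J σ y m ψ ≤ J σ y m ψ') (i : ι) {t : ℝ} (ht : 0 < t) :
    σ (Uset y ψ i t) ≤ ENNReal.ofReal (m i) := by
  classical
  have h1 := hmin (fun j => ψ j + if j = i then t else 0)
  unfold J at h1
  rw [sum_shift] at h1
  have hind : Integrable (fun x => t * (Uset y ψ i t).indicator (fun _ => (1 : ℝ)) x) σ :=
    ((integrable_const (1 : ℝ)).indicator (measurableSet_Uset y ψ i t)).const_mul t
  have h2 : ∫ x, pot y (fun j => ψ j + if j = i then t else 0) x ∂σ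
      ≤ ∫ x, pot y ψ x ∂σ - t * (σ (Uset y ψ i t)).toReal := by
    have hint2 : Integrable
        (fun x => pot y ψ x - t * (Uset y ψ i t).indicator (fun _ => (1 : ℝ)) x) σ :=
      (integrable_pot σ hint y ψ).sub hind
    have := integral_mono (integrable_pot σ hint y _) hint2
      (fun x => pot_raise_le y ψ i ht.le x)
    rw [integral_sub (integrable_pot σ hint y ψ) hind, integral_const_mul,
      integral_indicator (measurableSet_Uset y ψ i t)] at this
    simpa [Measure.real] using this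
  have h3 : t * (σ (Uset y ψ i t)).toReal ≤ t * m i := by linarith
  have h4 : (σ (Uset y ψ i t)).toReal ≤ m i := le_of_mul_le_mul_left h3 ht
  rw [← ENNReal.ofReal_toReal (measure_ne_top σ (Uset y ψ i t))]
  exact ENNReal.ofReal_le_ofReal h4

lemma le_measure_Cset (σ : Measure E) [IsFiniteMeasure σ]
    (hint : Integrable (fun x : E => ‖x‖) σ) (y : ι → E) (m : ι → ℝ) (ψ : ι → ℝ)
    (hmin : ∀ ψ', J σ y m ψ ≤ J σ y m ψ') (i : ι) {t : ℝ} (ht : 0 < t) :
    ENNReal.ofReal (m i) ≤ σ (Cset y ψ i t) := by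
  classical
  have h1 := hmin (fun j => ψ j + if j = i then -t else 0)
  unfold J at h1
  rw [sum_shift] at h1
  have hind : Integrable (fun x => t * (Cset y ψ i t).indicator (fun _ => (1 : ℝ)) x) σ :=
    ((integrable_const (1 : ℝ)).indicator (measurableSet_Cset y ψ i t)).const_mul t
  have h2 : ∫ x, pot y (fun j => ψ j + if j = i then -t else 0) x ∂σ
      ≤ ∫ x, pot y ψ x ∂σ + t * (σ (Cset y ψ i t)).toReal := by
    have hint2 : Integrable
        (fun x => pot y ψ x + t * (Cset y ψ i t).indicator (fun _ => (1 : ℝ)) x) σ :=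
      (integrable_pot σ hint y ψ).add hind
    have := integral_mono (integrable_pot σ hint y _) hint2
      (fun x => pot_lower_le y ψ i ht.le x)
    rw [integral_add (integrable_pot σ hint y ψ) hind, integral_const_mul,
      integral_indicator (measurableSet_Cset y ψ i t)] at this
    simpa [Measure.real] using this
  have h3 : t * m i ≤ t * (σ (Cset y ψ i t)).toReal := by linarith
  have h4 : m i ≤ (σ (Cset y ψ i t)).toReal := le_of_mul_le_mul_left h3 ht
  rw [← ENNReal.ofReal_toReal (measure_ne_top σ (Cset y ψ i t))]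
  exact ENNReal.ofReal_le_ofReal h4

omit [MeasurableSpace E] [BorelSpace E] [Nonempty ι] in
lemma Uset_mono (y : ι → E) (ψ : ι → ℝ) (i : ι) {t t' : ℝ} (h : t' ≤ t) :
    Uset y ψ i t ⊆ Uset y ψ i t' := fun x hx j hj => by
  have := hx j hj
  linarith

omit [MeasurableSpace E] [BorelSpace E] [Nonempty ι] in
lemma Cset_mono (y : ι → E) (ψ : ι → ℝ) (i : ι) {t t' : ℝ} (h : t ≤ t') :
    Cset y ψ i t ⊆ Cset y ψ i t' := fun x hx j hj => by
  have := hx j hj
  linarith

omit [MeasurableSpace E] [BorelSpace E] [Nonempty ι] in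
lemma scell_subset_iUnion_Uset (y : ι → E) (ψ : ι → ℝ) (i : ι) :
    scell y ψ i ⊆ ⋃ n : ℕ, Uset y ψ i (1 / ((n : ℝ) + 1)) := by
  intro x hx
  have h1 : ∀ j, ∃ n : ℕ, j ≠ i → 1 / ((n : ℝ) + 1) < aff y ψ i x - aff y ψ j x := by
    intro j
    by_cases hj : j = i
    · exact ⟨0, fun h => absurd hj h⟩
    · obtain ⟨n, hn⟩ := exists_nat_one_div_lt (sub_pos.mpr (hx j hj))
      exact ⟨n, fun _ => hn⟩
  choose N hN using h1
  refine Set.mem_iUnion.mpr ⟨Finset.univ.sup N, fun j hj => ?_⟩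
  have h2 : N j ≤ Finset.univ.sup N := Finset.le_sup (Finset.mem_univ j)
  have h3 : 1 / (((Finset.univ.sup N : ℕ) : ℝ) + 1) ≤ 1 / ((N j : ℝ) + 1) := by
    apply one_div_le_one_div_of_le (by positivity)
    have : (N j : ℝ) ≤ ((Finset.univ.sup N : ℕ) : ℝ) := by exact_mod_cast h2
    linarith
  have := hN j hj
  linarith

omit [MeasurableSpace E] [BorelSpace E] [Nonempty ι] in
lemma iInter_Cset_subset_cell (y : ι → E) (ψ : ι → ℝ) (i : ι) :
    ⋂ n : ℕ, Cset y ψ i (1 / ((n : ℝ) + 1)) ⊆ cell y ψ i := by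
  intro x hx j
  rw [Set.mem_iInter] at hx
  by_cases hj : j = i
  · rw [hj]
  · by_contra hlt
    rw [not_le] at hlt
    obtain ⟨n, hn⟩ := exists_nat_one_div_lt (sub_pos.mpr hlt)
    have := hx n j hj
    linarith

omit [MeasurableSpace E] [BorelSpace E] [Nonempty ι] in
lemma scell_subset_cell (y : ι → E) (ψ : ι → ℝ) (i : ι) : scell y ψ i ⊆ cell y ψ i := by
  intro x hx j
  by_cases hj : j = i
  · rw [hj]
  · exact (hx j hj).le

omit [MeasurableSpace E] [BorelSpace E] [Nonempty ι] in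
lemma cell_subset_scell_union (y : ι → E) (ψ : ι → ℝ) (i : ι) :
    cell y ψ i ⊆ scell y ψ i ∪
      ⋃ j, ⋃ (_ : j ≠ i), {x | inner ℝ x (y i - y j) = ψ i - ψ j} := by
  intro x hx
  by_cases hs : x ∈ scell y ψ i
  · exact Or.inl hs
  · right
    simp only [scell, Set.mem_ofPred_eq, not_forall, not_lt] at hs
    obtain ⟨j, hj, hle⟩ := hs
    have hge := hx j
    refine Set.mem_iUnion.mpr ⟨j, Set.mem_iUnion.mpr ⟨hj, ?_⟩⟩
    show inner ℝ x (y i - y j) = ψ i - ψ j
    rw [inner_sub_right]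
    unfold aff at hle hge
    linarith

/-- **Existence of Laguerre weights** for a finite measure giving no mass to hyperplanes. -/
theorem exists_weights (σ : Measure E) [IsFiniteMeasure σ]
    (hint : Integrable (fun x : E => ‖x‖) σ)
    (hnull : ∀ (v : E) (c : ℝ), v ≠ 0 → σ {x | inner ℝ x v = c} = 0)
    (y : ι → E) (hy : Function.Injective y) (m : ι → ℝ) (hm : ∀ i, 0 < m i)
    (hsum : ∑ i, m i = (σ Set.univ).toReal) :
    ∃ ψ : ι → ℝ, ∀ i, σ (cell y ψ i) = ENNReal.ofReal (m i) ∧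
      σ (scell y ψ i) = ENNReal.ofReal (m i) := by
  obtain ⟨ψ, hmin⟩ := exists_min σ hint y m hm hsum
  refine ⟨ψ, fun i => ?_⟩
  have ha : σ (scell y ψ i) ≤ ENNReal.ofReal (m i) := by
    have hdir : Directed (· ⊆ ·) (fun n : ℕ => Uset y ψ i (1 / ((n : ℝ) + 1))) :=
      directed_of_isDirected_le fun a b hab => Uset_mono y ψ i (by
        apply one_div_le_one_div_of_le (by positivity)
        have : (a : ℝ) ≤ (b : ℝ) := by exact_mod_cast hab
        linarith)
    calc σ (scell y ψ i) ≤ σ (⋃ n : ℕ, Uset y ψ i (1 / ((n : ℝ) + 1))) :=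
          measure_mono (scell_subset_iUnion_Uset y ψ i)
      _ = ⨆ n : ℕ, σ (Uset y ψ i (1 / ((n : ℝ) + 1))) := hdir.measure_iUnion
      _ ≤ ENNReal.ofReal (m i) :=
          iSup_le fun n => measure_Uset_le σ hint y m ψ hmin i (by positivity)
  have hb : ENNReal.ofReal (m i) ≤ σ (cell y ψ i) := by
    have hdir : Directed (· ⊇ ·) (fun n : ℕ => Cset y ψ i (1 / ((n : ℝ) + 1))) :=
      directed_of_isDirected_le fun a b hab => Cset_mono y ψ i (by
        apply one_div_le_one_div_of_le (by positivity)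
        have : (a : ℝ) ≤ (b : ℝ) := by exact_mod_cast hab
        linarith)
    calc ENNReal.ofReal (m i) ≤ ⨅ n : ℕ, σ (Cset y ψ i (1 / ((n : ℝ) + 1))) :=
          le_iInf fun n => le_measure_Cset σ hint y m ψ hmin i (by positivity)
      _ = σ (⋂ n : ℕ, Cset y ψ i (1 / ((n : ℝ) + 1))) :=
          (hdir.measure_iInter (fun n => (measurableSet_Cset y ψ i _).nullMeasurableSet)
            ⟨0, measure_ne_top σ _⟩).symm
      _ ≤ σ (cell y ψ i) := measure_mono (iInter_Cset_subset_cell y ψ i)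
  have hH : σ (⋃ j, ⋃ (_ : j ≠ i), {x | inner ℝ x (y i - y j) = ψ i - ψ j}) = 0 :=
    measure_iUnion_null fun j => measure_iUnion_null fun hj =>
      hnull (y i - y j) (ψ i - ψ j) (sub_ne_zero.mpr fun h => hj (hy h).symm)
  have hc : σ (cell y ψ i) ≤ σ (scell y ψ i) := by
    calc σ (cell y ψ i) ≤ σ (scell y ψ i ∪
          ⋃ j, ⋃ (_ : j ≠ i), {x | inner ℝ x (y i - y j) = ψ i - ψ j}) :=
          measure_mono (cell_subset_scell_union y ψ i)
      _ ≤ σ (scell y ψ i) +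
          σ (⋃ j, ⋃ (_ : j ≠ i), {x | inner ℝ x (y i - y j) = ψ i - ψ j}) :=
          measure_union_le _ _
      _ = σ (scell y ψ i) := by rw [hH, add_zero]
  exact ⟨le_antisymm (hc.trans ha) hb, le_antisymm ha (hb.trans hc)⟩

end Existence

end Crest.Agent.S0109.Helper4
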