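import Mathlib
import Crest.Prelude.Def_QuadraticTransport
import Crest.Agent.Lib.S0109.Defs
import Crest.Agent.Lib.S0109.Helper4Weights

/-!
# Semi-discrete optimal transport: existence of a Laguerre (potential) map

Adapter from `Helper4.exists_weights` to the interface `IsPotMap` of row 82: for a probability
measure `σ ≪ volume` on `E d` concentrated on a bounded set and a finitely supported probability
measure `μ`, there are weights `ψ` and a measurable map `T` with `IsPotMap σ μ S ψ T`.
-/

set_option autoImplicit false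
open MeasureTheory
open scoped ENNReal NNReal

namespace Crest.Agent.S0109.Helper4

/-- Two measures concentrated on a finite set and agreeing on its singletons are equal. -/
lemma measure_eq_of_finset {α : Type*} [MeasurableSpace α] [MeasurableSingletonClass α]
    (ν₁ ν₂ : Measure α) (S : Finset α) (h₁ : ν₁ (↑S)ᶜ = 0) (h₂ : ν₂ (↑S)ᶜ = 0)
    (h : ∀ y ∈ S, ν₁ {y} = ν₂ {y}) : ν₁ = ν₂ := by
  classical
  have key : ∀ (ν : Measure α), ν (↑S)ᶜ = 0 → ∀ A, MeasurableSet A →
      ν A = ∑ y ∈ S.filter (· ∈ A), ν {y} := by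
    intro ν hν A _
    have hS : MeasurableSet (↑S : Set α) := S.measurableSet
    have h1 : ν A = ν (A ∩ ↑S) := by
      have := measure_inter_add_sdiff (μ := ν) A hS
      have h0 : ν (A \ ↑S) = 0 := measure_mono_null (fun x hx => hx.2) hν
      rw [h0, add_zero] at this
      exact this.symm
    have h2 : A ∩ ↑S = ↑(S.filter (· ∈ A)) := by
      ext x; simp [and_comm]
    rw [h1, h2, sum_measure_singleton]
  ext A hA
  rw [key ν₁ h₁ A hA, key ν₂ h₂ A hA]
  exact Finset.sum_congr rfl fun y hy => h y (Finset.mem_of_mem_filter y hy)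

/-- Affine hyperplanes are Lebesgue-null. -/
lemma volume_hyperplane {d : ℕ} (v : E d) (c : ℝ) (hv : v ≠ 0) :
    (volume : Measure (E d)) {x | inner ℝ x v = c} = 0 := by
  set x0 : E d := (c / ‖v‖ ^ 2) • v with hx0
  have hsub : ((ℝ ∙ v)ᗮ : Submodule ℝ (E d)) ≠ ⊤ := by
    intro htop
    have hmem : v ∈ ((ℝ ∙ v)ᗮ : Submodule ℝ (E d)) := htop ▸ Submodule.mem_top
    rw [Submodule.mem_orthogonal_singleton_iff_inner_right] at hmem
    exact hv (inner_self_eq_zero.mp hmem)
  have h0 := Measure.addHaar_submodule (volume : Measure (E d)) _ hsub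
  have hset : {x : E d | inner ℝ x v = c}
      = (fun x => x + (-x0)) ⁻¹' (((ℝ ∙ v)ᗮ : Submodule ℝ (E d)) : Set (E d)) := by
    ext x
    simp only [Set.mem_ofPred_eq, Set.mem_preimage, SetLike.mem_coe]
    rw [Submodule.mem_orthogonal_singleton_iff_inner_right, inner_add_right, inner_neg_right,
      hx0, inner_smul_right, real_inner_self_eq_norm_sq, real_inner_comm]
    have hvn : ‖v‖ ^ 2 ≠ 0 := by positivity
    rw [div_mul_cancel₀ _ hvn]
    constructor <;> intro h <;> linarith
  rw [hset, measure_preimage_add_right]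
  exact h0

/-- **Existence of a Laguerre map** for an absolutely continuous probability source concentrated on
a bounded set and a finitely supported probability target. -/
theorem exists_potMap_of_ac {d : ℕ} (σ : Measure (E d)) [IsProbabilityMeasure σ]
    (hac : σ ≪ volume) (K : Set (E d)) (hKb : Bornology.IsBounded K) (hK : σ Kᶜ = 0)
    (μ : Measure (E d)) [IsProbabilityMeasure μ] (S : Finset (E d)) (hS : μ (↑S)ᶜ = 0) :
    ∃ (ψ : E d → ℝ) (T : E d → E d), IsPotMap σ μ S ψ T := by
  classical
  -- the atoms of positive mass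
  set Sp : Finset (E d) := S.filter (fun y => 0 < μ {y}) with hSp
  have hSpS : ∀ y ∈ Sp, y ∈ S := fun y hy => Finset.mem_of_mem_filter y hy
  have hSppos : ∀ y ∈ Sp, 0 < μ {y} := fun y hy => (Finset.mem_filter.mp hy).2
  have hμS : μ (↑S) = 1 := (prob_compl_eq_zero_iff S.measurableSet).mp hS
  have hsumS : ∑ y ∈ S, μ {y} = 1 := by rw [sum_measure_singleton, hμS]
  have hsumSp : ∑ y ∈ Sp, μ {y} = 1 := by
    rw [← hsumS, hSp, Finset.sum_filter]
    refine Finset.sum_congr rfl fun y _ => ?_
    split_ifs with h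
    · rfl
    · exact (nonpos_iff_eq_zero.mp (not_lt.mp h)).symm
  have hSpne : Sp.Nonempty := by
    by_contra hemp
    rw [Finset.not_nonempty_iff_eq_empty] at hemp
    rw [hemp, Finset.sum_empty] at hsumSp
    exact zero_ne_one hsumSp
  obtain ⟨y0, hy0⟩ := hSpne
  have : Nonempty (↥Sp) := ⟨⟨y0, hy0⟩⟩
  -- masses
  set m : ↥Sp → ℝ := fun i => (μ {(i : E d)}).toReal with hm_def
  have hm : ∀ i, 0 < m i := fun i =>
    ENNReal.toReal_pos (hSppos i i.2).ne' (measure_ne_top μ _)
  have hsum : ∑ i, m i = (σ Set.univ).toReal := by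
    rw [measure_univ, ENNReal.toReal_one]
    have h1 : ∑ i : ↥Sp, m i = ∑ y ∈ Sp, (μ {y}).toReal :=
      Finset.sum_coe_sort Sp (fun y => (μ {y}).toReal)
    rw [h1, ← ENNReal.toReal_sum (fun y _ => measure_ne_top μ _), hsumSp, ENNReal.toReal_one]
  -- bounds
  obtain ⟨R0, hR0⟩ := hKb.exists_norm_le
  set R : ℝ := max R0 0 with hR
  have hRK : ∀ x ∈ K, ‖x‖ ≤ R := fun x hx => (hR0 x hx).trans (le_max_left _ _)
  have hR0' : 0 ≤ R := le_max_right _ _
  have hae : ∀ᵐ x ∂σ, x ∈ K := by
    rw [ae_iff]; exact hK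
  have hint : Integrable (fun x : E d => ‖x‖) σ := by
    refine Integrable.mono' (integrable_const R) continuous_norm.aestronglyMeasurable ?_
    filter_upwards [hae] with x hx
    rw [Real.norm_eq_abs, abs_of_nonneg (norm_nonneg x)]
    exact hRK x hx
  have hnull : ∀ (v : E d) (c : ℝ), v ≠ 0 → σ {x | inner ℝ x v = c} = 0 :=
    fun v c hv => hac (volume_hyperplane v c hv)
  -- the weights
  obtain ⟨w, hw⟩ := exists_weights σ hint hnull (Subtype.val : ↥Sp → E d)
    Subtype.val_injective m hm hsum
  set y' : ↥Sp → E d := Subtype.val with hy'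
  -- constants
  set Ry : ℝ := ∑ y ∈ S, ‖y‖ with hRy
  have hRyS : ∀ y ∈ S, ‖y‖ ≤ Ry := fun y hy =>
    Finset.single_le_sum (f := fun y => ‖y‖) (fun z _ => norm_nonneg z) hy
  set W : ℝ := ∑ i, |w i| with hW
  have hWi : ∀ i, |w i| ≤ W := fun i =>
    Finset.single_le_sum (f := fun i => |w i|) (fun j _ => abs_nonneg (w j)) (Finset.mem_univ i)
  set B : ℝ := 2 * R * Ry + W with hB
  -- the weight function and the map
  set ψ : E d → ℝ := fun z => if h : z ∈ Sp then w ⟨z, h⟩ else B with hψ
  have hψSp : ∀ i : ↥Sp, ψ (i : E d) = w i := fun i => by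
    simp only [hψ, i.2, dif_pos]
  have hψB : ∀ z, z ∉ Sp → ψ z = B := fun z hz => by
    simp only [hψ, hz, dif_neg, not_false_eq_true]
  set N : Set (E d) := ⋃ i, scell y' w i with hN
  set T : E d → E d := fun x => ∑ j, (scell y' w j).indicator (fun _ => (j : E d)) x
    + Nᶜ.indicator (fun _ => y0) x with hT
  have hNmeas : MeasurableSet N := MeasurableSet.iUnion fun i => measurableSet_scell y' w i
  have hdisj : ∀ i j : ↥Sp, i ≠ j → ∀ x, x ∈ scell y' w i → x ∉ scell y' w j := by
    intro i j hij x hxi hxj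
    have h1 := hxi j (Ne.symm hij)
    have h2 := hxj i hij
    linarith
  have hT_on : ∀ i : ↥Sp, ∀ x ∈ scell y' w i, T x = (i : E d) := by
    intro i x hx
    have hxN : x ∈ N := Set.mem_iUnion.mpr ⟨i, hx⟩
    simp only [hT]
    rw [Set.indicator_of_notMem (Set.notMem_compl_iff.mpr hxN), add_zero,
      Finset.sum_eq_single i (fun j _ hji => Set.indicator_of_notMem
        (hdisj i j (Ne.symm hji) x hx) _) (fun h => absurd (Finset.mem_univ i) h),
      Set.indicator_of_mem hx]
  have hT_off : ∀ x, x ∉ N → T x = y0 := by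
    intro x hx
    simp only [hT]
    rw [Set.indicator_of_mem (show x ∈ Nᶜ from hx),
      Finset.sum_eq_zero (fun j _ => Set.indicator_of_notMem
        (fun h => hx (Set.mem_iUnion.mpr ⟨j, h⟩)) _), zero_add]
  have hT_mem : ∀ x, T x ∈ Sp := by
    intro x
    by_cases hx : x ∈ N
    · obtain ⟨i, hi⟩ := Set.mem_iUnion.mp hx
      rw [hT_on i x hi]; exact i.2
    · rw [hT_off x hx]; exact hy0
  have hTmeas : Measurable T := by
    simp only [hT]
    refine Measurable.add (Finset.measurable_sum _ fun j _ => ?_) ?_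
    · exact Measurable.indicator measurable_const (measurableSet_scell y' w j)
    · exact Measurable.indicator measurable_const hNmeas.compl
  -- the strict cells cover σ-almost everything
  have hNone : σ N = 1 := by
    rw [hN, measure_iUnion (fun i j hij => Set.disjoint_left.mpr (hdisj i j hij))
      (fun i => measurableSet_scell y' w i), tsum_fintype]
    have h1 : ∀ i, σ (scell y' w i) = ENNReal.ofReal (m i) := fun i => (hw i).2
    simp_rw [h1]
    rw [← ENNReal.ofReal_sum_of_nonneg (fun i _ => (hm i).le), hsum, measure_univ,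
      ENNReal.toReal_one, ENNReal.ofReal_one]
  have hNc : σ Nᶜ = 0 := (prob_compl_eq_zero_iff hNmeas).mpr hNone
  have haeN : ∀ᵐ x ∂σ, x ∈ N := by
    rw [ae_iff]; exact hNc
  refine ⟨ψ, T, hTmeas, ?_, ?_⟩
  · -- push-forward
    apply measure_eq_of_finset (σ.map T) μ S
    · rw [Measure.map_apply hTmeas S.measurableSet.compl]
      have : T ⁻¹' (↑S)ᶜ = ∅ := by
        ext x
        simp only [Set.mem_preimage, Set.mem_compl_iff, Finset.mem_coe, Set.mem_empty_iff_false,
          iff_false, not_not]
        exact hSpS _ (hT_mem x)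
      rw [this, measure_empty]
    · exact hS
    · intro y hyS
      rw [Measure.map_apply hTmeas (measurableSet_singleton y)]
      by_cases hySp : y ∈ Sp
      · set i : ↥Sp := ⟨y, hySp⟩ with hi
        have hsub1 : scell y' w i ⊆ T ⁻¹' {y} := fun x hx => by
          simp only [Set.mem_preimage, Set.mem_singleton_iff]
          rw [hT_on i x hx]
        have hsub2 : T ⁻¹' {y} ⊆ scell y' w i ∪ Nᶜ := by
          intro x hx
          simp only [Set.mem_preimage, Set.mem_singleton_iff] at hx
          by_cases hxN : x ∈ N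
          · obtain ⟨j, hj⟩ := Set.mem_iUnion.mp hxN
            have hji : j = i := by
              apply Subtype.ext
              rw [← hT_on j x hj, hx]
            left; rw [← hji]; exact hj
          · right; exact hxN
        have hle : σ (T ⁻¹' {y}) ≤ σ (scell y' w i) := by
          calc σ (T ⁻¹' {y}) ≤ σ (scell y' w i ∪ Nᶜ) := measure_mono hsub2
            _ ≤ σ (scell y' w i) + σ Nᶜ := measure_union_le _ _
            _ = σ (scell y' w i) := by rw [hNc, add_zero]
        rw [le_antisymm hle (measure_mono hsub1), (hw i).2]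
        simp only [hm_def, hi]
        exact ENNReal.ofReal_toReal (measure_ne_top μ _)
      · have hμy : μ {y} = 0 := by
          by_contra hne
          exact hySp (Finset.mem_filter.mpr ⟨hyS, pos_iff_ne_zero.mpr hne⟩)
        have : T ⁻¹' {y} = ∅ := by
          ext x
          simp only [Set.mem_preimage, Set.mem_singleton_iff, Set.mem_empty_iff_false, iff_false]
          intro hx
          exact hySp (hx ▸ hT_mem x)
        rw [this, measure_empty, hμy]
  · -- maximality
    filter_upwards [haeN, hae] with x hxN hxK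
    refine ⟨hSpS _ (hT_mem x), fun y hyS => ?_⟩
    obtain ⟨i, hi⟩ := Set.mem_iUnion.mp hxN
    rw [hT_on i x hi, hψSp i]
    by_cases hySp : y ∈ Sp
    · have h1 : ψ y = w ⟨y, hySp⟩ := hψSp ⟨y, hySp⟩
      rw [h1]
      by_cases hyi : (⟨y, hySp⟩ : ↥Sp) = i
      · have : y = (i : E d) := by rw [← hyi]
        subst this
        exact le_of_eq (by rw [hyi])
      · have := hi ⟨y, hySp⟩ hyi
        simp only [aff, hy'] at this
        exact this.le
    · rw [hψB y hySp]
      have h1 : |inner ℝ x y| ≤ ‖x‖ * ‖y‖ := abs_real_inner_le_norm x y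
      have h2 : |inner ℝ x (i : E d)| ≤ ‖x‖ * ‖(i : E d)‖ := abs_real_inner_le_norm x _
      have h3 : ‖x‖ * ‖y‖ ≤ R * Ry :=
        mul_le_mul (hRK x hxK) (hRyS y hyS) (norm_nonneg _) hR0'
      have h4 : ‖x‖ * ‖(i : E d)‖ ≤ R * Ry :=
        mul_le_mul (hRK x hxK) (hRyS _ (hSpS _ i.2)) (norm_nonneg _) hR0'
      have h5 := hWi i
      have h6 := (abs_le.mp h1).2
      have h7 := (abs_le.mp h2).1
      have h8 := (abs_le.mp h5).2
      simp only [hB]
      linarith

end Crest.Agent.S0109.Helper4
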