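import Mathlib
import Crest.Prelude.Def_QuadraticTransport
import Crest.Agent.Lib.S0109.Defs
import Crest.Agent.Lib.S0109.Helper4PotMap

/-! Row 82, package P2: semi-discrete optimal transport, existence of a Laguerre map.
The variational core is `Helper4.exists_weights` (module `Helper4Weights`), the adapter to
`IsPotMap` is `Helper4.exists_potMap_of_ac` (module `Helper4PotMap`). This file only checks that
the source `srcG K g` is an absolutely continuous probability measure carried by `K`. -/

set_option autoImplicit false
open MeasureTheory Filter Topology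
open scoped ENNReal NNReal
open Crest.AnalysisR.OT

namespace Crest.Agent.S0109

namespace Helper4

variable {d : ℕ} {K : Set (E d)}

lemma uniformProbOn_univ (hKc : IsCompact K) (hKi : (interior K).Nonempty) :
    uniformProbOn K Set.univ = 1 := by
  have hpos : 0 < volume K :=
    lt_of_lt_of_le (isOpen_interior.measure_pos volume hKi) (measure_mono interior_subset)
  have hfin : volume K < ∞ := hKc.measure_lt_top
  simp only [uniformProbOn, Measure.smul_apply, Measure.restrict_apply MeasurableSet.univ,
    Set.univ_inter, smul_eq_mul]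
  exact ENNReal.inv_mul_cancel hpos.ne' hfin.ne

lemma uniformProbOn_compl' (hKc : IsCompact K) : uniformProbOn K Kᶜ = 0 := by
  simp only [uniformProbOn, Measure.smul_apply,
    Measure.restrict_apply hKc.measurableSet.compl, Set.compl_inter_self, measure_empty,
    smul_eq_mul, mul_zero]

lemma uniformProbOn_ac : uniformProbOn K ≪ volume := by
  unfold uniformProbOn
  exact (Measure.AbsolutelyContinuous.rfl.smul_left _).trans Measure.restrict_le_self.absolutelyContinuous

lemma srcG_ac (g : E d → ℝ) : srcG K g ≪ volume :=
  (withDensity_absolutelyContinuous _ _).trans uniformProbOn_ac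

lemma srcG_compl' (hKc : IsCompact K) (g : E d → ℝ) : srcG K g Kᶜ = 0 :=
  withDensity_absolutelyContinuous _ _ (uniformProbOn_compl' hKc)

lemma srcG_univ (hKc : IsCompact K) (hKi : (interior K).Nonempty) {g : E d → ℝ}
    (hg : Measurable g) (hgb : ∀ x ∈ K, |g x| ≤ 1 / 2)
    (hg0 : ∫ x, g x ∂(uniformProbOn K) = 0) : srcG K g Set.univ = 1 := by
  have : IsProbabilityMeasure (uniformProbOn K) := ⟨uniformProbOn_univ hKc hKi⟩
  have hae : ∀ᵐ x ∂(uniformProbOn K), x ∈ K := by
    rw [ae_iff]; exact uniformProbOn_compl' hKc
  have hgint : Integrable g (uniformProbOn K) := by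
    refine Integrable.mono' (integrable_const (1 / 2 : ℝ)) hg.aestronglyMeasurable ?_
    filter_upwards [hae] with x hx
    rw [Real.norm_eq_abs]; exact hgb x hx
  have hint : Integrable (fun x => 1 + g x) (uniformProbOn K) := (integrable_const 1).add hgint
  have hnn : 0 ≤ᵐ[uniformProbOn K] fun x => 1 + g x := by
    filter_upwards [hae] with x hx
    have := (abs_le.mp (hgb x hx)).1
    show (0 : ℝ) ≤ 1 + g x
    linarith
  unfold srcG
  rw [withDensity_apply _ MeasurableSet.univ, Measure.restrict_univ,
    ← ofReal_integral_eq_lintegral_ofReal hint hnn, integral_add (integrable_const 1) hgint,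
    hg0]
  simp

end Helper4

/-- Semi-discrete optimal transport: existence of a Laguerre map for every finitely supported target
and every source `(1 + g) • uniformProbOn K` with `|g| ≤ 1/2` on `K`, `∫ g = 0`. -/
theorem exists_potMap {d : ℕ} (K : Set (E d)) (hKc : IsCompact K) (hKi : (interior K).Nonempty)
    (g : E d → ℝ) (hg : Measurable g) (hgb : ∀ x ∈ K, |g x| ≤ 1 / 2)
    (hg0 : ∫ x, g x ∂(uniformProbOn K) = 0)
    (μ : Measure (E d)) [IsProbabilityMeasure μ] (S : Finset (E d)) (hS : μ (↑S)ᶜ = 0) :
    ∃ (ψ : E d → ℝ) (T : E d → E d), IsPotMap (srcG K g) μ S ψ T := by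
  have : IsProbabilityMeasure (srcG K g) := ⟨Helper4.srcG_univ hKc hKi hg hgb hg0⟩
  exact Helper4.exists_potMap_of_ac (srcG K g) (Helper4.srcG_ac g) K hKc.isBounded
    (Helper4.srcG_compl' hKc g) μ S hS

end Crest.Agent.S0109
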