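import Mathlib
import Crest.Prelude.Def_QuadraticTransport
import Crest.Agent.Lib.S0109.Defs
import Crest.Agent.Lib.S0109.Basic

/-!
# Row 82, package P6a (Glue), part A (helper47): weak duality for Laguerre maps

* `aestronglyMeasurable_of_finset`: every real function is a.e. strongly measurable for a measure
  carried by a finite set.
* `integral_inner_le_pot`: weak duality `∫ ⟪X, Z⟫ dγ ≤ ∫ pot S ψ dσ + ∫ ψ dμ` for any coupling.
* `corr_eq_pot`: equality for a Laguerre map.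
* `integral_inner_le_corr`, `corr_eq_corr`.
-/

set_option autoImplicit false
open MeasureTheory Filter Topology
open scoped ENNReal NNReal
open Crest.AnalysisR.OT

namespace Crest.Agent.S0109.Helper47

open Crest.Agent.S0109

variable {d : ℕ}

/-- Every real function is a.e. strongly measurable for a measure carried by a finite set. -/
theorem aestronglyMeasurable_of_finset {α : Type*} [MeasurableSpace α] [MeasurableSingletonClass α]
    (μ : Measure α) (S : Finset α) (hS : μ (↑S)ᶜ = 0) (f : α → ℝ) : AEStronglyMeasurable f μ := by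
  classical
  refine ⟨fun x => ∑ y ∈ S, Set.indicator {y} (fun _ => f y) x, ?_, ?_⟩
  · apply Measurable.stronglyMeasurable
    apply Finset.measurable_sum
    intro y _
    exact measurable_const.indicator (measurableSet_singleton y)
  · have h1 : ∀ᵐ x ∂μ, x ∉ ((↑S : Set α))ᶜ := measure_eq_zero_iff_ae_notMem.mp hS
    filter_upwards [h1] with x hx
    have hxS : x ∈ S := by simpa using hx
    rw [Finset.sum_eq_single x]
    · simp
    · intro y _ hyx
      simp [Set.indicator, hyx.symm]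
    · intro h
      exact absurd hxS h

/-- a.e. membership from a push-forward identity. -/
theorem ae_mem_of_map {Ω : Type*} [MeasurableSpace Ω] {γ : Measure Ω} {σ : Measure (E d)}
    {X : Ω → E d} (hX : Measurable X) (hXσ : γ.map X = σ) {A : Set (E d)} (hA : σ Aᶜ = 0) :
    ∀ᵐ ω ∂γ, X ω ∈ A := by
  have h1 : ∀ᵐ x ∂(γ.map X), x ∉ Aᶜ := by
    rw [hXσ]
    exact measure_eq_zero_iff_ae_notMem.mp hA
  have h2 := ae_of_ae_map hX.aemeasurable h1
  filter_upwards [h2] with ω hω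
  simpa using hω

/-- The potential is integrable for a finite measure carried by a compact set. -/
theorem integrable_pot {σ : Measure (E d)} [IsFiniteMeasure σ] {K : Set (E d)} (hKc : IsCompact K)
    (hσK : σ Kᶜ = 0) (S : Finset (E d)) (ψ : E d → ℝ) : Integrable (pot S ψ) σ := by
  obtain ⟨C, hC⟩ := hKc.exists_bound_of_continuousOn (continuous_pot S ψ).continuousOn
  refine Integrable.of_bound (continuous_pot S ψ).aestronglyMeasurable C ?_
  have h1 : ∀ᵐ x ∂σ, x ∉ Kᶜ := measure_eq_zero_iff_ae_notMem.mp hσK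
  filter_upwards [h1] with x hx
  exact hC x (by simpa using hx)

/-- **Weak duality.** For any coupling `γ` (given by two maps `X`, `Z` on a finite measure space)
of `σ` and a finitely supported `μ`, `∫ ⟪X, Z⟫ dγ ≤ ∫ pot S ψ dσ + ∫ ψ dμ`. -/
theorem integral_inner_le_pot {Ω : Type*} [MeasurableSpace Ω] (γ : Measure Ω) [IsFiniteMeasure γ]
    {σ μ : Measure (E d)} {K : Set (E d)} (hKc : IsCompact K) (hσK : σ Kᶜ = 0)
    {X Z : Ω → E d} (hX : Measurable X) (hZ : Measurable Z)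
    (hXσ : γ.map X = σ) (hZμ : γ.map Z = μ) (S : Finset (E d)) (hS : μ (↑S)ᶜ = 0) (ψ : E d → ℝ) :
    ∫ ω, inner ℝ (X ω) (Z ω) ∂γ ≤ ∫ x, pot S ψ x ∂σ + ∫ y, ψ y ∂μ := by
  have hXK : ∀ᵐ ω ∂γ, X ω ∈ K := ae_mem_of_map hX hXσ hσK
  have hZS : ∀ᵐ ω ∂γ, Z ω ∈ (↑S : Set (E d)) := ae_mem_of_map hZ hZμ hS
  obtain ⟨R, hR⟩ := hKc.isBounded.exists_norm_le
  obtain ⟨R', hR'⟩ := (S.finite_toSet.isBounded).exists_norm_le
  obtain ⟨C, hC⟩ := hKc.exists_bound_of_continuousOn (continuous_pot S ψ).continuousOn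
  obtain ⟨C', hC'⟩ : ∃ C', ∀ y ∈ S, |ψ y| ≤ C' :=
    ⟨∑ y ∈ S, |ψ y|, fun y hy => Finset.single_le_sum (fun z _ => abs_nonneg (ψ z)) hy⟩
  have hi1 : Integrable (fun ω => (inner ℝ (X ω) (Z ω) : ℝ)) γ := by
    refine Integrable.of_bound (hX.inner hZ).aestronglyMeasurable (R * R') ?_
    filter_upwards [hXK, hZS] with ω h1 h2
    calc ‖(inner ℝ (X ω) (Z ω) : ℝ)‖ ≤ ‖X ω‖ * ‖Z ω‖ := norm_inner_le_norm _ _
      _ ≤ R * R' := mul_le_mul (hR _ h1) (hR' _ h2) (norm_nonneg _)
          ((norm_nonneg _).trans (hR _ h1))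
  have hψm : AEStronglyMeasurable ψ μ := aestronglyMeasurable_of_finset μ S hS ψ
  have hi2 : Integrable (fun ω => pot S ψ (X ω)) γ := by
    refine Integrable.of_bound ((continuous_pot S ψ).measurable.comp hX).aestronglyMeasurable C ?_
    filter_upwards [hXK] with ω h1 using hC _ h1
  have hi3 : Integrable (fun ω => ψ (Z ω)) γ := by
    refine Integrable.of_bound ?_ C' ?_
    · rw [← hZμ] at hψm
      exact hψm.comp_measurable hZ
    · filter_upwards [hZS] with ω h2
      rw [Real.norm_eq_abs]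
      exact hC' _ h2
  have hle : ∫ ω, inner ℝ (X ω) (Z ω) ∂γ ≤ ∫ ω, (pot S ψ (X ω) + ψ (Z ω)) ∂γ := by
    refine integral_mono_ae hi1 (hi2.add hi3) ?_
    filter_upwards [hZS] with ω h2
    have := le_pot (ψ := ψ) h2 (X ω)
    linarith
  rw [integral_add hi2 hi3] at hle
  have e1 : ∫ ω, pot S ψ (X ω) ∂γ = ∫ x, pot S ψ x ∂σ := by
    rw [← hXσ, integral_map hX.aemeasurable (continuous_pot S ψ).aestronglyMeasurable]
  have e2 : ∫ ω, ψ (Z ω) ∂γ = ∫ y, ψ y ∂μ := by
    rw [← hZμ, integral_map hZ.aemeasurable (by rw [hZμ]; exact hψm)]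
  rw [e1, e2] at hle
  exact hle

/-- For a Laguerre map, `corr σ T = ∫ pot S ψ dσ + ∫ ψ dμ`. -/
theorem corr_eq_pot {σ μ : Measure (E d)} [IsFiniteMeasure σ] {K : Set (E d)} (hKc : IsCompact K)
    (hσK : σ Kᶜ = 0) {S : Finset (E d)} {ψ : E d → ℝ} {T : E d → E d}
    (h : IsPotMap σ μ S ψ T) :
    corr σ T = ∫ x, pot S ψ x ∂σ + ∫ y, ψ y ∂μ := by
  have hS : μ (↑S)ᶜ = 0 := h.target_compl
  have hpe := h.pot_eq
  obtain ⟨hTm, hTμ, hT⟩ := h
  have hTS : ∀ᵐ x ∂σ, T x ∈ (↑S : Set (E d)) := ae_mem_of_map hTm hTμ hS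
  obtain ⟨C', hC'⟩ : ∃ C', ∀ y ∈ S, |ψ y| ≤ C' :=
    ⟨∑ y ∈ S, |ψ y|, fun y hy => Finset.single_le_sum (fun z _ => abs_nonneg (ψ z)) hy⟩
  have hψm : AEStronglyMeasurable ψ μ := aestronglyMeasurable_of_finset μ S hS ψ
  have hi2 : Integrable (pot S ψ) σ := integrable_pot hKc hσK S ψ
  have hi3 : Integrable (fun x => ψ (T x)) σ := by
    refine Integrable.of_bound ?_ C' ?_
    · rw [← hTμ] at hψm
      exact hψm.comp_measurable hTm
    · filter_upwards [hTS] with x h2
      rw [Real.norm_eq_abs]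
      exact hC' _ h2
  have hae : ∀ᵐ x ∂σ, (inner ℝ x (T x) : ℝ) = pot S ψ x + ψ (T x) := by
    filter_upwards [hpe] with x hx
    linarith
  have e2 : ∫ x, ψ (T x) ∂σ = ∫ y, ψ y ∂μ := by
    rw [← hTμ, integral_map hTm.aemeasurable (by rw [hTμ]; exact hψm)]
  unfold corr
  rw [integral_congr_ae hae, integral_add hi2 hi3, e2]

/-- **Weak duality, correlation form.** Any coupling of `σ` and `μ` has correlation at most that
of a Laguerre map. -/
theorem integral_inner_le_corr {Ω : Type*} [MeasurableSpace Ω] (γ : Measure Ω) [IsFiniteMeasure γ]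
    {σ μ : Measure (E d)} {K : Set (E d)} (hKc : IsCompact K) (hσK : σ Kᶜ = 0)
    {X Z : Ω → E d} (hX : Measurable X) (hZ : Measurable Z)
    (hXσ : γ.map X = σ) (hZμ : γ.map Z = μ) {S : Finset (E d)} {ψ : E d → ℝ} {T : E d → E d}
    (h : IsPotMap σ μ S ψ T) :
    ∫ ω, inner ℝ (X ω) (Z ω) ∂γ ≤ corr σ T := by
  have : IsFiniteMeasure σ := by
    rw [← hXσ]
    infer_instance
  rw [corr_eq_pot hKc hσK h]
  exact integral_inner_le_pot γ hKc hσK hX hZ hXσ hZμ S h.target_compl ψ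

/-- The correlation of a Laguerre map does not depend on the Laguerre map. -/
theorem corr_eq_corr {σ μ : Measure (E d)} [IsFiniteMeasure σ] {K : Set (E d)} (hKc : IsCompact K)
    (hσK : σ Kᶜ = 0) {S S' : Finset (E d)} {ψ ψ' : E d → ℝ} {T T' : E d → E d}
    (h : IsPotMap σ μ S ψ T) (h' : IsPotMap σ μ S' ψ' T') : corr σ T = corr σ T' := by
  apply le_antisymm
  · have := integral_inner_le_corr σ hKc hσK measurable_id h.1 Measure.map_id h.2.1 h'
    simpa [corr] using this
  · have := integral_inner_le_corr σ hKc hσK measurable_id h'.1 Measure.map_id h'.2.1 h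
    simpa [corr] using this

end Crest.Agent.S0109.Helper47
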