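import Mathlib
import Crest.Prelude.Def_QuadraticTransport
import Crest.Agent.Lib.S0109.Defs
import Crest.Agent.Lib.S0109.Basic
import Crest.Agent.Lib.S0109.Helper47GlueA

/-!
# Row 82, package P6a (Glue), part C (helper47): dual admissibility

`corr_sub_le_pot'`, `pot_le_corr_sub'`: the two inequalities
`∫ φ^g g dρ ≤ M(ρ_g, μ) - M(ρ, μ) ≤ ∫ φ⁰ g dρ`.
-/

set_option autoImplicit false
open MeasureTheory Filter Topology
open scoped ENNReal NNReal
open Crest.AnalysisR.OT

namespace Crest.Agent.S0109.Helper47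

open Crest.Agent.S0109

variable {d : ℕ}

/-- `∫ φ d(ρ_g) = ∫ φ dρ + ∫ φ g dρ` for a potential `φ = pot S ψ`. -/
theorem integral_pot_srcG {K : Set (E d)} (hKc : IsCompact K) (hKi : (interior K).Nonempty)
    {g : E d → ℝ} (hg : Measurable g) (hgb : ∀ x ∈ K, |g x| ≤ 1 / 2)
    (S : Finset (E d)) (ψ : E d → ℝ) :
    ∫ x, pot S ψ x ∂(srcG K g)
      = ∫ x, pot S ψ x ∂(uniformProbOn K) + ∫ x, pot S ψ x * g x ∂(uniformProbOn K) := by
  have := isProbabilityMeasure_uniformProbOn hKc hKi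
  have hρK : uniformProbOn K Kᶜ = 0 := uniformProbOn_compl hKc
  have hi1 : Integrable (pot S ψ) (uniformProbOn K) := integrable_pot hKc hρK S ψ
  obtain ⟨C, hC⟩ := hKc.exists_bound_of_continuousOn (continuous_pot S ψ).continuousOn
  have hi2 : Integrable (fun x => pot S ψ x * g x) (uniformProbOn K) := by
    refine Integrable.of_bound
      ((continuous_pot S ψ).measurable.mul hg).aestronglyMeasurable (C * (1 / 2)) ?_
    have h1 : ∀ᵐ x ∂(uniformProbOn K), x ∉ Kᶜ := measure_eq_zero_iff_ae_notMem.mp hρK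
    filter_upwards [h1] with x hx
    have hxK : x ∈ K := by simpa using hx
    rw [norm_mul]
    exact mul_le_mul (hC x hxK) (by rw [Real.norm_eq_abs]; exact hgb x hxK) (norm_nonneg _)
      ((norm_nonneg _).trans (hC x hxK))
  rw [integral_srcG hKc hg hgb (pot S ψ), ← integral_add hi1 hi2]
  congr 1
  funext x
  rw [smul_eq_mul]
  ring

/-- Dual admissibility, upper bound. -/
theorem corr_sub_le_pot' {K : Set (E d)} (hKc : IsCompact K) (hKi : (interior K).Nonempty)
    {g : E d → ℝ} (hg : Measurable g) (hgb : ∀ x ∈ K, |g x| ≤ 1 / 2)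
    (hg0 : ∫ x, g x ∂(uniformProbOn K) = 0)
    {μ : Measure (E d)} {S : Finset (E d)}
    {ψ0 ψg : E d → ℝ} {T0 Tg : E d → E d}
    (h0 : IsPotMap (uniformProbOn K) μ S ψ0 T0) (h1 : IsPotMap (srcG K g) μ S ψg Tg) :
    corr (srcG K g) Tg - corr (uniformProbOn K) T0 ≤ ∫ x, pot S ψ0 x * g x ∂(uniformProbOn K) := by
  have := isProbabilityMeasure_uniformProbOn hKc hKi
  have := isProbabilityMeasure_srcG hKc hKi hg hgb hg0
  have hle := integral_inner_le_pot (srcG K g) hKc (srcG_compl hKc g) measurable_id h1.1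
    Measure.map_id h1.2.1 S h1.target_compl ψ0
  have heq := corr_eq_pot hKc (uniformProbOn_compl hKc) h0
  have hs := integral_pot_srcG hKc hKi hg hgb S ψ0
  have hc : corr (srcG K g) Tg = ∫ x, inner ℝ (id x) (Tg x) ∂(srcG K g) := rfl
  linarith

/-- Dual admissibility, lower bound. -/
theorem pot_le_corr_sub' {K : Set (E d)} (hKc : IsCompact K) (hKi : (interior K).Nonempty)
    {g : E d → ℝ} (hg : Measurable g) (hgb : ∀ x ∈ K, |g x| ≤ 1 / 2)
    (hg0 : ∫ x, g x ∂(uniformProbOn K) = 0)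
    {μ : Measure (E d)} {S : Finset (E d)}
    {ψ0 ψg : E d → ℝ} {T0 Tg : E d → E d}
    (h0 : IsPotMap (uniformProbOn K) μ S ψ0 T0) (h1 : IsPotMap (srcG K g) μ S ψg Tg) :
    ∫ x, pot S ψg x * g x ∂(uniformProbOn K) ≤ corr (srcG K g) Tg - corr (uniformProbOn K) T0 := by
  have := isProbabilityMeasure_uniformProbOn hKc hKi
  have := isProbabilityMeasure_srcG hKc hKi hg hgb hg0
  have hle := integral_inner_le_pot (uniformProbOn K) hKc (uniformProbOn_compl hKc) measurable_id
    h0.1 Measure.map_id h0.2.1 S h0.target_compl ψg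
  have heq := corr_eq_pot hKc (srcG_compl hKc g) h1
  have hs := integral_pot_srcG hKc hKi hg hgb S ψg
  have hc : corr (uniformProbOn K) T0 = ∫ x, inner ℝ (id x) (T0 x) ∂(uniformProbOn K) := rfl
  linarith

end Crest.Agent.S0109.Helper47
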