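import Mathlib
import Crest.Prelude.Def_QuadraticTransport
import Crest.Agent.Lib.S0109.Defs

/-!
# Row 82, package P6a (Glue), part B (helper47): the gluing measure and Cauchy–Schwarz

* `exists_glue`: if `σ.map T = π.map W` is carried by a finite set, there is a coupling `γ` of
  `σ` and `π` with `T q.1 = W q.2` for `γ`-a.e. `q`.
* `integral_inner_le_sqrt`: Cauchy–Schwarz for `∫ ⟪u, v⟫`.
-/

set_option autoImplicit false
open MeasureTheory Filter Topology
open scoped ENNReal NNReal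

namespace Crest.Agent.S0109.Helper47

open Crest.Agent.S0109

variable {d : ℕ}

/-- The gluing measure of `σ` and `π` along `T : E → E` and `W : Ω → E` (atoms in `S`):
`∑_{y ∈ S} σ(T⁻¹{y})⁻¹ • (σ|_{T⁻¹{y}}) ⊗ (π|_{W⁻¹{y}})`. -/
noncomputable def glue {Ω : Type*} [MeasurableSpace Ω] (σ : Measure (E d)) (π : Measure Ω)
    (T : E d → E d) (W : Ω → E d) (S : Finset (E d)) : Measure (E d × Ω) :=
  ∑ y ∈ S, (σ (T ⁻¹' {y}))⁻¹ • ((σ.restrict (T ⁻¹' {y})).prod (π.restrict (W ⁻¹' {y})))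

section Glue

variable {Ω : Type*} [MeasurableSpace Ω] (σ : Measure (E d)) [IsFiniteMeasure σ]
    (π : Measure Ω) [IsFiniteMeasure π] {T : E d → E d} (hT : Measurable T) {W : Ω → E d}
    (hW : Measurable W) (h : σ.map T = π.map W) (S : Finset (E d))
    (hS : σ.map T (↑S)ᶜ = 0)

omit [IsFiniteMeasure σ] [IsFiniteMeasure π] in
include hT hW h in
theorem glue_cell_eq (y : E d) : σ (T ⁻¹' {y}) = π (W ⁻¹' {y}) := by
  have h1 : (σ.map T) {y} = (π.map W) {y} := by rw [h]
  rwa [Measure.map_apply hT (measurableSet_singleton y),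
    Measure.map_apply hW (measurableSet_singleton y)] at h1

include hT hW h hS in
/-- First marginal of the gluing measure. -/
theorem glue_map_fst : (glue σ π T W S).map Prod.fst = σ := by
  classical
  have hAm : ∀ y, MeasurableSet (T ⁻¹' {y}) := fun y => hT (measurableSet_singleton y)
  have hAB : ∀ y, σ (T ⁻¹' {y}) = π (W ⁻¹' {y}) := glue_cell_eq σ π hT hW h
  have hSm : MeasurableSet ((↑S : Set (E d))) := S.measurableSet
  have hσS : σ (T ⁻¹' (↑S : Set (E d)))ᶜ = 0 := by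
    rw [← Set.preimage_compl, ← Measure.map_apply hT hSm.compl]
    exact hS
  ext s hs
  rw [Measure.map_apply measurable_fst hs, glue, Measure.coe_finsetSum, Finset.sum_apply]
  have hterm : ∀ y ∈ S, ((σ (T ⁻¹' {y}))⁻¹ •
      ((σ.restrict (T ⁻¹' {y})).prod (π.restrict (W ⁻¹' {y})))) (Prod.fst ⁻¹' s)
        = σ (s ∩ T ⁻¹' {y}) := by
    intro y _
    rw [Measure.smul_apply, smul_eq_mul]
    have hset : (Prod.fst ⁻¹' s : Set (E d × Ω)) = s ×ˢ Set.univ := by
      ext q; simp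
    rw [hset, Measure.prod_prod, Measure.restrict_apply hs,
      Measure.restrict_apply MeasurableSet.univ, Set.univ_inter, ← hAB y]
    by_cases h0 : σ (T ⁻¹' {y}) = 0
    · have h0' : σ (s ∩ T ⁻¹' {y}) = 0 := measure_mono_null Set.inter_subset_right h0
      rw [h0']
      simp
    · rw [mul_comm (σ (s ∩ T ⁻¹' {y})), ← mul_assoc,
        ENNReal.inv_mul_cancel h0 (measure_ne_top σ _), one_mul]
  rw [Finset.sum_congr rfl hterm]
  have hdisj : Set.PairwiseDisjoint (↑S : Set (E d)) (fun y => s ∩ T ⁻¹' {y}) := by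
    intro y _ z _ hyz
    simp only [Function.onFun]
    rw [Set.disjoint_left]
    rintro x ⟨_, hx1⟩ ⟨_, hx2⟩
    simp only [Set.mem_preimage, Set.mem_singleton_iff] at hx1 hx2
    exact hyz (hx1.symm.trans hx2)
  rw [← measure_biUnion_finset hdisj (fun y _ => hs.inter (hAm y))]
  have hU : (⋃ y ∈ S, s ∩ T ⁻¹' {y}) = s ∩ T ⁻¹' (↑S : Set (E d)) := by
    ext x
    simp
  rw [hU]
  exact measure_inter_conull hσS

include hT hW h hS in
/-- Second marginal of the gluing measure. -/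
theorem glue_map_snd : (glue σ π T W S).map Prod.snd = π := by
  classical
  have hBm : ∀ y, MeasurableSet (W ⁻¹' {y}) := fun y => hW (measurableSet_singleton y)
  have hAB : ∀ y, σ (T ⁻¹' {y}) = π (W ⁻¹' {y}) := glue_cell_eq σ π hT hW h
  have hSm : MeasurableSet ((↑S : Set (E d))) := S.measurableSet
  have hπS : π (W ⁻¹' (↑S : Set (E d)))ᶜ = 0 := by
    rw [← Set.preimage_compl, ← Measure.map_apply hW hSm.compl, ← h]
    exact hS
  ext s hs
  rw [Measure.map_apply measurable_snd hs, glue, Measure.coe_finsetSum, Finset.sum_apply]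
  have hterm : ∀ y ∈ S, ((σ (T ⁻¹' {y}))⁻¹ •
      ((σ.restrict (T ⁻¹' {y})).prod (π.restrict (W ⁻¹' {y})))) (Prod.snd ⁻¹' s)
        = π (s ∩ W ⁻¹' {y}) := by
    intro y _
    rw [Measure.smul_apply, smul_eq_mul]
    have hset : (Prod.snd ⁻¹' s : Set (E d × Ω)) = Set.univ ×ˢ s := by
      ext q; simp
    rw [hset, Measure.prod_prod, Measure.restrict_apply hs,
      Measure.restrict_apply MeasurableSet.univ, Set.univ_inter]
    by_cases h0 : σ (T ⁻¹' {y}) = 0
    · have h0' : π (s ∩ W ⁻¹' {y}) = 0 :=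
        measure_mono_null Set.inter_subset_right ((hAB y).symm.trans h0)
      rw [h0']
      simp
    · rw [← mul_assoc, ENNReal.inv_mul_cancel h0 (measure_ne_top σ _), one_mul]
  rw [Finset.sum_congr rfl hterm]
  have hdisj : Set.PairwiseDisjoint (↑S : Set (E d)) (fun y => s ∩ W ⁻¹' {y}) := by
    intro y _ z _ hyz
    simp only [Function.onFun]
    rw [Set.disjoint_left]
    rintro x ⟨_, hx1⟩ ⟨_, hx2⟩
    simp only [Set.mem_preimage, Set.mem_singleton_iff] at hx1 hx2
    exact hyz (hx1.symm.trans hx2)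
  rw [← measure_biUnion_finset hdisj (fun y _ => hs.inter (hBm y))]
  have hU : (⋃ y ∈ S, s ∩ W ⁻¹' {y}) = s ∩ W ⁻¹' (↑S : Set (E d)) := by
    ext x
    simp
  rw [hU]
  exact measure_inter_conull hπS

include hT hW in
/-- The gluing measure is carried by `{T q.1 = W q.2}`. -/
theorem glue_ae : ∀ᵐ q ∂(glue σ π T W S), T q.1 = W q.2 := by
  classical
  have hAm : ∀ y, MeasurableSet (T ⁻¹' {y}) := fun y => hT (measurableSet_singleton y)
  have hBm : ∀ y, MeasurableSet (W ⁻¹' {y}) := fun y => hW (measurableSet_singleton y)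
  rw [ae_iff, glue, Measure.coe_finsetSum, Finset.sum_apply]
  apply Finset.sum_eq_zero
  intro y _
  rw [Measure.smul_apply, smul_eq_mul, Measure.prod_restrict,
    Measure.restrict_apply' ((hAm y).prod (hBm y))]
  have hempty : {q : E d × Ω | ¬ T q.1 = W q.2} ∩ (T ⁻¹' {y}) ×ˢ (W ⁻¹' {y}) = ∅ := by
    ext q
    simp only [Set.mem_inter_iff, Set.mem_ofPred_eq, Set.mem_prod, Set.mem_preimage,
      Set.mem_singleton_iff, Set.mem_empty_iff_false, iff_false, not_and]
    intro h1 h2 h3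
    exact h1 (h2.trans h3.symm)
  rw [hempty]
  simp

include hT hW h hS in
theorem isFiniteMeasure_glue : IsFiniteMeasure (glue σ π T W S) := by
  constructor
  have h1 : (glue σ π T W S) Set.univ = σ Set.univ := by
    have h2 := glue_map_fst σ π hT hW h S hS
    have h3 : ((glue σ π T W S).map Prod.fst) Set.univ = σ Set.univ := by rw [h2]
    rwa [Measure.map_apply measurable_fst MeasurableSet.univ, Set.preimage_univ] at h3
  rw [h1]
  exact measure_lt_top σ _

end Glue

/-- A real-variable form of the arithmetic–geometric mean optimisation. -/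
theorem le_sqrt_mul_sqrt_of_forall {I A B : ℝ} (hA : 0 ≤ A) (hB : 0 ≤ B)
    (h : ∀ t : ℝ, 0 < t → I ≤ t / 2 * A + 1 / (2 * t) * B) :
    I ≤ Real.sqrt A * Real.sqrt B := by
  rcases hA.eq_or_lt with hA0 | hApos
  · have hI : I ≤ 0 := by
      by_contra hpos
      rw [not_le] at hpos
      have ht : (0 : ℝ) < B / I + 1 := by positivity
      have h1 := h _ ht
      rw [← hA0, mul_zero, zero_add] at h1
      have h2 : 1 / (2 * (B / I + 1)) * B < I := by
        rw [one_div, inv_mul_lt_iff₀ (by positivity)]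
        have : 2 * (B / I + 1) * I = 2 * B + 2 * I := by
          field_simp
        rw [this]
        linarith
      linarith
    rw [← hA0, Real.sqrt_zero, zero_mul]
    exact hI
  rcases hB.eq_or_lt with hB0 | hBpos
  · have hI : I ≤ 0 := by
      by_contra hpos
      rw [not_le] at hpos
      have ht : (0 : ℝ) < I / A := by positivity
      have h1 := h _ ht
      rw [← hB0, mul_zero, add_zero] at h1
      have h2 : I / A / 2 * A = I / 2 := by
        field_simp
      linarith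
    rw [← hB0, Real.sqrt_zero, mul_zero]
    exact hI
  · have ha : 0 < Real.sqrt A := Real.sqrt_pos.mpr hApos
    have hb : 0 < Real.sqrt B := Real.sqrt_pos.mpr hBpos
    have h1 := h (Real.sqrt B / Real.sqrt A) (by positivity)
    have hA2 : A = Real.sqrt A ^ 2 := (Real.sq_sqrt hA).symm
    have hB2 : B = Real.sqrt B ^ 2 := (Real.sq_sqrt hB).symm
    have h2 : Real.sqrt B / Real.sqrt A / 2 * A + 1 / (2 * (Real.sqrt B / Real.sqrt A)) * B
        = Real.sqrt A * Real.sqrt B := by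
      set a := Real.sqrt A
      set b := Real.sqrt B
      rw [hA2, hB2]
      field_simp
      ring
    linarith

/-- Cauchy–Schwarz for the integral of an inner product. -/
theorem integral_inner_le_sqrt {Ω : Type*} [MeasurableSpace Ω] (γ : Measure Ω) {u v : Ω → E d}
    (hu : AEStronglyMeasurable u γ) (hv : AEStronglyMeasurable v γ)
    (hu2 : Integrable (fun ω => ‖u ω‖ ^ 2) γ) (hv2 : Integrable (fun ω => ‖v ω‖ ^ 2) γ) :
    ∫ ω, inner ℝ (u ω) (v ω) ∂γ ≤
      Real.sqrt (∫ ω, ‖u ω‖ ^ 2 ∂γ) * Real.sqrt (∫ ω, ‖v ω‖ ^ 2 ∂γ) := by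
  apply le_sqrt_mul_sqrt_of_forall (integral_nonneg fun ω => by positivity)
    (integral_nonneg fun ω => by positivity)
  intro t ht
  have hpt : ∀ (s : ℝ), 0 < s → ∀ ω, (inner ℝ (u ω) (v ω) : ℝ) ≤
      s / 2 * ‖u ω‖ ^ 2 + 1 / (2 * s) * ‖v ω‖ ^ 2 := by
    intro s hs ω
    have h1 : (inner ℝ (u ω) (v ω) : ℝ) ≤ ‖u ω‖ * ‖v ω‖ := real_inner_le_norm _ _
    have h2 : 0 ≤ (s * ‖u ω‖ - ‖v ω‖) ^ 2 / (2 * s) := by positivity
    have h3 : (s * ‖u ω‖ - ‖v ω‖) ^ 2 / (2 * s)
        = s / 2 * ‖u ω‖ ^ 2 + 1 / (2 * s) * ‖v ω‖ ^ 2 - ‖u ω‖ * ‖v ω‖ := by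
      field_simp
      ring
    linarith
  have hint : Integrable (fun ω => (inner ℝ (u ω) (v ω) : ℝ)) γ := by
    refine Integrable.mono' (hu2.add hv2) (hu.inner hv) (ae_of_all _ fun ω => ?_)
    have h1 : ‖(inner ℝ (u ω) (v ω) : ℝ)‖ ≤ ‖u ω‖ * ‖v ω‖ := norm_inner_le_norm _ _
    have h2 : 0 ≤ (‖u ω‖ - ‖v ω‖) ^ 2 := sq_nonneg _
    simp only [Pi.add_apply]
    nlinarith
  calc ∫ ω, inner ℝ (u ω) (v ω) ∂γ
      ≤ ∫ ω, (t / 2 * ‖u ω‖ ^ 2 + 1 / (2 * t) * ‖v ω‖ ^ 2) ∂γ :=
        integral_mono hint ((hu2.const_mul _).add (hv2.const_mul _)) (hpt t ht)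
    _ = t / 2 * ∫ ω, ‖u ω‖ ^ 2 ∂γ + 1 / (2 * t) * ∫ ω, ‖v ω‖ ^ 2 ∂γ := by
        rw [integral_add (hu2.const_mul _) (hv2.const_mul _), integral_const_mul,
          integral_const_mul]

end Crest.Agent.S0109.Helper47
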