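import Mathlib
import Crest.Prelude.Def_QuadraticTransport
import Crest.Agent.Lib.S0109.Defs
import Crest.Agent.Lib.S0109.Helper47GlueB

/-!
# Row 82, package P6a (Glue), part D (helper47): centroid formulas for the gluing measure

* `integral_glue_inner` (L2): `∫ ⟪q.1, Z q.2⟫ d(glue σ π T W S)` as a sum over the atoms of
  `⟪centroid of the cell, ∫_{W⁻¹{y}} Z dπ⟫ / mass`.
* `sum_inv_mul_inner_le` (L3): weighted Cauchy–Schwarz over atoms + Jensen on each fibre.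
-/

set_option autoImplicit false
open MeasureTheory Filter Topology
open scoped ENNReal NNReal

namespace Crest.Agent.S0109.Helper47

open Crest.Agent.S0109

variable {d : ℕ}

/-- Jensen on a fibre: `‖∫_B v dπ‖² ≤ π(B) ∫_B ‖v‖² dπ`. -/
theorem norm_setIntegral_sq_le {Ω : Type*} [MeasurableSpace Ω] (π : Measure Ω) [IsFiniteMeasure π]
    (B : Set Ω) {v : Ω → E d} (hv : Measurable v)
    (hv2 : Integrable (fun p => ‖v p‖ ^ 2) π) :
    ‖∫ p in B, v p ∂π‖ ^ 2 ≤ π.real B * ∫ p in B, ‖v p‖ ^ 2 ∂π := by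
  have hvi : Integrable v π := by
    refine Integrable.mono' ((integrable_const (1 : ℝ)).add hv2) hv.aestronglyMeasurable
      (ae_of_all _ fun p => ?_)
    simp only [Pi.add_apply]
    nlinarith [sq_nonneg (‖v p‖ - 1), norm_nonneg (v p)]
  set V := ∫ p in B, v p ∂π with hV
  have h1 : ‖V‖ ^ 2 = ∫ p in B, inner ℝ V (v p) ∂π := by
    rw [integral_inner hvi.integrableOn V, ← hV, real_inner_self_eq_norm_sq]
  have h2 := integral_inner_le_sqrt (π.restrict B) (u := fun _ => V) (v := v)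
    aestronglyMeasurable_const hv.aestronglyMeasurable (integrable_const _) hv2.integrableOn
  rw [← h1] at h2
  have h3 : ∫ _p in B, ‖V‖ ^ 2 ∂π = π.real B * ‖V‖ ^ 2 := by
    rw [setIntegral_const, smul_eq_mul]
  rw [h3] at h2
  have hI : 0 ≤ ∫ p in B, ‖v p‖ ^ 2 ∂π := integral_nonneg fun p => by positivity
  have hm : 0 ≤ π.real B := measureReal_nonneg
  rcases (norm_nonneg V).eq_or_lt with h0 | hpos
  · rw [← h0]
    have : (0 : ℝ) ^ 2 = 0 := by norm_num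
    rw [this]
    exact mul_nonneg hm hI
  · -- ‖V‖² ≤ √(m ‖V‖²) √I = ‖V‖ √m √I
    have h4 : Real.sqrt (π.real B * ‖V‖ ^ 2) = Real.sqrt (π.real B) * ‖V‖ := by
      rw [Real.sqrt_mul hm, Real.sqrt_sq (norm_nonneg V)]
    rw [h4] at h2
    have h5 : ‖V‖ ≤ Real.sqrt (π.real B) * Real.sqrt (∫ p in B, ‖v p‖ ^ 2 ∂π) := by
      have : ‖V‖ * ‖V‖ ≤ ‖V‖ * (Real.sqrt (π.real B) * Real.sqrt (∫ p in B, ‖v p‖ ^ 2 ∂π)) := by
        calc ‖V‖ * ‖V‖ = ‖V‖ ^ 2 := by ring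
          _ ≤ Real.sqrt (π.real B) * ‖V‖ * Real.sqrt (∫ p in B, ‖v p‖ ^ 2 ∂π) := h2
          _ = _ := by ring
      exact le_of_mul_le_mul_left this hpos
    calc ‖V‖ ^ 2 ≤ (Real.sqrt (π.real B) * Real.sqrt (∫ p in B, ‖v p‖ ^ 2 ∂π)) ^ 2 :=
          pow_le_pow_left₀ (norm_nonneg V) h5 2
      _ = π.real B * ∫ p in B, ‖v p‖ ^ 2 ∂π := by
          rw [mul_pow, Real.sq_sqrt hm, Real.sq_sqrt hI]

/-- (L3) Weighted Cauchy–Schwarz over the atoms and Jensen on the fibres of `W`. -/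
theorem sum_inv_mul_inner_le {Ω : Type*} [MeasurableSpace Ω] (π : Measure Ω) [IsFiniteMeasure π]
    {W : Ω → E d} (hW : Measurable W) (S : Finset (E d)) (a : E d → E d)
    {v : Ω → E d} (hv : Measurable v) (hv2 : Integrable (fun p => ‖v p‖ ^ 2) π) :
    ∑ y ∈ S, (π.real (W ⁻¹' {y}))⁻¹ * inner ℝ (a y) (∫ p in W ⁻¹' {y}, v p ∂π)
      ≤ Real.sqrt (∑ y ∈ S, (π.real (W ⁻¹' {y}))⁻¹ * ‖a y‖ ^ 2)
          * Real.sqrt (∫ p, ‖v p‖ ^ 2 ∂π) := by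
  classical
  have hBm : ∀ y, MeasurableSet (W ⁻¹' {y}) := fun y => hW (measurableSet_singleton y)
  have hmnn : ∀ y, 0 ≤ (π.real (W ⁻¹' {y}))⁻¹ := fun y => inv_nonneg.mpr measureReal_nonneg
  -- the sum of the fibre terms is at most the total integral
  have hfib : ∑ y ∈ S, (π.real (W ⁻¹' {y}))⁻¹ * ‖∫ p in W ⁻¹' {y}, v p ∂π‖ ^ 2
      ≤ ∫ p, ‖v p‖ ^ 2 ∂π := by
    have h1 : ∀ y ∈ S, (π.real (W ⁻¹' {y}))⁻¹ * ‖∫ p in W ⁻¹' {y}, v p ∂π‖ ^ 2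
        ≤ ∫ p in W ⁻¹' {y}, ‖v p‖ ^ 2 ∂π := by
      intro y _
      have hJ := norm_setIntegral_sq_le π (W ⁻¹' {y}) hv hv2
      have hI : 0 ≤ ∫ p in W ⁻¹' {y}, ‖v p‖ ^ 2 ∂π := integral_nonneg fun p => by positivity
      rcases (measureReal_nonneg (μ := π) (s := W ⁻¹' {y})).eq_or_lt with h0 | hpos
      · rw [← h0, inv_zero, zero_mul]
        exact hI
      · calc (π.real (W ⁻¹' {y}))⁻¹ * ‖∫ p in W ⁻¹' {y}, v p ∂π‖ ^ 2
            ≤ (π.real (W ⁻¹' {y}))⁻¹ * (π.real (W ⁻¹' {y}) * ∫ p in W ⁻¹' {y}, ‖v p‖ ^ 2 ∂π) :=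
              mul_le_mul_of_nonneg_left hJ (hmnn y)
          _ = ∫ p in W ⁻¹' {y}, ‖v p‖ ^ 2 ∂π := by
              rw [← mul_assoc, inv_mul_cancel₀ hpos.ne', one_mul]
    have hdisj : Set.Pairwise (↑S : Set (E d)) (Function.onFun Disjoint fun y => W ⁻¹' {y}) := by
      intro y _ z _ hyz
      simp only [Function.onFun]
      rw [Set.disjoint_left]
      intro x hx1 hx2
      simp only [Set.mem_preimage, Set.mem_singleton_iff] at hx1 hx2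
      exact hyz (hx1.symm.trans hx2)
    calc ∑ y ∈ S, (π.real (W ⁻¹' {y}))⁻¹ * ‖∫ p in W ⁻¹' {y}, v p ∂π‖ ^ 2
        ≤ ∑ y ∈ S, ∫ p in W ⁻¹' {y}, ‖v p‖ ^ 2 ∂π := Finset.sum_le_sum h1
      _ = ∫ p in ⋃ y ∈ S, W ⁻¹' {y}, ‖v p‖ ^ 2 ∂π :=
          (integral_biUnion_finset S (fun y _ => hBm y) hdisj
            (fun y _ => hv2.integrableOn)).symm
      _ ≤ ∫ p, ‖v p‖ ^ 2 ∂π :=
          setIntegral_le_integral hv2 (ae_of_all _ fun p => by positivity)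
  have hA : 0 ≤ ∑ y ∈ S, (π.real (W ⁻¹' {y}))⁻¹ * ‖a y‖ ^ 2 :=
    Finset.sum_nonneg fun y _ => mul_nonneg (hmnn y) (by positivity)
  have hB : 0 ≤ ∑ y ∈ S, (π.real (W ⁻¹' {y}))⁻¹ * ‖∫ p in W ⁻¹' {y}, v p ∂π‖ ^ 2 :=
    Finset.sum_nonneg fun y _ => mul_nonneg (hmnn y) (by positivity)
  have hCS : ∑ y ∈ S, (π.real (W ⁻¹' {y}))⁻¹ * inner ℝ (a y) (∫ p in W ⁻¹' {y}, v p ∂π)
      ≤ Real.sqrt (∑ y ∈ S, (π.real (W ⁻¹' {y}))⁻¹ * ‖a y‖ ^ 2)
        * Real.sqrt (∑ y ∈ S, (π.real (W ⁻¹' {y}))⁻¹ * ‖∫ p in W ⁻¹' {y}, v p ∂π‖ ^ 2) := by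
    apply le_sqrt_mul_sqrt_of_forall hA hB
    intro t ht
    rw [Finset.mul_sum, Finset.mul_sum, ← Finset.sum_add_distrib]
    apply Finset.sum_le_sum
    intro y _
    set V := ∫ p in W ⁻¹' {y}, v p ∂π
    have h1 : (inner ℝ (a y) V : ℝ) ≤ ‖a y‖ * ‖V‖ := real_inner_le_norm _ _
    have h2 : 0 ≤ (t * ‖a y‖ - ‖V‖) ^ 2 / (2 * t) := by positivity
    have h3 : (t * ‖a y‖ - ‖V‖) ^ 2 / (2 * t)
        = t / 2 * ‖a y‖ ^ 2 + 1 / (2 * t) * ‖V‖ ^ 2 - ‖a y‖ * ‖V‖ := by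
      field_simp
      ring
    have h4 : (inner ℝ (a y) V : ℝ) ≤ t / 2 * ‖a y‖ ^ 2 + 1 / (2 * t) * ‖V‖ ^ 2 := by linarith
    calc (π.real (W ⁻¹' {y}))⁻¹ * inner ℝ (a y) V
        ≤ (π.real (W ⁻¹' {y}))⁻¹ * (t / 2 * ‖a y‖ ^ 2 + 1 / (2 * t) * ‖V‖ ^ 2) :=
          mul_le_mul_of_nonneg_left h4 (hmnn y)
      _ = _ := by ring
  refine hCS.trans ?_
  exact mul_le_mul_of_nonneg_left (Real.sqrt_le_sqrt hfib) (Real.sqrt_nonneg _)

/-- (L2) The gluing measure integrates `⟪q.1, Z q.2⟫` through the cell centroids. -/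
theorem integral_glue_inner {Ω : Type*} [MeasurableSpace Ω] (σ : Measure (E d)) [IsFiniteMeasure σ]
    (π : Measure Ω) [IsFiniteMeasure π] {T : E d → E d} {W : Ω → E d}
    (S : Finset (E d)) {K : Set (E d)} (hKc : IsCompact K) (hσK : σ Kᶜ = 0)
    {Z : Ω → E d} (hZ : Measurable Z) {R : ℝ} (hZR : ∀ᵐ p ∂π, ‖Z p‖ ≤ R) :
    ∫ q, inner ℝ q.1 (Z q.2) ∂(glue σ π T W S)
      = ∑ y ∈ S, (σ.real (T ⁻¹' {y}))⁻¹ *
          inner ℝ (∫ x in T ⁻¹' {y}, x ∂σ) (∫ p in W ⁻¹' {y}, Z p ∂π) := by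
  classical
  obtain ⟨RK, hRK⟩ := hKc.isBounded.exists_norm_le
  have hσK' : ∀ᵐ x ∂σ, ‖x‖ ≤ RK := by
    have h1 : ∀ᵐ x ∂σ, x ∉ Kᶜ := measure_eq_zero_iff_ae_notMem.mp hσK
    filter_upwards [h1] with x hx
    exact hRK x (by simpa using hx)
  -- integrability of the data
  have hZi : Integrable Z π := Integrable.of_bound hZ.aestronglyMeasurable R hZR
  have hidi : Integrable (fun x : E d => x) σ :=
    Integrable.of_bound measurable_id.aestronglyMeasurable RK hσK'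
  have hFm : Measurable (fun q : E d × Ω => (inner ℝ q.1 (Z q.2) : ℝ)) :=
    measurable_fst.inner (hZ.comp measurable_snd)
  have hFi : Integrable (fun q : E d × Ω => (inner ℝ q.1 (Z q.2) : ℝ)) (σ.prod π) := by
    refine Integrable.of_bound hFm.aestronglyMeasurable (RK * R) ?_
    have h1 : ∀ᵐ q ∂(σ.prod π), ‖q.1‖ ≤ RK := by
      have : ∀ᵐ x ∂((σ.prod π).map Prod.fst), ‖x‖ ≤ RK := by
        rw [Measure.map_fst_prod]
        exact Measure.ae_smul_measure hσK' _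
      exact ae_of_ae_map measurable_fst.aemeasurable this
    have h2 : ∀ᵐ q ∂(σ.prod π), ‖Z q.2‖ ≤ R := by
      have : ∀ᵐ p ∂((σ.prod π).map Prod.snd), ‖Z p‖ ≤ R := by
        rw [Measure.map_snd_prod]
        exact Measure.ae_smul_measure hZR _
      exact ae_of_ae_map measurable_snd.aemeasurable this
    filter_upwards [h1, h2] with q hq1 hq2
    calc ‖(inner ℝ q.1 (Z q.2) : ℝ)‖ ≤ ‖q.1‖ * ‖Z q.2‖ := norm_inner_le_norm _ _
      _ ≤ RK * R := mul_le_mul hq1 hq2 (norm_nonneg _) ((norm_nonneg _).trans hq1)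
  have hFy : ∀ y, Integrable (fun q : E d × Ω => (inner ℝ q.1 (Z q.2) : ℝ))
      ((σ.restrict (T ⁻¹' {y})).prod (π.restrict (W ⁻¹' {y}))) := by
    intro y
    rw [Measure.prod_restrict]
    exact hFi.restrict
  have hterm : ∀ y ∈ S, Integrable (fun q : E d × Ω => (inner ℝ q.1 (Z q.2) : ℝ))
      ((σ (T ⁻¹' {y}))⁻¹ • ((σ.restrict (T ⁻¹' {y})).prod (π.restrict (W ⁻¹' {y})))) := by
    intro y _
    by_cases h0 : σ (T ⁻¹' {y}) = 0
    · have : σ.restrict (T ⁻¹' {y}) = 0 := Measure.restrict_eq_zero.mpr h0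
      rw [this, Measure.zero_prod, smul_zero]
      exact integrable_zero_measure
    · exact (hFy y).smul_measure (ENNReal.inv_ne_top.mpr h0)
  rw [glue, integral_finsetSum_measure hterm]
  apply Finset.sum_congr rfl
  intro y _
  rw [integral_smul_measure, ENNReal.toReal_inv, smul_eq_mul]
  congr 1
  rw [integral_prod _ (hFy y)]
  have h1 : ∀ x : E d, ∫ p, (inner ℝ x (Z p) : ℝ) ∂(π.restrict (W ⁻¹' {y}))
      = inner ℝ x (∫ p in W ⁻¹' {y}, Z p ∂π) := fun x => integral_inner hZi.integrableOn x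
  simp only [h1]
  have h2 : ∀ x : E d, (inner ℝ x (∫ p in W ⁻¹' {y}, Z p ∂π) : ℝ)
      = inner ℝ (∫ p in W ⁻¹' {y}, Z p ∂π) x := fun x => real_inner_comm _ _
  simp only [h2]
  rw [integral_inner hidi.integrableOn, real_inner_comm]

end Crest.Agent.S0109.Helper47
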