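import Mathlib
import Crest.Prelude.Def_QuadraticTransport
import Crest.Agent.Lib.S0109.Defs
import Crest.Agent.Lib.S0109.Basic
import Crest.Agent.Lib.S0109.Exist
import Crest.Agent.Lib.S0109.Helper47GlueA
import Crest.Agent.Lib.S0109.Helper47GlueB
import Crest.Agent.Lib.S0109.Helper47GlueD

/-!
# Row 82, package P6a (Glue), part E (helper47): telescoping along the displacement interpolation
-/

set_option autoImplicit false
open MeasureTheory Filter Topology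
open scoped ENNReal NNReal
open Crest.AnalysisR.OT

namespace Crest.Agent.S0109.Helper47

open Crest.Agent.S0109

variable {d : ℕ}

/-- a.e. membership from a push-forward identity (general target space). -/
theorem ae_mem_of_map' {Ω β : Type*} [MeasurableSpace Ω] [MeasurableSpace β] {γ : Measure Ω}
    {ν : Measure β} {X : Ω → β} (hX : Measurable X) (hXν : γ.map X = ν) {A : Set β}
    (hA : ν Aᶜ = 0) : ∀ᵐ ω ∂γ, X ω ∈ A := by
  have h1 : ∀ᵐ x ∂(γ.map X), x ∉ Aᶜ := by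
    rw [hXν]
    exact measure_eq_zero_iff_ae_notMem.mp hA
  have h2 := ae_of_ae_map hX.aemeasurable h1
  filter_upwards [h2] with ω hω
  simpa using hω

/-- One telescoping step on a coupling `γ` of `σ` and `π` glued along `T` and `W`. -/
theorem step_le {K : Set (E d)} (hKc : IsCompact K) {σ : Measure (E d)} (hσK : σ Kᶜ = 0)
    {π : Measure (E d × E d)} {P : Finset (E d × E d)} (hP : π (↑P)ᶜ = 0)
    {γ : Measure (E d × (E d × E d))} [IsFiniteMeasure γ]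
    (hγ1 : γ.map Prod.fst = σ) (hγ2 : γ.map Prod.snd = π)
    {W W' : E d × E d → E d} (hW' : Measurable W') (c : ℝ)
    (hWW' : ∀ p, W' p = W p + c • (p.2 - p.1))
    {T : E d → E d} (hTm : Measurable T) (hγ3 : ∀ᵐ q ∂γ, T q.1 = W q.2)
    {S' : Finset (E d)} {ψ' : E d → ℝ} {T' : E d → E d}
    (hT' : IsPotMap σ (π.map W') S' ψ' T') :
    corr σ T + c * ∫ q, inner ℝ q.1 (q.2.2 - q.2.1) ∂γ ≤ corr σ T' := by
  have hWD : ∫ q, inner ℝ q.1 (W' q.2) ∂γ ≤ corr σ T' :=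
    integral_inner_le_corr γ hKc hσK measurable_fst (hW'.comp measurable_snd) hγ1
      (by rw [← Measure.map_map hW' measurable_snd, hγ2]) hT'
  have hK1 : ∀ᵐ q ∂γ, q.1 ∈ K := ae_mem_of_map' measurable_fst hγ1 hσK
  have hP2 : ∀ᵐ q ∂γ, q.2 ∈ (↑P : Set (E d × E d)) := ae_mem_of_map' measurable_snd hγ2 hP
  obtain ⟨R, hR⟩ := hKc.isBounded.exists_norm_le
  obtain ⟨RW, hRW⟩ : ∃ RW, ∀ p ∈ P, ‖W p‖ ≤ RW :=
    ⟨∑ p ∈ P, ‖W p‖, fun p hp =>
      Finset.single_le_sum (f := fun p => ‖W p‖) (fun z _ => norm_nonneg _) hp⟩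
  obtain ⟨RV, hRV⟩ : ∃ RV, ∀ p ∈ P, ‖p.2 - p.1‖ ≤ RV :=
    ⟨∑ p ∈ P, ‖p.2 - p.1‖, fun p hp =>
      Finset.single_le_sum (f := fun p : E d × E d => ‖p.2 - p.1‖) (fun z _ => norm_nonneg _) hp⟩
  have hi1 : Integrable (fun q : E d × (E d × E d) => (inner ℝ q.1 (T q.1) : ℝ)) γ := by
    refine Integrable.of_bound
      (measurable_fst.inner (hTm.comp measurable_fst)).aestronglyMeasurable (R * RW) ?_
    filter_upwards [hK1, hP2, hγ3] with q h1 h2 h3
    rw [h3]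
    calc ‖(inner ℝ q.1 (W q.2) : ℝ)‖ ≤ ‖q.1‖ * ‖W q.2‖ := norm_inner_le_norm _ _
      _ ≤ R * RW := mul_le_mul (hR _ h1) (hRW _ h2) (norm_nonneg _)
          ((norm_nonneg _).trans (hR _ h1))
  have hi2 : Integrable (fun q : E d × (E d × E d) => (inner ℝ q.1 (q.2.2 - q.2.1) : ℝ)) γ := by
    refine Integrable.of_bound
      (measurable_fst.inner ((measurable_snd.comp measurable_snd).sub
        (measurable_fst.comp measurable_snd))).aestronglyMeasurable (R * RV) ?_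
    filter_upwards [hK1, hP2] with q h1 h2
    calc ‖(inner ℝ q.1 (q.2.2 - q.2.1) : ℝ)‖ ≤ ‖q.1‖ * ‖q.2.2 - q.2.1‖ := norm_inner_le_norm _ _
      _ ≤ R * RV := mul_le_mul (hR _ h1) (hRV _ h2) (norm_nonneg _)
          ((norm_nonneg _).trans (hR _ h1))
  have heq : ∫ q, inner ℝ q.1 (W' q.2) ∂γ
      = ∫ q, ((inner ℝ q.1 (T q.1) : ℝ) + c * inner ℝ q.1 (q.2.2 - q.2.1)) ∂γ := by
    refine integral_congr_ae ?_
    filter_upwards [hγ3] with q hq
    rw [hWW', inner_add_right, inner_smul_right, hq]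
  have hcorr : ∫ q, (inner ℝ q.1 (T q.1) : ℝ) ∂γ = corr σ T := by
    unfold corr
    rw [← hγ1, integral_map measurable_fst.aemeasurable]
    exact (measurable_id.inner hTm).aestronglyMeasurable
  rw [heq, integral_add hi1 (hi2.const_mul c), integral_const_mul, hcorr] at hWD
  exact hWD

/-- Bound for the end terms of the telescoping sum. -/
theorem glue_abs_le {K : Set (E d)} {σ : Measure (E d)} (hσK : σ Kᶜ = 0)
    {R : ℝ} (hR0 : 0 ≤ R) (hR : ∀ x ∈ K, ‖x‖ ≤ R)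
    {π : Measure (E d × E d)} {γ : Measure (E d × (E d × E d))} [IsProbabilityMeasure γ]
    (hγ1 : γ.map Prod.fst = σ) (hγ2 : γ.map Prod.snd = π)
    (hv2 : Integrable (fun p : E d × E d => ‖p.2 - p.1‖ ^ 2) π) :
    |∫ q, inner ℝ q.1 (q.2.2 - q.2.1) ∂γ| ≤ R * Real.sqrt (∫ p, ‖p.2 - p.1‖ ^ 2 ∂π) := by
  have hK1 : ∀ᵐ q ∂γ, q.1 ∈ K := ae_mem_of_map' measurable_fst hγ1 hσK
  have hvm : Measurable (fun q : E d × (E d × E d) => q.2.2 - q.2.1) :=
    (measurable_snd.comp measurable_snd).sub (measurable_fst.comp measurable_snd)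
  have hu2 : Integrable (fun q : E d × (E d × E d) => ‖q.1‖ ^ 2) γ := by
    refine Integrable.of_bound (measurable_fst.norm.pow_const 2).aestronglyMeasurable (R ^ 2) ?_
    filter_upwards [hK1] with q h1
    rw [Real.norm_eq_abs, abs_of_nonneg (by positivity)]
    exact pow_le_pow_left₀ (norm_nonneg _) (hR _ h1) 2
  have hv2' : Integrable (fun q : E d × (E d × E d) => ‖q.2.2 - q.2.1‖ ^ 2) γ := by
    rw [← hγ2] at hv2
    exact hv2.comp_measurable measurable_snd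
  have eu : ∫ q, ‖q.1‖ ^ 2 ∂γ ≤ R ^ 2 := by
    have h1 : ∫ q, ‖q.1‖ ^ 2 ∂γ ≤ ∫ _q, R ^ 2 ∂γ := by
      refine integral_mono_ae hu2 (integrable_const _) ?_
      filter_upwards [hK1] with q h1
      exact pow_le_pow_left₀ (norm_nonneg _) (hR _ h1) 2
    simpa using h1
  have ev : ∫ q, ‖q.2.2 - q.2.1‖ ^ 2 ∂γ = ∫ p, ‖p.2 - p.1‖ ^ 2 ∂π := by
    rw [← hγ2, integral_map measurable_snd.aemeasurable]
    exact ((measurable_snd.sub measurable_fst).norm.pow_const 2).aestronglyMeasurable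
  have hsq : Real.sqrt (∫ q, ‖q.1‖ ^ 2 ∂γ) ≤ R := by
    calc Real.sqrt (∫ q, ‖q.1‖ ^ 2 ∂γ) ≤ Real.sqrt (R ^ 2) := Real.sqrt_le_sqrt eu
      _ = R := Real.sqrt_sq hR0
  have h1 := integral_inner_le_sqrt γ (u := fun q => q.1) (v := fun q => q.2.2 - q.2.1)
    measurable_fst.aestronglyMeasurable hvm.aestronglyMeasurable hu2 hv2'
  have h2 := integral_inner_le_sqrt γ (u := fun q => -q.1) (v := fun q => q.2.2 - q.2.1)
    measurable_fst.neg.aestronglyMeasurable hvm.aestronglyMeasurable (by simpa using hu2) hv2'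
  simp only [inner_neg_left, norm_neg, integral_neg] at h2
  rw [ev] at h1 h2
  have hs0 : 0 ≤ Real.sqrt (∫ p, ‖p.2 - p.1‖ ^ 2 ∂π) := Real.sqrt_nonneg _
  have h3 : Real.sqrt (∫ q, ‖q.1‖ ^ 2 ∂γ) * Real.sqrt (∫ p, ‖p.2 - p.1‖ ^ 2 ∂π)
      ≤ R * Real.sqrt (∫ p, ‖p.2 - p.1‖ ^ 2 ∂π) := mul_le_mul_of_nonneg_right hsq hs0
  rw [abs_le]
  constructor <;> linarith

/-- Bound for the middle terms: centroid stability + Cauchy–Schwarz. -/
theorem glue_diff_le {K : Set (E d)} (hKc : IsCompact K)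
    {ρ0 ρ1 : Measure (E d)} [IsFiniteMeasure ρ0] [IsFiniteMeasure ρ1]
    (h0K : ρ0 Kᶜ = 0) (h1K : ρ1 Kᶜ = 0)
    {π : Measure (E d × E d)} [IsFiniteMeasure π] {P : Finset (E d × E d)} (hP : π (↑P)ᶜ = 0)
    {W : E d × E d → E d} (hW : Measurable W) (S : Finset (E d))
    {T0 T1 : E d → E d} (hT0 : Measurable T0) (hT1 : Measurable T1)
    (h0 : ρ0.map T0 = π.map W) (h1 : ρ1.map T1 = π.map W)
    (B : ℝ)
    (hB : ∑ y ∈ S, ((π.map W).real {y})⁻¹ *
        ‖∫ x in T1 ⁻¹' {y}, x ∂ρ1 - ∫ x in T0 ⁻¹' {y}, x ∂ρ0‖ ^ 2 ≤ B) :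
    ∫ q, inner ℝ q.1 (q.2.2 - q.2.1) ∂(glue ρ1 π T1 W S)
        - ∫ q, inner ℝ q.1 (q.2.2 - q.2.1) ∂(glue ρ0 π T0 W S)
      ≤ Real.sqrt B * Real.sqrt (∫ p, ‖p.2 - p.1‖ ^ 2 ∂π) := by
  have hvm : Measurable (fun p : E d × E d => p.2 - p.1) := measurable_snd.sub measurable_fst
  obtain ⟨RV, hRV⟩ : ∃ RV, ∀ p ∈ P, ‖p.2 - p.1‖ ≤ RV :=
    ⟨∑ p ∈ P, ‖p.2 - p.1‖, fun p hp =>
      Finset.single_le_sum (f := fun p : E d × E d => ‖p.2 - p.1‖) (fun z _ => norm_nonneg _) hp⟩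
  have hPae : ∀ᵐ p ∂π, p ∈ (↑P : Set (E d × E d)) := by
    have h1 : ∀ᵐ p ∂π, p ∉ ((↑P : Set (E d × E d)))ᶜ := measure_eq_zero_iff_ae_notMem.mp hP
    filter_upwards [h1] with p hp
    simpa using hp
  have hvR : ∀ᵐ p ∂π, ‖p.2 - p.1‖ ≤ RV := by
    filter_upwards [hPae] with p hp using hRV p hp
  have hv2 : Integrable (fun p : E d × E d => ‖p.2 - p.1‖ ^ 2) π := by
    refine Integrable.of_bound (hvm.norm.pow_const 2).aestronglyMeasurable (RV ^ 2) ?_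
    filter_upwards [hvR] with p hp
    rw [Real.norm_eq_abs, abs_of_nonneg (by positivity)]
    exact pow_le_pow_left₀ (norm_nonneg _) hp 2
  rw [integral_glue_inner ρ1 π S hKc h1K hvm hvR, integral_glue_inner ρ0 π S hKc h0K hvm hvR]
  have hm1 : ∀ y, ρ1.real (T1 ⁻¹' {y}) = π.real (W ⁻¹' {y}) := by
    intro y
    rw [← map_measureReal_apply hT1 (measurableSet_singleton y), h1,
      map_measureReal_apply hW (measurableSet_singleton y)]
  have hm0 : ∀ y, ρ0.real (T0 ⁻¹' {y}) = π.real (W ⁻¹' {y}) := by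
    intro y
    rw [← map_measureReal_apply hT0 (measurableSet_singleton y), h0,
      map_measureReal_apply hW (measurableSet_singleton y)]
  have hmW : ∀ y, (π.map W).real {y} = π.real (W ⁻¹' {y}) := fun y =>
    map_measureReal_apply hW (measurableSet_singleton y)
  simp only [hm1, hm0]
  rw [← Finset.sum_sub_distrib]
  have hterm : ∀ y ∈ S,
      (π.real (W ⁻¹' {y}))⁻¹ * inner ℝ (∫ x in T1 ⁻¹' {y}, x ∂ρ1) (∫ p in W ⁻¹' {y}, p.2 - p.1 ∂π)
        - (π.real (W ⁻¹' {y}))⁻¹ *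
            inner ℝ (∫ x in T0 ⁻¹' {y}, x ∂ρ0) (∫ p in W ⁻¹' {y}, p.2 - p.1 ∂π)
      = (π.real (W ⁻¹' {y}))⁻¹ *
          inner ℝ ((∫ x in T1 ⁻¹' {y}, x ∂ρ1) - ∫ x in T0 ⁻¹' {y}, x ∂ρ0)
            (∫ p in W ⁻¹' {y}, p.2 - p.1 ∂π) := by
    intro y _
    rw [inner_sub_left]
    ring
  rw [Finset.sum_congr rfl hterm]
  refine (sum_inv_mul_inner_le π hW S
    (fun y => (∫ x in T1 ⁻¹' {y}, x ∂ρ1) - ∫ x in T0 ⁻¹' {y}, x ∂ρ0) hvm hv2).trans ?_
  refine mul_le_mul_of_nonneg_right (Real.sqrt_le_sqrt ?_) (Real.sqrt_nonneg _)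
  simp only [hmW] at hB
  exact hB

/-- The real-variable telescoping argument. -/
theorem telescope_bound (n : ℕ) (hn : 0 < n) (M0 Mg I0 Ig : ℕ → ℝ) (B Cend : ℝ)
    (hup : ∀ k, k < n → M0 k + (1 / (n : ℝ)) * I0 k ≤ M0 (k + 1))
    (hdown : ∀ k, k < n → Mg (k + 1) + (-(1 / (n : ℝ))) * Ig (k + 1) ≤ Mg k)
    (hmid : ∀ k, k < n → Ig (k + 1) - I0 (k + 1) ≤ B)
    (hend0 : -I0 0 ≤ Cend) (hendn : I0 n ≤ Cend) :
    (Mg n - Mg 0) - (M0 n - M0 0) ≤ B + 2 * Cend / n := by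
  have hnR : (0 : ℝ) < n := by exact_mod_cast hn
  have key : ∀ m, m ≤ n →
      (Mg m - Mg 0) - (M0 m - M0 0) ≤ (1 / (n : ℝ)) * (m * B + I0 m - I0 0) := by
    intro m
    induction m with
    | zero =>
      intro _
      simp
    | succ m ih =>
      intro hm
      have h1 := ih (by omega)
      have h2 := hup m (by omega)
      have h3 := hdown m (by omega)
      have h4 := hmid m (by omega)
      have h5 : (1 / (n : ℝ)) * (Ig (m + 1) - I0 (m + 1)) ≤ (1 / (n : ℝ)) * B :=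
        mul_le_mul_of_nonneg_left h4 (by positivity)
      push_cast
      linear_combination h1 + h2 + h3 + h5
  have h := key n le_rfl
  have h6 : (1 / (n : ℝ)) * (n * B + I0 n - I0 0) ≤ B + 2 * Cend / n := by
    have e : (1 / (n : ℝ)) * (n * B + I0 n - I0 0) = B + (I0 n - I0 0) / n := by
      field_simp
      ring
    rw [e]
    have : (I0 n - I0 0) / n ≤ 2 * Cend / n := by
      apply div_le_div_of_nonneg_right _ hnR.le
      linarith
    linarith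
  linarith

end Crest.Agent.S0109.Helper47
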