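import Mathlib
import Crest.Prelude.Def_QuadraticTransport
import Crest.Agent.Lib.S0109.Defs
import Crest.Agent.Lib.S0109.Basic
import Crest.Agent.Lib.S0109.Exist
import Crest.Agent.Lib.S0109.Helper47GlueA
import Crest.Agent.Lib.S0109.Helper47GlueB
import Crest.Agent.Lib.S0109.Helper47GlueD
import Crest.Agent.Lib.S0109.Helper47GlueE

/-!
# Row 82, package P6a (Glue), part F (helper47): the mixed second difference

`mixed_diff_aux`: for a fixed perturbation `g`, a bound `B` on the centroid functional gives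
`[M(ρ_g,ν) - M(ρ,ν)] - [M(ρ_g,μ) - M(ρ,μ)] ≤ √B √(cost π)`.
-/

set_option autoImplicit false
open MeasureTheory Filter Topology
open scoped ENNReal NNReal
open Crest.AnalysisR.OT

namespace Crest.Agent.S0109.Helper47

open Crest.Agent.S0109

variable {d : ℕ}

/-- A coupling of finitely supported measures is carried by the product of the supports. -/
theorem coupling_compl_product {μ ν : Measure (E d)} {π : Measure (E d × E d)}
    (hπ : IsPairCoupling μ ν π) {Sμ Sν : Finset (E d)} (hμ : μ (↑Sμ)ᶜ = 0) (hν : ν (↑Sν)ᶜ = 0) :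
    π (↑(Sμ ×ˢ Sν))ᶜ = 0 := by
  have hsub : ((↑(Sμ ×ˢ Sν) : Set (E d × E d)))ᶜ
      ⊆ Prod.fst ⁻¹' ((↑Sμ : Set (E d))ᶜ) ∪ Prod.snd ⁻¹' ((↑Sν : Set (E d))ᶜ) := by
    intro p hp
    simp only [Set.mem_compl_iff, Finset.mem_coe, Finset.mem_product, not_and_or] at hp
    rcases hp with h | h
    · exact Or.inl (by simpa using h)
    · exact Or.inr (by simpa using h)
  have h1 : π (Prod.fst ⁻¹' ((↑Sμ : Set (E d))ᶜ)) = 0 := by
    rw [← Measure.map_apply measurable_fst Sμ.measurableSet.compl, hπ.1]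
    exact hμ
  have h2 : π (Prod.snd ⁻¹' ((↑Sν : Set (E d))ᶜ)) = 0 := by
    rw [← Measure.map_apply measurable_snd Sν.measurableSet.compl, hπ.2]
    exact hν
  exact measure_mono_null hsub (measure_union_null h1 h2)

/-- The quadratic cost as a Bochner integral. -/
theorem quadCost_toReal (π : Measure (E d × E d)) :
    (quadCost π).toReal = ∫ p, ‖p.2 - p.1‖ ^ 2 ∂π := by
  unfold quadCost
  have hm : AEStronglyMeasurable (fun p : E d × E d => ‖p.2 - p.1‖ ^ 2) π :=
    ((measurable_snd.sub measurable_fst).norm.pow_const 2).aestronglyMeasurable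
  rw [integral_eq_lintegral_of_nonneg_ae (ae_of_all _ fun p => by positivity) hm]
  congr 1
  apply lintegral_congr
  intro p
  rw [ENNReal.ofReal_pow (norm_nonneg _), ofReal_norm, ← enorm_neg, neg_sub]

/-- **Mixed second difference** (Step B) for a fixed `g`, given a bound `B` for the centroid
functional of every discrete target. -/
theorem mixed_diff_aux {K : Set (E d)} (hKc : IsCompact K) (hKi : (interior K).Nonempty)
    {g : E d → ℝ} (hg : Measurable g) (hgb : ∀ x ∈ K, |g x| ≤ 1 / 2)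
    (hg0 : ∫ x, g x ∂(uniformProbOn K) = 0) {B : ℝ}
    (hcen : ∀ (μ' : Measure (E d)), IsProbabilityMeasure μ' →
      ∀ (S : Finset (E d)) (ψ0 ψg : E d → ℝ) (T0 Tg : E d → E d),
        IsPotMap (uniformProbOn K) μ' S ψ0 T0 → IsPotMap (srcG K g) μ' S ψg Tg →
        ∑ y ∈ S, (μ'.real {y})⁻¹ *
            ‖∫ x in Tg ⁻¹' {y}, x ∂(srcG K g) - ∫ x in T0 ⁻¹' {y}, x ∂(uniformProbOn K)‖ ^ 2
          ≤ B)
    {μ ν : Measure (E d)}
    {Sμ Sν : Finset (E d)} {ψμ0 ψμg ψν0 ψνg : E d → ℝ} {Tμ0 Tμg Tν0 Tνg : E d → E d}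
    (hμ0 : IsPotMap (uniformProbOn K) μ Sμ ψμ0 Tμ0) (hμg : IsPotMap (srcG K g) μ Sμ ψμg Tμg)
    (hν0 : IsPotMap (uniformProbOn K) ν Sν ψν0 Tν0) (hνg : IsPotMap (srcG K g) ν Sν ψνg Tνg)
    {π : Measure (E d × E d)} (hπ : IsPairCoupling μ ν π) :
    (corr (srcG K g) Tνg - corr (uniformProbOn K) Tν0)
        - (corr (srcG K g) Tμg - corr (uniformProbOn K) Tμ0)
      ≤ Real.sqrt B * Real.sqrt (quadCost π).toReal := by
  classical
  have hρ : IsProbabilityMeasure (uniformProbOn K) := isProbabilityMeasure_uniformProbOn hKc hKi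
  have hρg : IsProbabilityMeasure (srcG K g) := isProbabilityMeasure_srcG hKc hKi hg hgb hg0
  have hρK : uniformProbOn K Kᶜ = 0 := uniformProbOn_compl hKc
  have hρgK : srcG K g Kᶜ = 0 := srcG_compl hKc g
  -- `π` is a probability measure carried by the finite set `P`
  have hπprob : IsProbabilityMeasure π := by
    constructor
    have h1 : (π.map Prod.fst) Set.univ = 1 := by
      rw [hπ.1, ← hμ0.2.1]
      rw [Measure.map_apply hμ0.1 MeasurableSet.univ, Set.preimage_univ]
      exact measure_univ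
    rwa [Measure.map_apply measurable_fst MeasurableSet.univ, Set.preimage_univ] at h1
  obtain ⟨P, hPdef⟩ : ∃ P : Finset (E d × E d), P = Sμ ×ˢ Sν := ⟨_, rfl⟩
  have hP : π (↑P)ᶜ = 0 := by
    rw [hPdef]
    exact coupling_compl_product hπ hμ0.target_compl hν0.target_compl
  -- the cost
  rw [quadCost_toReal π]
  obtain ⟨cost, hcost⟩ : ∃ cost : ℝ, cost = ∫ p, ‖p.2 - p.1‖ ^ 2 ∂π := ⟨_, rfl⟩
  rw [← hcost]
  have hvm : Measurable (fun p : E d × E d => p.2 - p.1) := measurable_snd.sub measurable_fst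
  obtain ⟨RV, hRV⟩ : ∃ RV, ∀ p ∈ P, ‖p.2 - p.1‖ ≤ RV :=
    ⟨∑ p ∈ P, ‖p.2 - p.1‖, fun p hp =>
      Finset.single_le_sum (f := fun p : E d × E d => ‖p.2 - p.1‖) (fun z _ => norm_nonneg _) hp⟩
  have hPae : ∀ᵐ p ∂π, p ∈ (↑P : Set (E d × E d)) := by
    have h1 : ∀ᵐ p ∂π, p ∉ ((↑P : Set (E d × E d)))ᶜ := measure_eq_zero_iff_ae_notMem.mp hP
    filter_upwards [h1] with p hp
    simpa using hp
  have hv2 : Integrable (fun p : E d × E d => ‖p.2 - p.1‖ ^ 2) π := by
    refine Integrable.of_bound (hvm.norm.pow_const 2).aestronglyMeasurable (RV ^ 2) ?_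
    filter_upwards [hPae] with p hp
    rw [Real.norm_eq_abs, abs_of_nonneg (by positivity)]
    exact pow_le_pow_left₀ (norm_nonneg _) (hRV p hp) 2
  obtain ⟨R, hR0, hR⟩ := hKc.isBounded.exists_pos_norm_le
  -- the bound for every `n ≥ 1`
  have key : ∀ n : ℕ, 0 < n →
      (corr (srcG K g) Tνg - corr (uniformProbOn K) Tν0)
        - (corr (srcG K g) Tμg - corr (uniformProbOn K) Tμ0)
      ≤ Real.sqrt B * Real.sqrt cost + 2 * (R * Real.sqrt cost) / n := by
    intro n hn
    have hnR : (0 : ℝ) < n := by exact_mod_cast hn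
    obtain ⟨w, hw⟩ : ∃ w : ℕ → E d × E d → E d,
        w = fun (j : ℕ) (p : E d × E d) => (1 - (j : ℝ) / n) • p.1 + ((j : ℝ) / n) • p.2 :=
      ⟨_, rfl⟩
    have hwm : ∀ j, Measurable (w j) := by
      intro j
      rw [hw]
      show Measurable (fun p : E d × E d => (1 - (j : ℝ) / n) • p.1 + ((j : ℝ) / n) • p.2)
      exact (measurable_fst.const_smul (1 - (j : ℝ) / n)).add
        (measurable_snd.const_smul ((j : ℝ) / n))
    have hprobj : ∀ j, IsProbabilityMeasure (π.map (w j)) := fun j =>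
      Measure.isProbabilityMeasure_map (hwm j).aemeasurable
    have hSj : ∀ j, (π.map (w j)) (↑(P.image (w j)))ᶜ = 0 := by
      intro j
      rw [Measure.map_apply (hwm j) (Finset.measurableSet _).compl]
      refine measure_mono_null ?_ hP
      intro p hp
      simp only [Set.mem_preimage, Set.mem_compl_iff, Finset.mem_coe, Finset.mem_image,
        not_exists, not_and] at hp ⊢
      intro hpP
      exact hp p hpP rfl
    have hex0 : ∀ j, ∃ (ψ : E d → ℝ) (T : E d → E d),
        IsPotMap (uniformProbOn K) (π.map (w j)) (P.image (w j)) ψ T := by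
      intro j
      have := hprobj j
      have h := exists_potMap K hKc hKi (fun _ => (0 : ℝ)) measurable_const
        (by intro x _; simp) (by simp) (π.map (w j)) (P.image (w j)) (hSj j)
      rwa [srcG_zero] at h
    have hexg : ∀ j, ∃ (ψ : E d → ℝ) (T : E d → E d),
        IsPotMap (srcG K g) (π.map (w j)) (P.image (w j)) ψ T := by
      intro j
      have := hprobj j
      exact exists_potMap K hKc hKi g hg hgb hg0 (π.map (w j)) (P.image (w j)) (hSj j)
    choose ψ0 T0 hT0 using hex0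
    choose ψg Tg hTg using hexg
    have hS0 : ∀ j, ((uniformProbOn K).map (T0 j)) (↑(P.image (w j)))ᶜ = 0 := fun j => by
      rw [(hT0 j).2.1]
      exact hSj j
    have hSg : ∀ j, ((srcG K g).map (Tg j)) (↑(P.image (w j)))ᶜ = 0 := fun j => by
      rw [(hTg j).2.1]
      exact hSj j
    -- the gluing measures
    have h01 : ∀ j, (glue (uniformProbOn K) π (T0 j) (w j) (P.image (w j))).map Prod.fst
        = uniformProbOn K := fun j =>
      glue_map_fst _ π (hT0 j).1 (hwm j) (hT0 j).2.1 _ (hS0 j)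
    have h02 : ∀ j, (glue (uniformProbOn K) π (T0 j) (w j) (P.image (w j))).map Prod.snd
        = π := fun j =>
      glue_map_snd _ π (hT0 j).1 (hwm j) (hT0 j).2.1 _ (hS0 j)
    have h03 : ∀ j, ∀ᵐ q ∂(glue (uniformProbOn K) π (T0 j) (w j) (P.image (w j))),
        T0 j q.1 = w j q.2 := fun j => glue_ae _ π (hT0 j).1 (hwm j) _
    have h0prob : ∀ j, IsProbabilityMeasure
        (glue (uniformProbOn K) π (T0 j) (w j) (P.image (w j))) := by
      intro j
      constructor
      have h1 : ((glue (uniformProbOn K) π (T0 j) (w j) (P.image (w j))).map Prod.fst) Set.univ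
          = 1 := by
        rw [h01 j]
        exact measure_univ
      rwa [Measure.map_apply measurable_fst MeasurableSet.univ, Set.preimage_univ] at h1
    have hg1 : ∀ j, (glue (srcG K g) π (Tg j) (w j) (P.image (w j))).map Prod.fst
        = srcG K g := fun j =>
      glue_map_fst _ π (hTg j).1 (hwm j) (hTg j).2.1 _ (hSg j)
    have hg2 : ∀ j, (glue (srcG K g) π (Tg j) (w j) (P.image (w j))).map Prod.snd
        = π := fun j =>
      glue_map_snd _ π (hTg j).1 (hwm j) (hTg j).2.1 _ (hSg j)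
    have hg3 : ∀ j, ∀ᵐ q ∂(glue (srcG K g) π (Tg j) (w j) (P.image (w j))),
        Tg j q.1 = w j q.2 := fun j => glue_ae _ π (hTg j).1 (hwm j) _
    have hgprob : ∀ j, IsProbabilityMeasure
        (glue (srcG K g) π (Tg j) (w j) (P.image (w j))) := by
      intro j
      constructor
      have h1 : ((glue (srcG K g) π (Tg j) (w j) (P.image (w j))).map Prod.fst) Set.univ
          = 1 := by
        rw [hg1 j]
        exact measure_univ
      rwa [Measure.map_apply measurable_fst MeasurableSet.univ, Set.preimage_univ] at h1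
    -- the interpolation steps
    have hwstep : ∀ k p, w (k + 1) p = w k p + (1 / (n : ℝ)) • (p.2 - p.1) := by
      intro k p
      rw [hw]
      simp only
      push_cast
      have hn0 : (n : ℝ) ≠ 0 := hnR.ne'
      have e1 : (1 - ((k : ℝ) + 1) / n) = (1 - (k : ℝ) / n) - 1 / n := by
        field_simp
        ring
      have e2 : ((k : ℝ) + 1) / n = (k : ℝ) / n + 1 / n := by
        field_simp
      rw [e1, e2, sub_smul, add_smul, smul_sub]
      abel
    have hwstep' : ∀ k p, w k p = w (k + 1) p + (-(1 / (n : ℝ))) • (p.2 - p.1) := by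
      intro k p
      rw [hwstep k p, neg_smul]
      abel
    have hup : ∀ k, k < n →
        corr (uniformProbOn K) (T0 k) + (1 / (n : ℝ)) *
          (∫ q, inner ℝ q.1 (q.2.2 - q.2.1)
            ∂(glue (uniformProbOn K) π (T0 k) (w k) (P.image (w k))))
        ≤ corr (uniformProbOn K) (T0 (k + 1)) := fun k _ => by
      have := h0prob k
      exact step_le hKc hρK hP (h01 k) (h02 k) (hwm (k + 1)) (1 / (n : ℝ)) (hwstep k)
        (hT0 k).1 (h03 k) (hT0 (k + 1))
    have hdown : ∀ k, k < n →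
        corr (srcG K g) (Tg (k + 1)) + (-(1 / (n : ℝ))) *
          (∫ q, inner ℝ q.1 (q.2.2 - q.2.1)
            ∂(glue (srcG K g) π (Tg (k + 1)) (w (k + 1)) (P.image (w (k + 1)))))
        ≤ corr (srcG K g) (Tg k) := fun k _ => by
      have := hgprob (k + 1)
      exact step_le hKc hρgK hP (hg1 (k + 1)) (hg2 (k + 1)) (hwm k) (-(1 / (n : ℝ)))
        (hwstep' k) (hTg (k + 1)).1 (hg3 (k + 1)) (hTg k)
    have hmid : ∀ k, k < n →
        (∫ q, inner ℝ q.1 (q.2.2 - q.2.1)
            ∂(glue (srcG K g) π (Tg (k + 1)) (w (k + 1)) (P.image (w (k + 1)))))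
          - (∫ q, inner ℝ q.1 (q.2.2 - q.2.1)
            ∂(glue (uniformProbOn K) π (T0 (k + 1)) (w (k + 1)) (P.image (w (k + 1)))))
        ≤ Real.sqrt B * Real.sqrt cost := fun k _ => by
      rw [hcost]
      exact glue_diff_le hKc hρK hρgK hP (hwm (k + 1)) _ (hT0 (k + 1)).1 (hTg (k + 1)).1
        (hT0 (k + 1)).2.1 (hTg (k + 1)).2.1 B
        (hcen _ (hprobj (k + 1)) _ _ _ _ _ (hT0 (k + 1)) (hTg (k + 1)))
    have hend : ∀ j, |∫ q, inner ℝ q.1 (q.2.2 - q.2.1)
        ∂(glue (uniformProbOn K) π (T0 j) (w j) (P.image (w j)))| ≤ R * Real.sqrt cost := by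
      intro j
      have := h0prob j
      rw [hcost]
      exact glue_abs_le hρK hR0.le hR (h01 j) (h02 j) hv2
    have htel := telescope_bound n hn (fun j => corr (uniformProbOn K) (T0 j))
      (fun j => corr (srcG K g) (Tg j))
      (fun j => ∫ q, inner ℝ q.1 (q.2.2 - q.2.1)
        ∂(glue (uniformProbOn K) π (T0 j) (w j) (P.image (w j))))
      (fun j => ∫ q, inner ℝ q.1 (q.2.2 - q.2.1)
        ∂(glue (srcG K g) π (Tg j) (w j) (P.image (w j))))
      (Real.sqrt B * Real.sqrt cost) (R * Real.sqrt cost) hup hdown hmid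
      ((neg_le_abs _).trans (hend 0)) ((le_abs_self _).trans (hend n))
    -- identify the end points
    have hw0 : w 0 = Prod.fst := by
      rw [hw]
      funext p
      simp
    have hwn : w n = Prod.snd := by
      rw [hw]
      funext p
      have : (n : ℝ) / n = 1 := div_self hnR.ne'
      simp [this]
    have e00 : IsPotMap (uniformProbOn K) μ (P.image Prod.fst) (ψ0 0) (T0 0) := by
      have h := hT0 0
      rwa [hw0, hπ.1] at h
    have eg0 : IsPotMap (srcG K g) μ (P.image Prod.fst) (ψg 0) (Tg 0) := by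
      have h := hTg 0
      rwa [hw0, hπ.1] at h
    have e0n : IsPotMap (uniformProbOn K) ν (P.image Prod.snd) (ψ0 n) (T0 n) := by
      have h := hT0 n
      rwa [hwn, hπ.2] at h
    have egn : IsPotMap (srcG K g) ν (P.image Prod.snd) (ψg n) (Tg n) := by
      have h := hTg n
      rwa [hwn, hπ.2] at h
    rw [corr_eq_corr hKc hρK e00 hμ0, corr_eq_corr hKc hρgK eg0 hμg,
      corr_eq_corr hKc hρK e0n hν0, corr_eq_corr hKc hρgK egn hνg] at htel
    linarith
  -- let `n → ∞`
  by_contra hlt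
  rw [not_le] at hlt
  obtain ⟨ε, hε⟩ : ∃ ε : ℝ, ε = (corr (srcG K g) Tνg - corr (uniformProbOn K) Tν0)
        - (corr (srcG K g) Tμg - corr (uniformProbOn K) Tμ0)
        - Real.sqrt B * Real.sqrt cost := ⟨_, rfl⟩
  have hεpos : 0 < ε := by rw [hε]; linarith
  have hc0 : 0 ≤ 2 * (R * Real.sqrt cost) := by positivity
  obtain ⟨n, hn⟩ := exists_nat_gt (2 * (R * Real.sqrt cost) / ε)
  have hnR : (0 : ℝ) < n := lt_of_le_of_lt (div_nonneg hc0 hεpos.le) hn
  have hnpos : 0 < n := by exact_mod_cast hnR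
  have h1 := key n hnpos
  have h2 : 2 * (R * Real.sqrt cost) / n < ε := by
    rw [div_lt_iff₀ hnR]
    rw [div_lt_iff₀ hεpos] at hn
    linarith
  linarith

end Crest.Agent.S0109.Helper47
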