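import Mathlib
import Crest.Prelude.Def_QuadraticTransport
import Crest.Agent.Lib.S0109.Defs
import Crest.Agent.Lib.S0109.Basic
import Crest.Agent.Lib.S0109.Centroid
import Crest.Agent.Lib.S0109.Helper47GlueC
import Crest.Agent.Lib.S0109.Helper47GlueF

/-! Row 82, package P6a (Glue; owner helper47): dual admissibility and the mixed second difference.
The proofs are in `Helper47GlueA` … `Helper47GlueF`; `mixed_diff_le` uses `centroid_stability`
(package P5) with the constant `√C`. -/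

set_option autoImplicit false
open MeasureTheory Filter Topology
open scoped ENNReal NNReal
open Crest.AnalysisR.OT

namespace Crest.Agent.S0109

/-- Dual admissibility, upper bound: `M(ρ_g, μ) - M(ρ, μ) ≤ ∫ φ⁰ g dρ`. -/
theorem corr_sub_le_pot {d : ℕ} (K : Set (E d)) (hKc : IsCompact K) (hKi : (interior K).Nonempty)
    (g : E d → ℝ) (hg : Measurable g) (hgb : ∀ x ∈ K, |g x| ≤ 1 / 2)
    (hg0 : ∫ x, g x ∂(uniformProbOn K) = 0)
    (μ : Measure (E d)) [IsProbabilityMeasure μ] (S : Finset (E d))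
    (ψ0 ψg : E d → ℝ) (T0 Tg : E d → E d)
    (h0 : IsPotMap (uniformProbOn K) μ S ψ0 T0) (h1 : IsPotMap (srcG K g) μ S ψg Tg) :
    corr (srcG K g) Tg - corr (uniformProbOn K) T0 ≤ ∫ x, pot S ψ0 x * g x ∂(uniformProbOn K) :=
  Helper47.corr_sub_le_pot' hKc hKi hg hgb hg0 h0 h1

/-- Dual admissibility, lower bound: `∫ φ^g g dρ ≤ M(ρ_g, μ) - M(ρ, μ)`. -/
theorem pot_le_corr_sub {d : ℕ} (K : Set (E d)) (hKc : IsCompact K) (hKi : (interior K).Nonempty)
    (g : E d → ℝ) (hg : Measurable g) (hgb : ∀ x ∈ K, |g x| ≤ 1 / 2)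
    (hg0 : ∫ x, g x ∂(uniformProbOn K) = 0)
    (μ : Measure (E d)) [IsProbabilityMeasure μ] (S : Finset (E d))
    (ψ0 ψg : E d → ℝ) (T0 Tg : E d → E d)
    (h0 : IsPotMap (uniformProbOn K) μ S ψ0 T0) (h1 : IsPotMap (srcG K g) μ S ψg Tg) :
    ∫ x, pot S ψg x * g x ∂(uniformProbOn K) ≤ corr (srcG K g) Tg - corr (uniformProbOn K) T0 :=
  Helper47.pot_le_corr_sub' hKc hKi hg hgb hg0 h0 h1

/-- Mixed second difference of the maximal correlation (Step B, telescoping along the displacement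
interpolation + gluing + centroid stability).  v2 (03:35): existential constant, `g` Lipschitz. -/
theorem mixed_diff_le {d : ℕ} (K : Set (E d)) (hKc : IsCompact K) (hKv : Convex ℝ K)
    (hKi : (interior K).Nonempty) :
    ∃ C : ℝ, 0 ≤ C ∧ ∀ (g : E d → ℝ), (∃ L : ℝ≥0, LipschitzWith L g) → (∀ x ∈ K, |g x| ≤ 1 / 2) →
      ∫ x, g x ∂(uniformProbOn K) = 0 →
      ∀ (μ ν : Measure (E d)), IsProbabilityMeasure μ → IsProbabilityMeasure ν →
      ∀ (Sμ Sν : Finset (E d)) (ψμ0 ψμg ψν0 ψνg : E d → ℝ) (Tμ0 Tμg Tν0 Tνg : E d → E d),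
        IsPotMap (uniformProbOn K) μ Sμ ψμ0 Tμ0 → IsPotMap (srcG K g) μ Sμ ψμg Tμg →
        IsPotMap (uniformProbOn K) ν Sν ψν0 Tν0 → IsPotMap (srcG K g) ν Sν ψνg Tνg →
        ∀ π : Measure (E d × E d), IsPairCoupling μ ν π →
          (corr (srcG K g) Tνg - corr (uniformProbOn K) Tν0)
              - (corr (srcG K g) Tμg - corr (uniformProbOn K) Tμ0)
            ≤ C * Real.sqrt (∫ x, g x ^ 2 ∂(uniformProbOn K)) * Real.sqrt (quadCost π).toReal := by
  obtain ⟨C, hC0, hC⟩ := centroid_stability K hKc hKv hKi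
  refine ⟨Real.sqrt C, Real.sqrt_nonneg C, ?_⟩
  intro g hgL hgb hg0 μ ν _ _ Sμ Sν ψμ0 ψμg ψν0 ψνg Tμ0 Tμg Tν0 Tνg hμ0 hμg hν0 hνg π hπ
  obtain ⟨L, hL⟩ := hgL
  have hgm : Measurable g := hL.continuous.measurable
  have h := Helper47.mixed_diff_aux hKc hKi hgm hgb hg0
    (B := C * ∫ x, g x ^ 2 ∂(uniformProbOn K))
    (fun μ' hμ' S ψ0 ψg T0 Tg h0 h1 => hC g ⟨L, hL⟩ hgb hg0 μ' hμ' S ψ0 ψg T0 Tg h0 h1)
    hμ0 hμg hν0 hνg hπ
  rwa [Real.sqrt_mul hC0] at h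

end Crest.Agent.S0109
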