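import Mathlib
import Crest.Prelude.Def_QuadraticTransport
import Crest.Agent.Lib.S0109.Defs
import Crest.Agent.Lib.S0109.Basic
import Crest.Agent.Lib.S0109.Exist
import Crest.Agent.Lib.S0109.Glue
import Crest.Agent.Lib.S0109.Cont

/-! Row 82, package P6c: Lipschitz stability of the discrete Kantorovich potentials in `W₂`
(estimate (*)), assembled from `exists_potMap` (P2), `corr_sub_le_pot`, `pot_le_corr_sub`,
`mixed_diff_le` (P6a) and `tendsto_pot_integral` (P6b). -/

set_option autoImplicit false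
open MeasureTheory Filter Topology
open scoped ENNReal NNReal
open Crest.AnalysisR.OT

namespace Crest.Agent.S0109

/-- Continuous functions are integrable for the uniform probability measure on a compact set. -/
private theorem potStab_integrable {d : ℕ} {K : Set (E d)} (hKc : IsCompact K)
    (hKi : (interior K).Nonempty) {f : E d → ℝ} (hf : Continuous f) :
    Integrable f (uniformProbOn K) := by
  have h1 : IntegrableOn f K volume := hf.continuousOn.integrableOn_compact hKc
  have h2 : Integrable f ((volume K)⁻¹ • volume.restrict K) := by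
    apply Integrable.smul_measure h1
    exact ENNReal.inv_ne_top.mpr (volume_K_pos hKi).ne'
  exact h2

/-- The scalar endgame: `I / c ≤ a * (√I / c) * b` with `c > 0`, `a, b ≥ 0` gives `I ≤ a² b²`. -/
private theorem potStab_scalar {I c a b : ℝ} (hI : 0 ≤ I) (hc : 0 < c) (ha : 0 ≤ a) (hb : 0 ≤ b)
    (h : I / c ≤ a * (Real.sqrt I / c) * b) : I ≤ a ^ 2 * b ^ 2 := by
  have hq : 0 ≤ Real.sqrt I := Real.sqrt_nonneg I
  have hqq : Real.sqrt I * Real.sqrt I = I := Real.mul_self_sqrt hI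
  have h1 : I ≤ a * Real.sqrt I * b := by
    have h2 : I / c * c ≤ a * (Real.sqrt I / c) * b * c :=
      mul_le_mul_of_nonneg_right h hc.le
    have h3 : I / c * c = I := by field_simp
    have h4 : a * (Real.sqrt I / c) * b * c = a * Real.sqrt I * b := by field_simp
    rw [h3, h4] at h2
    exact h2
  rcases eq_or_lt_of_le hq with h0 | hpos
  · have : I = 0 := by rw [← hqq, ← h0]; ring
    rw [this]; positivity
  · have h5 : Real.sqrt I ≤ a * b := by
      have h6 : Real.sqrt I * Real.sqrt I ≤ (a * b) * Real.sqrt I := by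
        rw [hqq]; linarith
      exact le_of_mul_le_mul_right h6 hpos
    have h7 : Real.sqrt I * Real.sqrt I ≤ (a * b) * (a * b) :=
      mul_le_mul h5 h5 hq (mul_nonneg ha hb)
    rw [hqq] at h7
    linarith [h7]

/-- A scalar multiple of a real Lipschitz function is Lipschitz. -/
private theorem potStab_lipschitz_const_mul {d : ℕ} {f : E d → ℝ} (hf : ∃ L : ℝ≥0, LipschitzWith L f)
    (a : ℝ) : ∃ L : ℝ≥0, LipschitzWith L (fun x => a * f x) := by
  obtain ⟨L, hL⟩ := hf
  refine ⟨‖a‖₊ * L, LipschitzWith.of_dist_le_mul fun x y => ?_⟩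
  have h1 : dist (f x) (f y) ≤ L * dist x y := hL.dist_le_mul x y
  rw [Real.dist_eq, ← mul_sub, abs_mul]
  rw [Real.dist_eq] at h1
  push_cast
  rw [Real.norm_eq_abs, mul_assoc]
  exact mul_le_mul_of_nonneg_left h1 (abs_nonneg a)

/-- The discrete potential is Lipschitz (with some constant). -/
private theorem potStab_lipschitz_pot {d : ℕ} (S : Finset (E d)) (ψ : E d → ℝ) :
    ∃ L : ℝ≥0, LipschitzWith L (pot S ψ) :=
  ⟨S.sup (fun y => ‖y‖₊), lipschitzWith_pot (fun _ hy => Finset.le_sup (f := fun y => ‖y‖₊) hy) ψ⟩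

/-- Lipschitz stability of discrete Kantorovich potentials in `W₂` (estimate (*)).
v2 (03:35): existential constant. -/
theorem potential_stability {d : ℕ} (K : Set (E d)) (hKc : IsCompact K) (hKv : Convex ℝ K)
    (hKi : (interior K).Nonempty) :
    ∃ C : ℝ, 0 ≤ C ∧ ∀ (μ ν : Measure (E d)), IsProbabilityMeasure μ → IsProbabilityMeasure ν →
      ∀ (Sμ Sν : Finset (E d)) (ψμ ψν : E d → ℝ) (Tμ Tν : E d → E d),
        IsPotMap (uniformProbOn K) μ Sμ ψμ Tμ → IsPotMap (uniformProbOn K) ν Sν ψν Tν →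
        ∀ π : Measure (E d × E d), IsPairCoupling μ ν π →
          ∃ c : ℝ, ∫ x, (pot Sμ ψμ x - pot Sν ψν x - c) ^ 2 ∂(uniformProbOn K)
            ≤ C * (quadCost π).toReal := by
  classical
  obtain ⟨C₁, hC₁, hmd⟩ := mixed_diff_le K hKc hKv hKi
  refine ⟨C₁ ^ 2, sq_nonneg _, ?_⟩
  intro μ ν _ _ Sμ Sν ψμ ψν Tμ Tν hμ hν π hπ
  have hprob : IsProbabilityMeasure (uniformProbOn K) :=
    isProbabilityMeasure_uniformProbOn hKc hKi
  have hint : ∀ f : E d → ℝ, Continuous f → Integrable f (uniformProbOn K) :=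
    fun f hf => potStab_integrable hKc hKi hf
  -- the difference of the potentials, centred and normalised
  have hcμ : Continuous (pot Sμ ψμ) := continuous_pot Sμ ψμ
  have hcν : Continuous (pot Sν ψν) := continuous_pot Sν ψν
  set w : E d → ℝ := fun x => pot Sν ψν x - pot Sμ ψμ x with hw
  have hwc : Continuous w := hcν.sub hcμ
  set m : ℝ := ∫ x, w x ∂(uniformProbOn K) with hm
  set g₀ : E d → ℝ := fun x => w x - m with hg₀
  have hg₀c : Continuous g₀ := hwc.sub continuous_const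
  obtain ⟨C, hC⟩ := hKc.exists_bound_of_continuousOn hg₀c.continuousOn
  set c₀ : ℝ := 2 * |C| + 1 with hc₀
  have hc₀pos : 0 < c₀ := by positivity
  set g : E d → ℝ := fun x => g₀ x / c₀ with hg
  have hgc : Continuous g := hg₀c.div_const c₀
  have hgLip : ∃ L : ℝ≥0, LipschitzWith L g := by
    obtain ⟨Lν, hLν⟩ := potStab_lipschitz_pot Sν ψν
    obtain ⟨Lμ, hLμ⟩ := potStab_lipschitz_pot Sμ ψμ
    have h1 : LipschitzWith (Lν + Lμ) g₀ := by
      refine LipschitzWith.of_dist_le_mul fun x y => ?_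
      have a1 := hLν.dist_le_mul x y
      have a2 := hLμ.dist_le_mul x y
      rw [Real.dist_eq] at a1 a2 ⊢
      have e : g₀ x - g₀ y = (pot Sν ψν x - pot Sν ψν y) - (pot Sμ ψμ x - pot Sμ ψμ y) := by
        simp only [hg₀, hw]; ring
      rw [e]
      push_cast
      calc |(pot Sν ψν x - pot Sν ψν y) - (pot Sμ ψμ x - pot Sμ ψμ y)|
          ≤ |pot Sν ψν x - pot Sν ψν y| + |pot Sμ ψμ x - pot Sμ ψμ y| := abs_sub _ _
        _ ≤ Lν * dist x y + Lμ * dist x y := add_le_add a1 a2
        _ = (Lν + Lμ) * dist x y := by ring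
    have h2 := potStab_lipschitz_const_mul ⟨_, h1⟩ (1 / c₀)
    obtain ⟨L, hL⟩ := h2
    refine ⟨L, ?_⟩
    have e : g = fun x => 1 / c₀ * g₀ x := by
      ext x; simp only [hg]; ring
    rw [e]; exact hL
  have hgb : ∀ x ∈ K, |g x| ≤ 1 / 2 := by
    intro x hx
    have h1 : |g₀ x| ≤ |C| := by
      have := hC x hx
      rw [Real.norm_eq_abs] at this
      exact this.trans (le_abs_self C)
    rw [hg]
    simp only
    rw [abs_div, abs_of_pos hc₀pos, div_le_iff₀ hc₀pos]
    rw [hc₀]
    linarith [abs_nonneg C]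
  have hg₀int : ∫ x, g₀ x ∂(uniformProbOn K) = 0 := by
    rw [hg₀]
    simp only
    rw [integral_sub (hint w hwc) (integrable_const m), integral_const]
    simp [hm]
  have hg0 : ∫ x, g x ∂(uniformProbOn K) = 0 := by
    rw [hg]
    simp only
    rw [integral_div, hg₀int, zero_div]
  -- the scales
  set s : ℕ → ℝ := fun n => 1 / ((n : ℝ) + 1) with hs
  have hspos : ∀ n, 0 < s n := fun n => by rw [hs]; positivity
  have hsle : ∀ n, s n ≤ 1 := by
    intro n
    rw [hs]
    simp only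
    rw [div_le_one (by positivity)]
    have : (0 : ℝ) ≤ n := Nat.cast_nonneg n
    linarith
  have hs0 : Tendsto s atTop (𝓝 0) := tendsto_one_div_add_atTop_nhds_zero_nat
  -- perturbed sources
  have hgn_meas : ∀ n, Measurable (fun x => s n * g x) :=
    fun n => (hgc.const_mul (s n)).measurable
  have hgn_b : ∀ n, ∀ x ∈ K, |s n * g x| ≤ 1 / 2 := by
    intro n x hx
    rw [abs_mul, abs_of_pos (hspos n)]
    calc s n * |g x| ≤ 1 * |g x| := mul_le_mul_of_nonneg_right (hsle n) (abs_nonneg _)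
      _ = |g x| := one_mul _
      _ ≤ 1 / 2 := hgb x hx
  have hgn_0 : ∀ n, ∫ x, s n * g x ∂(uniformProbOn K) = 0 := by
    intro n
    rw [integral_const_mul, hg0, mul_zero]
  have hSμ : μ (↑Sμ)ᶜ = 0 := hμ.target_compl
  have hSν : ν (↑Sν)ᶜ = 0 := hν.target_compl
  have exμ : ∀ n, ∃ (ψ : E d → ℝ) (T : E d → E d),
      IsPotMap (srcG K (fun x => s n * g x)) μ Sμ ψ T :=
    fun n => exists_potMap K hKc hKi _ (hgn_meas n) (hgn_b n) (hgn_0 n) μ Sμ hSμ
  have exν : ∀ n, ∃ (ψ : E d → ℝ) (T : E d → E d),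
      IsPotMap (srcG K (fun x => s n * g x)) ν Sν ψ T :=
    fun n => exists_potMap K hKc hKi _ (hgn_meas n) (hgn_b n) (hgn_0 n) ν Sν hSν
  choose ψμn Tμn hμn using exμ
  choose ψνn Tνn hνn using exν
  -- the two integrals to compare
  set A : ℕ → ℝ := fun n => ∫ x, pot Sν (ψνn n) x * g x ∂(uniformProbOn K) with hA
  set Ainf : ℝ := ∫ x, pot Sν ψν x * g x ∂(uniformProbOn K) with hAinf
  set B : ℝ := ∫ x, pot Sμ ψμ x * g x ∂(uniformProbOn K) with hB
  set G2 : ℝ := ∫ x, g x ^ 2 ∂(uniformProbOn K) with hG2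
  set cost : ℝ := (quadCost π).toReal with hcost
  have hcost0 : 0 ≤ cost := ENNReal.toReal_nonneg
  have key : ∀ n, A n - B ≤ C₁ * Real.sqrt G2 * Real.sqrt cost := by
    intro n
    have h1 := pot_le_corr_sub K hKc hKi _ (hgn_meas n) (hgn_b n) (hgn_0 n) ν Sν ψν (ψνn n)
      Tν (Tνn n) hν (hνn n)
    have h2 := corr_sub_le_pot K hKc hKi _ (hgn_meas n) (hgn_b n) (hgn_0 n) μ Sμ ψμ (ψμn n)
      Tμ (Tμn n) hμ (hμn n)
    have h3 := hmd _ (potStab_lipschitz_const_mul hgLip (s n)) (hgn_b n) (hgn_0 n) μ ν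
      inferInstance inferInstance Sμ Sν
      ψμ (ψμn n) ψν (ψνn n) Tμ (Tμn n) Tν (Tνn n) hμ (hμn n) hν (hνn n) π hπ
    have e1 : ∫ x, pot Sν (ψνn n) x * (s n * g x) ∂(uniformProbOn K) = s n * A n := by
      rw [hA]
      simp only
      rw [← integral_const_mul]
      congr 1
      ext x
      ring
    have e2 : ∫ x, pot Sμ ψμ x * (s n * g x) ∂(uniformProbOn K) = s n * B := by
      rw [hB, ← integral_const_mul]
      congr 1
      ext x
      ring
    have e3 : Real.sqrt (∫ x, (s n * g x) ^ 2 ∂(uniformProbOn K)) = s n * Real.sqrt G2 := by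
      have : ∫ x, (s n * g x) ^ 2 ∂(uniformProbOn K) = s n ^ 2 * G2 := by
        rw [hG2, ← integral_const_mul]
        congr 1
        ext x
        ring
      rw [this, Real.sqrt_mul (sq_nonneg _), Real.sqrt_sq (hspos n).le]
    rw [e1] at h1
    rw [e2] at h2
    rw [e3] at h3
    have h4 : s n * (A n - B) ≤ s n * (C₁ * Real.sqrt G2 * Real.sqrt cost) := by
      have : s n * A n - s n * B ≤ C₁ * (s n * Real.sqrt G2) * Real.sqrt cost := by
        linarith
      calc s n * (A n - B) = s n * A n - s n * B := by ring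
        _ ≤ C₁ * (s n * Real.sqrt G2) * Real.sqrt cost := this
        _ = s n * (C₁ * Real.sqrt G2 * Real.sqrt cost) := by ring
    exact le_of_mul_le_mul_left h4 (hspos n)
  -- pass to the limit
  have hlim : Tendsto A atTop (𝓝 Ainf) :=
    tendsto_pot_integral K hKc hKv hKi g hgc hgb hg0 ν Sν ψν Tν hν s
      (fun n => ⟨hspos n, hsle n⟩) hs0 ψνn Tνn hνn
  have hfinal : Ainf - B ≤ C₁ * Real.sqrt G2 * Real.sqrt cost := by
    have hlim' : Tendsto (fun n => A n - B) atTop (𝓝 (Ainf - B)) := hlim.sub_const B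
    exact le_of_tendsto' hlim' key
  -- rewrite both sides through `I = ∫ g₀²`
  set I : ℝ := ∫ x, g₀ x ^ 2 ∂(uniformProbOn K) with hI
  have hI0 : 0 ≤ I := integral_nonneg (fun x => sq_nonneg _)
  have hAB : Ainf - B = I / c₀ := by
    rw [hAinf, hB, hI]
    have i1 : Integrable (fun x => pot Sν ψν x * g x) (uniformProbOn K) := hint _ (hcν.mul hgc)
    have i2 : Integrable (fun x => pot Sμ ψμ x * g x) (uniformProbOn K) := hint _ (hcμ.mul hgc)
    rw [← integral_sub i1 i2]
    have h1 : ∀ x, pot Sν ψν x * g x - pot Sμ ψμ x * g x = g₀ x ^ 2 / c₀ + m * g x := by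
      intro x
      simp only [hg, hg₀, hw]
      field_simp
      ring
    simp_rw [h1]
    have i3 : Integrable (fun x => g₀ x ^ 2 / c₀) (uniformProbOn K) :=
      hint _ ((hg₀c.pow 2).div_const c₀)
    have i4 : Integrable (fun x => m * g x) (uniformProbOn K) := hint _ (hgc.const_mul m)
    rw [integral_add i3 i4, integral_const_mul, hg0, mul_zero, add_zero, integral_div]
  have hG : Real.sqrt G2 = Real.sqrt I / c₀ := by
    have : G2 = I / c₀ ^ 2 := by
      rw [hG2, hI, ← integral_div]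
      congr 1
      ext x
      simp only [hg]
      rw [div_pow]
    rw [this, Real.sqrt_div' _ (sq_nonneg _), Real.sqrt_sq hc₀pos.le]
  rw [hAB, hG] at hfinal
  have hres : I ≤ C₁ ^ 2 * Real.sqrt cost ^ 2 :=
    potStab_scalar hI0 hc₀pos hC₁ (Real.sqrt_nonneg _) hfinal
  rw [Real.sq_sqrt hcost0] at hres
  refine ⟨-m, ?_⟩
  have hEq : ∀ x, (pot Sμ ψμ x - pot Sν ψν x - -m) ^ 2 = g₀ x ^ 2 := by
    intro x
    simp only [hg₀, hw]
    ring
  simp_rw [hEq]
  calc I ≤ C₁ ^ 2 * cost := hres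
    _ = C₁ ^ 2 * (quadCost π).toReal := by rw [hcost]

end Crest.Agent.S0109
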