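import Mathlib
import Crest.Prelude.Def_QuadraticTransport
import Crest.Agent.Lib.S0109.Defs
import Crest.Agent.Lib.S0109.Basic
import Crest.Agent.Lib.S0109.GN
import Crest.Agent.Lib.S0109.PotStab

/-! Row 82, package P7: S0109 for finitely supported targets and Laguerre maps
(assembly of the Gagliardo–Nirenberg step `gn_step` and the potential stability estimate
`potential_stability`). -/

set_option autoImplicit false
open MeasureTheory Filter Topology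
open scoped ENNReal NNReal
open Crest.AnalysisR.OT

namespace Crest.Agent.S0109

/-- A Laguerre map takes values of norm at most `L` almost everywhere on `K` when all atoms do. -/
theorem disc_ae_norm_le {d : ℕ} {K : Set (E d)} (hKc : IsCompact K) (hKi : (interior K).Nonempty)
    {μ : Measure (E d)} {S : Finset (E d)} {ψ : E d → ℝ} {T : E d → E d}
    (h : IsPotMap (uniformProbOn K) μ S ψ T) {L : ℝ≥0} (hL : ∀ y ∈ S, ‖y‖₊ ≤ L) :
    ∀ᵐ x ∂(volume.restrict K), ‖T x‖ ≤ L := by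
  have h1 : ∀ᵐ x ∂(uniformProbOn K), ‖T x‖ ≤ L := by
    filter_upwards [h.2.2] with x hx
    exact_mod_cast hL _ hx.1
  exact (ae_uniformProbOn_iff hKc hKi).1 h1

/-- S0109 for finitely supported targets and Laguerre maps. -/
theorem discrete_stability {d : ℕ} (K : Set (E d)) (hKc : IsCompact K) (hKv : Convex ℝ K)
    (hKi : (interior K).Nonempty) (Y : Set (E d)) (hYc : IsCompact Y) :
    ∃ C : ℝ≥0, ∀ (μ ν : Measure (E d)), IsProbabilityMeasure μ → IsProbabilityMeasure ν →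
      ∀ (Sμ Sν : Finset (E d)), (↑Sμ : Set (E d)) ⊆ Y → (↑Sν : Set (E d)) ⊆ Y →
      ∀ (ψμ ψν : E d → ℝ) (Tμ Tν : E d → E d),
        IsPotMap (uniformProbOn K) μ Sμ ψμ Tμ → IsPotMap (uniformProbOn K) ν Sν ψν Tν →
        ∀ π : Measure (E d × E d), IsPairCoupling μ ν π →
          ∫⁻ x, ‖Tμ x - Tν x‖ₑ ^ 2 ∂(uniformProbOn K) ≤ C * quadCost π ^ (1 / 3 : ℝ) := by
  -- a bound for the norm on `Y`
  obtain ⟨L, hL⟩ : ∃ L : ℝ≥0, ∀ y ∈ Y, ‖y‖₊ ≤ L := by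
    obtain ⟨R, hR⟩ := hYc.isBounded.exists_norm_le
    refine ⟨R.toNNReal, fun y hy => ?_⟩
    rw [← NNReal.coe_le_coe, coe_nnnorm]
    exact (hR y hy).trans (Real.le_coe_toNNReal R)
  obtain ⟨CG, hCG0, hCG⟩ := gn_step K hKc hKv hKi L
  obtain ⟨D2, hD2, hPS⟩ := potential_stability K hKc hKv hKi
  set vK : ℝ := (volume K).toReal with hvKdef
  have hvpos : 0 < volume K := volume_K_pos hKi
  have hvtop : volume K < ∞ := volume_K_lt_top hKc
  have hvK : 0 < vK := ENNReal.toReal_pos hvpos.ne' hvtop.ne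
  set C0 : ℝ := vK⁻¹ * (CG * (vK * D2) ^ (1 / 3 : ℝ)) with hC0def
  have hC0 : 0 ≤ C0 := by
    have : 0 ≤ (vK * D2) ^ (1 / 3 : ℝ) := Real.rpow_nonneg (by positivity) _
    positivity
  refine ⟨C0.toNNReal + 1, ?_⟩
  intro μ ν hμP hνP Sμ Sν hSμ hSν ψμ ψν Tμ Tν hμ hν π hπ
  have hCne : ((C0.toNNReal + 1 : ℝ≥0) : ℝ≥0∞) ≠ 0 := by
    simp
  by_cases hq : quadCost π = ⊤
  · rw [hq, ENNReal.top_rpow_of_pos (by norm_num), ENNReal.mul_top hCne]
    exact le_top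
  -- the finite case
  set q : ℝ := (quadCost π).toReal with hqdef
  have hq0 : 0 ≤ q := ENNReal.toReal_nonneg
  have hLμ : ∀ y ∈ Sμ, ‖y‖₊ ≤ L := fun y hy => hL y (hSμ hy)
  have hLν : ∀ y ∈ Sν, ‖y‖₊ ≤ L := fun y hy => hL y (hSν hy)
  -- potential stability
  obtain ⟨c, hc⟩ := hPS μ ν hμP hνP Sμ Sν ψμ ψν Tμ Tν hμ hν π hπ
  -- the Gagliardo–Nirenberg step
  have hsubμ : ∀ᵐ x ∂(volume.restrict K), ∀ z,
      pot Sμ ψμ x + inner ℝ (Tμ x) (z - x) ≤ pot Sμ ψμ z :=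
    (ae_uniformProbOn_iff hKc hKi).1 hμ.subgradient
  have hsubν : ∀ᵐ x ∂(volume.restrict K), ∀ z,
      pot Sν ψν x + inner ℝ (Tν x) (z - x) ≤ pot Sν ψν z :=
    (ae_uniformProbOn_iff hKc hKi).1 hν.subgradient
  have hgn := hCG (pot Sμ ψμ) (pot Sν ψν) Tμ Tν (convexOn_pot Sμ ψμ) (convexOn_pot Sν ψν)
    (lipschitzWith_pot hLμ ψμ) (lipschitzWith_pot hLν ψν) hμ.1 hν.1 hsubμ hsubν c
  -- rewrite the potential estimate as a set integral over `K`
  have hint : ∫ x in K, (pot Sμ ψμ x - pot Sν ψν x - c) ^ 2 ≤ vK * (D2 * q) := by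
    have h1 := integral_uniformProbOn (K := K)
      (fun x => (pot Sμ ψμ x - pot Sν ψν x - c) ^ 2)
    rw [h1, smul_eq_mul] at hc
    have h2 : ∫ x in K, (pot Sμ ψμ x - pot Sν ψν x - c) ^ 2
        = vK * (vK⁻¹ * ∫ x in K, (pot Sμ ψμ x - pot Sν ψν x - c) ^ 2) := by
      field_simp
    rw [h2]
    exact mul_le_mul_of_nonneg_left hc hvK.le
  have hint0 : 0 ≤ ∫ x in K, (pot Sμ ψμ x - pot Sν ψν x - c) ^ 2 :=
    integral_nonneg fun x => sq_nonneg _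
  have hI : ∫ x in K, ‖Tμ x - Tν x‖ ^ 2 ≤ CG * ((vK * D2) ^ (1 / 3 : ℝ) * q ^ (1 / 3 : ℝ)) := by
    refine hgn.trans (mul_le_mul_of_nonneg_left ?_ hCG0)
    calc (∫ x in K, (pot Sμ ψμ x - pot Sν ψν x - c) ^ 2) ^ (1 / 3 : ℝ)
        ≤ (vK * (D2 * q)) ^ (1 / 3 : ℝ) := Real.rpow_le_rpow hint0 hint (by norm_num)
      _ = (vK * D2) ^ (1 / 3 : ℝ) * q ^ (1 / 3 : ℝ) := by
          rw [← mul_assoc, Real.mul_rpow (by positivity) hq0]
  -- integrability of the squared distance of the maps on `K`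
  have hbμ := disc_ae_norm_le hKc hKi hμ hLμ
  have hbν := disc_ae_norm_le hKc hKi hν hLν
  have : IsFiniteMeasure (volume.restrict K) := ⟨by simpa using hvtop⟩
  have hmeas : Measurable fun x => ‖Tμ x - Tν x‖ ^ 2 := ((hμ.1.sub hν.1).norm).pow_const 2
  have hinteg : Integrable (fun x => ‖Tμ x - Tν x‖ ^ 2) (volume.restrict K) := by
    refine Integrable.of_bound hmeas.aestronglyMeasurable ((2 * (L : ℝ)) ^ 2) ?_
    filter_upwards [hbμ, hbν] with x h1 h2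
    rw [Real.norm_eq_abs, abs_of_nonneg (by positivity)]
    have : ‖Tμ x - Tν x‖ ≤ 2 * (L : ℝ) := by
      calc ‖Tμ x - Tν x‖ ≤ ‖Tμ x‖ + ‖Tν x‖ := norm_sub_le _ _
        _ ≤ 2 * (L : ℝ) := by linarith
    exact pow_le_pow_left₀ (norm_nonneg _) this 2
  -- conversion to the extended nonnegative reals
  have hl : ∫⁻ x in K, ‖Tμ x - Tν x‖ₑ ^ 2 = ENNReal.ofReal (∫ x in K, ‖Tμ x - Tν x‖ ^ 2) := by
    rw [ofReal_integral_eq_lintegral_ofReal hinteg (ae_of_all _ fun x => by positivity)]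
    refine lintegral_congr fun x => ?_
    rw [← ofReal_norm, ENNReal.ofReal_pow (norm_nonneg _)]
  have hvinv : (volume K)⁻¹ = ENNReal.ofReal vK⁻¹ := by
    rw [ENNReal.ofReal_inv_of_pos hvK, hvKdef, ENNReal.ofReal_toReal hvtop.ne]
  have hqrpow : quadCost π ^ (1 / 3 : ℝ) = ENNReal.ofReal (q ^ (1 / 3 : ℝ)) := by
    rw [← ENNReal.ofReal_rpow_of_nonneg hq0 (by norm_num), hqdef, ENNReal.ofReal_toReal hq]
  rw [lintegral_uniformProbOn, hl, hvinv, hqrpow, ← ENNReal.ofReal_mul (by positivity)]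
  have hCcoe : ((C0.toNNReal + 1 : ℝ≥0) : ℝ≥0∞) = ENNReal.ofReal (C0 + 1) := by
    rw [ENNReal.ofReal_add hC0 zero_le_one]
    simp [ENNReal.ofReal]
  rw [hCcoe, ← ENNReal.ofReal_mul (by positivity)]
  refine ENNReal.ofReal_le_ofReal ?_
  have hq3 : 0 ≤ q ^ (1 / 3 : ℝ) := Real.rpow_nonneg hq0 _
  calc vK⁻¹ * ∫ x in K, ‖Tμ x - Tν x‖ ^ 2
      ≤ vK⁻¹ * (CG * ((vK * D2) ^ (1 / 3 : ℝ) * q ^ (1 / 3 : ℝ))) :=
        mul_le_mul_of_nonneg_left hI (inv_nonneg.2 hvK.le)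
    _ = C0 * q ^ (1 / 3 : ℝ) := by rw [hC0def]; ring
    _ ≤ (C0 + 1) * q ^ (1 / 3 : ℝ) := by nlinarith

end Crest.Agent.S0109
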