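import Mathlib

/-!
# Helper19: one-dimensional energy estimate for differences of convex Lipschitz functions

`f = u - v`, `u v` convex and `L`-Lipschitz on `[a,b]`, `|f| ≤ M` on `[a,b]`. Then
`∫_a^b (f')² ≤ 8 L M`.

Proof without Stieltjes measures: for `0 < h ≤ (b-a)/2`,
`∫_a^{b-h} (f(x+h)-f(x))² dx ≤ 8 L M h²` (discrete integration by parts + nonnegativity of the
second differences of `u`, `v`), then Fatou.
-/

set_option autoImplicit false
open MeasureTheory Set Filter
open scoped ENNReal NNReal Topology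

namespace Crest.Agent.S0109.Helper19

/-- Core difference-quotient estimate for globally Lipschitz `U V` that are midpoint convex on
`[a,b]`. -/
theorem core_shift (a b h M : ℝ) (L : ℝ≥0) (U V : ℝ → ℝ)
    (hU : LipschitzWith L U) (hV : LipschitzWith L V)
    (hUc : ∀ y, a ≤ y - h → y + h ≤ b → 2 * U y ≤ U (y + h) + U (y - h))
    (hVc : ∀ y, a ≤ y - h → y + h ≤ b → 2 * V y ≤ V (y + h) + V (y - h))
    (hM : ∀ x ∈ Icc a b, |U x - V x| ≤ M)
    (hh : 0 < h) (hab : 2 * h ≤ b - a) :
    ∫ x in a..(b - h), ((U (x + h) - V (x + h)) - (U x - V x)) ^ 2 ≤ 8 * L * M * h ^ 2 := by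
  have hUcont : Continuous U := hU.continuous
  have hVcont : Continuous V := hV.continuous
  set F : ℝ → ℝ := fun x => U x - V x with hF
  have hFcont : Continuous F := hUcont.sub hVcont
  set g : ℝ → ℝ := fun x => F (x + h) - F x with hg
  have hgcont : Continuous g := by
    have : Continuous fun x : ℝ => F (x + h) := hFcont.comp (continuous_id.add continuous_const)
    exact this.sub hFcont
  have hM0 : 0 ≤ M := le_trans (abs_nonneg _) (hM a ⟨le_refl _, by linarith⟩)
  have hL0 : (0 : ℝ) ≤ L := L.coe_nonneg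
  -- Lipschitz bounds
  have hUl : ∀ x y, |U x - U y| ≤ L * |x - y| := fun x y => by
    have := hU.dist_le_mul x y
    simpa [Real.dist_eq] using this
  have hVl : ∀ x y, |V x - V y| ≤ L * |x - y| := fun x y => by
    have := hV.dist_le_mul x y
    simpa [Real.dist_eq] using this
  have hgb : ∀ x, |g x| ≤ 2 * L * h := by
    intro x
    have h1 := hUl (x + h) x
    have h2 := hVl (x + h) x
    have e : (x + h) - x = h := by ring
    rw [e, abs_of_pos hh] at h1 h2
    have : g x = (U (x + h) - U x) - (V (x + h) - V x) := by simp only [hg, hF]; ring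
    rw [this]
    calc |(U (x + h) - U x) - (V (x + h) - V x)|
        ≤ |U (x + h) - U x| + |V (x + h) - V x| := abs_sub _ _
      _ ≤ L * h + L * h := add_le_add h1 h2
      _ = 2 * L * h := by ring
  -- the integral identity
  have hint : ∀ (φ : ℝ → ℝ), Continuous φ → ∀ c d : ℝ, IntervalIntegrable φ volume c d :=
    fun φ hφ c d => hφ.intervalIntegrable c d
  have key : ∫ x in a..(b - h), (g x) ^ 2
      = (∫ y in (a + h)..(b - h), (g (y - h) - g y) * F y)
        + (∫ y in (b - h)..b, g (y - h) * F y) - ∫ y in a..(a + h), g y * F y := by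
    have e1 : ∫ x in a..(b - h), (g x) ^ 2
        = (∫ x in a..(b - h), g x * F (x + h)) - ∫ x in a..(b - h), g x * F x := by
      rw [← intervalIntegral.integral_sub]
      · congr 1
        ext x
        simp only [hg]
        ring
      · exact hint _ (hgcont.mul (hFcont.comp (continuous_id.add continuous_const))) _ _
      · exact hint _ (hgcont.mul hFcont) _ _
    have e2 : ∫ x in a..(b - h), g x * F (x + h) = ∫ y in (a + h)..b, g (y - h) * F y := by
      have := intervalIntegral.integral_comp_add_right (a := a) (b := b - h)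
        (fun y => g (y - h) * F y) h
      simp only [add_sub_cancel_right, sub_add_cancel] at this
      exact this
    have hc1 : Continuous fun y => g (y - h) * F y :=
      (hgcont.comp (continuous_id.sub continuous_const)).mul hFcont
    have hc2 : Continuous fun y => g y * F y := hgcont.mul hFcont
    have e3 : ∫ y in (a + h)..b, g (y - h) * F y
        = (∫ y in (a + h)..(b - h), g (y - h) * F y) + ∫ y in (b - h)..b, g (y - h) * F y :=
      (intervalIntegral.integral_add_adjacent_intervals (hint _ hc1 _ _) (hint _ hc1 _ _)).symm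
    have e4 : ∫ y in a..(b - h), g y * F y
        = (∫ y in a..(a + h), g y * F y) + ∫ y in (a + h)..(b - h), g y * F y :=
      (intervalIntegral.integral_add_adjacent_intervals (hint _ hc2 _ _) (hint _ hc2 _ _)).symm
    have e5 : ∫ y in (a + h)..(b - h), (g (y - h) - g y) * F y
        = (∫ y in (a + h)..(b - h), g (y - h) * F y) - ∫ y in (a + h)..(b - h), g y * F y := by
      rw [← intervalIntegral.integral_sub (hint _ hc1 _ _) (hint _ hc2 _ _)]
      congr 1
      ext y
      ring
    rw [e1, e2, e3, e4, e5]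
    ring
  -- second differences
  set DU : ℝ → ℝ := fun y => U (y + h) - 2 * U y + U (y - h) with hDU
  set DV : ℝ → ℝ := fun y => V (y + h) - 2 * V y + V (y - h) with hDV
  have second_diff : ∀ (W : ℝ → ℝ), LipschitzWith L W →
      ∫ y in (a + h)..(b - h), (W (y + h) - 2 * W y + W (y - h)) ≤ 2 * L * h ^ 2 := by
    intro W hW
    have hWcont : Continuous W := hW.continuous
    have hWl : ∀ x y, |W x - W y| ≤ L * |x - y| := fun x y => by
      have := hW.dist_le_mul x y
      simpa [Real.dist_eq] using this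
    set w : ℝ → ℝ := fun z => W (z + h) - W z with hw
    have hwcont : Continuous w :=
      (hWcont.comp (continuous_id.add continuous_const)).sub hWcont
    have hwb : ∀ z, |w z| ≤ L * h := by
      intro z
      have := hWl (z + h) z
      have e : (z + h) - z = h := by ring
      rwa [e, abs_of_pos hh] at this
    have e1 : ∫ y in (a + h)..(b - h), (W (y + h) - 2 * W y + W (y - h))
        = (∫ y in (a + h)..(b - h), w y) - ∫ y in (a + h)..(b - h), w (y - h) := by
      have hc : Continuous fun y => w (y - h) := by fun_prop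
      rw [← intervalIntegral.integral_sub (hint _ hwcont _ _) (hint _ hc _ _)]
      congr 1
      ext y
      simp only [hw, sub_add_cancel]
      ring
    have e2 : ∫ y in (a + h)..(b - h), w (y - h) = ∫ z in a..(b - 2 * h), w z := by
      have := intervalIntegral.integral_comp_sub_right (a := a + h) (b := b - h) w h
      rw [this]
      congr 1 <;> ring
    have e3 : ∫ y in (a + h)..(b - h), w y
        = (∫ y in (a + h)..(b - 2 * h), w y) + ∫ y in (b - 2 * h)..(b - h), w y :=
      (intervalIntegral.integral_add_adjacent_intervals (hint _ hwcont _ _) (hint _ hwcont _ _)).symm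
    have e4 : ∫ z in a..(b - 2 * h), w z
        = (∫ y in a..(a + h), w y) + ∫ y in (a + h)..(b - 2 * h), w y :=
      (intervalIntegral.integral_add_adjacent_intervals (hint _ hwcont _ _) (hint _ hwcont _ _)).symm
    have b1 : |∫ y in (b - 2 * h)..(b - h), w y| ≤ L * h * |(b - h) - (b - 2 * h)| := by
      have := intervalIntegral.norm_integral_le_of_norm_le_const (a := b - 2 * h) (b := b - h)
        (f := w) (C := L * h) (fun x _ => by simpa [Real.norm_eq_abs] using hwb x)
      simpa [Real.norm_eq_abs] using this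
    have b2 : |∫ y in a..(a + h), w y| ≤ L * h * |(a + h) - a| := by
      have := intervalIntegral.norm_integral_le_of_norm_le_const (a := a) (b := a + h)
        (f := w) (C := L * h) (fun x _ => by simpa [Real.norm_eq_abs] using hwb x)
      simpa [Real.norm_eq_abs] using this
    have e5 : (b - h) - (b - 2 * h) = h := by ring
    have e6 : (a + h) - a = h := by ring
    rw [e5, abs_of_pos hh] at b1
    rw [e6, abs_of_pos hh] at b2
    rw [e1, e2, e3, e4]
    have := abs_le.mp b1
    have := abs_le.mp b2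
    nlinarith
  have hDUcont : Continuous DU :=
    ((hUcont.comp (continuous_id.add continuous_const)).sub (continuous_const.mul hUcont)).add
      (hUcont.comp (continuous_id.sub continuous_const))
  have hDVcont : Continuous DV :=
    ((hVcont.comp (continuous_id.add continuous_const)).sub (continuous_const.mul hVcont)).add
      (hVcont.comp (continuous_id.sub continuous_const))
  have hle : a + h ≤ b - h := by linarith
  have B3 : ∫ y in (a + h)..(b - h), (g (y - h) - g y) * F y ≤ M * (4 * L * h ^ 2) := by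
    have hmono : ∫ y in (a + h)..(b - h), (g (y - h) - g y) * F y
        ≤ ∫ y in (a + h)..(b - h), M * (DU y + DV y) := by
      apply intervalIntegral.integral_mono_on hle
      · exact hint _ (((hgcont.comp (continuous_id.sub continuous_const)).sub hgcont).mul hFcont) _ _
      · exact hint _ (continuous_const.mul (hDUcont.add hDVcont)) _ _
      · intro y hy
        have hy1 : a ≤ y - h := by linarith [hy.1]
        have hy2 : y + h ≤ b := by linarith [hy.2]
        have hu := hUc y hy1 hy2
        have hv := hVc y hy1 hy2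
        have hFy : |F y| ≤ M := hM y ⟨by linarith, by linarith⟩
        have hDU0 : 0 ≤ DU y := by simp only [hDU]; linarith
        have hDV0 : 0 ≤ DV y := by simp only [hDV]; linarith
        have hgd : g (y - h) - g y = -(DU y - DV y) := by
          simp only [hg, hF, hDU, hDV, sub_add_cancel]
          ring
        have h1 : |g (y - h) - g y| ≤ DU y + DV y := by
          rw [hgd, abs_neg]
          calc |DU y - DV y| ≤ |DU y| + |DV y| := abs_sub _ _
            _ = DU y + DV y := by rw [abs_of_nonneg hDU0, abs_of_nonneg hDV0]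
        calc (g (y - h) - g y) * F y ≤ |(g (y - h) - g y) * F y| := le_abs_self _
          _ = |g (y - h) - g y| * |F y| := abs_mul _ _
          _ ≤ (DU y + DV y) * M :=
              mul_le_mul h1 hFy (abs_nonneg _) (by linarith)
          _ = M * (DU y + DV y) := by ring
    have hsum : ∫ y in (a + h)..(b - h), M * (DU y + DV y)
        = M * ((∫ y in (a + h)..(b - h), DU y) + ∫ y in (a + h)..(b - h), DV y) := by
      rw [intervalIntegral.integral_const_mul,
        intervalIntegral.integral_add (hint _ hDUcont _ _) (hint _ hDVcont _ _)]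
    have h1 := second_diff U hU
    have h2 := second_diff V hV
    calc ∫ y in (a + h)..(b - h), (g (y - h) - g y) * F y
        ≤ M * ((∫ y in (a + h)..(b - h), DU y) + ∫ y in (a + h)..(b - h), DV y) := by
          rw [← hsum]; exact hmono
      _ ≤ M * (2 * L * h ^ 2 + 2 * L * h ^ 2) := by
          apply mul_le_mul_of_nonneg_left _ hM0
          exact add_le_add h1 h2
      _ = M * (4 * L * h ^ 2) := by ring
  have B1 : |∫ y in (b - h)..b, g (y - h) * F y| ≤ 2 * L * h * M * h := by
    have := intervalIntegral.norm_integral_le_of_norm_le_const (a := b - h) (b := b)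
      (f := fun y => g (y - h) * F y) (C := 2 * L * h * M) (fun y hy => by
        rw [uIoc_of_le (by linarith)] at hy
        have hFy : |F y| ≤ M := hM y ⟨by linarith [hy.1], hy.2⟩
        rw [Real.norm_eq_abs, abs_mul]
        exact mul_le_mul (hgb _) hFy (abs_nonneg _) (by positivity))
    have e : b - (b - h) = h := by ring
    simpa [Real.norm_eq_abs, e, abs_of_pos hh] using this
  have B2 : |∫ y in a..(a + h), g y * F y| ≤ 2 * L * h * M * h := by
    have := intervalIntegral.norm_integral_le_of_norm_le_const (a := a) (b := a + h)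
      (f := fun y => g y * F y) (C := 2 * L * h * M) (fun y hy => by
        rw [uIoc_of_le (by linarith)] at hy
        have hFy : |F y| ≤ M := hM y ⟨by linarith [hy.1], by linarith [hy.2]⟩
        rw [Real.norm_eq_abs, abs_mul]
        exact mul_le_mul (hgb _) hFy (abs_nonneg _) (by positivity))
    have e : a + h - a = h := by ring
    simpa [Real.norm_eq_abs, e, abs_of_pos hh] using this
  have hgoal : ∫ x in a..(b - h), ((U (x + h) - V (x + h)) - (U x - V x)) ^ 2
      = ∫ x in a..(b - h), (g x) ^ 2 := rfl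
  rw [hgoal, key]
  have := abs_le.mp B1
  have := abs_le.mp B2
  nlinarith

/-- Energy estimate for globally Lipschitz `U V`, midpoint convex on `[a,b]`. -/
theorem energy_le_global (a b M : ℝ) (L : ℝ≥0) (U V : ℝ → ℝ)
    (hU : LipschitzWith L U) (hV : LipschitzWith L V)
    (hUc : ∀ y h, 0 ≤ h → a ≤ y - h → y + h ≤ b → 2 * U y ≤ U (y + h) + U (y - h))
    (hVc : ∀ y h, 0 ≤ h → a ≤ y - h → y + h ≤ b → 2 * V y ≤ V (y + h) + V (y - h))
    (hM : ∀ x ∈ Icc a b, |U x - V x| ≤ M) :
    ∫⁻ x in Icc a b, ENNReal.ofReal ((deriv (fun y => U y - V y) x) ^ 2)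
      ≤ ENNReal.ofReal (8 * L * M) := by
  rcases le_or_gt b a with hba | hab
  · have : volume (Icc a b) = 0 := by
      rw [Real.volume_Icc]; exact ENNReal.ofReal_eq_zero.mpr (by linarith)
    rw [Measure.restrict_eq_zero.mpr this]
    simp
  set F : ℝ → ℝ := fun y => U y - V y with hF
  have hFcont : Continuous F := hU.continuous.sub hV.continuous
  have hFlip : LipschitzWith (L + L) F := hU.sub hV
  have hdiff : ∀ᵐ x : ℝ, DifferentiableAt ℝ F x := hFlip.ae_differentiableAt_real
  set hn : ℕ → ℝ := fun n => (b - a) / ((n : ℝ) + 2) with hhn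
  have hn_pos : ∀ n, 0 < hn n := fun n => by
    simp only [hhn]; apply div_pos (by linarith); positivity
  have hn_le : ∀ n, 2 * hn n ≤ b - a := fun n => by
    simp only [hhn]
    have h2 : (2 : ℝ) ≤ (n : ℝ) + 2 := by
      have : (0 : ℝ) ≤ (n : ℝ) := Nat.cast_nonneg n
      linarith
    have hpos : (0 : ℝ) < (n : ℝ) + 2 := by linarith
    rw [mul_div_assoc', div_le_iff₀ hpos]
    nlinarith
  have hn_tend : Tendsto hn atTop (𝓝 0) := by
    apply Filter.Tendsto.div_atTop tendsto_const_nhds
    exact Filter.Tendsto.atTop_add tendsto_natCast_atTop_atTop tendsto_const_nhds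
  set ψ : ℕ → ℝ → ℝ := fun n x => ((F (x + hn n) - F x) / hn n) ^ 2 with hψ
  have hψcont : ∀ n, Continuous (ψ n) := fun n => by
    simp only [hψ]
    have : Continuous fun x : ℝ => F (x + hn n) := hFcont.comp (continuous_id.add continuous_const)
    exact ((this.sub hFcont).div_const _).pow 2
  set G : ℕ → ℝ → ℝ≥0∞ := fun n => (Icc a (b - hn n)).indicator (fun x => ENNReal.ofReal (ψ n x))
    with hG
  have hGmeas : ∀ n, Measurable (G n) := fun n =>
    (ENNReal.measurable_ofReal.comp (hψcont n).measurable).indicator measurableSet_Icc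
  -- bound on each integral
  have hGint : ∀ n, ∫⁻ x, G n x ≤ ENNReal.ofReal (8 * L * M) := by
    intro n
    have hle : a ≤ b - hn n := by linarith [hn_le n, hn_pos n]
    simp only [hG]
    rw [lintegral_indicator measurableSet_Icc]
    have hint : IntegrableOn (ψ n) (Icc a (b - hn n)) := (hψcont n).integrableOn_Icc
    rw [← ofReal_integral_eq_lintegral_ofReal hint
      (Filter.Eventually.of_forall fun x => by simp only [hψ]; positivity)]
    apply ENNReal.ofReal_le_ofReal
    rw [integral_Icc_eq_integral_Ioc, ← intervalIntegral.integral_of_le hle]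
    have hcore := core_shift a b (hn n) M L U V hU hV
      (fun y h1 h2 => hUc y (hn n) (hn_pos n).le h1 h2)
      (fun y h1 h2 => hVc y (hn n) (hn_pos n).le h1 h2) hM (hn_pos n) (hn_le n)
    have e : ∫ x in a..(b - hn n), ψ n x
        = (1 / (hn n) ^ 2) * ∫ x in a..(b - hn n),
            ((U (x + hn n) - V (x + hn n)) - (U x - V x)) ^ 2 := by
      rw [← intervalIntegral.integral_const_mul]
      congr 1
      ext x
      simp only [hψ, hF]
      field_simp
    rw [e]
    have hpos : 0 < (hn n) ^ 2 := by have := hn_pos n; positivity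
    rw [one_div, inv_mul_le_iff₀ hpos]
    linarith
  -- pointwise liminf
  have hae : ∀ᵐ x : ℝ, (Icc a b).indicator
      (fun x => ENNReal.ofReal ((deriv F x) ^ 2)) x ≤ liminf (fun n => G n x) atTop := by
    have ha : ∀ᵐ x : ℝ, x ≠ a := by
      have : ({a}ᶜ : Set ℝ) ∈ ae (volume : Measure ℝ) :=
        compl_mem_ae_iff.mpr (measure_singleton a)
      filter_upwards [this] with x hx using hx
    have hb : ∀ᵐ x : ℝ, x ≠ b := by
      have : ({b}ᶜ : Set ℝ) ∈ ae (volume : Measure ℝ) :=
        compl_mem_ae_iff.mpr (measure_singleton b)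
      filter_upwards [this] with x hx using hx
    filter_upwards [hdiff, ha, hb] with x hx hxa hxb
    by_cases hmem : x ∈ Icc a b
    · rw [indicator_of_mem hmem]
      have hxlt : x < b := lt_of_le_of_ne hmem.2 hxb
      have hslope : Tendsto (fun n => (hn n)⁻¹ • (F (x + hn n) - F x)) atTop (𝓝 (deriv F x)) := by
        have h1 := (hasDerivAt_iff_tendsto_slope_zero.mp hx.hasDerivAt)
        have h2 : Tendsto hn atTop (𝓝[≠] 0) := by
          rw [tendsto_nhdsWithin_iff]
          exact ⟨hn_tend, Filter.Eventually.of_forall fun n => (hn_pos n).ne'⟩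
        exact h1.comp h2
      have hev : ∀ᶠ n in atTop, G n x = ENNReal.ofReal (((hn n)⁻¹ • (F (x + hn n) - F x)) ^ 2) := by
        have : ∀ᶠ n in atTop, hn n < b - x :=
          (tendsto_order.mp hn_tend).2 (b - x) (by linarith)
        filter_upwards [this] with n hnlt
        simp only [hG]
        have hmem' : x ∈ Icc a (b - hn n) := ⟨hmem.1, by linarith⟩
        rw [indicator_of_mem hmem']
        simp only [hψ, smul_eq_mul]
        congr 1
        ring
      have hlim : Tendsto (fun n => G n x) atTop (𝓝 (ENNReal.ofReal ((deriv F x) ^ 2))) := by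
        have h3 : Tendsto (fun n => ENNReal.ofReal (((hn n)⁻¹ • (F (x + hn n) - F x)) ^ 2))
            atTop (𝓝 (ENNReal.ofReal ((deriv F x) ^ 2))) :=
          (ENNReal.continuous_ofReal.tendsto _).comp (hslope.pow 2)
        exact h3.congr' (hev.mono fun n hn => hn.symm)
      exact le_of_eq hlim.liminf_eq.symm
    · rw [indicator_of_notMem hmem]
      exact bot_le
  calc ∫⁻ x in Icc a b, ENNReal.ofReal ((deriv F x) ^ 2)
      = ∫⁻ x, (Icc a b).indicator (fun x => ENNReal.ofReal ((deriv F x) ^ 2)) x :=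
        (lintegral_indicator measurableSet_Icc _).symm
    _ ≤ ∫⁻ x, liminf (fun n => G n x) atTop := lintegral_mono_ae hae
    _ ≤ liminf (fun n => ∫⁻ x, G n x) atTop := lintegral_liminf_le hGmeas
    _ ≤ ENNReal.ofReal (8 * L * M) :=
        Filter.liminf_le_of_frequently_le' (Filter.Frequently.of_forall hGint)

/-- clamp to `[a,b]`. -/
noncomputable def clamp (a b x : ℝ) : ℝ := max a (min b x)

theorem clamp_of_mem {a b x : ℝ} (hx : x ∈ Icc a b) : clamp a b x = x := by
  simp [clamp, hx.1, hx.2]

theorem clamp_mem {a b : ℝ} (hab : a ≤ b) (x : ℝ) : clamp a b x ∈ Icc a b :=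
  ⟨le_max_left _ _, max_le hab (min_le_left _ _)⟩

theorem clamp_lip (a b : ℝ) : LipschitzWith 1 (clamp a b) :=
  (LipschitzWith.id.const_min b).const_max a

theorem lip_comp_clamp {a b : ℝ} (hab : a ≤ b) {L : ℝ≥0} {u : ℝ → ℝ}
    (hLu : LipschitzOnWith L u (Icc a b)) : LipschitzWith L (fun x => u (clamp a b x)) := by
  apply LipschitzWith.of_dist_le_mul
  intro x y
  have h1 := hLu.dist_le_mul _ (clamp_mem hab x) _ (clamp_mem hab y)
  have h2 := (clamp_lip a b).dist_le_mul x y
  simp only [NNReal.coe_one, one_mul] at h2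
  calc dist (u (clamp a b x)) (u (clamp a b y)) ≤ L * dist (clamp a b x) (clamp a b y) := h1
    _ ≤ L * dist x y := mul_le_mul_of_nonneg_left h2 L.coe_nonneg

theorem midpoint_of_convexOn {a b : ℝ} {u : ℝ → ℝ} (hu : ConvexOn ℝ (Icc a b) u)
    (y h : ℝ) (hh : 0 ≤ h) (h1 : a ≤ y - h) (h2 : y + h ≤ b) :
    2 * u (clamp a b y) ≤ u (clamp a b (y + h)) + u (clamp a b (y - h)) := by
  have m1 : y - h ∈ Icc a b := ⟨h1, by linarith⟩
  have m2 : y + h ∈ Icc a b := ⟨by linarith, h2⟩
  have m0 : y ∈ Icc a b := ⟨by linarith, by linarith⟩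
  rw [clamp_of_mem m0, clamp_of_mem m1, clamp_of_mem m2]
  have := hu.2 m1 m2 (by norm_num : (0 : ℝ) ≤ 1 / 2) (by norm_num : (0 : ℝ) ≤ 1 / 2)
    (by norm_num : (1 / 2 : ℝ) + 1 / 2 = 1)
  simp only [smul_eq_mul] at this
  have e : 1 / 2 * (y - h) + 1 / 2 * (y + h) = y := by ring
  rw [e] at this
  linarith

theorem deriv_clamp_eq {a b : ℝ} (u v : ℝ → ℝ) {x : ℝ} (hx : x ∈ Ioo a b) :
    deriv (fun y => u y - v y) x
      = deriv (fun y => u (clamp a b y) - v (clamp a b y)) x := by
  apply Filter.EventuallyEq.deriv_eq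
  have : Ioo a b ∈ 𝓝 x := Ioo_mem_nhds hx.1 hx.2
  filter_upwards [this] with y hy
  rw [clamp_of_mem (Ioo_subset_Icc_self hy)]

/-- **1-D energy estimate**: `u v` convex and `L`-Lipschitz on `[a,b]`, `|u - v| ≤ M` there.
Then `∫_a^b ((u-v)')² ≤ 8 L M`. -/
theorem energy_le (a b M : ℝ) (L : ℝ≥0) (u v : ℝ → ℝ)
    (hu : ConvexOn ℝ (Icc a b) u) (hv : ConvexOn ℝ (Icc a b) v)
    (hLu : LipschitzOnWith L u (Icc a b)) (hLv : LipschitzOnWith L v (Icc a b))
    (hM : ∀ x ∈ Icc a b, |u x - v x| ≤ M) :
    ∫⁻ x in Icc a b, ENNReal.ofReal ((deriv (fun y => u y - v y) x) ^ 2)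
      ≤ ENNReal.ofReal (8 * L * M) := by
  rcases le_or_gt b a with hba | hab
  · have : volume (Icc a b) = 0 := by
      rw [Real.volume_Icc]; exact ENNReal.ofReal_eq_zero.mpr (by linarith)
    rw [Measure.restrict_eq_zero.mpr this]
    simp
  have hglob := energy_le_global a b M L (fun x => u (clamp a b x)) (fun x => v (clamp a b x))
    (lip_comp_clamp hab.le hLu) (lip_comp_clamp hab.le hLv)
    (fun y h hh h1 h2 => midpoint_of_convexOn hu y h hh h1 h2)
    (fun y h hh h1 h2 => midpoint_of_convexOn hv y h hh h1 h2)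
    (fun x hx => by rw [clamp_of_mem hx]; exact hM x hx)
  calc ∫⁻ x in Icc a b, ENNReal.ofReal ((deriv (fun y => u y - v y) x) ^ 2)
      = ∫⁻ x in Ioo a b, ENNReal.ofReal ((deriv (fun y => u y - v y) x) ^ 2) :=
        setLIntegral_congr Ioo_ae_eq_Icc.symm
    _ = ∫⁻ x in Ioo a b, ENNReal.ofReal
          ((deriv (fun y => u (clamp a b y) - v (clamp a b y)) x) ^ 2) :=
        setLIntegral_congr_fun measurableSet_Ioo (fun x hx => by
          simp only [deriv_clamp_eq u v hx])
    _ = ∫⁻ x in Icc a b, ENNReal.ofReal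
          ((deriv (fun y => u (clamp a b y) - v (clamp a b y)) x) ^ 2) :=
        setLIntegral_congr Ioo_ae_eq_Icc
    _ ≤ ENNReal.ofReal (8 * L * M) := hglob

theorem lip_sub {a b : ℝ} {L : ℝ≥0} {u v : ℝ → ℝ}
    (hLu : LipschitzOnWith L u (Icc a b)) (hLv : LipschitzOnWith L v (Icc a b)) :
    ∀ x ∈ Icc a b, ∀ y ∈ Icc a b, |(u x - v x) - (u y - v y)| ≤ 2 * L * |x - y| := by
  intro x hx y hy
  have h1 := hLu.dist_le_mul x hx y hy
  have h2 := hLv.dist_le_mul x hx y hy
  rw [Real.dist_eq] at h1 h2
  calc |(u x - v x) - (u y - v y)| = |(u x - u y) - (v x - v y)| := by ring_nf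
    _ ≤ |u x - u y| + |v x - v y| := abs_sub _ _
    _ ≤ L * |x - y| + L * |x - y| := add_le_add h1 h2
    _ = 2 * L * |x - y| := by ring

/-- Trivial bound: `∫_a^b ((u-v)')² ≤ 4 L² (b-a)`. -/
theorem energy_le_trivial (a b : ℝ) (L : ℝ≥0) (u v : ℝ → ℝ)
    (hLu : LipschitzOnWith L u (Icc a b)) (hLv : LipschitzOnWith L v (Icc a b)) :
    ∫⁻ x in Icc a b, ENNReal.ofReal ((deriv (fun y => u y - v y) x) ^ 2)
      ≤ ENNReal.ofReal (4 * (L : ℝ) ^ 2 * (b - a)) := by
  have hlip : LipschitzOnWith (L + L) (fun y => u y - v y) (Icc a b) := by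
    apply LipschitzOnWith.of_dist_le_mul
    intro x hx y hy
    have := lip_sub hLu hLv x hx y hy
    rw [Real.dist_eq, Real.dist_eq]
    push_cast
    linarith
  calc ∫⁻ x in Icc a b, ENNReal.ofReal ((deriv (fun y => u y - v y) x) ^ 2)
      = ∫⁻ x in Ioo a b, ENNReal.ofReal ((deriv (fun y => u y - v y) x) ^ 2) :=
        setLIntegral_congr Ioo_ae_eq_Icc.symm
    _ ≤ ∫⁻ _ in Ioo a b, ENNReal.ofReal (4 * (L : ℝ) ^ 2) := by
        apply setLIntegral_mono' measurableSet_Ioo
        intro x hx
        apply ENNReal.ofReal_le_ofReal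
        have h1 := norm_deriv_le_of_lipschitzOn (Icc_mem_nhds hx.1 hx.2) hlip
        rw [Real.norm_eq_abs] at h1
        push_cast at h1
        have h0 := abs_nonneg (deriv (fun y => u y - v y) x)
        have h2 : (deriv (fun y => u y - v y) x) ^ 2 = |deriv (fun y => u y - v y) x| ^ 2 :=
          (sq_abs _).symm
        rw [h2]
        have hL0 : (0 : ℝ) ≤ L := L.coe_nonneg
        nlinarith
    _ = ENNReal.ofReal (4 * (L : ℝ) ^ 2) * volume (Ioo a b) := setLIntegral_const _ _
    _ = ENNReal.ofReal (4 * (L : ℝ) ^ 2 * (b - a)) := by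
        rw [Real.volume_Ioo]
        rcases le_or_gt b a with h | h
        · rw [ENNReal.ofReal_eq_zero.mpr (by linarith : b - a ≤ 0), mul_zero]
          symm
          apply ENNReal.ofReal_eq_zero.mpr
          have : (0 : ℝ) ≤ 4 * (L : ℝ) ^ 2 := by positivity
          nlinarith
        · rw [← ENNReal.ofReal_mul (by positivity)]

/-- **1-D Gagliardo–Nirenberg type estimate** for differences of convex Lipschitz functions:
`∫_a^b ((u-v)')² ≤ 21 L^{4/3} (∫_a^b (u-v)²)^{1/3}`. -/
theorem gn_oneDim (a b : ℝ) (L : ℝ≥0) (u v : ℝ → ℝ)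
    (hu : ConvexOn ℝ (Icc a b) u) (hv : ConvexOn ℝ (Icc a b) v)
    (hLu : LipschitzOnWith L u (Icc a b)) (hLv : LipschitzOnWith L v (Icc a b)) :
    ∫⁻ x in Icc a b, ENNReal.ofReal ((deriv (fun y => u y - v y) x) ^ 2)
      ≤ ENNReal.ofReal (21 * (L : ℝ) ^ (4 / 3 : ℝ))
          * (∫⁻ x in Icc a b, ENNReal.ofReal ((u x - v x) ^ 2)) ^ (1 / 3 : ℝ) := by
  rcases le_or_gt b a with hba | hab
  · have : volume (Icc a b) = 0 := by
      rw [Real.volume_Icc]; exact ENNReal.ofReal_eq_zero.mpr (by linarith)
    rw [Measure.restrict_eq_zero.mpr this]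
    simp
  have hL0 : (0 : ℝ) ≤ L := L.coe_nonneg
  have hfc : ContinuousOn (fun y => u y - v y) (Icc a b) := hLu.continuousOn.sub hLv.continuousOn
  obtain ⟨x₀, hx₀, hmax⟩ := isCompact_Icc.exists_isMaxOn (nonempty_Icc.mpr hab.le) hfc.abs
  set M : ℝ := |u x₀ - v x₀| with hMdef
  have hM0 : 0 ≤ M := abs_nonneg _
  have hM : ∀ x ∈ Icc a b, |u x - v x| ≤ M := fun x hx => hmax hx
  have E1 := energy_le a b M L u v hu hv hLu hLv hM
  have E2 := energy_le_trivial a b L u v hLu hLv
  set I : ℝ := ∫ x in Icc a b, (u x - v x) ^ 2 with hIdef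
  have hI0 : 0 ≤ I := setIntegral_nonneg measurableSet_Icc (fun x _ => sq_nonneg _)
  have hint : IntegrableOn (fun x => (u x - v x) ^ 2) (Icc a b) := (hfc.pow 2).integrableOn_Icc
  have hRHS : ∫⁻ x in Icc a b, ENNReal.ofReal ((u x - v x) ^ 2) = ENNReal.ofReal I :=
    (ofReal_integral_eq_lintegral_ofReal hint (ae_of_all _ fun x => sq_nonneg _)).symm
  rw [hRHS, ENNReal.ofReal_rpow_of_nonneg hI0 (by norm_num), ← ENNReal.ofReal_mul (by positivity)]
  -- real inequality
  have key : min (8 * (L : ℝ) * M) (4 * (L : ℝ) ^ 2 * (b - a))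
      ≤ 21 * (L : ℝ) ^ (4 / 3 : ℝ) * I ^ (1 / 3 : ℝ) := by
    have hB0 : 0 ≤ 21 * (L : ℝ) ^ (4 / 3 : ℝ) * I ^ (1 / 3 : ℝ) := by positivity
    rcases eq_or_lt_of_le hL0 with hL | hL
    · rw [← hL]
      simp only [mul_zero, zero_mul]
      exact le_trans (min_le_left _ _) (by rw [hL] at hB0 ⊢; exact hB0)
    have hA0 : 0 ≤ min (8 * (L : ℝ) * M) (4 * (L : ℝ) ^ 2 * (b - a)) :=
      le_min (by positivity) (by have : 0 < b - a := by linarith
                                 positivity)
    set r : ℝ := M / (4 * L) with hr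
    have hr0 : 0 ≤ r := by positivity
    set lo : ℝ := max a (x₀ - r) with hlo
    set hi : ℝ := min b (x₀ + r) with hhi
    have hlen1 : min (b - a) r ≤ hi - lo := by
      simp only [hlo, hhi]
      rcases le_total a (x₀ - r) with h1 | h1 <;> rcases le_total b (x₀ + r) with h2 | h2
      · rw [max_eq_right h1, min_eq_left h2]
        exact le_trans (min_le_right _ _) (by linarith [hx₀.2])
      · rw [max_eq_right h1, min_eq_right h2]
        exact le_trans (min_le_right _ _) (by linarith)
      · rw [max_eq_left h1, min_eq_left h2]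
        exact min_le_left _ _
      · rw [max_eq_left h1, min_eq_right h2]
        exact le_trans (min_le_right _ _) (by linarith [hx₀.1])
    have hlen0 : 0 ≤ hi - lo := le_trans (le_min (by linarith) hr0) hlen1
    have hsub : Icc lo hi ⊆ Icc a b := fun x hx =>
      ⟨le_trans (le_max_left _ _) hx.1, le_trans hx.2 (min_le_left _ _)⟩
    have hpt : ∀ x ∈ Icc lo hi, M ^ 2 / 4 ≤ (u x - v x) ^ 2 := by
      intro x hx
      have hxr1 : x₀ - r ≤ x := le_trans (le_max_right _ _) hx.1
      have hxr2 : x ≤ x₀ + r := le_trans hx.2 (min_le_right _ _)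
      have habs : |x - x₀| ≤ r := abs_le.mpr ⟨by linarith, by linarith⟩
      have h1 := lip_sub hLu hLv x (hsub hx) x₀ hx₀
      have h2 : 2 * (L : ℝ) * |x - x₀| ≤ M / 2 := by
        have : 2 * (L : ℝ) * r = M / 2 := by
          simp only [hr]; field_simp; ring
        nlinarith
      have h3 : M - M / 2 ≤ |u x - v x| := by
        have := abs_sub_abs_le_abs_sub (u x₀ - v x₀) (u x - v x)
        have h4 : |(u x₀ - v x₀) - (u x - v x)| = |(u x - v x) - (u x₀ - v x₀)| := abs_sub_comm _ _
        simp only [hMdef]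
        linarith
      have h5 : (u x - v x) ^ 2 = |u x - v x| ^ 2 := (sq_abs _).symm
      rw [h5]
      nlinarith [abs_nonneg (u x - v x)]
    have hIlow : M ^ 2 / 4 * (hi - lo) ≤ I := by
      have hle : lo ≤ hi := by linarith
      calc M ^ 2 / 4 * (hi - lo) = ∫ _ in Icc lo hi, M ^ 2 / 4 := by
            rw [setIntegral_const, Real.volume_real_Icc_of_le hle, smul_eq_mul]; ring
        _ ≤ ∫ x in Icc lo hi, (u x - v x) ^ 2 := by
            apply setIntegral_mono_on _ (hint.mono_set hsub) measurableSet_Icc hpt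
            exact integrableOn_const (by simp [Real.volume_Icc]) 
        _ ≤ I := by
            apply setIntegral_mono_set hint (ae_of_all _ fun x => sq_nonneg _)
            exact Filter.Eventually.of_forall hsub
    have hcube : (min (8 * (L : ℝ) * M) (4 * (L : ℝ) ^ 2 * (b - a))) ^ 3
        ≤ 9261 * (L : ℝ) ^ 4 * I := by
      set A := min (8 * (L : ℝ) * M) (4 * (L : ℝ) ^ 2 * (b - a)) with hA
      have hA1 : A ≤ 8 * L * M := min_le_left _ _
      have hA2 : A ≤ 4 * (L : ℝ) ^ 2 * (b - a) := min_le_right _ _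
      have hLI : 0 ≤ (L : ℝ) ^ 4 * I := by positivity
      rcases le_total r (b - a) with hcase | hcase
      · -- len ≥ r
        have hlen : r ≤ hi - lo := by rw [min_eq_right hcase] at hlen1; exact hlen1
        have h1 : M ^ 2 / 4 * r ≤ I := le_trans (by nlinarith [sq_nonneg M]) hIlow
        have h2 : M ^ 3 ≤ 16 * L * I := by
          have : M ^ 2 / 4 * r = M ^ 3 / (16 * L) := by
            simp only [hr]; field_simp; ring
          rw [this, div_le_iff₀ (by positivity)] at h1
          linarith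
        have h3 : A ^ 3 ≤ (8 * L * M) ^ 3 := pow_le_pow_left₀ hA0 hA1 3
        have h4 : (8 * (L : ℝ) * M) ^ 3 = 512 * (L : ℝ) ^ 3 * M ^ 3 := by ring
        have h5 : 512 * (L : ℝ) ^ 3 * M ^ 3 ≤ 512 * (L : ℝ) ^ 3 * (16 * L * I) :=
          mul_le_mul_of_nonneg_left h2 (by positivity)
        nlinarith
      · -- len ≥ b - a
        have hlen : b - a ≤ hi - lo := by rw [min_eq_left hcase] at hlen1; exact hlen1
        have h1 : M ^ 2 / 4 * (b - a) ≤ I := le_trans (by nlinarith [sq_nonneg M]) hIlow
        have h3 : A ^ 2 ≤ (8 * L * M) ^ 2 := pow_le_pow_left₀ hA0 hA1 2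
        have h4 : A ^ 3 ≤ (4 * (L : ℝ) ^ 2 * (b - a)) * (8 * L * M) ^ 2 := by
          have : A ^ 3 = A * A ^ 2 := by ring
          rw [this]
          exact mul_le_mul hA2 h3 (by positivity) (le_trans hA0 hA2)
        have h5 : (4 * (L : ℝ) ^ 2 * (b - a)) * (8 * L * M) ^ 2
            = 1024 * (L : ℝ) ^ 4 * (M ^ 2 / 4 * (b - a)) := by ring
        have h6 : 1024 * (L : ℝ) ^ 4 * (M ^ 2 / 4 * (b - a)) ≤ 1024 * (L : ℝ) ^ 4 * I :=
          mul_le_mul_of_nonneg_left h1 (by positivity)
        nlinarith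
    have hBcube : (21 * (L : ℝ) ^ (4 / 3 : ℝ) * I ^ (1 / 3 : ℝ)) ^ 3 = 9261 * (L : ℝ) ^ 4 * I := by
      have e1 : ((L : ℝ) ^ (4 / 3 : ℝ)) ^ 3 = (L : ℝ) ^ 4 := by
        rw [← Real.rpow_natCast, ← Real.rpow_mul hL0]
        norm_num
      have e2 : (I ^ (1 / 3 : ℝ)) ^ 3 = I := by
        rw [← Real.rpow_natCast, ← Real.rpow_mul hI0]
        norm_num
      calc (21 * (L : ℝ) ^ (4 / 3 : ℝ) * I ^ (1 / 3 : ℝ)) ^ 3
          = 9261 * ((L : ℝ) ^ (4 / 3 : ℝ)) ^ 3 * (I ^ (1 / 3 : ℝ)) ^ 3 := by ring
        _ = 9261 * (L : ℝ) ^ 4 * I := by rw [e1, e2]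
    rw [← pow_le_pow_iff_left₀ hA0 hB0 (by norm_num : (3 : ℕ) ≠ 0), hBcube]
    exact hcube
  rcases le_total (8 * (L : ℝ) * M) (4 * (L : ℝ) ^ 2 * (b - a)) with h | h
  · rw [min_eq_left h] at key
    exact E1.trans (ENNReal.ofReal_le_ofReal key)
  · rw [min_eq_right h] at key
    exact E2.trans (ENNReal.ofReal_le_ofReal key)

/-- A subgradient at a differentiability point is the derivative. -/
theorem deriv_eq_of_subgradient {u : ℝ → ℝ} {t p : ℝ} (hd : DifferentiableAt ℝ u t)
    (hsub : ∀ s, u t + p * (s - t) ≤ u s) : deriv u t = p := by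
  have hg : HasDerivAt (fun s => u s - u t - p * (s - t)) (deriv u t - p) t := by
    have h1 := hd.hasDerivAt
    have h2 : HasDerivAt (fun s : ℝ => p * (s - t)) p t := by
      have := ((hasDerivAt_id t).sub_const t).const_mul p
      simpa using this
    exact (h1.sub_const (u t)).sub h2
  have hmin : IsLocalMin (fun s => u s - u t - p * (s - t)) t := by
    apply Filter.Eventually.of_forall
    intro s
    simp only [sub_self, mul_zero]
    linarith [hsub s]
  have := hmin.hasDerivAt_eq_zero hg
  linarith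

/-- **1-D Gagliardo–Nirenberg lemma, interface form** (signature of board msg 580, package P3a of
row 82): `C0 = 21 L^{4/3}`, independent of the interval. -/
theorem gn_1d (L : ℝ≥0) : ∃ C0 : ℝ, 0 ≤ C0 ∧ ∀ (u v p q : ℝ → ℝ) (a b : ℝ), a ≤ b →
    ConvexOn ℝ Set.univ u → ConvexOn ℝ Set.univ v → LipschitzWith L u → LipschitzWith L v →
    Measurable p → Measurable q →
    (∀ᵐ t ∂(volume.restrict (Set.Icc a b)), ∀ s, u t + p t * (s - t) ≤ u s) →
    (∀ᵐ t ∂(volume.restrict (Set.Icc a b)), ∀ s, v t + q t * (s - t) ≤ v s) →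
    ∀ c : ℝ, ∫ t in Set.Icc a b, (p t - q t) ^ 2
      ≤ C0 * (∫ t in Set.Icc a b, (u t - v t - c) ^ 2) ^ (1 / 3 : ℝ) := by
  refine ⟨21 * (L : ℝ) ^ (4 / 3 : ℝ), by positivity, ?_⟩
  intro u v p q a b _hab hu hv hLu hLv hp hq hsu hsv c
  set w : ℝ → ℝ := fun y => v y + c with hw
  have hwc : ConvexOn ℝ (Icc a b) w :=
    (hv.add (convexOn_const c convex_univ)).subset (subset_univ _) (convex_Icc a b)
  have hwL : LipschitzOnWith L w (Icc a b) := by
    apply LipschitzOnWith.of_dist_le_mul
    intro x _ y _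
    have := hLv.dist_le_mul x y
    rw [Real.dist_eq] at this ⊢
    have e : w x - w y = v x - v y := by simp only [hw]; ring
    rw [e]
    exact this
  have G := gn_oneDim a b L u w (hu.subset (subset_univ _) (convex_Icc a b)) hwc
    (hLu.lipschitzOnWith) hwL
  have hae : ∀ᵐ t ∂(volume.restrict (Icc a b)),
      (deriv (fun y => u y - w y) t) ^ 2 = (p t - q t) ^ 2 := by
    have hdu : ∀ᵐ t ∂(volume.restrict (Icc a b)), DifferentiableAt ℝ u t :=
      ae_restrict_of_ae hLu.ae_differentiableAt_real
    have hdv : ∀ᵐ t ∂(volume.restrict (Icc a b)), DifferentiableAt ℝ v t :=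
      ae_restrict_of_ae hLv.ae_differentiableAt_real
    filter_upwards [hdu, hdv, hsu, hsv] with t h1 h2 h3 h4
    have e1 := deriv_eq_of_subgradient h1 h3
    have e2 := deriv_eq_of_subgradient h2 h4
    have : deriv (fun y => u y - w y) t = deriv u t - deriv v t := by
      have hdw : HasDerivAt w (deriv v t) t := h2.hasDerivAt.add_const c
      exact (h1.hasDerivAt.sub hdw).deriv
    rw [this, e1, e2]
  have hL1 : ∫⁻ t in Icc a b, ENNReal.ofReal ((p t - q t) ^ 2)
      = ∫⁻ t in Icc a b, ENNReal.ofReal ((deriv (fun y => u y - w y) t) ^ 2) := by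
    apply lintegral_congr_ae
    filter_upwards [hae] with t ht
    rw [ht]
  have hmeas : AEStronglyMeasurable (fun t => (p t - q t) ^ 2) (volume.restrict (Icc a b)) :=
    ((hp.sub hq).pow_const 2).aestronglyMeasurable
  have hLHS : ∫ t in Icc a b, (p t - q t) ^ 2
      = (∫⁻ t in Icc a b, ENNReal.ofReal ((p t - q t) ^ 2)).toReal :=
    integral_eq_lintegral_of_nonneg_ae (ae_of_all _ fun t => sq_nonneg _) hmeas
  have hfc : ContinuousOn (fun y => u y - w y) (Icc a b) :=
    hLu.continuous.continuousOn.sub hwL.continuousOn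
  have hint : IntegrableOn (fun x => (u x - w x) ^ 2) (Icc a b) := (hfc.pow 2).integrableOn_Icc
  set I : ℝ := ∫ x in Icc a b, (u x - w x) ^ 2 with hIdef
  have hI0 : 0 ≤ I := setIntegral_nonneg measurableSet_Icc (fun x _ => sq_nonneg _)
  have hRHS : ∫⁻ x in Icc a b, ENNReal.ofReal ((u x - w x) ^ 2) = ENNReal.ofReal I :=
    (ofReal_integral_eq_lintegral_ofReal hint (ae_of_all _ fun x => sq_nonneg _)).symm
  have hIeq : ∫ t in Icc a b, (u t - v t - c) ^ 2 = I := by
    apply integral_congr_ae
    filter_upwards with t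
    simp only [hw]
    ring
  rw [hLHS, hL1, hIeq]
  rw [hRHS, ENNReal.ofReal_rpow_of_nonneg hI0 (by norm_num),
    ← ENNReal.ofReal_mul (by positivity)] at G
  have := ENNReal.toReal_mono ENNReal.ofReal_ne_top G
  rwa [ENNReal.toReal_ofReal (by positivity)] at this

end Crest.Agent.S0109.Helper19
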