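import Mathlib
import Crest.Prelude.Def_QuadraticTransport

/-!
# Young / Fenchel package for row 82 (S0109), by helper1

Main results (all in namespace `Crest.Agent.S0109.Helper1`):

* `convex_tangent_le` : for `φ` convex on `univ` with Fréchet derivative `f'` at `x`,
  `φ x + f' (z - x) ≤ φ z`.
* `eq_of_subgradient_of_hasFDerivAt` : a subgradient (over a neighbourhood `K` of `x`) at a point
  of differentiability equals the gradient.
* `ae_subgradient_of_cost_le` : the Young-equality argument.  If `G` pushes `ρ` to the same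
  measure as `T`, `G x ∈ ∂_K φ (x)` for `ρ`-a.e. `x`, and `cost T ≤ cost G`, then
  `T x ∈ ∂_K φ (x)` for `ρ`-a.e. `x`.
* `optimalMap_ae_eq_gradient` : a Monge-optimal map from `uniformProbOn K` to `μ` equals
  `gradient φ` a.e., as soon as `φ` is convex, Lipschitz and `(gradient φ)#ρ = μ`.
-/

set_option autoImplicit false

open MeasureTheory Set Filter
open scoped ENNReal NNReal RealInnerProductSpace Topology

namespace Crest.Agent.S0109.Helper1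

section Convex

variable {E : Type*} [NormedAddCommGroup E] [NormedSpace ℝ E]

/-- Tangent-plane inequality for a function convex on `s` at a point of Fréchet
differentiability: `φ x + f' (z - x) ≤ φ z` for `x, z ∈ s`. -/
theorem convexOn_tangent_le {φ : E → ℝ} {s : Set E} (hφ : ConvexOn ℝ s φ) {x : E}
    {f' : E →L[ℝ] ℝ} (hx : x ∈ s) (hf : HasFDerivAt φ f' x) {z : E} (hz : z ∈ s) :
    φ x + f' (z - x) ≤ φ z := by
  -- the one-dimensional restriction `g t = φ (x + t • (z - x))`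
  set g : ℝ → ℝ := fun t => φ (x + t • (z - x)) with hg
  have hgc : ConvexOn ℝ (Icc (0 : ℝ) 1) g := by
    have h1 := hφ.comp_affineMap ((AffineMap.lineMap x z : ℝ →ᵃ[ℝ] E))
    have h2 : g = φ ∘ ⇑(AffineMap.lineMap x z : ℝ →ᵃ[ℝ] E) := by
      funext t
      simp [hg, AffineMap.lineMap_apply, vsub_eq_sub, vadd_eq_add, add_comm]
    rw [h2]
    refine h1.subset ?_ (convex_Icc 0 1)
    intro t ht
    have : (AffineMap.lineMap x z : ℝ →ᵃ[ℝ] E) t = (1 - t) • x + t • z := by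
      simp [AffineMap.lineMap_apply_module]
    rw [mem_preimage, this]
    exact hφ.1 hx hz (by linarith [ht.2]) ht.1 (by ring)
  have hgd : HasDerivAt g (f' (z - x)) 0 := by
    have h1 : HasDerivAt (fun t : ℝ => x + t • (z - x)) (z - x) 0 := by
      simpa using ((hasDerivAt_id (0 : ℝ)).smul_const (z - x)).const_add x
    have h2 : HasFDerivAt φ f' (x + (0 : ℝ) • (z - x)) := by simpa using hf
    exact h2.comp_hasDerivAt (0 : ℝ) h1
  have := hgc.le_slope_of_hasDerivAt (left_mem_Icc.2 zero_le_one) (right_mem_Icc.2 zero_le_one)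
    zero_lt_one hgd
  have hs : slope g 0 1 = φ z - φ x := by
    simp [slope, hg]
  rw [hs] at this
  linarith

/-- Tangent-plane inequality for a convex function at a point of Fréchet differentiability. -/
theorem convex_tangent_le {φ : E → ℝ} (hφ : ConvexOn ℝ univ φ) {x : E} {f' : E →L[ℝ] ℝ}
    (hf : HasFDerivAt φ f' x) (z : E) : φ x + f' (z - x) ≤ φ z :=
  convexOn_tangent_le hφ (mem_univ x) hf (mem_univ z)

end Convex

section Inner

variable {E : Type*} [NormedAddCommGroup E] [InnerProductSpace ℝ E]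

/-- At a point of differentiability in the interior of `K`, every `K`-subgradient is the
gradient. -/
theorem eq_of_subgradient_of_hasFDerivAt {φ : E → ℝ} {K : Set E} {x y : E} {f' : E →L[ℝ] ℝ}
    (hx : K ∈ 𝓝 x) (hf : HasFDerivAt φ f' x)
    (hy : ∀ z ∈ K, φ x + ⟪y, z - x⟫ ≤ φ z) : ∀ v, f' v = ⟪y, v⟫ := by
  -- `h z = φ z - ⟪y, z - x⟫` has a local minimum at `x`
  set h : E → ℝ := fun z => φ z - innerSL ℝ y (z - x) with hh
  have hmin : IsLocalMin h x := by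
    filter_upwards [hx] with z hz
    have := hy z hz
    simp only [hh, innerSL_apply_apply, sub_self, inner_zero_right, sub_zero]
    linarith
  have hd : HasFDerivAt h (f' - innerSL ℝ y) x := by
    have h1 : HasFDerivAt (fun z : E => innerSL ℝ y (z - x)) (innerSL ℝ y) x := by
      have h2 : HasFDerivAt (fun z : E => z - x) (ContinuousLinearMap.id ℝ E) x :=
        (hasFDerivAt_id x).sub_const x
      have h3 : HasFDerivAt ((innerSL ℝ y) ∘ (fun z : E => z - x))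
          ((innerSL ℝ y).comp (ContinuousLinearMap.id ℝ E)) x :=
        (innerSL ℝ y).hasFDerivAt.comp x h2
      simpa [Function.comp_def] using h3
    exact hf.sub h1
  have h0 := hmin.hasFDerivAt_eq_zero hd
  intro v
  have := congrArg (fun L : E →L[ℝ] ℝ => L v) h0
  simp only [sub_apply, innerSL_apply_apply, zero_apply] at this
  linarith

end Inner

section Young

variable {E : Type*} [NormedAddCommGroup E] [InnerProductSpace ℝ E]

/-- The restricted conjugate `ψ y = sup_{z ∈ K} (⟪z, y⟫ - φ z)`. -/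
noncomputable def conj (K : Set E) (φ : E → ℝ) (y : E) : ℝ := ⨆ z : K, (⟪(z : E), y⟫ - φ z)

theorem conj_bddAbove {K : Set E} {φ : E → ℝ} {R m : ℝ} (hR : ∀ z ∈ K, ‖z‖ ≤ R)
    (hm : ∀ z ∈ K, m ≤ φ z) (y : E) :
    BddAbove (range fun z : K => (⟪(z : E), y⟫ - φ z)) := by
  refine ⟨R * ‖y‖ - m, ?_⟩
  rintro _ ⟨z, rfl⟩
  have h1 : ⟪(z : E), y⟫ ≤ ‖(z : E)‖ * ‖y‖ := real_inner_le_norm _ _
  have h2 : ‖(z : E)‖ * ‖y‖ ≤ R * ‖y‖ :=
    mul_le_mul_of_nonneg_right (hR z z.2) (norm_nonneg _)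
  have h3 := hm z z.2
  simp only
  linarith

theorem le_conj {K : Set E} {φ : E → ℝ} {R m : ℝ} (hR : ∀ z ∈ K, ‖z‖ ≤ R)
    (hm : ∀ z ∈ K, m ≤ φ z) (y : E) {z : E} (hz : z ∈ K) :
    ⟪z, y⟫ - φ z ≤ conj K φ y :=
  le_ciSup (conj_bddAbove hR hm y) (⟨z, hz⟩ : K)

theorem conj_le_add {K : Set E} (hK : K.Nonempty) {φ : E → ℝ} {R m : ℝ} (hR : ∀ z ∈ K, ‖z‖ ≤ R)
    (hm : ∀ z ∈ K, m ≤ φ z) (y y' : E) :
    conj K φ y ≤ conj K φ y' + R * ‖y - y'‖ := by
  have : Nonempty K := hK.to_subtype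
  refine ciSup_le fun z => ?_
  have h1 := le_conj hR hm y' z.2
  have h2 : ⟪(z : E), y - y'⟫ ≤ ‖(z : E)‖ * ‖y - y'‖ := real_inner_le_norm _ _
  have h3 : ‖(z : E)‖ * ‖y - y'‖ ≤ R * ‖y - y'‖ :=
    mul_le_mul_of_nonneg_right (hR z z.2) (norm_nonneg _)
  have h4 : ⟪(z : E), y⟫ = ⟪(z : E), y'⟫ + ⟪(z : E), y - y'⟫ := by
    rw [inner_sub_right]; ring
  linarith

theorem conj_lipschitz {K : Set E} (hK : K.Nonempty) {φ : E → ℝ} {R m : ℝ}
    (hR : ∀ z ∈ K, ‖z‖ ≤ R) (hm : ∀ z ∈ K, m ≤ φ z) :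
    LipschitzWith R.toNNReal (conj K φ) := by
  have hR0 : 0 ≤ R := le_trans (norm_nonneg _) (hR _ hK.some_mem)
  refine LipschitzWith.of_le_add_mul _ fun y y' => ?_
  have := conj_le_add hK hR hm y y'
  rw [Real.coe_toNNReal _ hR0, dist_eq_norm]
  exact this

end Young

section Main

variable {E : Type*} [NormedAddCommGroup E] [InnerProductSpace ℝ E] [MeasurableSpace E]
  [BorelSpace E] [SecondCountableTopology E]

/-- **Young duality, both halves.**  If `T` and `G` push the finite measure `ρ` to the same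
measure, `G x` is a `K`-subgradient of `φ` at `x` for `ρ`-a.e. `x`, `G` is a.e. bounded and `ρ` is
carried by the bounded set `K`, then (1) the quadratic cost of `G` is at most that of `T`, and
(2) if conversely the cost of `T` is at most that of `G`, then `T x` is a `K`-subgradient of `φ`
at `x` for `ρ`-a.e. `x`.  No regularity of `φ` is needed. -/
theorem young_main {ρ : Measure E} [IsFiniteMeasure ρ] {K : Set E}
    (hKb : Bornology.IsBounded K) (hρK : ∀ᵐ x ∂ρ, x ∈ K) {φ : E → ℝ}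
    {G T : E → E} (hG : Measurable G) (hT : Measurable T) {L : ℝ}
    (hGL : ∀ᵐ x ∂ρ, ‖G x‖ ≤ L) (hpush : ρ.map T = ρ.map G)
    (hsub : ∀ᵐ x ∂ρ, ∀ z ∈ K, φ x + ⟪G x, z - x⟫ ≤ φ z) :
    (∫⁻ x, ‖x - G x‖ₑ ^ 2 ∂ρ ≤ ∫⁻ x, ‖x - T x‖ₑ ^ 2 ∂ρ) ∧
    (∫⁻ x, ‖x - T x‖ₑ ^ 2 ∂ρ ≤ ∫⁻ x, ‖x - G x‖ₑ ^ 2 ∂ρ →
      ∀ᵐ x ∂ρ, ∀ z ∈ K, φ x + ⟪T x, z - x⟫ ≤ φ z) := by
  rcases eq_or_ne ρ 0 with rfl | hρ0
  · simp
  have : NeBot (ae ρ) := ae_neBot.2 hρ0
  obtain ⟨R, hR⟩ := hKb.exists_norm_le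
  -- a good base point
  obtain ⟨x₀, hx₀K, hx₀L, hx₀s⟩ := (hρK.and (hGL.and hsub)).exists
  have hKne : K.Nonempty := ⟨x₀, hx₀K⟩
  have hR0 : 0 ≤ R := le_trans (norm_nonneg _) (hR _ hx₀K)
  have hL0 : 0 ≤ L := le_trans (norm_nonneg _) hx₀L
  -- `φ` is bounded below on `K`
  have hm : ∀ z ∈ K, φ x₀ - L * (2 * R) ≤ φ z := by
    intro z hz
    have h1 := hx₀s z hz
    have h2 : -(‖G x₀‖ * ‖z - x₀‖) ≤ ⟪G x₀, z - x₀⟫ := by
      have := abs_real_inner_le_norm (G x₀) (z - x₀)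
      exact (abs_le.1 this).1
    have h3 : ‖z - x₀‖ ≤ 2 * R := by
      have := norm_sub_le z x₀
      have := hR z hz
      have := hR x₀ hx₀K
      linarith
    have h4 : ‖G x₀‖ * ‖z - x₀‖ ≤ L * (2 * R) :=
      mul_le_mul hx₀L h3 (norm_nonneg _) hL0
    linarith
  set ψ : E → ℝ := conj K φ with hψ
  have hψL : LipschitzWith R.toNNReal ψ := conj_lipschitz hKne hR hm
  have hψm : Measurable ψ := hψL.continuous.measurable
  -- a.e. bounds
  have hTL : ∀ᵐ x ∂ρ, ‖T x‖ ≤ L := by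
    have hs : MeasurableSet {y : E | ‖y‖ ≤ L} := measurableSet_le measurable_norm measurable_const
    have h1 : ∀ᵐ y ∂(ρ.map G), ‖y‖ ≤ L := (ae_map_iff hG.aemeasurable hs).2 hGL
    rw [← hpush] at h1
    exact (ae_map_iff hT.aemeasurable hs).1 h1
  have hxR : ∀ᵐ x ∂ρ, ‖x‖ ≤ R := hρK.mono fun x hx => hR x hx
  -- the bound on `ψ`
  have hψb : ∀ y, ‖y‖ ≤ L → ‖ψ y‖ ≤ |ψ 0| + R * L := by
    intro y hy
    have h1 := hψL.dist_le_mul y 0
    rw [Real.dist_eq, dist_zero_right, Real.coe_toNNReal _ hR0] at h1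
    have h2 : R * ‖y‖ ≤ R * L := mul_le_mul_of_nonneg_left hy hR0
    rw [Real.norm_eq_abs]
    have h3 : |ψ y| ≤ |ψ y - ψ 0| + |ψ 0| := by
      have := abs_add_le (ψ y - ψ 0) (ψ 0)
      simpa using this
    linarith
  -- integrability facts
  have iψT : Integrable (fun x => ψ (T x)) ρ :=
    Integrable.of_bound (hψm.comp hT).aestronglyMeasurable (|ψ 0| + R * L)
      (hTL.mono fun x hx => hψb _ hx)
  have iψG : Integrable (fun x => ψ (G x)) ρ :=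
    Integrable.of_bound (hψm.comp hG).aestronglyMeasurable (|ψ 0| + R * L)
      (hGL.mono fun x hx => hψb _ hx)
  have hinner_b : ∀ (x y : E), ‖x‖ ≤ R → ‖y‖ ≤ L → ‖⟪x, y⟫‖ ≤ R * L := by
    intro x y hx hy
    rw [Real.norm_eq_abs]
    exact (abs_real_inner_le_norm x y).trans (mul_le_mul hx hy (norm_nonneg _) hR0)
  have ifT : Integrable (fun x => ⟪x, T x⟫) ρ :=
    Integrable.of_bound (measurable_id.inner hT).aestronglyMeasurable (R * L)
      ((hxR.and hTL).mono fun x hx => hinner_b _ _ hx.1 hx.2)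
  have ifG : Integrable (fun x => ⟪x, G x⟫) ρ :=
    Integrable.of_bound (measurable_id.inner hG).aestronglyMeasurable (R * L)
      ((hxR.and hGL).mono fun x hx => hinner_b _ _ hx.1 hx.2)
  have hsq_b : ∀ (x : E) (C : ℝ), ‖x‖ ≤ C → ‖‖x‖ ^ 2‖ ≤ C ^ 2 := by
    intro x C hx
    rw [Real.norm_eq_abs, abs_of_nonneg (by positivity)]
    exact pow_le_pow_left₀ (norm_nonneg _) hx 2
  have ixx : Integrable (fun x : E => ‖x‖ ^ 2) ρ :=
    Integrable.of_bound (measurable_norm.pow_const 2).aestronglyMeasurable (R ^ 2)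
      (hxR.mono fun x hx => hsq_b _ _ hx)
  have iTT : Integrable (fun x : E => ‖T x‖ ^ 2) ρ :=
    Integrable.of_bound (hT.norm.pow_const 2).aestronglyMeasurable (L ^ 2)
      (hTL.mono fun x hx => hsq_b _ _ hx)
  have iGG : Integrable (fun x : E => ‖G x‖ ^ 2) ρ :=
    Integrable.of_bound (hG.norm.pow_const 2).aestronglyMeasurable (L ^ 2)
      (hGL.mono fun x hx => hsq_b _ _ hx)
  have hexp : ∀ (S : E → E) (x : E), ‖x - S x‖ ^ 2 = ‖x‖ ^ 2 - 2 * ⟪x, S x⟫ + ‖S x‖ ^ 2 :=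
    fun S x => norm_sub_sq_real x (S x)
  have icT : Integrable (fun x : E => ‖x - T x‖ ^ 2) ρ := by
    simp only [hexp T]
    exact (ixx.sub (ifT.const_mul 2)).add iTT
  have icG : Integrable (fun x : E => ‖x - G x‖ ^ 2) ρ := by
    simp only [hexp G]
    exact (ixx.sub (ifG.const_mul 2)).add iGG
  -- the costs in real form
  have ecost : ∀ S : E → E, Integrable (fun x : E => ‖x - S x‖ ^ 2) ρ →
      ∫⁻ x, ‖x - S x‖ₑ ^ 2 ∂ρ = ENNReal.ofReal (∫ x, ‖x - S x‖ ^ 2 ∂ρ) := by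
    intro S hS
    rw [ofReal_integral_eq_lintegral_ofReal hS (ae_of_all _ fun x => by positivity)]
    refine lintegral_congr fun x => ?_
    rw [ENNReal.ofReal_pow (norm_nonneg _), ofReal_norm]
  -- push-forward identities
  have hTTGG : ∫ x, ‖T x‖ ^ 2 ∂ρ = ∫ x, ‖G x‖ ^ 2 ∂ρ := by
    have hn : Measurable fun y : E => ‖y‖ ^ 2 := measurable_norm.pow_const 2
    rw [← integral_map hT.aemeasurable hn.aestronglyMeasurable,
      ← integral_map hG.aemeasurable hn.aestronglyMeasurable, hpush]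
  have hψTG : ∫ x, ψ (T x) ∂ρ = ∫ x, ψ (G x) ∂ρ := by
    rw [← integral_map hT.aemeasurable hψm.aestronglyMeasurable,
      ← integral_map hG.aemeasurable hψm.aestronglyMeasurable, hpush]
  -- cost difference = twice the correlation difference
  have hdiffc : ∫ x, ‖x - T x‖ ^ 2 ∂ρ - ∫ x, ‖x - G x‖ ^ 2 ∂ρ
      = 2 * (∫ x, ⟪x, G x⟫ ∂ρ - ∫ x, ⟪x, T x⟫ ∂ρ) := by
    have h1 : ∫ x, ‖x - T x‖ ^ 2 ∂ρ
        = ∫ x, ‖x‖ ^ 2 ∂ρ - 2 * ∫ x, ⟪x, T x⟫ ∂ρ + ∫ x, ‖T x‖ ^ 2 ∂ρ := by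
      simp only [hexp T]
      have e1 : ∫ x, (‖x‖ ^ 2 - 2 * ⟪x, T x⟫) + ‖T x‖ ^ 2 ∂ρ
          = ∫ x, (‖x‖ ^ 2 - 2 * ⟪x, T x⟫) ∂ρ + ∫ x, ‖T x‖ ^ 2 ∂ρ :=
        integral_add (ixx.sub (ifT.const_mul 2)) iTT
      have e2 : ∫ x, (‖x‖ ^ 2 - 2 * ⟪x, T x⟫) ∂ρ = ∫ x, ‖x‖ ^ 2 ∂ρ - ∫ x, 2 * ⟪x, T x⟫ ∂ρ :=
        integral_sub ixx (ifT.const_mul 2)
      have e3 : ∫ x, 2 * ⟪x, T x⟫ ∂ρ = 2 * ∫ x, ⟪x, T x⟫ ∂ρ := integral_const_mul _ _
      rw [e1, e2, e3]
    have h2 : ∫ x, ‖x - G x‖ ^ 2 ∂ρ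
        = ∫ x, ‖x‖ ^ 2 ∂ρ - 2 * ∫ x, ⟪x, G x⟫ ∂ρ + ∫ x, ‖G x‖ ^ 2 ∂ρ := by
      simp only [hexp G]
      have e1 : ∫ x, (‖x‖ ^ 2 - 2 * ⟪x, G x⟫) + ‖G x‖ ^ 2 ∂ρ
          = ∫ x, (‖x‖ ^ 2 - 2 * ⟪x, G x⟫) ∂ρ + ∫ x, ‖G x‖ ^ 2 ∂ρ :=
        integral_add (ixx.sub (ifG.const_mul 2)) iGG
      have e2 : ∫ x, (‖x‖ ^ 2 - 2 * ⟪x, G x⟫) ∂ρ = ∫ x, ‖x‖ ^ 2 ∂ρ - ∫ x, 2 * ⟪x, G x⟫ ∂ρ :=
        integral_sub ixx (ifG.const_mul 2)
      have e3 : ∫ x, 2 * ⟪x, G x⟫ ∂ρ = 2 * ∫ x, ⟪x, G x⟫ ∂ρ := integral_const_mul _ _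
      rw [e1, e2, e3]
    rw [h1, h2, hTTGG]
    ring
  -- Young equality for `G`
  have hYG : ∀ᵐ x ∂ρ, ψ (G x) = ⟪x, G x⟫ - φ x := by
    filter_upwards [hρK, hsub] with x hxK hxs
    apply le_antisymm
    · have : Nonempty K := hKne.to_subtype
      refine ciSup_le fun z => ?_
      have h1 := hxs z z.2
      rw [inner_sub_right] at h1
      have e1 : ⟪G x, (z : E)⟫ = ⟪(z : E), G x⟫ := real_inner_comm _ _
      have e2 : ⟪G x, x⟫ = ⟪x, G x⟫ := real_inner_comm _ _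
      linarith
    · exact le_conj hR hm (G x) hxK
  -- Young inequality for `T`
  have hYT : ∀ᵐ x ∂ρ, ⟪x, T x⟫ - φ x ≤ ψ (T x) := by
    filter_upwards [hρK] with x hxK
    exact le_conj hR hm (T x) hxK
  -- the defect `c = ψ∘T - ψ∘G - ⟪x,Tx⟫ + ⟪x,Gx⟫` is a.e. nonnegative with integral `≤ 0`
  set c : E → ℝ := fun x => ψ (T x) - ψ (G x) - ⟪x, T x⟫ + ⟪x, G x⟫ with hc
  have ic : Integrable c ρ := ((iψT.sub iψG).sub ifT).add ifG
  have hc0 : 0 ≤ᵐ[ρ] c := by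
    filter_upwards [hYG, hYT] with x h1 h2
    simp only [hc, Pi.zero_apply]
    linarith
  have hcint : ∫ x, c x ∂ρ = ∫ x, ⟪x, G x⟫ ∂ρ - ∫ x, ⟪x, T x⟫ ∂ρ := by
    have : ∫ x, c x ∂ρ
        = ∫ x, ψ (T x) ∂ρ - ∫ x, ψ (G x) ∂ρ - ∫ x, ⟪x, T x⟫ ∂ρ + ∫ x, ⟪x, G x⟫ ∂ρ := by
      simp only [hc]
      have e1 : ∫ x, (ψ (T x) - ψ (G x) - ⟪x, T x⟫) + ⟪x, G x⟫ ∂ρ
          = ∫ x, (ψ (T x) - ψ (G x) - ⟪x, T x⟫) ∂ρ + ∫ x, ⟪x, G x⟫ ∂ρ :=
        integral_add ((iψT.sub iψG).sub ifT) ifG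
      have e2 : ∫ x, (ψ (T x) - ψ (G x) - ⟪x, T x⟫) ∂ρ
          = ∫ x, (ψ (T x) - ψ (G x)) ∂ρ - ∫ x, ⟪x, T x⟫ ∂ρ :=
        integral_sub (iψT.sub iψG) ifT
      have e3 : ∫ x, (ψ (T x) - ψ (G x)) ∂ρ = ∫ x, ψ (T x) ∂ρ - ∫ x, ψ (G x) ∂ρ :=
        integral_sub iψT iψG
      rw [e1, e2, e3]
    rw [this, hψTG]
    ring
  have hcnn : 0 ≤ ∫ x, c x ∂ρ := integral_nonneg_of_ae hc0
  constructor
  · -- optimality of `G`
    rw [ecost T icT, ecost G icG]
    refine ENNReal.ofReal_le_ofReal ?_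
    linarith
  · intro hcost
    rw [ecost T icT, ecost G icG] at hcost
    have hcost' : ∫ x, ‖x - T x‖ ^ 2 ∂ρ ≤ ∫ x, ‖x - G x‖ ^ 2 ∂ρ :=
      (ENNReal.ofReal_le_ofReal_iff (integral_nonneg fun x => by positivity)).1 hcost
    have hc_zero : c =ᵐ[ρ] 0 := by
      have h0 : ∫ x, c x ∂ρ = 0 := by linarith
      exact (integral_eq_zero_iff_of_nonneg_ae hc0 ic).1 h0
    filter_upwards [hρK, hYG, hc_zero] with x hxK h1 h2 z hz
    have h3 : ψ (T x) = ⟪x, T x⟫ - φ x := by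
      simp only [hc, Pi.zero_apply] at h2
      linarith
    have h4 := le_conj hR hm (T x) hz
    rw [← hψ, h3] at h4
    rw [inner_sub_right]
    have e1 : ⟪T x, z⟫ = ⟪z, T x⟫ := real_inner_comm _ _
    have e2 : ⟪T x, x⟫ = ⟪x, T x⟫ := real_inner_comm _ _
    linarith

/-- **Young equality argument.**  If `T` and `G` push `ρ` to the same measure, `G x` is a
`K`-subgradient of `φ` at `x` for `ρ`-a.e. `x`, `G` is a.e. bounded, `ρ` is carried by the bounded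
set `K` and the quadratic cost of `T` is at most that of `G`, then `T x` is a `K`-subgradient of
`φ` at `x` for `ρ`-a.e. `x`.  No regularity of `φ` is needed. -/
theorem ae_subgradient_of_cost_le {ρ : Measure E} [IsFiniteMeasure ρ] {K : Set E}
    (hKb : Bornology.IsBounded K) (hρK : ∀ᵐ x ∂ρ, x ∈ K) {φ : E → ℝ}
    {G T : E → E} (hG : Measurable G) (hT : Measurable T) {L : ℝ}
    (hGL : ∀ᵐ x ∂ρ, ‖G x‖ ≤ L) (hpush : ρ.map T = ρ.map G)
    (hsub : ∀ᵐ x ∂ρ, ∀ z ∈ K, φ x + ⟪G x, z - x⟫ ≤ φ z)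
    (hcost : ∫⁻ x, ‖x - T x‖ₑ ^ 2 ∂ρ ≤ ∫⁻ x, ‖x - G x‖ₑ ^ 2 ∂ρ) :
    ∀ᵐ x ∂ρ, ∀ z ∈ K, φ x + ⟪T x, z - x⟫ ≤ φ z :=
  (young_main hKb hρK hG hT hGL hpush hsub).2 hcost

/-- A measurable a.e.-bounded selection `G` of `K`-subgradients of `φ` is a quadratic optimal
map from `ρ` to `ρ.map G`. -/
theorem isOptimalMap_of_subgradient {ρ : Measure E} [IsFiniteMeasure ρ] {K : Set E}
    (hKb : Bornology.IsBounded K) (hρK : ∀ᵐ x ∂ρ, x ∈ K) {φ : E → ℝ}
    {G : E → E} (hG : Measurable G) {L : ℝ} (hGL : ∀ᵐ x ∂ρ, ‖G x‖ ≤ L)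
    (hsub : ∀ᵐ x ∂ρ, ∀ z ∈ K, φ x + ⟪G x, z - x⟫ ≤ φ z) :
    Crest.AnalysisR.OT.IsOptimalMap ρ (ρ.map G) G :=
  ⟨hG, rfl, fun _ hS hSμ => (young_main hKb hρK hG hS hGL hSμ hsub).1⟩

end Main

section Uniform

open Crest.AnalysisR.OT

variable {d : ℕ}

local notation "𝔼" => EuclideanSpace ℝ (Fin d)

theorem uniformProbOn_isProbabilityMeasure {K : Set 𝔼} (hKc : IsCompact K)
    (hKi : (interior K).Nonempty) : IsProbabilityMeasure (uniformProbOn K) := by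
  have h0 : volume K ≠ 0 := (Measure.measure_pos_of_nonempty_interior _ hKi).ne'
  have h1 : volume K ≠ ∞ := hKc.measure_lt_top.ne
  constructor
  simp [uniformProbOn, ENNReal.inv_mul_cancel h0 h1]

theorem uniformProbOn_absolutelyContinuous (K : Set 𝔼) : uniformProbOn K ≪ volume := by
  refine Measure.AbsolutelyContinuous.mk fun s hs h => ?_
  simp [uniformProbOn, Measure.restrict_apply hs, measure_mono_null inter_subset_left h]

theorem uniformProbOn_ae_mem_interior {K : Set 𝔼} (hKv : Convex ℝ K) :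
    ∀ᵐ x ∂(uniformProbOn K), x ∈ interior K := by
  rw [ae_iff]
  have hsub : {x | x ∉ interior K} ∩ K ⊆ frontier K := fun x hx => ⟨subset_closure hx.2, hx.1⟩
  have h0 : volume ({x | x ∉ interior K} ∩ K) = 0 :=
    measure_mono_null hsub (hKv.addHaar_frontier volume)
  have hm : MeasurableSet {x : 𝔼 | x ∉ interior K} := isOpen_interior.measurableSet.compl
  simp [uniformProbOn, Measure.restrict_apply hm, h0]

/-- **Identification of Monge-optimal maps.**  If `G` is measurable, a.e. bounded, pushes the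
uniform measure of `K` to `μ` and `G x` is a `K`-subgradient of `φ` at `x` for a.e. `x`, with `φ`
a.e. differentiable, then every quadratic optimal map `T` to `μ` equals `G` a.e. -/
theorem optimalMap_ae_eq_of_subgradient {K : Set 𝔼} (hKc : IsCompact K) (hKv : Convex ℝ K)
    (hKi : (interior K).Nonempty) {φ : 𝔼 → ℝ} {G : 𝔼 → 𝔼} (hG : Measurable G) {L : ℝ}
    (hGL : ∀ᵐ x ∂(uniformProbOn K), ‖G x‖ ≤ L)
    (hsub : ∀ᵐ x ∂(uniformProbOn K), ∀ z ∈ K, φ x + ⟪G x, z - x⟫ ≤ φ z)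
    (hdiff : ∀ᵐ x ∂(uniformProbOn K), DifferentiableAt ℝ φ x)
    {μ : Measure 𝔼} {T : 𝔼 → 𝔼} (hT : IsOptimalMap (uniformProbOn K) μ T)
    (hμ : (uniformProbOn K).map G = μ) : T =ᵐ[uniformProbOn K] G := by
  have := uniformProbOn_isProbabilityMeasure hKc hKi
  obtain ⟨hTm, hTμ, hTopt⟩ := hT
  have hint := uniformProbOn_ae_mem_interior hKv
  have hK : ∀ᵐ x ∂(uniformProbOn K), x ∈ K := hint.mono fun x hx => interior_subset hx
  have hsubT := ae_subgradient_of_cost_le hKc.isBounded hK hG hTm hGL (hTμ.trans hμ.symm) hsub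
    (hTopt G hG hμ)
  filter_upwards [hint, hsub, hsubT, hdiff] with x hxi hxG hxT hxd
  have hnhds : K ∈ 𝓝 x := mem_interior_iff_mem_nhds.1 hxi
  have h1 := eq_of_subgradient_of_hasFDerivAt hnhds hxd.hasFDerivAt hxT
  have h2 := eq_of_subgradient_of_hasFDerivAt hnhds hxd.hasFDerivAt hxG
  refine ext_inner_right ℝ fun v => ?_
  rw [← h1 v, ← h2 v]

/-- Variant of `optimalMap_ae_eq_of_subgradient` for `φ` Lipschitz on `K`: the a.e. bound on `G`
and the a.e. differentiability of `φ` are automatic (Rademacher). -/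
theorem optimalMap_ae_eq_of_subgradient_of_lipschitzOn {K : Set 𝔼} (hKc : IsCompact K)
    (hKv : Convex ℝ K) (hKi : (interior K).Nonempty) {φ : 𝔼 → ℝ} {L : ℝ≥0}
    (hφL : LipschitzOnWith L φ K) {G : 𝔼 → 𝔼} (hG : Measurable G)
    (hsub : ∀ᵐ x ∂(uniformProbOn K), ∀ z ∈ K, φ x + ⟪G x, z - x⟫ ≤ φ z)
    {μ : Measure 𝔼} {T : 𝔼 → 𝔼} (hT : IsOptimalMap (uniformProbOn K) μ T)
    (hμ : (uniformProbOn K).map G = μ) : T =ᵐ[uniformProbOn K] G := by
  have hint := uniformProbOn_ae_mem_interior hKv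
  have hdiff : ∀ᵐ x ∂(uniformProbOn K), DifferentiableAt ℝ φ x := by
    have h1 : ∀ᵐ x ∂(volume : Measure 𝔼), x ∈ K → DifferentiableWithinAt ℝ φ K x :=
      hφL.ae_differentiableWithinAt_of_mem
    filter_upwards [hint, (uniformProbOn_absolutelyContinuous K).ae_le h1] with x hxi hx
    exact (hx (interior_subset hxi)).differentiableAt (mem_interior_iff_mem_nhds.1 hxi)
  have hGL : ∀ᵐ x ∂(uniformProbOn K), ‖G x‖ ≤ (L : ℝ) := by
    filter_upwards [hint, hsub, hdiff] with x hxi hxG hxd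
    have hnhds : K ∈ 𝓝 x := mem_interior_iff_mem_nhds.1 hxi
    have h2 := eq_of_subgradient_of_hasFDerivAt hnhds hxd.hasFDerivAt hxG
    have h3 : ‖fderiv ℝ φ x‖ ≤ L := hxd.hasFDerivAt.le_of_lipschitzOn hnhds hφL
    have h4 : ‖G x‖ * ‖G x‖ ≤ (L : ℝ) * ‖G x‖ := by
      have h5 : fderiv ℝ φ x (G x) = ‖G x‖ * ‖G x‖ := by
        rw [h2 (G x), real_inner_self_eq_norm_mul_norm]
      have h6 : fderiv ℝ φ x (G x) ≤ ‖fderiv ℝ φ x‖ * ‖G x‖ :=
        (le_abs_self _).trans ((fderiv ℝ φ x).le_opNorm (G x))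
      have h7 : ‖fderiv ℝ φ x‖ * ‖G x‖ ≤ (L : ℝ) * ‖G x‖ :=
        mul_le_mul_of_nonneg_right h3 (norm_nonneg _)
      linarith
    by_contra hcon
    rw [not_le] at hcon
    have hpos : 0 < ‖G x‖ := lt_of_le_of_lt L.coe_nonneg hcon
    nlinarith
  exact optimalMap_ae_eq_of_subgradient hKc hKv hKi hG hGL hsub hdiff hT hμ

theorem measurable_gradient (φ : 𝔼 → ℝ) : Measurable (gradient φ) := by
  have h1 : Measurable (fderiv ℝ φ) := measurable_fderiv ℝ φ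
  exact (InnerProductSpace.toDual ℝ 𝔼).symm.continuous.measurable.comp h1

theorem inner_gradient_eq_fderiv (φ : 𝔼 → ℝ) (x v : 𝔼) : ⟪gradient φ x, v⟫ = fderiv ℝ φ x v := by
  simp [gradient, InnerProductSpace.toDual_symm_apply]

/-- A Monge-optimal map from the uniform measure on `K` to `μ` equals `∇φ` a.e., as soon as `φ`
is convex and Lipschitz on `K` and `(∇φ)#ρ = μ`. -/
theorem optimalMap_ae_eq_gradient_of_convexOn {K : Set 𝔼} (hKc : IsCompact K) (hKv : Convex ℝ K)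
    (hKi : (interior K).Nonempty) {φ : 𝔼 → ℝ} (hφc : ConvexOn ℝ K φ) {L : ℝ≥0}
    (hφL : LipschitzOnWith L φ K) {μ : Measure 𝔼} {T : 𝔼 → 𝔼}
    (hT : IsOptimalMap (uniformProbOn K) μ T)
    (hμ : (uniformProbOn K).map (gradient φ) = μ) : T =ᵐ[uniformProbOn K] gradient φ := by
  have hint := uniformProbOn_ae_mem_interior hKv
  have hdiff : ∀ᵐ x ∂(uniformProbOn K), DifferentiableAt ℝ φ x := by
    have h1 : ∀ᵐ x ∂(volume : Measure 𝔼), x ∈ K → DifferentiableWithinAt ℝ φ K x :=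
      hφL.ae_differentiableWithinAt_of_mem
    filter_upwards [hint, (uniformProbOn_absolutelyContinuous K).ae_le h1] with x hxi hx
    exact (hx (interior_subset hxi)).differentiableAt (mem_interior_iff_mem_nhds.1 hxi)
  have hsub : ∀ᵐ x ∂(uniformProbOn K), ∀ z ∈ K, φ x + ⟪gradient φ x, z - x⟫ ≤ φ z := by
    filter_upwards [hint, hdiff] with x hxi hxd z hz
    rw [inner_gradient_eq_fderiv]
    exact convexOn_tangent_le hφc (interior_subset hxi) hxd.hasFDerivAt hz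
  exact optimalMap_ae_eq_of_subgradient_of_lipschitzOn hKc hKv hKi hφL (measurable_gradient φ)
    hsub hT hμ

/-- Global version: `φ` convex and Lipschitz on the whole space. -/
theorem optimalMap_ae_eq_gradient {K : Set 𝔼} (hKc : IsCompact K) (hKv : Convex ℝ K)
    (hKi : (interior K).Nonempty) {φ : 𝔼 → ℝ} (hφc : ConvexOn ℝ univ φ) {L : ℝ≥0}
    (hφL : LipschitzWith L φ) {μ : Measure 𝔼} {T : 𝔼 → 𝔼}
    (hT : IsOptimalMap (uniformProbOn K) μ T)
    (hμ : (uniformProbOn K).map (gradient φ) = μ) : T =ᵐ[uniformProbOn K] gradient φ :=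
  optimalMap_ae_eq_gradient_of_convexOn hKc hKv hKi (hφc.subset (subset_univ K) hKv)
    (hφL.lipschitzOnWith (s := K)) hT hμ

end Uniform

end Crest.Agent.S0109.Helper1
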