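import Mathlib

/-!
# Young-gap lemma (helper33)

Let `ρ` be a finite measure carried by a bounded set `K`, `φ : E → ℝ` any function and
`G : E → E` measurable, a.e. bounded, with the `K`-subgradient inequality
`φ x + ⟪G x, z - x⟫ ≤ φ z` (all `z ∈ K`) for `ρ`-a.e. `x`.  Then

* `G` minimises the quadratic cost among all measurable maps `S` with `ρ.map S = ρ.map G`;
* every measurable `T` with `ρ.map T = ρ.map G` and `cost T ≤ cost G` also satisfies the
  `K`-subgradient inequality `ρ`-a.e. (`h33_young_gap`);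
* at interior points of `K` where `φ` is differentiable a `K`-subgradient is the gradient, so
  two such maps agree a.e. (`h33_ae_eq_of_subgradient`).

Only weak duality (Young's inequality for the `K`-conjugate `ψ y = sup_{z ∈ K} ⟪z, y⟫ - φ z`) is
used; no regularity of `φ` is needed.
-/

set_option autoImplicit false
open MeasureTheory Set Filter Topology
open scoped ENNReal NNReal

namespace Crest.Agent.S0109

section Conj

variable {E : Type*} [NormedAddCommGroup E] [InnerProductSpace ℝ E]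

/-- The `K`-conjugate of `φ`: `ψ y = sup_{z ∈ K} (⟪z, y⟫ - φ z)`. -/
noncomputable def h33_conj (K : Set E) (φ : E → ℝ) (y : E) : ℝ :=
  sSup ((fun z => inner ℝ z y - φ z) '' K)

theorem h33_conj_bddAbove {K : Set E} {φ : E → ℝ} {D c : ℝ} (hD : ∀ z ∈ K, ‖z‖ ≤ D)
    (hc : ∀ z ∈ K, c ≤ φ z) (y : E) : BddAbove ((fun z => inner ℝ z y - φ z) '' K) := by
  refine ⟨D * ‖y‖ - c, ?_⟩
  rintro _ ⟨z, hz, rfl⟩
  have h1 : inner ℝ z y ≤ ‖z‖ * ‖y‖ := real_inner_le_norm z y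
  have h2 : ‖z‖ * ‖y‖ ≤ D * ‖y‖ := mul_le_mul_of_nonneg_right (hD z hz) (norm_nonneg _)
  have h3 := hc z hz
  simp only
  linarith

/-- Young's inequality. -/
theorem h33_le_conj {K : Set E} {φ : E → ℝ} {D c : ℝ} (hD : ∀ z ∈ K, ‖z‖ ≤ D)
    (hc : ∀ z ∈ K, c ≤ φ z) {z : E} (hz : z ∈ K) (y : E) :
    inner ℝ z y - φ z ≤ h33_conj K φ y :=
  le_csSup (h33_conj_bddAbove hD hc y) ⟨z, hz, rfl⟩

theorem h33_conj_le {K : Set E} {φ : E → ℝ} (hK : K.Nonempty) {y : E} {a : ℝ}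
    (h : ∀ z ∈ K, inner ℝ z y - φ z ≤ a) : h33_conj K φ y ≤ a := by
  refine csSup_le (hK.image _) ?_
  rintro _ ⟨z, hz, rfl⟩
  exact h z hz

theorem h33_conj_lipschitz {K : Set E} {φ : E → ℝ} {D : ℝ≥0} {c : ℝ} (hK : K.Nonempty)
    (hD : ∀ z ∈ K, ‖z‖ ≤ D) (hc : ∀ z ∈ K, c ≤ φ z) : LipschitzWith D (h33_conj K φ) := by
  refine LipschitzWith.of_le_add_mul D fun y y' => ?_
  refine h33_conj_le hK fun z hz => ?_
  have h1 := h33_le_conj hD hc hz y'
  have h2 : inner ℝ z y = inner ℝ z y' + inner ℝ z (y - y') := by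
    rw [← inner_add_right]; congr 1; abel
  have h3 : inner ℝ z (y - y') ≤ ‖z‖ * ‖y - y'‖ := real_inner_le_norm _ _
  have h4 : ‖z‖ * ‖y - y'‖ ≤ D * ‖y - y'‖ :=
    mul_le_mul_of_nonneg_right (hD z hz) (norm_nonneg _)
  rw [dist_eq_norm]
  linarith

/-- Equality case of Young's inequality: a `K`-subgradient attains the conjugate. -/
theorem h33_conj_eq_of_subgradient {K : Set E} {φ : E → ℝ} {D c : ℝ} (hD : ∀ z ∈ K, ‖z‖ ≤ D)
    (hc : ∀ z ∈ K, c ≤ φ z) {x y : E} (hx : x ∈ K)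
    (h : ∀ z ∈ K, φ x + inner ℝ y (z - x) ≤ φ z) : h33_conj K φ y = inner ℝ x y - φ x := by
  refine le_antisymm (h33_conj_le ⟨x, hx⟩ fun z hz => ?_) (h33_le_conj hD hc hx y)
  have := h z hz
  rw [inner_sub_right, real_inner_comm z y, real_inner_comm x y] at this
  linarith

/-- Converse: if the conjugate is attained at `x` then `y` is a `K`-subgradient at `x`. -/
theorem h33_subgradient_of_conj_le {K : Set E} {φ : E → ℝ} {D c : ℝ} (hD : ∀ z ∈ K, ‖z‖ ≤ D)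
    (hc : ∀ z ∈ K, c ≤ φ z) {x y : E} (h : h33_conj K φ y ≤ inner ℝ x y - φ x) :
    ∀ z ∈ K, φ x + inner ℝ y (z - x) ≤ φ z := by
  intro z hz
  have := h33_le_conj hD hc hz y
  rw [inner_sub_right, real_inner_comm z y, real_inner_comm x y]
  linarith

end Conj

section Gap

variable {E : Type*} [NormedAddCommGroup E] [InnerProductSpace ℝ E] [MeasurableSpace E]
  [BorelSpace E] [SecondCountableTopology E]

omit [InnerProductSpace ℝ E] in
/-- Real form of the quadratic cost for a.e. bounded data. -/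
theorem h33_lintegral_cost_eq {ρ : Measure E} [IsFiniteMeasure ρ] {S : E → E} (hS : Measurable S)
    {D R : ℝ} (hρ : ∀ᵐ x ∂ρ, ‖x‖ ≤ D) (hSb : ∀ᵐ x ∂ρ, ‖S x‖ ≤ R) :
    Integrable (fun x => ‖x - S x‖ ^ 2) ρ ∧
      ∫⁻ x, ‖x - S x‖ₑ ^ 2 ∂ρ = ENNReal.ofReal (∫ x, ‖x - S x‖ ^ 2 ∂ρ) := by
  have hm : Measurable fun x => ‖x - S x‖ ^ 2 := ((measurable_id.sub hS).norm).pow_const 2
  have hint : Integrable (fun x => ‖x - S x‖ ^ 2) ρ := by
    refine Integrable.of_bound hm.aestronglyMeasurable ((D + R) ^ 2) ?_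
    filter_upwards [hρ, hSb] with x h1 h2
    have h3 : ‖x - S x‖ ≤ D + R := (norm_sub_le _ _).trans (add_le_add h1 h2)
    rw [Real.norm_of_nonneg (by positivity)]
    exact pow_le_pow_left₀ (norm_nonneg _) h3 2
  refine ⟨hint, ?_⟩
  rw [ofReal_integral_eq_lintegral_ofReal hint (Eventually.of_forall fun x => by positivity)]
  refine lintegral_congr fun x => ?_
  rw [ENNReal.ofReal_pow (norm_nonneg _), ofReal_norm]

/-- **Core gap identity.**  Under the hypotheses on `G`, for every measurable `S` with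
`ρ.map S = ρ.map G` there is an a.e. nonnegative integrable `gap` with
`∫ ‖x - S x‖² - ∫ ‖x - G x‖² = 2 ∫ gap`, and `gap x = 0` forces the `K`-subgradient inequality
for `S x`. -/
theorem h33_gap_core {ρ : Measure E} [IsFiniteMeasure ρ] {K : Set E}
    (hKb : Bornology.IsBounded K) (hρK : ∀ᵐ x ∂ρ, x ∈ K) {φ : E → ℝ} {G S : E → E}
    (hG : Measurable G) (hS : Measurable S) (hmap : ρ.map S = ρ.map G) {R : ℝ}
    (hGb : ∀ᵐ x ∂ρ, ‖G x‖ ≤ R)
    (hsub : ∀ᵐ x ∂ρ, ∀ z ∈ K, φ x + inner ℝ (G x) (z - x) ≤ φ z) (hρ0 : ρ ≠ 0) :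
    ∃ gap : E → ℝ, Integrable gap ρ ∧ (∀ᵐ x ∂ρ, 0 ≤ gap x) ∧
      (∀ᵐ x ∂ρ, gap x ≤ 0 → ∀ z ∈ K, φ x + inner ℝ (S x) (z - x) ≤ φ z) ∧
      (∫ x, ‖x - S x‖ ^ 2 ∂ρ) - (∫ x, ‖x - G x‖ ^ 2 ∂ρ) = 2 * ∫ x, gap x ∂ρ := by
  have : NeBot (ae ρ) := ae_neBot.mpr hρ0
  -- bound on `K`
  obtain ⟨D0, hD0⟩ := hKb.subset_closedBall (0 : E)
  set D : ℝ≥0 := D0.toNNReal with hDdef
  have hD : ∀ z ∈ K, ‖z‖ ≤ D := by
    intro z hz
    have := hD0 hz
    rw [Metric.mem_closedBall, dist_zero_right] at this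
    exact this.trans (Real.le_coe_toNNReal D0)
  -- a base point gives a lower bound of `φ` on `K`
  obtain ⟨x₀, hx₀K, hx₀sub, hx₀R⟩ := (hρK.and (hsub.and hGb)).exists
  have hKne : K.Nonempty := ⟨x₀, hx₀K⟩
  set c : ℝ := φ x₀ - R * (2 * D) with hcdef
  have hc : ∀ z ∈ K, c ≤ φ z := by
    intro z hz
    have h1 := hx₀sub z hz
    have h2 : |inner ℝ (G x₀) (z - x₀)| ≤ ‖G x₀‖ * ‖z - x₀‖ := abs_real_inner_le_norm _ _
    have h3 : ‖z - x₀‖ ≤ 2 * D := by
      have := norm_sub_le z x₀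
      have := hD z hz
      have := hD x₀ hx₀K
      linarith
    have h4 : ‖G x₀‖ * ‖z - x₀‖ ≤ R * (2 * D) :=
      mul_le_mul hx₀R h3 (norm_nonneg _) ((norm_nonneg _).trans hx₀R)
    have := (abs_le.mp h2).1
    linarith
  set ψ : E → ℝ := h33_conj K φ with hψdef
  have hψL : LipschitzWith D ψ := h33_conj_lipschitz hKne hD hc
  have hψc : Continuous ψ := hψL.continuous
  -- `S` is a.e. bounded by `R`
  have hSb : ∀ᵐ x ∂ρ, ‖S x‖ ≤ R := by
    have hmeas : MeasurableSet {y : E | ¬ ‖y‖ ≤ R} :=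
      (measurableSet_le measurable_norm measurable_const).compl
    have h1 : ρ.map G {y : E | ¬ ‖y‖ ≤ R} = 0 := by
      rw [Measure.map_apply hG hmeas]
      exact hGb
    rw [← hmap, Measure.map_apply hS hmeas] at h1
    exact h1
  have hρD : ∀ᵐ x ∂ρ, ‖x‖ ≤ D := hρK.mono fun x hx => hD x hx
  have hR0 : 0 ≤ R := (norm_nonneg _).trans hx₀R
  -- integrability of the pieces
  have hψbd : ∀ y : E, ‖y‖ ≤ R → ‖ψ y‖ ≤ |ψ 0| + D * R := by
    intro y hy
    have h1 := hψL.dist_le_mul y 0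
    rw [Real.dist_eq, dist_zero_right] at h1
    have h2 : (D : ℝ) * ‖y‖ ≤ D * R := mul_le_mul_of_nonneg_left hy D.coe_nonneg
    rw [Real.norm_eq_abs]
    have h3 : |ψ y| ≤ |ψ y - ψ 0| + |ψ 0| := by
      have := abs_add_le (ψ y - ψ 0) (ψ 0)
      simpa using this
    linarith
  have iψS : Integrable (fun x => ψ (S x)) ρ :=
    Integrable.of_bound (hψc.measurable.comp hS).aestronglyMeasurable _
      (hSb.mono fun x hx => hψbd _ hx)
  have iψG : Integrable (fun x => ψ (G x)) ρ :=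
    Integrable.of_bound (hψc.measurable.comp hG).aestronglyMeasurable _
      (hGb.mono fun x hx => hψbd _ hx)
  have iinner : ∀ {F : E → E}, Measurable F → (∀ᵐ x ∂ρ, ‖F x‖ ≤ R) →
      Integrable (fun x => inner ℝ x (F x)) ρ := by
    intro F hF hFb
    refine Integrable.of_bound (measurable_id.inner hF).aestronglyMeasurable (D * R) ?_
    filter_upwards [hρD, hFb] with x h1 h2
    rw [Real.norm_eq_abs]
    exact (abs_real_inner_le_norm _ _).trans (mul_le_mul h1 h2 (norm_nonneg _) D.coe_nonneg)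
  have inormsq : ∀ {F : E → E}, Measurable F → (∀ᵐ x ∂ρ, ‖F x‖ ≤ R) →
      Integrable (fun x => ‖F x‖ ^ 2) ρ := by
    intro F hF hFb
    refine Integrable.of_bound (hF.norm.pow_const 2).aestronglyMeasurable (R ^ 2) ?_
    filter_upwards [hFb] with x h2
    rw [Real.norm_of_nonneg (by positivity)]
    exact pow_le_pow_left₀ (norm_nonneg _) h2 2
  have ixsq : Integrable (fun x : E => ‖x‖ ^ 2) ρ := by
    refine Integrable.of_bound (measurable_norm.pow_const 2).aestronglyMeasurable ((D : ℝ) ^ 2) ?_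
    filter_upwards [hρD] with x h2
    rw [Real.norm_of_nonneg (by positivity)]
    exact pow_le_pow_left₀ (norm_nonneg _) h2 2
  -- push-forward identities
  have eψ : ∫ x, ψ (S x) ∂ρ = ∫ x, ψ (G x) ∂ρ := by
    rw [← integral_map hS.aemeasurable hψc.aestronglyMeasurable,
      ← integral_map hG.aemeasurable hψc.aestronglyMeasurable, hmap]
  have esq : ∫ x, ‖S x‖ ^ 2 ∂ρ = ∫ x, ‖G x‖ ^ 2 ∂ρ := by
    have hc2 : Continuous fun y : E => ‖y‖ ^ 2 := continuous_norm.pow 2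
    rw [← integral_map hS.aemeasurable (f := fun y : E => ‖y‖ ^ 2) hc2.aestronglyMeasurable,
      ← integral_map hG.aemeasurable (f := fun y : E => ‖y‖ ^ 2) hc2.aestronglyMeasurable, hmap]
  -- the gap function
  refine ⟨fun x => ψ (S x) - inner ℝ x (S x) - ψ (G x) + inner ℝ x (G x), ?_, ?_, ?_, ?_⟩
  · exact ((iψS.sub (iinner hS hSb)).sub iψG).add (iinner hG hGb)
  · filter_upwards [hρK, hsub] with x hxK hx
    have h1 := h33_conj_eq_of_subgradient hD hc hxK hx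
    have h2 := h33_le_conj hD hc hxK (S x)
    simp only [hψdef]
    linarith
  · filter_upwards [hρK, hsub] with x hxK hx hgap
    have h1 := h33_conj_eq_of_subgradient hD hc hxK hx
    refine h33_subgradient_of_conj_le hD hc ?_
    simp only [hψdef] at hgap
    linarith
  · have cost : ∀ {F : E → E}, Measurable F → (∀ᵐ x ∂ρ, ‖F x‖ ≤ R) →
        ∫ x, ‖x - F x‖ ^ 2 ∂ρ
          = (∫ x, ‖x‖ ^ 2 ∂ρ) - 2 * (∫ x, inner ℝ x (F x) ∂ρ) + ∫ x, ‖F x‖ ^ 2 ∂ρ := by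
      intro F hF hFb
      have e : (fun x => ‖x - F x‖ ^ 2)
          = fun x => ‖x‖ ^ 2 - 2 * inner ℝ x (F x) + ‖F x‖ ^ 2 := by
        ext x; exact norm_sub_sq_real x (F x)
      have i2 : Integrable (fun x => 2 * inner ℝ x (F x)) ρ := (iinner hF hFb).const_mul 2
      have i1 : Integrable (fun x => ‖x‖ ^ 2 - 2 * inner ℝ x (F x)) ρ := ixsq.sub i2
      rw [e, integral_add i1 (inormsq hF hFb), integral_sub ixsq i2, integral_const_mul]
    have eg : ∫ x, (ψ (S x) - inner ℝ x (S x) - ψ (G x) + inner ℝ x (G x)) ∂ρ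
        = (∫ x, ψ (S x) ∂ρ) - (∫ x, inner ℝ x (S x) ∂ρ) - (∫ x, ψ (G x) ∂ρ)
          + ∫ x, inner ℝ x (G x) ∂ρ := by
      have j1 : Integrable (fun x => ψ (S x) - inner ℝ x (S x)) ρ := iψS.sub (iinner hS hSb)
      have j2 : Integrable (fun x => ψ (S x) - inner ℝ x (S x) - ψ (G x)) ρ := j1.sub iψG
      rw [integral_add j2 (iinner hG hGb), integral_sub j1 iψG, integral_sub iψS (iinner hS hSb)]
    rw [cost hS hSb, cost hG hGb, eg, esq, eψ]
    ring

/-- **`G` is cost-minimising** among measurable maps with the same push-forward. -/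
theorem h33_subgradient_map_cost_le {ρ : Measure E} [IsFiniteMeasure ρ] {K : Set E}
    (hKb : Bornology.IsBounded K) (hρK : ∀ᵐ x ∂ρ, x ∈ K) {φ : E → ℝ} {G S : E → E}
    (hG : Measurable G) (hS : Measurable S) (hmap : ρ.map S = ρ.map G) {R : ℝ}
    (hGb : ∀ᵐ x ∂ρ, ‖G x‖ ≤ R)
    (hsub : ∀ᵐ x ∂ρ, ∀ z ∈ K, φ x + inner ℝ (G x) (z - x) ≤ φ z) :
    ∫⁻ x, ‖x - G x‖ₑ ^ 2 ∂ρ ≤ ∫⁻ x, ‖x - S x‖ₑ ^ 2 ∂ρ := by
  by_cases hρ0 : ρ = 0
  · simp [hρ0]
  obtain ⟨gap, hgi, hg0, -, hgap⟩ := h33_gap_core hKb hρK hG hS hmap hGb hsub hρ0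
  obtain ⟨D0, hD0⟩ := hKb.subset_closedBall (0 : E)
  have hρD : ∀ᵐ x ∂ρ, ‖x‖ ≤ D0 := hρK.mono fun x hx => by
    have := hD0 hx
    rwa [Metric.mem_closedBall, dist_zero_right] at this
  have hSb : ∀ᵐ x ∂ρ, ‖S x‖ ≤ R := by
    have hmeas : MeasurableSet {y : E | ¬ ‖y‖ ≤ R} :=
      (measurableSet_le measurable_norm measurable_const).compl
    have h1 : ρ.map G {y : E | ¬ ‖y‖ ≤ R} = 0 := by
      rw [Measure.map_apply hG hmeas]
      exact hGb
    rw [← hmap, Measure.map_apply hS hmeas] at h1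
    exact h1
  rw [(h33_lintegral_cost_eq hG hρD hGb).2, (h33_lintegral_cost_eq hS hρD hSb).2]
  refine ENNReal.ofReal_le_ofReal ?_
  have := integral_nonneg_of_ae hg0
  linarith

/-- **Young-gap lemma.**  If `T` has the same push-forward as the subgradient map `G` and does
not cost more, then `T x` is a `K`-subgradient of `φ` at `ρ`-a.e. `x`. -/
theorem h33_young_gap {ρ : Measure E} [IsFiniteMeasure ρ] {K : Set E}
    (hKb : Bornology.IsBounded K) (hρK : ∀ᵐ x ∂ρ, x ∈ K) {φ : E → ℝ} {G T : E → E}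
    (hG : Measurable G) (hT : Measurable T) (hmap : ρ.map T = ρ.map G) {R : ℝ}
    (hGb : ∀ᵐ x ∂ρ, ‖G x‖ ≤ R)
    (hsub : ∀ᵐ x ∂ρ, ∀ z ∈ K, φ x + inner ℝ (G x) (z - x) ≤ φ z)
    (hcost : ∫⁻ x, ‖x - T x‖ₑ ^ 2 ∂ρ ≤ ∫⁻ x, ‖x - G x‖ₑ ^ 2 ∂ρ) :
    ∀ᵐ x ∂ρ, ∀ z ∈ K, φ x + inner ℝ (T x) (z - x) ≤ φ z := by
  by_cases hρ0 : ρ = 0
  · simp [hρ0]
  obtain ⟨gap, hgi, hg0, hgsub, hgap⟩ := h33_gap_core hKb hρK hG hT hmap hGb hsub hρ0
  obtain ⟨D0, hD0⟩ := hKb.subset_closedBall (0 : E)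
  have hρD : ∀ᵐ x ∂ρ, ‖x‖ ≤ D0 := hρK.mono fun x hx => by
    have := hD0 hx
    rwa [Metric.mem_closedBall, dist_zero_right] at this
  have hTb : ∀ᵐ x ∂ρ, ‖T x‖ ≤ R := by
    have hmeas : MeasurableSet {y : E | ¬ ‖y‖ ≤ R} :=
      (measurableSet_le measurable_norm measurable_const).compl
    have h1 : ρ.map G {y : E | ¬ ‖y‖ ≤ R} = 0 := by
      rw [Measure.map_apply hG hmeas]
      exact hGb
    rw [← hmap, Measure.map_apply hT hmeas] at h1
    exact h1
  rw [(h33_lintegral_cost_eq hG hρD hGb).2, (h33_lintegral_cost_eq hT hρD hTb).2] at hcost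
  have hGnn : 0 ≤ ∫ x, ‖x - G x‖ ^ 2 ∂ρ := integral_nonneg fun x => by positivity
  have hle := (ENNReal.ofReal_le_ofReal_iff hGnn).mp hcost
  have hint0 : ∫ x, gap x ∂ρ = 0 := by
    have := integral_nonneg_of_ae hg0
    linarith
  have hz : gap =ᵐ[ρ] 0 := (integral_eq_zero_iff_of_nonneg_ae hg0 hgi).mp hint0
  filter_upwards [hz, hgsub] with x hx hs
  exact hs (le_of_eq hx)

omit [MeasurableSpace E] [BorelSpace E] [SecondCountableTopology E] in
/-- At an interior point of `K` where `φ` is differentiable, a `K`-subgradient is the gradient. -/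
theorem h33_subgradient_eq_of_hasFDerivAt {K : Set E} {φ : E → ℝ} {x y : E}
    (hx : x ∈ interior K) (h : ∀ z ∈ K, φ x + inner ℝ y (z - x) ≤ φ z) {f' : E →L[ℝ] ℝ}
    (hf : HasFDerivAt φ f' x) : f' = innerSL ℝ y := by
  have hmin : IsLocalMin (fun z => φ z - innerSL ℝ y z) x := by
    have hK : K ∈ 𝓝 x := mem_interior_iff_mem_nhds.mp hx
    filter_upwards [hK] with z hz
    have := h z hz
    simp only [innerSL_apply_apply]
    rw [inner_sub_right] at this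
    linarith
  have hd : HasFDerivAt (fun z => φ z - innerSL ℝ y z) (f' - innerSL ℝ y) x :=
    hf.sub (innerSL ℝ y).hasFDerivAt
  have := hmin.hasFDerivAt_eq_zero hd
  exact sub_eq_zero.mp this

omit [MeasurableSpace E] [BorelSpace E] [SecondCountableTopology E] in
/-- Two `K`-subgradients at an interior differentiability point coincide. -/
theorem h33_subgradient_unique {K : Set E} {φ : E → ℝ} {x y y' : E}
    (hx : x ∈ interior K) (h : ∀ z ∈ K, φ x + inner ℝ y (z - x) ≤ φ z)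
    (h' : ∀ z ∈ K, φ x + inner ℝ y' (z - x) ≤ φ z) (hd : DifferentiableAt ℝ φ x) : y = y' := by
  have e1 := h33_subgradient_eq_of_hasFDerivAt hx h hd.hasFDerivAt
  have e2 := h33_subgradient_eq_of_hasFDerivAt hx h' hd.hasFDerivAt
  have e : innerSL ℝ y = innerSL ℝ y' := e1.symm.trans e2
  have h0 : inner ℝ (y - y') (y - y') = 0 := by
    have := congrArg (fun f : E →L[ℝ] ℝ => f (y - y')) e
    simp only [innerSL_apply_apply] at this
    rw [inner_sub_left]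
    linarith
  exact sub_eq_zero.mp (inner_self_eq_zero.mp h0)

/-- **Uniqueness**: a cost-competitive map with the same push-forward agrees a.e. with the
subgradient map, provided `ρ`-a.e. point is an interior differentiability point of `φ`. -/
theorem h33_ae_eq_of_subgradient {ρ : Measure E} [IsFiniteMeasure ρ] {K : Set E}
    (hKb : Bornology.IsBounded K) (hρK : ∀ᵐ x ∂ρ, x ∈ interior K) {φ : E → ℝ} {G T : E → E}
    (hG : Measurable G) (hT : Measurable T) (hmap : ρ.map T = ρ.map G) {R : ℝ}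
    (hGb : ∀ᵐ x ∂ρ, ‖G x‖ ≤ R)
    (hsub : ∀ᵐ x ∂ρ, ∀ z ∈ K, φ x + inner ℝ (G x) (z - x) ≤ φ z)
    (hdiff : ∀ᵐ x ∂ρ, DifferentiableAt ℝ φ x)
    (hcost : ∫⁻ x, ‖x - T x‖ₑ ^ 2 ∂ρ ≤ ∫⁻ x, ‖x - G x‖ₑ ^ 2 ∂ρ) :
    T =ᵐ[ρ] G := by
  have hρK' : ∀ᵐ x ∂ρ, x ∈ K := hρK.mono fun x hx => interior_subset hx
  have hT' := h33_young_gap hKb hρK' hG hT hmap hGb hsub hcost
  filter_upwards [hρK, hsub, hT', hdiff] with x hx h1 h2 hd
  exact h33_subgradient_unique hx h2 h1 hd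

end Gap

end Crest.Agent.S0109
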