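import Crest.Prelude.Def_QuadraticTransport
import Crest.Agent.Lib.S0109.Helper33YoungGap

/-!
# Young-gap lemma for `uniformProbOn K` and `IsOptimalMap` (helper33)

Specialisation of `Helper33YoungGap` to the frozen definitions: a Monge-optimal map from the
uniform measure on a compact convex body `K` agrees a.e. with any measurable `K`-subgradient map
of a Lipschitz potential having the same push-forward.
-/

set_option autoImplicit false
open MeasureTheory Set Filter Topology
open scoped ENNReal NNReal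
open Crest.AnalysisR.OT

namespace Crest.Agent.S0109

variable {d : ℕ}

local notation "𝔼" => EuclideanSpace ℝ (Fin d)

theorem h33_volume_pos_of_interior_nonempty {K : Set (EuclideanSpace ℝ (Fin d))}
    (hKi : (interior K).Nonempty) : 0 < volume K :=
  lt_of_lt_of_le (isOpen_interior.measure_pos volume hKi) (measure_mono interior_subset)

theorem h33_uniformProbOn_isProbabilityMeasure {K : Set (EuclideanSpace ℝ (Fin d))}
    (hKc : IsCompact K) (hKi : (interior K).Nonempty) :
    IsProbabilityMeasure (uniformProbOn K) := by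
  have h0 : volume K ≠ 0 := (h33_volume_pos_of_interior_nonempty hKi).ne'
  have ht : volume K ≠ ∞ := hKc.measure_lt_top.ne
  refine ⟨?_⟩
  simp only [uniformProbOn, Measure.smul_apply, Measure.restrict_apply MeasurableSet.univ,
    univ_inter, smul_eq_mul]
  exact ENNReal.inv_mul_cancel h0 ht

theorem h33_uniformProbOn_absolutelyContinuous (K : Set (EuclideanSpace ℝ (Fin d))) :
    uniformProbOn K ≪ (volume : Measure (EuclideanSpace ℝ (Fin d))) := by
  unfold uniformProbOn
  exact (Measure.AbsolutelyContinuous.smul_left Measure.restrict_le_self.absolutelyContinuous _)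

theorem h33_uniformProbOn_ae_mem {K : Set (EuclideanSpace ℝ (Fin d))} (hKm : MeasurableSet K) :
    ∀ᵐ x ∂(uniformProbOn K), x ∈ K := by
  unfold uniformProbOn
  refine Measure.ae_smul_measure ?_ _
  exact ae_restrict_mem hKm

theorem h33_uniformProbOn_ae_mem_interior {K : Set (EuclideanSpace ℝ (Fin d))}
    (hKc : IsCompact K) (hKv : Convex ℝ K) :
    ∀ᵐ x ∂(uniformProbOn K), x ∈ interior K := by
  have h1 : ∀ᵐ x ∂(uniformProbOn K), x ∈ K := h33_uniformProbOn_ae_mem hKc.measurableSet
  have h2 : ∀ᵐ x ∂(uniformProbOn K), x ∉ frontier K := by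
    refine (h33_uniformProbOn_absolutelyContinuous K) ?_
    have h0 : volume (frontier K) = 0 := hKv.addHaar_frontier volume
    have e : {x : EuclideanSpace ℝ (Fin d) | x ∉ frontier K}ᶜ = frontier K := by
      ext x; simp
    rw [e]
    exact h0
  filter_upwards [h1, h2] with x hx hx'
  by_contra hni
  exact hx' ⟨subset_closure hx, hni⟩

/-- **Monge-optimal maps are gradients**: if `G` is a measurable `K`-subgradient map of a
Lipschitz potential `φ` with `(uniformProbOn K).map G = μ`, then every optimal map `T` from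
`uniformProbOn K` to `μ` agrees with `G` almost everywhere. -/
theorem h33_optimalMap_ae_eq_subgradient {K : Set (EuclideanSpace ℝ (Fin d))} (hKc : IsCompact K)
    (hKv : Convex ℝ K) (hKi : (interior K).Nonempty) {μ : Measure (EuclideanSpace ℝ (Fin d))}
    {φ : EuclideanSpace ℝ (Fin d) → ℝ} {L : ℝ≥0} (hφ : LipschitzWith L φ)
    {G T : EuclideanSpace ℝ (Fin d) → EuclideanSpace ℝ (Fin d)} (hG : Measurable G)
    (hGmap : (uniformProbOn K).map G = μ) {R : ℝ} (hGb : ∀ᵐ x ∂(uniformProbOn K), ‖G x‖ ≤ R)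
    (hsub : ∀ᵐ x ∂(uniformProbOn K), ∀ z ∈ K, φ x + inner ℝ (G x) (z - x) ≤ φ z)
    (hT : IsOptimalMap (uniformProbOn K) μ T) :
    T =ᵐ[uniformProbOn K] G := by
  have := h33_uniformProbOn_isProbabilityMeasure hKc hKi
  obtain ⟨hTm, hTmap, hTopt⟩ := hT
  have hdiff : ∀ᵐ x ∂(uniformProbOn K), DifferentiableAt ℝ φ x :=
    (h33_uniformProbOn_absolutelyContinuous K) hφ.ae_differentiableAt
  exact h33_ae_eq_of_subgradient hKc.isBounded (h33_uniformProbOn_ae_mem_interior hKc hKv) hG hTm
    (hTmap.trans hGmap.symm) hGb hsub hdiff (hTopt G hG hGmap)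

/-- Variant of `h33_optimalMap_ae_eq_subgradient` for a potential that is only Lipschitz on `K`
(e.g. an Arzelà–Ascoli limit of discrete potentials). -/
theorem h33_optimalMap_ae_eq_subgradient_of_lipschitzOn {K : Set (EuclideanSpace ℝ (Fin d))}
    (hKc : IsCompact K) (hKv : Convex ℝ K) (hKi : (interior K).Nonempty)
    {μ : Measure (EuclideanSpace ℝ (Fin d))}
    {φ : EuclideanSpace ℝ (Fin d) → ℝ} {L : ℝ≥0} (hφ : LipschitzOnWith L φ K)
    {G T : EuclideanSpace ℝ (Fin d) → EuclideanSpace ℝ (Fin d)} (hG : Measurable G)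
    (hGmap : (uniformProbOn K).map G = μ) {R : ℝ} (hGb : ∀ᵐ x ∂(uniformProbOn K), ‖G x‖ ≤ R)
    (hsub : ∀ᵐ x ∂(uniformProbOn K), ∀ z ∈ K, φ x + inner ℝ (G x) (z - x) ≤ φ z)
    (hT : IsOptimalMap (uniformProbOn K) μ T) :
    T =ᵐ[uniformProbOn K] G := by
  have := h33_uniformProbOn_isProbabilityMeasure hKc hKi
  obtain ⟨hTm, hTmap, hTopt⟩ := hT
  have hint := h33_uniformProbOn_ae_mem_interior hKc hKv
  have hdw : ∀ᵐ x ∂(uniformProbOn K), x ∈ K → DifferentiableWithinAt ℝ φ K x :=
    (h33_uniformProbOn_absolutelyContinuous K) hφ.ae_differentiableWithinAt_of_mem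
  have hdiff : ∀ᵐ x ∂(uniformProbOn K), DifferentiableAt ℝ φ x := by
    filter_upwards [hint, hdw] with x hx hd
    exact (hd (interior_subset hx)).differentiableAt (mem_interior_iff_mem_nhds.mp hx)
  exact h33_ae_eq_of_subgradient hKc.isBounded hint hG hTm
    (hTmap.trans hGmap.symm) hGb hsub hdiff (hTopt G hG hGmap)

/-- The subgradient map itself is optimal. -/
theorem h33_isOptimalMap_of_subgradient {K : Set (EuclideanSpace ℝ (Fin d))} (hKc : IsCompact K)
    (hKi : (interior K).Nonempty) {μ : Measure (EuclideanSpace ℝ (Fin d))}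
    {φ : EuclideanSpace ℝ (Fin d) → ℝ}
    {G : EuclideanSpace ℝ (Fin d) → EuclideanSpace ℝ (Fin d)} (hG : Measurable G)
    (hGmap : (uniformProbOn K).map G = μ) {R : ℝ} (hGb : ∀ᵐ x ∂(uniformProbOn K), ‖G x‖ ≤ R)
    (hsub : ∀ᵐ x ∂(uniformProbOn K), ∀ z ∈ K, φ x + inner ℝ (G x) (z - x) ≤ φ z) :
    IsOptimalMap (uniformProbOn K) μ G := by
  have := h33_uniformProbOn_isProbabilityMeasure hKc hKi
  refine ⟨hG, hGmap, fun S hS hSmap => ?_⟩
  exact h33_subgradient_map_cost_le hKc.isBounded (h33_uniformProbOn_ae_mem hKc.measurableSet) hG hS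
    (hSmap.trans hGmap.symm) hGb hsub

end Crest.Agent.S0109
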