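import Mathlib

/-!
Row 82 (S0109), helper40: the limit `s → 0⁺` of semi-discrete Kantorovich potentials, in a generic
shape (finite index type `ι`, atoms `y : ι → E`, weights `ψ : ι → ℝ`).

* `psi_sub_le` : bounded oscillation of optimal weights.
* `tendsto_measure_cell` : continuity of the cell masses.
* `exists_const_of_measure_cell_eq` : uniqueness of the weights up to an additive constant.
* `conn_of_isPreconnected` : the connectedness hypothesis used by the uniqueness statement.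
* `tendsto_integral_pot` : convergence of `∫ pot (ψ n) * g dρ`.
-/

set_option autoImplicit false
set_option linter.unusedSectionVars false
open MeasureTheory Filter Topology
open scoped ENNReal NNReal

namespace Crest.Agent.S0109.Helper40

variable {E : Type*} [NormedAddCommGroup E] [InnerProductSpace ℝ E]
variable {ι : Type*} [Fintype ι] [Nonempty ι]

/-- The affine function of the atom `i`. -/
def aff (y : ι → E) (ψ : ι → ℝ) (i : ι) (x : E) : ℝ := inner ℝ x (y i) - ψ i

/-- The Laguerre cell of the atom `i`. -/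
def cell (y : ι → E) (ψ : ι → ℝ) (i : ι) : Set E := {x | ∀ j, aff y ψ j x ≤ aff y ψ i x}

/-- The discrete potential `max_i (⟪x, y i⟫ - ψ i)`. -/
noncomputable def pot (y : ι → E) (ψ : ι → ℝ) (x : E) : ℝ :=
  Finset.univ.sup' Finset.univ_nonempty (fun i => aff y ψ i x)

/-- The perturbed measure `(1 + s g) ρ`. -/
noncomputable def pert [MeasurableSpace E] (ρ : Measure E) (g : E → ℝ) (s : ℝ) : Measure E :=
  ρ.withDensity (fun x => ENNReal.ofReal (1 + s * g x))

omit [Fintype ι] [Nonempty ι] in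
theorem continuous_aff (y : ι → E) (ψ : ι → ℝ) (i : ι) : Continuous (aff y ψ i) := by
  unfold aff
  fun_prop

omit [Fintype ι] [Nonempty ι] in
theorem isClosed_cell (y : ι → E) (ψ : ι → ℝ) (i : ι) : IsClosed (cell y ψ i) := by
  have : cell y ψ i = ⋂ j, {x | aff y ψ j x ≤ aff y ψ i x} := by
    ext x; simp [cell]
  rw [this]
  exact isClosed_iInter fun j => isClosed_le (continuous_aff y ψ j) (continuous_aff y ψ i)

omit [Fintype ι] [Nonempty ι] in
theorem measurableSet_cell [MeasurableSpace E] [BorelSpace E] (y : ι → E) (ψ : ι → ℝ) (i : ι) :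
    MeasurableSet (cell y ψ i) :=
  (isClosed_cell y ψ i).measurableSet

theorem continuous_pot (y : ι → E) (ψ : ι → ℝ) : Continuous (pot y ψ) := by
  unfold pot
  exact Continuous.finset_sup'_apply Finset.univ_nonempty (fun i _ => continuous_aff y ψ i)

theorem aff_le_pot (y : ι → E) (ψ : ι → ℝ) (i : ι) (x : E) : aff y ψ i x ≤ pot y ψ x :=
  Finset.le_sup' (fun i => aff y ψ i x) (Finset.mem_univ i)

theorem pot_le {y : ι → E} {ψ : ι → ℝ} {x : E} {c : ℝ} (h : ∀ i, aff y ψ i x ≤ c) :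
    pot y ψ x ≤ c :=
  Finset.sup'_le _ _ fun i _ => h i

omit [Fintype ι] [Nonempty ι] in
theorem aff_add_const (y : ι → E) (ψ : ι → ℝ) (c : ℝ) (i : ι) (x : E) :
    aff y (fun j => ψ j + c) i x = aff y ψ i x - c := by
  unfold aff; ring

omit [Fintype ι] [Nonempty ι] in
theorem cell_add_const (y : ι → E) (ψ : ι → ℝ) (c : ℝ) (i : ι) :
    cell y (fun j => ψ j + c) i = cell y ψ i := by
  ext x
  simp only [cell, Set.mem_ofPred_eq, aff_add_const, sub_le_sub_iff_right]

theorem pot_add_const (y : ι → E) (ψ : ι → ℝ) (c : ℝ) (x : E) :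
    pot y (fun j => ψ j + c) x = pot y ψ x - c := by
  apply le_antisymm
  · apply pot_le
    intro i
    rw [aff_add_const]
    linarith [aff_le_pot y ψ i x]
  · have : pot y ψ x ≤ pot y (fun j => ψ j + c) x + c := by
      apply pot_le
      intro i
      have := aff_le_pot y (fun j => ψ j + c) i x
      rw [aff_add_const] at this
      linarith
    linarith

/-- `pot` is `1`-Lipschitz in the weights (sup norm). -/
theorem abs_pot_sub_pot_le (y : ι → E) (ψ ψ' : ι → ℝ) (x : E) :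
    |pot y ψ x - pot y ψ' x| ≤ ‖ψ - ψ'‖ := by
  have key : ∀ ψ ψ' : ι → ℝ, pot y ψ x - pot y ψ' x ≤ ‖ψ - ψ'‖ := by
    intro ψ ψ'
    have : pot y ψ x ≤ pot y ψ' x + ‖ψ - ψ'‖ := by
      apply pot_le
      intro i
      have h1 := aff_le_pot y ψ' i x
      have h2 : |ψ i - ψ' i| ≤ ‖ψ - ψ'‖ := by
        have := norm_le_pi_norm (ψ - ψ') i
        simpa [Real.norm_eq_abs] using this
      have h3 := abs_le.mp h2
      unfold aff at h1 ⊢
      linarith [h3.1, h3.2]
    linarith
  rw [abs_le]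
  constructor
  · have := key ψ' ψ
    rw [← norm_neg, neg_sub] at this
    linarith
  · exact key ψ ψ'

theorem abs_pot_le (y : ι → E) (ψ : ι → ℝ) (x : E) {Y : ℝ} (hY : ∀ i, ‖y i‖ ≤ Y) :
    |pot y ψ x| ≤ ‖x‖ * Y + ‖ψ‖ := by
  have hx : 0 ≤ ‖x‖ := norm_nonneg x
  have hi : ∀ i, |aff y ψ i x| ≤ ‖x‖ * Y + ‖ψ‖ := by
    intro i
    have h1 : |inner ℝ x (y i)| ≤ ‖x‖ * ‖y i‖ := abs_real_inner_le_norm x (y i)
    have h2 : |ψ i| ≤ ‖ψ‖ := by
      have := norm_le_pi_norm ψ i
      simpa [Real.norm_eq_abs] using this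
    have h3 : ‖x‖ * ‖y i‖ ≤ ‖x‖ * Y := mul_le_mul_of_nonneg_left (hY i) hx
    unfold aff
    calc |inner ℝ x (y i) - ψ i| ≤ |inner ℝ x (y i)| + |ψ i| := abs_sub _ _
      _ ≤ ‖x‖ * Y + ‖ψ‖ := by linarith
  rw [abs_le]
  constructor
  · obtain ⟨i⟩ := ‹Nonempty ι›
    have := aff_le_pot y ψ i x
    have := (abs_le.mp (hi i)).1
    linarith
  · apply pot_le
    intro i
    exact (abs_le.mp (hi i)).2


/-! ### (B) Bounded oscillation of optimal weights -/

variable [MeasurableSpace E] [BorelSpace E]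

omit [Fintype ι] [Nonempty ι] [BorelSpace E] in
/-- If the cell of `i` is charged by `σ` and `σ` lives in the ball of radius `D`, then
`ψ i - ψ j ≤ D ‖y i - y j‖`. -/
theorem psi_sub_le {σ : Measure E} {y : ι → E} {ψ : ι → ℝ} {D : ℝ}
    (hD : ∀ᵐ x ∂σ, ‖x‖ ≤ D) {i : ι} (hpos : σ (cell y ψ i) ≠ 0) (j : ι) :
    ψ i - ψ j ≤ D * ‖y i - y j‖ := by
  have hex : ∃ x, x ∈ cell y ψ i ∧ ‖x‖ ≤ D := by
    by_contra hcon
    push Not at hcon
    apply hpos
    have hsub : cell y ψ i ⊆ {x | ¬ ‖x‖ ≤ D} := fun x hx => by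
      simpa using hcon x hx
    exact measure_mono_null hsub (ae_iff.mp hD)
  obtain ⟨x, hx, hxD⟩ := hex
  have h1 := hx j
  unfold aff at h1
  have h2 : inner ℝ x (y i - y j) ≤ ‖x‖ * ‖y i - y j‖ := real_inner_le_norm x (y i - y j)
  have h3 : ‖x‖ * ‖y i - y j‖ ≤ D * ‖y i - y j‖ :=
    mul_le_mul_of_nonneg_right hxD (norm_nonneg _)
  rw [inner_sub_right] at h2
  linarith

/-! ### (C) Continuity of the cell masses -/

omit [Nonempty ι] in
/-- The cell masses are continuous: if `ψ n → ψ'`, `s n → 0`, `g` is bounded and the bisectors of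
the limit weights are `ρ`-null, then `(pert ρ g (s n)) (cell y (ψ n) i) → ρ (cell y ψ' i)`. -/
theorem tendsto_measure_cell {ρ : Measure E} [IsFiniteMeasure ρ] {y : ι → E}
    {g : E → ℝ} (hg : Measurable g) {B : ℝ} (hgB : ∀ᵐ x ∂ρ, |g x| ≤ B)
    {s : ℕ → ℝ} (hs1 : ∀ n, |s n| ≤ 1) (hs : Tendsto s atTop (𝓝 0))
    {ψ : ℕ → ι → ℝ} {ψ' : ι → ℝ} (hψ : Tendsto ψ atTop (𝓝 ψ'))
    (hbis : ∀ i j, i ≠ j → ρ {x | aff y ψ' i x = aff y ψ' j x} = 0) (i : ι) :
    Tendsto (fun n => (pert ρ g (s n)) (cell y (ψ n) i)) atTop (𝓝 (ρ (cell y ψ' i))) := by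
  classical
  -- rewrite both sides as lintegrals w.r.t. `ρ`
  have hL : ∀ n, (pert ρ g (s n)) (cell y (ψ n) i)
      = ∫⁻ x, (cell y (ψ n) i).indicator (fun x => ENNReal.ofReal (1 + s n * g x)) x ∂ρ := by
    intro n
    unfold pert
    rw [withDensity_apply _ (measurableSet_cell y (ψ n) i),
      lintegral_indicator (measurableSet_cell y (ψ n) i)]
  have hR : ρ (cell y ψ' i) = ∫⁻ x, (cell y ψ' i).indicator (fun _ => (1 : ℝ≥0∞)) x ∂ρ := by
    rw [lintegral_indicator (measurableSet_cell y ψ' i)]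
    simp
  simp_rw [hL]
  rw [hR]
  have hψj : ∀ j, Tendsto (fun n => ψ n j) atTop (𝓝 (ψ' j)) := fun j =>
    (tendsto_pi_nhds.mp hψ) j
  have haff : ∀ (j : ι) (x : E), Tendsto (fun n => aff y (ψ n) j x) atTop (𝓝 (aff y ψ' j x)) := by
    intro j x
    unfold aff
    exact tendsto_const_nhds.sub (hψj j)
  -- the exceptional null set
  have hnull : ∀ᵐ x ∂ρ, ∀ j, j ≠ i → aff y ψ' i x ≠ aff y ψ' j x := by
    rw [ae_all_iff]
    intro j
    by_cases hji : j = i
    · exact Filter.Eventually.of_forall fun _ h => absurd hji h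
    · have := hbis i j (Ne.symm hji)
      have h2 : ∀ᵐ x ∂ρ, aff y ψ' i x ≠ aff y ψ' j x := by
        rw [ae_iff]
        simpa using this
      exact h2.mono fun x hx _ => hx
  refine tendsto_lintegral_of_dominated_convergence (fun _ => ENNReal.ofReal (1 + |B|)) ?_ ?_ ?_ ?_
  · intro n
    exact Measurable.indicator (by fun_prop) (measurableSet_cell y (ψ n) i)
  · intro n
    filter_upwards [hgB] with x hx
    by_cases hxc : x ∈ cell y (ψ n) i
    · rw [Set.indicator_of_mem hxc]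
      apply ENNReal.ofReal_le_ofReal
      have h1 : |s n * g x| ≤ 1 * |B| := by
        rw [abs_mul]
        exact mul_le_mul (hs1 n) (hx.trans (le_abs_self B)) (abs_nonneg _) zero_le_one
      have := (abs_le.mp h1).2
      linarith
    · rw [Set.indicator_of_notMem hxc]
      exact bot_le
  · rw [lintegral_const]
    exact ENNReal.mul_ne_top ENNReal.ofReal_ne_top (measure_ne_top ρ _)
  · filter_upwards [hnull] with x hx
    by_cases hxc : x ∈ cell y ψ' i
    · -- eventually `x` is in the cell of `ψ n`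
      have hev : ∀ᶠ n in atTop, x ∈ cell y (ψ n) i := by
        have : ∀ j, ∀ᶠ n in atTop, aff y (ψ n) j x ≤ aff y (ψ n) i x := by
          intro j
          by_cases hji : j = i
          · subst hji
            exact Filter.Eventually.of_forall fun n => le_refl _
          · have hlt : aff y ψ' j x < aff y ψ' i x :=
              lt_of_le_of_ne (hxc j) (Ne.symm (hx j hji))
            have h3 := (haff i x).sub (haff j x)
            have h4 : ∀ᶠ n in atTop, 0 < aff y (ψ n) i x - aff y (ψ n) j x :=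
              h3.eventually (lt_mem_nhds (sub_pos.mpr hlt))
            exact h4.mono fun n hn => by linarith
        exact (eventually_all.mpr this).mono fun n hn => hn
      rw [Set.indicator_of_mem hxc]
      have h5 : Tendsto (fun n => ENNReal.ofReal (1 + s n * g x)) atTop (𝓝 (1 : ℝ≥0∞)) := by
        have h6 : Tendsto (fun n => 1 + s n * g x) atTop (𝓝 (1 + 0 * g x)) :=
          tendsto_const_nhds.add (hs.mul_const (g x))
        have h7 : Tendsto (fun n => ENNReal.ofReal (1 + s n * g x)) atTop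
            (𝓝 (ENNReal.ofReal (1 + 0 * g x))) :=
          (ENNReal.continuous_ofReal.tendsto (1 + 0 * g x)).comp h6
        simpa using h7
      refine h5.congr' ?_
      filter_upwards [hev] with n hn
      rw [Set.indicator_of_mem hn]
    · -- eventually `x` is outside the cell of `ψ n`
      rw [Set.indicator_of_notMem hxc]
      have hex : ∃ j, aff y ψ' i x < aff y ψ' j x := by
        by_contra hcon
        push Not at hcon
        exact hxc hcon
      obtain ⟨j, hj⟩ := hex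
      have h3 := (haff j x).sub (haff i x)
      have h4 : ∀ᶠ n in atTop, 0 < aff y (ψ n) j x - aff y (ψ n) i x :=
        h3.eventually (lt_mem_nhds (sub_pos.mpr hj))
      refine tendsto_const_nhds.congr' ?_
      filter_upwards [h4] with n hn
      have : x ∉ cell y (ψ n) i := fun hmem => by
        have := hmem j
        linarith
      rw [Set.indicator_of_notMem this]


/-! ### (U) Uniqueness of the weights up to a constant -/

omit [Fintype ι] [Nonempty ι] [BorelSpace E] in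
/-- The bisectors are null as soon as all hyperplanes orthogonal to the `y i - y j` are. -/
theorem bis_null {ρ : Measure E} {y : ι → E}
    (hbis : ∀ i j, i ≠ j → ∀ c : ℝ, ρ {x | inner ℝ x (y i - y j) = c} = 0) (ψ : ι → ℝ) :
    ∀ i j, i ≠ j → ρ {x | aff y ψ i x = aff y ψ j x} = 0 := by
  intro i j hij
  have : {x | aff y ψ i x = aff y ψ j x} = {x | inner ℝ x (y i - y j) = ψ i - ψ j} := by
    ext x
    simp only [Set.mem_ofPred_eq, aff, inner_sub_right]
    constructor <;> intro h <;> linarith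
  rw [this]
  exact hbis i j hij _

omit [Fintype ι] [Nonempty ι] in
theorem aedisjoint_cell {ρ : Measure E} {y : ι → E} {ψ : ι → ℝ}
    (hbis : ∀ i j, i ≠ j → ρ {x | aff y ψ i x = aff y ψ j x} = 0) {i j : ι} (hij : i ≠ j) :
    AEDisjoint ρ (cell y ψ i) (cell y ψ j) :=
  measure_mono_null (fun _ hx => le_antisymm (hx.2 i) (hx.1 j)) (hbis i j hij)

/-- Uniqueness of the weights up to an additive constant: if the cells of `ψ` and `ψ'` have the
same (nonzero) `ρ`-masses, bisectors are `ρ`-null and `ρ` satisfies the connectedness property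
`hconn`, then `ψ' = ψ + c`. -/
theorem exists_const_of_measure_cell_eq {ρ : Measure E} [IsFiniteMeasure ρ] {y : ι → E}
    (hconn : ∀ F : E → ℝ, Continuous F → ∀ δ : ℝ, 0 < δ → ρ {x | δ ≤ F x} ≠ 0 →
      ρ {x | F x ≤ 0} ≠ 0 → ρ {x | 0 < F x ∧ F x < δ} ≠ 0)
    {ψ ψ' : ι → ℝ}
    (hbis : ∀ i j, i ≠ j → ρ {x | aff y ψ i x = aff y ψ j x} = 0)
    (hbis' : ∀ i j, i ≠ j → ρ {x | aff y ψ' i x = aff y ψ' j x} = 0)
    (h : ∀ i, ρ (cell y ψ i) = ρ (cell y ψ' i)) (hpos : ∀ i, ρ (cell y ψ i) ≠ 0) :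
    ∃ c : ℝ, ∀ i, ψ' i = ψ i + c := by
  classical
  obtain ⟨i₀, hi₀⟩ := Finite.exists_max (fun i => ψ' i - ψ i)
  refine ⟨ψ' i₀ - ψ i₀, fun i₁ => ?_⟩
  by_contra hne
  set M : ℝ := ψ' i₀ - ψ i₀ with hM
  set Is : Finset ι := Finset.univ.filter (fun i => ψ' i - ψ i = M) with hIs_def
  set Js : Finset ι := Finset.univ.filter (fun i => ψ' i - ψ i ≠ M) with hJs_def
  have hi₀mem : i₀ ∈ Is := by simp [hIs_def, hM]
  have hIs : Is.Nonempty := ⟨i₀, hi₀mem⟩
  have hJs : Js.Nonempty := by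
    refine ⟨i₁, ?_⟩
    simp only [hJs_def, Finset.mem_filter, Finset.mem_univ, true_and]
    intro hh
    exact hne (by linarith)
  obtain ⟨j₁, hj₁mem, hj₁⟩ := Js.exists_max_image (fun i => ψ' i - ψ i) hJs
  set ε : ℝ := M - (ψ' j₁ - ψ j₁) with hε_def
  have hε : 0 < ε := by
    have h1 : ψ' j₁ - ψ j₁ ≤ M := hi₀ j₁
    have h2 : ψ' j₁ - ψ j₁ ≠ M := by
      simpa [hJs_def] using hj₁mem
    have := lt_of_le_of_ne h1 h2
    linarith
  have hJle : ∀ j ∈ Js, ψ' j - ψ j ≤ M - ε := fun j hj => by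
    have := hj₁ j hj
    linarith
  have hIeq : ∀ i ∈ Is, ψ' i - ψ i = M := fun i hi => by
    simpa [hIs_def] using hi
  have hcases : ∀ k, k ∈ Is ∨ k ∈ Js := fun k => by
    by_cases hk : ψ' k - ψ k = M
    · left; simp [hIs_def, hk]
    · right; simp [hJs_def, hk]
  set F : E → ℝ := fun x => Is.sup' hIs (fun i => aff y ψ i x) - Js.sup' hJs (fun j => aff y ψ j x)
    with hF_def
  have hF : Continuous F :=
    (Continuous.finset_sup'_apply hIs fun i _ => continuous_aff y ψ i).sub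
      (Continuous.finset_sup'_apply hJs fun j _ => continuous_aff y ψ j)
  -- the three inclusions
  have c1 : ∀ i ∈ Is, cell y ψ' i ⊆ {x | ε ≤ F x} := by
    intro i hi x hx
    have hle1 : aff y ψ i x ≤ Is.sup' hIs (fun i => aff y ψ i x) :=
      Finset.le_sup' (fun i => aff y ψ i x) hi
    have hle2 : Js.sup' hJs (fun j => aff y ψ j x) ≤ aff y ψ i x - ε := by
      apply Finset.sup'_le
      intro j hj
      have h1 := hx j
      have h2 := hJle j hj
      have h3 := hIeq i hi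
      unfold aff at h1 ⊢
      linarith
    show ε ≤ F x
    simp only [hF_def]
    linarith
  have c2 : ∀ j ∈ Js, cell y ψ j ⊆ {x | F x ≤ 0} := by
    intro j hj x hx
    have hle1 : Is.sup' hIs (fun i => aff y ψ i x) ≤ aff y ψ j x :=
      Finset.sup'_le _ _ fun i _ => hx i
    have hle2 : aff y ψ j x ≤ Js.sup' hJs (fun j => aff y ψ j x) :=
      Finset.le_sup' (fun j => aff y ψ j x) hj
    show F x ≤ 0
    simp only [hF_def]
    linarith
  have c3 : {x | 0 < F x} ⊆ ⋃ i ∈ Is, cell y ψ i := by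
    intro x hx
    have hx' : 0 < F x := hx
    simp only [hF_def] at hx'
    obtain ⟨i, hi, hieq⟩ := Finset.exists_mem_eq_sup' hIs (fun i => aff y ψ i x)
    refine Set.mem_iUnion₂.mpr ⟨i, hi, fun k => ?_⟩
    rcases hcases k with hk | hk
    · have := Finset.le_sup' (fun i => aff y ψ i x) hk
      linarith
    · have := Finset.le_sup' (fun j => aff y ψ j x) hk
      linarith
  -- measures of the unions
  have hU : ρ (⋃ i ∈ Is, cell y ψ i) = ∑ i ∈ Is, ρ (cell y ψ i) :=
    measure_biUnion_finset₀ (fun i _ j _ hij => aedisjoint_cell hbis hij)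
      (fun i _ => (measurableSet_cell y ψ i).nullMeasurableSet)
  have hU' : ρ (⋃ i ∈ Is, cell y ψ' i) = ∑ i ∈ Is, ρ (cell y ψ' i) :=
    measure_biUnion_finset₀ (fun i _ j _ hij => aedisjoint_cell hbis' hij)
      (fun i _ => (measurableSet_cell y ψ' i).nullMeasurableSet)
  have hEq : ρ (⋃ i ∈ Is, cell y ψ i) = ρ (⋃ i ∈ Is, cell y ψ' i) := by
    rw [hU, hU']
    exact Finset.sum_congr rfl fun i _ => h i
  have h1 : ρ {x | 0 < F x} ≤ ρ {x | ε ≤ F x} :=
    calc ρ {x | 0 < F x} ≤ ρ (⋃ i ∈ Is, cell y ψ i) := measure_mono c3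
      _ = ρ (⋃ i ∈ Is, cell y ψ' i) := hEq
      _ ≤ ρ {x | ε ≤ F x} := measure_mono (Set.iUnion₂_subset c1)
  have hmeas1 : MeasurableSet {x | 0 < F x ∧ F x < ε} :=
    ((isOpen_lt continuous_const hF).and (isOpen_lt hF continuous_const)).measurableSet
  have h2 : ρ {x | 0 < F x} = ρ {x | ε ≤ F x} + ρ {x | 0 < F x ∧ F x < ε} := by
    rw [← measure_union _ hmeas1]
    · congr 1
      ext x
      simp only [Set.mem_ofPred_eq, Set.mem_union]
      constructor
      · intro hx
        by_cases hxe : ε ≤ F x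
        · exact Or.inl hxe
        · exact Or.inr ⟨hx, not_le.mp hxe⟩
      · rintro (hx | hx)
        · exact lt_of_lt_of_le hε hx
        · exact hx.1
    · rw [Set.disjoint_left]
      intro x hx hx'
      have hx1 : ε ≤ F x := hx
      have hx2 : F x < ε := hx'.2
      linarith
  have h3 : ρ {x | 0 < F x ∧ F x < ε} = 0 := by
    have hfin : ρ {x | ε ≤ F x} ≠ ∞ := measure_ne_top _ _
    have h4 : ρ {x | ε ≤ F x} + ρ {x | 0 < F x ∧ F x < ε} ≤ ρ {x | ε ≤ F x} + 0 := by
      rw [← h2, add_zero]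
      exact h1
    exact le_antisymm ((ENNReal.add_le_add_iff_left hfin).mp h4) bot_le
  have p1 : ρ {x | ε ≤ F x} ≠ 0 := fun h0 => by
    have := measure_mono_null (c1 i₀ hi₀mem) h0
    rw [← h i₀] at this
    exact hpos i₀ this
  have p2 : ρ {x | F x ≤ 0} ≠ 0 := fun h0 =>
    hpos j₁ (measure_mono_null (c2 j₁ hj₁mem) h0)
  exact hconn F hF ε hε p1 p2 h3

omit [BorelSpace E] in
/-- The connectedness property holds for measures living on a preconnected set `K` and charging
every open set that meets `K`. -/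
theorem conn_of_isPreconnected {ρ : Measure E} {K : Set E} (hK : IsPreconnected K)
    (hρK : ρ Kᶜ = 0) (hopen : ∀ U : Set E, IsOpen U → (U ∩ K).Nonempty → ρ U ≠ 0) :
    ∀ F : E → ℝ, Continuous F → ∀ δ : ℝ, 0 < δ → ρ {x | δ ≤ F x} ≠ 0 →
      ρ {x | F x ≤ 0} ≠ 0 → ρ {x | 0 < F x ∧ F x < δ} ≠ 0 := by
  intro F hF δ hδ h1 h2
  have ex1 : ∃ a ∈ K, δ ≤ F a := by
    by_contra hcon
    push Not at hcon
    have hsub : {x | δ ≤ F x} ⊆ Kᶜ := fun x hx hxK =>
      absurd (show δ ≤ F x from hx) (not_le.mpr (hcon x hxK))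
    exact h1 (measure_mono_null hsub hρK)
  have ex2 : ∃ b ∈ K, F b ≤ 0 := by
    by_contra hcon
    push Not at hcon
    have hsub : {x | F x ≤ 0} ⊆ Kᶜ := fun x hx hxK =>
      absurd (show F x ≤ 0 from hx) (not_le.mpr (hcon x hxK))
    exact h2 (measure_mono_null hsub hρK)
  obtain ⟨a, haK, ha⟩ := ex1
  obtain ⟨b, hbK, hb⟩ := ex2
  have hmem : δ / 2 ∈ Set.Icc (F b) (F a) := ⟨by linarith, by linarith⟩
  obtain ⟨c, hcK, hc⟩ := hK.intermediate_value hbK haK hF.continuousOn hmem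
  have hopenU : IsOpen {x | 0 < F x ∧ F x < δ} :=
    (isOpen_lt continuous_const hF).and (isOpen_lt hF continuous_const)
  exact hopen _ hopenU ⟨c, ⟨by rw [hc]; linarith, by rw [hc]; linarith⟩, hcK⟩


/-! ### (L) The limit -/

theorem continuous_pot_weights (y : ι → E) (x : E) : Continuous (fun ψ : ι → ℝ => pot y ψ x) := by
  unfold pot
  refine Continuous.finset_sup'_apply Finset.univ_nonempty (fun i _ => ?_)
  unfold aff
  fun_prop

theorem integrable_pot_mul {ρ : Measure E} [IsFiniteMeasure ρ] {y : ι → E} {D : ℝ}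
    (hD : ∀ᵐ x ∂ρ, ‖x‖ ≤ D) {g : E → ℝ} (hg : Measurable g) {B : ℝ}
    (hgB : ∀ᵐ x ∂ρ, |g x| ≤ B) (ψ : ι → ℝ) :
    Integrable (fun x => pot y ψ x * g x) ρ := by
  obtain ⟨i₁, hi₁⟩ := Finite.exists_max (fun i => ‖y i‖)
  have hY0 : 0 ≤ ‖y i₁‖ := norm_nonneg _
  refine Integrable.of_bound ((continuous_pot y ψ).measurable.mul hg).aestronglyMeasurable
    ((D * ‖y i₁‖ + ‖ψ‖) * B) ?_
  filter_upwards [hD, hgB] with x hx hgx
  have h1 : |pot y ψ x| ≤ D * ‖y i₁‖ + ‖ψ‖ := by
    have := abs_pot_le y ψ x hi₁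
    have h2 : ‖x‖ * ‖y i₁‖ ≤ D * ‖y i₁‖ := mul_le_mul_of_nonneg_right hx hY0
    linarith
  rw [norm_mul, Real.norm_eq_abs, Real.norm_eq_abs]
  exact mul_le_mul h1 hgx (abs_nonneg _) ((abs_nonneg _).trans h1)

/-- **The limit `s → 0`.**  Let `ρ` be a finite measure living in a ball, with null bisectors and
the connectedness property; `g` bounded measurable with `∫ g dρ = 0`.  If `ψ0` has cell masses
`m i ≠ 0` for `ρ` and `ψ n` has the same cell masses for `(1 + s n * g) ρ`, `s n → 0`, then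
`∫ pot (ψ n) g dρ → ∫ pot ψ0 g dρ`. -/
theorem tendsto_integral_pot {ρ : Measure E} [IsFiniteMeasure ρ] {y : ι → E} {D : ℝ}
    (hD : ∀ᵐ x ∂ρ, ‖x‖ ≤ D)
    (hbis : ∀ i j, i ≠ j → ∀ c : ℝ, ρ {x | inner ℝ x (y i - y j) = c} = 0)
    (hconn : ∀ F : E → ℝ, Continuous F → ∀ δ : ℝ, 0 < δ → ρ {x | δ ≤ F x} ≠ 0 →
      ρ {x | F x ≤ 0} ≠ 0 → ρ {x | 0 < F x ∧ F x < δ} ≠ 0)
    {g : E → ℝ} (hg : Measurable g) {B : ℝ} (hgB : ∀ᵐ x ∂ρ, |g x| ≤ B)
    (hg0 : ∫ x, g x ∂ρ = 0)
    {m : ι → ℝ≥0∞} (hm : ∀ i, m i ≠ 0)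
    {ψ0 : ι → ℝ} (h0 : ∀ i, ρ (cell y ψ0 i) = m i)
    {s : ℕ → ℝ} (hs1 : ∀ n, |s n| ≤ 1) (hs : Tendsto s atTop (𝓝 0))
    {ψ : ℕ → ι → ℝ} (h : ∀ n i, (pert ρ g (s n)) (cell y (ψ n) i) = m i) :
    Tendsto (fun n => ∫ x, pot y (ψ n) x * g x ∂ρ) atTop
      (𝓝 (∫ x, pot y ψ0 x * g x ∂ρ)) := by
  classical
  obtain ⟨i₀⟩ := ‹Nonempty ι›
  obtain ⟨i₁, hi₁⟩ := Finite.exists_max (fun i => ‖y i‖)
  set Y : ℝ := ‖y i₁‖ with hY_def
  have hY : ∀ i, ‖y i‖ ≤ Y := hi₁
  have hY0 : 0 ≤ Y := norm_nonneg _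
  have hD0 : 0 ≤ D := by
    by_contra hneg
    apply hm i₀
    rw [← h0 i₀]
    refine measure_mono_null (fun x _ => ?_) (ae_iff.mp hD)
    show ¬ ‖x‖ ≤ D
    exact fun hx => hneg ((norm_nonneg x).trans hx)
  have hgint : Integrable g ρ := by
    refine Integrable.of_bound hg.aestronglyMeasurable B ?_
    filter_upwards [hgB] with x hx
    rwa [Real.norm_eq_abs]
  set R : ℝ := D * (2 * Y) with hR_def
  have hR0 : 0 ≤ R := by positivity
  -- normalised weights
  set w : ℕ → ι → ℝ := fun n i => ψ n i - ψ n i₀ with hw_def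
  have hw1 : ∀ n i, cell y (w n) i = cell y (ψ n) i := by
    intro n i
    have : w n = fun j => ψ n j + (-ψ n i₀) := by
      funext j; simp [hw_def, sub_eq_add_neg]
    rw [this, cell_add_const]
  have hw2 : ∀ n x, pot y (ψ n) x = pot y (w n) x - ψ n i₀ := by
    intro n x
    have : ψ n = fun j => w n j + ψ n i₀ := by
      funext j; simp [hw_def]
    conv_lhs => rw [this]
    rw [pot_add_const]
  have hw3 : ∀ n, ‖w n‖ ≤ R := by
    intro n
    rw [pi_norm_le_iff_of_nonneg hR0]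
    intro i
    have hDσ : ∀ᵐ x ∂(pert ρ g (s n)), ‖x‖ ≤ D :=
      (withDensity_absolutelyContinuous ρ _).ae_le hD
    have hposi : (pert ρ g (s n)) (cell y (ψ n) i) ≠ 0 := by rw [h n i]; exact hm i
    have hposi₀ : (pert ρ g (s n)) (cell y (ψ n) i₀) ≠ 0 := by rw [h n i₀]; exact hm i₀
    have e1 := psi_sub_le hDσ hposi i₀
    have e2 := psi_sub_le hDσ hposi₀ i
    have n1 : ‖y i - y i₀‖ ≤ 2 * Y := by
      have := norm_sub_le (y i) (y i₀)
      linarith [hY i, hY i₀]
    have n2 : ‖y i₀ - y i‖ ≤ 2 * Y := by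
      rw [norm_sub_rev]; exact n1
    have e3 : D * ‖y i - y i₀‖ ≤ R := mul_le_mul_of_nonneg_left n1 hD0
    have e4 : D * ‖y i₀ - y i‖ ≤ R := mul_le_mul_of_nonneg_left n2 hD0
    rw [Real.norm_eq_abs, abs_le]
    simp only [hw_def]
    constructor <;> linarith
  have hw4 : ∀ n, ∫ x, pot y (ψ n) x * g x ∂ρ = ∫ x, pot y (w n) x * g x ∂ρ := by
    intro n
    have e1 : ∀ x, pot y (ψ n) x * g x = pot y (w n) x * g x - ψ n i₀ * g x := by
      intro x; rw [hw2 n x]; ring
    simp_rw [e1]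
    rw [integral_sub (integrable_pot_mul hD hg hgB (w n)) (hgint.const_mul _),
      integral_const_mul, hg0, mul_zero, sub_zero]
  simp_rw [hw4]
  -- subsequence argument
  apply tendsto_of_subseq_tendsto
  intro ns hns
  obtain ⟨w', -, φ, hφ, hlim⟩ := (isCompact_closedBall (0 : ι → ℝ) R).tendsto_subseq
    (x := fun k => w (ns k)) (fun k => by
      rw [mem_closedBall_zero_iff]; exact hw3 (ns k))
  refine ⟨φ, ?_⟩
  have hlim' : Tendsto (fun k => w (ns (φ k))) atTop (𝓝 w') := hlim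
  have hsk : Tendsto (fun k => s (ns (φ k))) atTop (𝓝 0) :=
    hs.comp (hns.comp hφ.tendsto_atTop)
  -- the limit weights have the right cell masses
  have hw'm : ∀ i, ρ (cell y w' i) = m i := by
    intro i
    have hC := tendsto_measure_cell hg hgB (fun k => hs1 (ns (φ k))) hsk hlim'
      (bis_null hbis w') i
    have hconst : (fun k => (pert ρ g (s (ns (φ k)))) (cell y (w (ns (φ k))) i))
        = fun _ => m i := by
      funext k
      rw [hw1, h]
    rw [hconst] at hC
    exact tendsto_nhds_unique hC tendsto_const_nhds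
  -- uniqueness
  obtain ⟨c, hc⟩ := exists_const_of_measure_cell_eq hconn (bis_null hbis ψ0) (bis_null hbis w')
    (fun i => (h0 i).trans (hw'm i).symm) (fun i => by rw [h0 i]; exact hm i)
  have hpot : ∀ x, pot y w' x = pot y ψ0 x - c := by
    intro x
    have : w' = fun j => ψ0 j + c := funext hc
    rw [this, pot_add_const]
  have hI : ∫ x, pot y w' x * g x ∂ρ = ∫ x, pot y ψ0 x * g x ∂ρ := by
    have e1 : ∀ x, pot y w' x * g x = pot y ψ0 x * g x - c * g x := by
      intro x; rw [hpot x]; ring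
    simp_rw [e1]
    rw [integral_sub (integrable_pot_mul hD hg hgB ψ0) (hgint.const_mul _),
      integral_const_mul, hg0, mul_zero, sub_zero]
  rw [← hI]
  -- dominated convergence
  refine tendsto_integral_of_dominated_convergence (fun _ => (D * Y + R) * B) ?_ ?_ ?_ ?_
  · intro k
    exact ((continuous_pot y _).measurable.mul hg).aestronglyMeasurable
  · exact integrable_const _
  · intro k
    filter_upwards [hD, hgB] with x hx hgx
    have h1 : |pot y (w (ns (φ k))) x| ≤ D * Y + R := by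
      have := abs_pot_le y (w (ns (φ k))) x hY
      have h2 : ‖x‖ * Y ≤ D * Y := mul_le_mul_of_nonneg_right hx hY0
      linarith [hw3 (ns (φ k))]
    rw [norm_mul, Real.norm_eq_abs, Real.norm_eq_abs]
    exact mul_le_mul h1 hgx (abs_nonneg _) ((abs_nonneg _).trans h1)
  · refine Filter.Eventually.of_forall fun x => ?_
    exact (((continuous_pot_weights y x).tendsto w').comp hlim').mul_const (g x)

end Crest.Agent.S0109.Helper40
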