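import Mathlib
import Crest.Prelude.Def_QuadraticTransport
import Crest.Agent.Lib.S0109.Defs
import Crest.Agent.Lib.S0109.Helper40SLimit

/-!
Row 82 (S0109), helper40: BACKUP of package P6b (`Cont.lean`), independent of `Opt` and `Basic`.

`helper40_tendsto_pot_integral` has exactly the signature of the stub `tendsto_pot_integral`.
-/

set_option autoImplicit false
open MeasureTheory Filter Topology
open scoped ENNReal NNReal
open Crest.AnalysisR.OT

namespace Crest.Agent.S0109

variable {d : ℕ}

/-- Hyperplanes are Lebesgue-null. -/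
theorem h40_hyperplane_null {v : E d} (hv : v ≠ 0) (c : ℝ) :
    volume {x : E d | inner ℝ x v = c} = 0 := by
  set f : E d →ₗ[ℝ] ℝ := (innerSL ℝ v).toLinearMap with hf
  have hfx : ∀ x, f x = inner ℝ x v := fun x => by
    simp [hf, real_inner_comm]
  have hker : LinearMap.ker f ≠ ⊤ := by
    intro htop
    have h0 : f = 0 := LinearMap.ker_eq_top.mp htop
    have : f v = 0 := by rw [h0]; rfl
    rw [hfx] at this
    exact hv (inner_self_eq_zero.mp this)
  have hnull : volume (LinearMap.ker f : Set (E d)) = 0 :=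
    Measure.addHaar_submodule volume (LinearMap.ker f) hker
  set x₀ : E d := (c / inner ℝ v v) • v with hx₀
  have hvv : inner ℝ v v ≠ 0 := fun h => hv (inner_self_eq_zero.mp h)
  have hfx₀ : f x₀ = c := by
    rw [hfx, hx₀, real_inner_smul_left]
    field_simp
  have hset : {x : E d | inner ℝ x v = c} = (fun x => x + (-x₀)) ⁻¹' (LinearMap.ker f : Set (E d)) := by
    ext x
    simp only [Set.mem_ofPred_eq, Set.mem_preimage, SetLike.mem_coe, LinearMap.mem_ker, map_add,
      map_neg, hfx₀]
    rw [hfx]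
    constructor <;> intro h <;> linarith
  rw [hset, measure_preimage_add_right]
  exact hnull

/-- a.e. the Laguerre map takes values in the atoms of positive mass. -/
theorem h40_ae_mem_filter {σ μ : Measure (E d)} [DecidablePred fun y : E d => μ {y} ≠ 0]
    {S : Finset (E d)} {ψ : E d → ℝ} {T : E d → E d} (h : IsPotMap σ μ S ψ T) :
    ∀ᵐ x ∂σ, T x ∈ S.filter (fun y => μ {y} ≠ 0) := by
  have h1 : ∀ y ∈ S, ∀ᵐ x ∂σ, μ {y} = 0 → T x ≠ y := by
    intro y _
    by_cases hy : μ {y} = 0
    · have : σ (T ⁻¹' {y}) = 0 := by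
        rw [← Measure.map_apply h.1 (measurableSet_singleton y), h.2.1, hy]
      have h2 : ∀ᵐ x ∂σ, T x ≠ y := by
        rw [ae_iff]
        simpa [Set.preimage] using this
      exact h2.mono fun x hx _ => hx
    · exact Filter.Eventually.of_forall fun x h0 => absurd h0 hy
  have h2 := (Finset.eventually_all S).mpr h1
  filter_upwards [h.2.2, h2] with x hx hx2
  rw [Finset.mem_filter]
  exact ⟨hx.1, fun h0 => hx2 (T x) hx.1 h0 rfl⟩


/-- For a Laguerre map with values a.e. in `S' ⊆ S`, the cell (w.r.t. the atoms of `S'`) of an atom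
of `S'` has `σ`-mass equal to the `μ`-mass of that atom. -/
theorem h40_measure_cell {σ μ : Measure (E d)} (hσ : σ ≪ volume)
    {S : Finset (E d)} {ψ : E d → ℝ} {T : E d → E d} (h : IsPotMap σ μ S ψ T)
    {S' : Finset (E d)} (hsub : S' ⊆ S) (hT : ∀ᵐ x ∂σ, T x ∈ S') (i : S') :
    σ (Helper40.cell (fun j : S' => (j : E d)) (fun j : S' => ψ j) i) = μ {(i : E d)} := by
  have hbis : ∀ j k : S', j ≠ k → ∀ c : ℝ,
      σ {x | inner ℝ x ((j : E d) - (k : E d)) = c} = 0 := by
    intro j k hjk c
    have hne : (j : E d) - (k : E d) ≠ 0 := sub_ne_zero.mpr (Subtype.coe_injective.ne hjk)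
    exact hσ (h40_hyperplane_null hne c)
  have hb := Helper40.bis_null (y := fun j : S' => (j : E d)) hbis (fun j : S' => ψ j)
  have hgood : ∀ᵐ x ∂σ, ∀ j : S', j ≠ i →
      Helper40.aff (fun j : S' => (j : E d)) (fun j : S' => ψ j) i x
        ≠ Helper40.aff (fun j : S' => (j : E d)) (fun j : S' => ψ j) j x := by
    rw [ae_all_iff]
    intro j
    by_cases hji : j = i
    · exact Filter.Eventually.of_forall fun _ hh => absurd hji hh
    · have h2 : ∀ᵐ x ∂σ, Helper40.aff (fun j : S' => (j : E d)) (fun j : S' => ψ j) i x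
          ≠ Helper40.aff (fun j : S' => (j : E d)) (fun j : S' => ψ j) j x := by
        rw [ae_iff]
        simpa using hb i j (Ne.symm hji)
      exact h2.mono fun _ hx _ => hx
  have hae : Helper40.cell (fun j : S' => (j : E d)) (fun j : S' => ψ j) i =ᵐ[σ] T ⁻¹' {(i : E d)} := by
    rw [Filter.eventuallyEq_set]
    filter_upwards [h.2.2, hT, hgood] with x hx hTx hgx
    constructor
    · intro hxc
      by_contra hne
      have hne' : (⟨T x, hTx⟩ : S') ≠ i := fun hh => hne (by
        have := congrArg Subtype.val hh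
        exact this)
      have h1 := hxc ⟨T x, hTx⟩
      have h2 := hx.2 (i : E d) (hsub i.2)
      have h3 := hgx ⟨T x, hTx⟩ hne'
      unfold Helper40.aff at h1 h3
      exact h3 (le_antisymm h2 h1)
    · intro hxT j
      have hxT' : T x = (i : E d) := hxT
      have h2 := hx.2 (j : E d) (hsub j.2)
      unfold Helper40.aff
      rw [hxT'] at h2
      exact h2
  rw [measure_congr hae, ← Measure.map_apply h.1 (measurableSet_singleton _), h.2.1]

/-- For a Laguerre map with values a.e. in `S' ⊆ S`, the potential of `S` coincides a.e. with the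
potential of the atoms of `S'`. -/
theorem h40_pot_ae_eq {σ μ : Measure (E d)}
    {S : Finset (E d)} {ψ : E d → ℝ} {T : E d → E d} (h : IsPotMap σ μ S ψ T)
    {S' : Finset (E d)} [Nonempty S'] (hsub : S' ⊆ S) (hT : ∀ᵐ x ∂σ, T x ∈ S') :
    ∀ᵐ x ∂σ, pot S ψ x = Helper40.pot (fun j : S' => (j : E d)) (fun j : S' => ψ j) x := by
  filter_upwards [h.2.2, hT] with x hx hTx
  have hTS : T x ∈ S := hsub hTx
  have : Nonempty S := ⟨⟨T x, hTS⟩⟩
  have e1 : pot S ψ x = inner ℝ x (T x) - ψ (T x) := by
    apply le_antisymm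
    · unfold pot
      exact ciSup_le fun y => hx.2 y y.2
    · unfold pot
      exact le_ciSup (f := fun y : S => inner ℝ x (y : E d) - ψ y) (Finite.bddAbove_range _)
        ⟨T x, hTS⟩
  have e2 : Helper40.pot (fun j : S' => (j : E d)) (fun j : S' => ψ j) x
      = inner ℝ x (T x) - ψ (T x) := by
    apply le_antisymm
    · apply Helper40.pot_le
      intro j
      exact hx.2 (j : E d) (hsub j.2)
    · exact Helper40.aff_le_pot (fun j : S' => (j : E d)) (fun j : S' => ψ j) ⟨T x, hTx⟩ x
  rw [e1, e2]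

/-- BACKUP of `tendsto_pot_integral` (package P6b), same signature as the stub. -/
theorem helper40_tendsto_pot_integral {d : ℕ} (K : Set (E d)) (hKc : IsCompact K)
    (hKv : Convex ℝ K) (hKi : (interior K).Nonempty)
    (g : E d → ℝ) (hg : Continuous g) (hgb : ∀ x ∈ K, |g x| ≤ 1 / 2)
    (hg0 : ∫ x, g x ∂(uniformProbOn K) = 0)
    (μ : Measure (E d)) [IsProbabilityMeasure μ] (S : Finset (E d))
    (ψ0 : E d → ℝ) (T0 : E d → E d) (h0 : IsPotMap (uniformProbOn K) μ S ψ0 T0)
    (s : ℕ → ℝ) (hs : ∀ n, 0 < s n ∧ s n ≤ 1) (hs0 : Tendsto s atTop (𝓝 0))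
    (ψ : ℕ → E d → ℝ) (T : ℕ → E d → E d)
    (h : ∀ n, IsPotMap (srcG K (fun x => s n * g x)) μ S (ψ n) (T n)) :
    Tendsto (fun n => ∫ x, pot S (ψ n) x * g x ∂(uniformProbOn K)) atTop
      (𝓝 (∫ x, pot S ψ0 x * g x ∂(uniformProbOn K))) := by
  classical
  -- basic facts on `ρ`
  have hvol0 : volume K ≠ 0 :=
    fun h0 => (isOpen_interior.measure_pos volume hKi).ne' (measure_mono_null interior_subset h0)
  have hvoltop : volume K ≠ ∞ := hKc.measure_lt_top.ne
  have hinv0 : (volume K)⁻¹ ≠ 0 := ENNReal.inv_ne_zero.mpr hvoltop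
  have hinvtop : (volume K)⁻¹ ≠ ∞ := ENNReal.inv_ne_top.mpr hvol0
  have hρapp : ∀ A : Set (E d), MeasurableSet A →
      uniformProbOn K A = (volume K)⁻¹ * volume (A ∩ K) := by
    intro A hA
    unfold uniformProbOn
    rw [Measure.smul_apply, Measure.restrict_apply hA, smul_eq_mul]
  have hfin : IsFiniteMeasure (uniformProbOn K) := by
    refine ⟨?_⟩
    rw [hρapp _ MeasurableSet.univ, Set.univ_inter]
    exact ENNReal.mul_lt_top (lt_top_iff_ne_top.mpr hinvtop) hKc.measure_lt_top
  have hρvol : uniformProbOn K ≪ volume := by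
    refine Measure.AbsolutelyContinuous.mk fun A hA h0 => ?_
    rw [hρapp A hA, measure_mono_null Set.inter_subset_left h0, mul_zero]
  have hρK : uniformProbOn K Kᶜ = 0 := by
    rw [hρapp _ hKc.measurableSet.compl]
    simp
  have hopen : ∀ U : Set (E d), IsOpen U → (U ∩ K).Nonempty → uniformProbOn K U ≠ 0 := by
    intro U hU hUK
    obtain ⟨x, hxU, hxK⟩ := hUK
    have hxcl : x ∈ closure (interior K) := by
      rw [hKv.closure_interior_eq_closure_of_nonempty_interior hKi]
      exact subset_closure hxK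
    have hne : (U ∩ interior K).Nonempty := mem_closure_iff.mp hxcl U hU hxU
    have hpos : 0 < volume (U ∩ interior K) :=
      (hU.inter isOpen_interior).measure_pos volume hne
    rw [hρapp U hU.measurableSet]
    refine mul_ne_zero hinv0 ?_
    intro h0
    exact hpos.ne' (measure_mono_null (Set.inter_subset_inter_right U interior_subset) h0)
  obtain ⟨D, hDK⟩ := hKc.isBounded.exists_norm_le
  have hD : ∀ᵐ x ∂(uniformProbOn K), ‖x‖ ≤ D := by
    rw [ae_iff]
    exact measure_mono_null (fun x hx hxK => hx (hDK x hxK)) hρK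
  have hgB : ∀ᵐ x ∂(uniformProbOn K), |g x| ≤ 1 / 2 := by
    rw [ae_iff]
    exact measure_mono_null (fun x hx hxK => hx (hgb x hxK)) hρK
  have hconn := Helper40.conn_of_isPreconnected hKv.isPreconnected hρK hopen
  -- the perturbed sources
  have hσdef : ∀ n, srcG K (fun x => s n * g x) = Helper40.pert (uniformProbOn K) g (s n) :=
    fun n => rfl
  have hσρ : ∀ n, srcG K (fun x => s n * g x) ≪ uniformProbOn K := fun n =>
    withDensity_absolutelyContinuous _ _
  have hρσ : ∀ n, uniformProbOn K ≪ srcG K (fun x => s n * g x) := by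
    intro n
    refine withDensity_absolutelyContinuous' ?_ ?_
    · exact (ENNReal.measurable_ofReal.comp (by fun_prop)).aemeasurable
    · filter_upwards [hgB] with x hx
      have h1 : |s n * g x| ≤ 1 * (1 / 2) := by
        rw [abs_mul]
        exact mul_le_mul (by rw [abs_of_pos (hs n).1]; exact (hs n).2) hx (abs_nonneg _)
          zero_le_one
      have := (abs_le.mp h1).1
      rw [Ne, ENNReal.ofReal_eq_zero, not_le]
      linarith
  -- the atoms of positive mass
  set S' : Finset (E d) := S.filter (fun y => μ {y} ≠ 0) with hS'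
  have hsub : S' ⊆ S := Finset.filter_subset _ _
  have hT0 : ∀ᵐ x ∂(uniformProbOn K), T0 x ∈ S' := h40_ae_mem_filter h0
  have hTn : ∀ n, ∀ᵐ x ∂(srcG K (fun x => s n * g x)), T n x ∈ S' := fun n =>
    h40_ae_mem_filter (h n)
  have hρne : uniformProbOn K ≠ 0 := by
    intro hzero
    have h1 := h0.2.1
    rw [hzero, Measure.map_zero] at h1
    exact IsProbabilityMeasure.ne_zero μ h1.symm
  have : (ae (uniformProbOn K)).NeBot := ae_neBot.mpr hρne
  have hne : Nonempty S' := by
    obtain ⟨x, hx⟩ := hT0.exists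
    exact ⟨⟨T0 x, hx⟩⟩
  have hm : ∀ i : S', μ {(i : E d)} ≠ 0 := fun i => (Finset.mem_filter.mp i.2).2
  have hbis : ∀ i j : S', i ≠ j → ∀ c : ℝ,
      uniformProbOn K {x | inner ℝ x ((i : E d) - (j : E d)) = c} = 0 := by
    intro i j hij c
    have hne : (i : E d) - (j : E d) ≠ 0 := sub_ne_zero.mpr (Subtype.coe_injective.ne hij)
    exact hρvol (h40_hyperplane_null hne c)
  have hcore := Helper40.tendsto_integral_pot (ρ := uniformProbOn K)
    (y := fun j : S' => (j : E d)) hD hbis hconn hg.measurable hgB hg0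
    (m := fun i : S' => μ {(i : E d)}) hm
    (ψ0 := fun j : S' => ψ0 j) (fun i => h40_measure_cell hρvol h0 hsub hT0 i)
    (s := s) (fun n => by rw [abs_of_pos (hs n).1]; exact (hs n).2) hs0
    (ψ := fun n (j : S') => ψ n j)
    (fun n i => by
      rw [← hσdef n]
      exact h40_measure_cell ((hσρ n).trans hρvol) (h n) hsub (hTn n) i)
  have e0 : ∫ x, pot S ψ0 x * g x ∂(uniformProbOn K)
      = ∫ x, Helper40.pot (fun j : S' => (j : E d)) (fun j : S' => ψ0 j) x * g x
          ∂(uniformProbOn K) := by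
    refine integral_congr_ae ?_
    filter_upwards [h40_pot_ae_eq h0 hsub hT0] with x hx
    rw [hx]
  have en : ∀ n, ∫ x, pot S (ψ n) x * g x ∂(uniformProbOn K)
      = ∫ x, Helper40.pot (fun j : S' => (j : E d)) (fun j : S' => ψ n j) x * g x
          ∂(uniformProbOn K) := by
    intro n
    refine integral_congr_ae ?_
    filter_upwards [(hρσ n).ae_le (h40_pot_ae_eq (h n) hsub (hTn n))] with x hx
    rw [hx]
  rw [e0]
  simp_rw [en]
  exact hcore

end Crest.Agent.S0109
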