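import Mathlib

/-!
# Arzelà–Ascoli extraction for equi-Lipschitz normalised sequences (helper48, row 82 / S0109)
-/

set_option autoImplicit false
set_option linter.unusedSectionVars false
set_option linter.style.haveILetI false

open Filter Topology Set
open scoped NNReal BoundedContinuousFunction

namespace Crest.Agent.S0109.Helper48

variable {X : Type*} [PseudoMetricSpace X]

/-- The set of `R`-Lipschitz bounded continuous functions on a compact space vanishing at a
base point is compact. -/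
theorem isCompact_lipschitz_normalised [CompactSpace X] (x₀ : X) (R : ℝ≥0) :
    IsCompact {u : X →ᵇ ℝ | LipschitzWith R u ∧ u x₀ = 0} := by
  obtain ⟨M, hM⟩ : ∃ M : ℝ, ∀ x : X, dist x x₀ ≤ M := by
    obtain ⟨M, hM⟩ := (Metric.isBounded_iff_subset_closedBall x₀).1
      (Metric.isBounded_of_compactSpace (s := (Set.univ : Set X)))
    exact ⟨M, fun x => Metric.mem_closedBall.1 (hM (Set.mem_univ x))⟩
  refine BoundedContinuousFunction.arzela_ascoli₂ (Set.Icc (-(R * M)) (R * M)) isCompact_Icc _
    ?_ ?_ ?_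
  · -- closed
    have h1 : {u : X →ᵇ ℝ | LipschitzWith R u ∧ u x₀ = 0} =
        (⋂ x : X, ⋂ y : X, {u : X →ᵇ ℝ | dist (u x) (u y) ≤ R * dist x y}) ∩
          {u : X →ᵇ ℝ | u x₀ = 0} := by
      ext u
      simp only [Set.mem_ofPred_eq, Set.mem_inter_iff, Set.mem_iInter, lipschitzWith_iff_dist_le_mul]
    rw [h1]
    refine IsClosed.inter (isClosed_iInter fun x => isClosed_iInter fun y => ?_) ?_
    · exact isClosed_le ((continuous_eval_const x).dist (continuous_eval_const y))
        continuous_const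
    · exact isClosed_eq (continuous_eval_const x₀) continuous_const
  · rintro u x ⟨hu, hu0⟩
    have h2 := hu.dist_le_mul x x₀
    rw [hu0, Real.dist_eq, sub_zero] at h2
    have h3 : (R : ℝ) * dist x x₀ ≤ R * M := mul_le_mul_of_nonneg_left (hM x) R.coe_nonneg
    rw [Set.mem_Icc, ← abs_le]
    linarith
  · have : UniformEquicontinuous
        ((↑) : {u : X →ᵇ ℝ | LipschitzWith R u ∧ u x₀ = 0} → X → ℝ) :=
      LipschitzWith.uniformEquicontinuous _ R (fun u => u.2.1)
    exact this.equicontinuous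

/-- Restriction of a function Lipschitz on a compact set `K`, as a bounded continuous function
on the subtype. -/
noncomputable def restrictBCF {K : Set X} [CompactSpace K] (R : ℝ≥0) (f : X → ℝ)
    (hf : LipschitzOnWith R f K) : K →ᵇ ℝ :=
  BoundedContinuousFunction.mkOfCompact ⟨fun x : K => f x, hf.to_restrict.continuous⟩

theorem restrictBCF_apply {K : Set X} [CompactSpace K] (R : ℝ≥0) (f : X → ℝ)
    (hf : LipschitzOnWith R f K) (x : K) : restrictBCF R f hf x = f x := rfl

/-- **Arzelà–Ascoli extraction** for two sequences of functions which are `R`-Lipschitz on a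
compact set `K` and vanish at a base point of `K`: a common subsequence converges pointwise on
`K` (in fact uniformly) to functions which are `R`-Lipschitz on `K`. -/
theorem exists_subseq_tendsto_of_lipschitzOnWith {K : Set X} (hK : IsCompact K) {x₀ : X}
    (hx₀ : x₀ ∈ K) (R : ℝ≥0) (f g : ℕ → X → ℝ)
    (hf : ∀ n, LipschitzOnWith R (f n) K) (hf0 : ∀ n, f n x₀ = 0)
    (hg : ∀ n, LipschitzOnWith R (g n) K) (hg0 : ∀ n, g n x₀ = 0) :
    ∃ (k : ℕ → ℕ) (F G : X → ℝ), StrictMono k ∧ LipschitzOnWith R F K ∧ LipschitzOnWith R G K ∧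
      (∀ x ∈ K, Tendsto (fun n => f (k n) x) atTop (𝓝 (F x))) ∧
      (∀ x ∈ K, Tendsto (fun n => g (k n) x) atTop (𝓝 (G x))) := by
  haveI : CompactSpace K := isCompact_iff_compactSpace.mp hK
  set A : Set (K →ᵇ ℝ) := {u : K →ᵇ ℝ | LipschitzWith R u ∧ u ⟨x₀, hx₀⟩ = 0} with hA
  have hAc : IsCompact A := isCompact_lipschitz_normalised (⟨x₀, hx₀⟩ : K) R
  have hmemf : ∀ n, restrictBCF R (f n) (hf n) ∈ A := fun n =>
    ⟨(hf n).to_restrict, by simpa [restrictBCF_apply] using hf0 n⟩
  have hmemg : ∀ n, restrictBCF R (g n) (hg n) ∈ A := fun n =>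
    ⟨(hg n).to_restrict, by simpa [restrictBCF_apply] using hg0 n⟩
  obtain ⟨⟨a, b⟩, hab, k, hk, hlim⟩ := (hAc.prod hAc).tendsto_subseq
    (x := fun n => (restrictBCF R (f n) (hf n), restrictBCF R (g n) (hg n)))
    (fun n => ⟨hmemf n, hmemg n⟩)
  obtain ⟨⟨haL, -⟩, ⟨hbL, -⟩⟩ := hab
  have hlim1 : Tendsto (fun n => restrictBCF R (f (k n)) (hf (k n))) atTop (𝓝 a) :=
    (continuous_fst.tendsto _).comp hlim
  have hlim2 : Tendsto (fun n => restrictBCF R (g (k n)) (hg (k n))) atTop (𝓝 b) :=
    (continuous_snd.tendsto _).comp hlim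
  classical
  refine ⟨k, fun x => if h : x ∈ K then a ⟨x, h⟩ else 0, fun x => if h : x ∈ K then b ⟨x, h⟩ else 0,
    hk, ?_, ?_, ?_, ?_⟩
  · rw [lipschitzOnWith_iff_dist_le_mul]
    intro x hx y hy
    simp only [dif_pos hx, dif_pos hy]
    exact haL.dist_le_mul ⟨x, hx⟩ ⟨y, hy⟩
  · rw [lipschitzOnWith_iff_dist_le_mul]
    intro x hx y hy
    simp only [dif_pos hx, dif_pos hy]
    exact hbL.dist_le_mul ⟨x, hx⟩ ⟨y, hy⟩
  · intro x hx
    simp only [dif_pos hx]
    have := ((continuous_eval_const (⟨x, hx⟩ : K)).tendsto a).comp hlim1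
    simpa [restrictBCF_apply, Function.comp_def] using this
  · intro x hx
    simp only [dif_pos hx]
    have := ((continuous_eval_const (⟨x, hx⟩ : K)).tendsto b).comp hlim2
    simpa [restrictBCF_apply, Function.comp_def] using this

end Crest.Agent.S0109.Helper48
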