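import Mathlib

/-!
# Convergence of subgradients of pointwise-convergent functions (helper48, row 82 / S0109)

If `f n → φ` pointwise on a neighbourhood `U` of `x`, each `g n` is a subgradient of `f n` at `x`
relative to `U` (`f n x + ⟪g n, y - x⟫ ≤ f n y` for `y ∈ U`), and `φ` has gradient `g₀` at `x`,
then `g n → g₀`.  (No convexity hypothesis is needed beyond the subgradient inequality.)
-/

set_option autoImplicit false

open Filter Topology
open scoped RealInnerProductSpace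

namespace Crest.Agent.S0109.Helper48

variable {E : Type*} [NormedAddCommGroup E] [InnerProductSpace ℝ E] [CompleteSpace E]

/-- One-sided directional estimate: eventually `⟪g n, v⟫ < ⟪g₀, v⟫ + ε`. -/
theorem eventually_inner_subgradient_lt {ι : Type*} {l : Filter ι}
    {f : ι → E → ℝ} {φ : E → ℝ} {g : ι → E} {x g₀ : E} {U : Set E} (hU : U ∈ 𝓝 x)
    (hsub : ∀ n, ∀ y ∈ U, f n x + ⟪g n, y - x⟫ ≤ f n y)
    (hlim : ∀ y ∈ U, Tendsto (fun n => f n y) l (𝓝 (φ y)))
    (hdiff : HasGradientAt φ g₀ x) (v : E) {ε : ℝ} (hε : 0 < ε) :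
    ∀ᶠ n in l, ⟪g n, v⟫ < ⟪g₀, v⟫ + ε := by
  -- the line derivative of `φ` at `x` along `v`
  have hline : HasDerivAt (fun t : ℝ => φ (x + t • v)) ⟪g₀, v⟫ 0 := by
    have h1 := hdiff.hasFDerivAt.hasLineDerivAt v
    simpa [HasLineDerivAt, InnerProductSpace.toDual_apply_apply] using h1
  -- slopes converge
  have hslope : Tendsto (fun t : ℝ => t⁻¹ * (φ (x + t • v) - φ x)) (𝓝[>] 0) (𝓝 ⟪g₀, v⟫) := by
    have h2 := hline.tendsto_slope_zero_right
    simpa [smul_eq_mul] using h2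
  -- points `x + t • v` are in `U` for small `t`
  have hcont : Tendsto (fun t : ℝ => x + t • v) (𝓝[>] 0) (𝓝 x) := by
    have : Tendsto (fun t : ℝ => x + t • v) (𝓝 0) (𝓝 (x + (0 : ℝ) • v)) :=
      (continuous_const.add (continuous_id.smul continuous_const)).tendsto 0
    simpa using this.mono_left nhdsWithin_le_nhds
  have hmemU : ∀ᶠ t in 𝓝[>] (0 : ℝ), x + t • v ∈ U := hcont.eventually hU
  have hlt : ∀ᶠ t in 𝓝[>] (0 : ℝ), t⁻¹ * (φ (x + t • v) - φ x) < ⟪g₀, v⟫ + ε / 2 :=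
    hslope.eventually (gt_mem_nhds (by linarith))
  have hpos : ∀ᶠ t in 𝓝[>] (0 : ℝ), 0 < t := eventually_mem_nhdsWithin
  obtain ⟨t, htU, htlt, ht0⟩ := (hmemU.and (hlt.and hpos)).exists
  have hxU : x ∈ U := mem_of_mem_nhds hU
  have hconv : Tendsto (fun n => t⁻¹ * (f n (x + t • v) - f n x)) l
      (𝓝 (t⁻¹ * (φ (x + t • v) - φ x))) :=
    ((hlim _ htU).sub (hlim _ hxU)).const_mul _
  have hev : ∀ᶠ n in l, t⁻¹ * (f n (x + t • v) - f n x) < ⟪g₀, v⟫ + ε :=
    hconv.eventually (gt_mem_nhds (by linarith))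
  filter_upwards [hev] with n hn
  have h3 := hsub n _ htU
  have h4 : ⟪g n, x + t • v - x⟫ = t * ⟪g n, v⟫ := by
    rw [add_sub_cancel_left, inner_smul_right]
  rw [h4] at h3
  have h5 : ⟪g n, v⟫ ≤ t⁻¹ * (f n (x + t • v) - f n x) := by
    rw [le_inv_mul_iff₀ ht0]
    linarith
  linarith

/-- Directional convergence of subgradients. -/
theorem tendsto_inner_subgradient {ι : Type*} {l : Filter ι}
    {f : ι → E → ℝ} {φ : E → ℝ} {g : ι → E} {x g₀ : E} {U : Set E} (hU : U ∈ 𝓝 x)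
    (hsub : ∀ n, ∀ y ∈ U, f n x + ⟪g n, y - x⟫ ≤ f n y)
    (hlim : ∀ y ∈ U, Tendsto (fun n => f n y) l (𝓝 (φ y)))
    (hdiff : HasGradientAt φ g₀ x) (v : E) :
    Tendsto (fun n => ⟪g n, v⟫) l (𝓝 ⟪g₀, v⟫) := by
  rw [Metric.tendsto_nhds]
  intro ε hε
  have h1 := eventually_inner_subgradient_lt hU hsub hlim hdiff v hε
  have h2 := eventually_inner_subgradient_lt hU hsub hlim hdiff (-v) hε
  filter_upwards [h1, h2] with n hn1 hn2
  rw [Real.dist_eq, abs_lt]
  simp only [inner_neg_right] at hn2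
  constructor <;> linarith

/-- **Convergence of subgradients.**  In a finite-dimensional real inner product space, if
`f n → φ` pointwise on a neighbourhood `U` of `x`, `g n` is a subgradient of `f n` at `x`
relative to `U`, and `φ` has gradient `g₀` at `x`, then `g n → g₀`. -/
theorem tendsto_subgradient [FiniteDimensional ℝ E] {ι : Type*} {l : Filter ι}
    {f : ι → E → ℝ} {φ : E → ℝ} {g : ι → E} {x g₀ : E} {U : Set E} (hU : U ∈ 𝓝 x)
    (hsub : ∀ n, ∀ y ∈ U, f n x + ⟪g n, y - x⟫ ≤ f n y)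
    (hlim : ∀ y ∈ U, Tendsto (fun n => f n y) l (𝓝 (φ y)))
    (hdiff : HasGradientAt φ g₀ x) :
    Tendsto g l (𝓝 g₀) := by
  set b := stdOrthonormalBasis ℝ E with hb
  have hrepr : ∀ w : E, w = ∑ i, ⟪b i, w⟫ • b i := fun w => (b.sum_repr' w).symm
  have hg : g = fun n => ∑ i, ⟪b i, g n⟫ • b i := by
    funext n
    exact hrepr (g n)
  rw [hg, hrepr g₀]
  refine tendsto_finsetSum _ (fun i _ => ?_)
  refine Tendsto.smul ?_ tendsto_const_nhds
  have := tendsto_inner_subgradient hU hsub hlim hdiff (b i)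
  simpa [real_inner_comm] using this

end Crest.Agent.S0109.Helper48
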