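import Mathlib

/-!
# Identification of cost-minimising maps with subgradient maps (helper48, row 82 / S0109)

Weak duality ("Young gap") argument: if `T₀` pushes `ρ` to `μ` and is `ρ`-a.e. a `K`-subgradient
selection of `φ`, then every map `T` pushing `ρ` to `μ` whose quadratic cost is not larger than
that of `T₀` is also `ρ`-a.e. a `K`-subgradient selection of `φ`.
-/

set_option autoImplicit false
set_option linter.unusedSectionVars false
set_option linter.style.haveILetI false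

open MeasureTheory Filter Topology Set
open scoped ENNReal NNReal RealInnerProductSpace

namespace Crest.Agent.S0109.Helper48

variable {d : ℕ}

local notation "E" => EuclideanSpace ℝ (Fin d)

theorem ae_subgradient_of_cost_le {ρ μ : Measure E} [IsProbabilityMeasure ρ]
    {K : Set E} (hKc : IsCompact K) (hKn : K.Nonempty) (hρK : ρ Kᶜ = 0)
    {Y : Set E} (hYc : IsCompact Y) (hμY : μ Yᶜ = 0)
    {φ : E → ℝ} (hφ : ContinuousOn φ K)
    {T₀ T : E → E} (hT₀m : Measurable T₀) (hTm : Measurable T)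
    (hT₀ : ρ.map T₀ = μ) (hT : ρ.map T = μ)
    (hsub : ∀ᵐ x ∂ρ, ∀ z ∈ K, φ x + ⟪T₀ x, z - x⟫ ≤ φ z)
    (hcost : ∫⁻ x, ‖x - T x‖ₑ ^ 2 ∂ρ ≤ ∫⁻ x, ‖x - T₀ x‖ₑ ^ 2 ∂ρ) :
    ∀ᵐ x ∂ρ, ∀ z ∈ K, φ x + ⟪T x, z - x⟫ ≤ φ z := by
  classical
  haveI : Nonempty K := hKn.to_subtype
  obtain ⟨MK, hMK⟩ := hKc.isBounded.exists_norm_le
  obtain ⟨RY, hRY⟩ := hYc.isBounded.exists_norm_le
  obtain ⟨Bφ, hBφ⟩ := hKc.exists_bound_of_continuousOn hφ
  obtain ⟨z₀, hz₀⟩ := hKn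
  have hMK0 : 0 ≤ MK := (norm_nonneg _).trans (hMK _ hz₀)
  have hBφ' : ∀ z ∈ K, |φ z| ≤ Bφ := fun z hz => by simpa [Real.norm_eq_abs] using hBφ z hz
  set φs : E → ℝ := fun y => ⨆ z : K, (⟪(z : E), y⟫ - φ z) with hφs
  have hbdd : ∀ y, BddAbove (range fun z : K => ⟪(z : E), y⟫ - φ z) := by
    intro y
    refine ⟨MK * ‖y‖ + Bφ, ?_⟩
    rintro _ ⟨z, rfl⟩
    have h1 : ⟪(z : E), y⟫ ≤ ‖(z : E)‖ * ‖y‖ := real_inner_le_norm _ _
    have h2 := hMK _ z.2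
    have h3 := abs_le.1 (hBφ' _ z.2)
    have h5 : ‖(z : E)‖ * ‖y‖ ≤ MK * ‖y‖ := mul_le_mul_of_nonneg_right h2 (norm_nonneg y)
    show ⟪(z : E), y⟫ - φ z ≤ MK * ‖y‖ + Bφ
    linarith [h3.1]
  have hyoung : ∀ z ∈ K, ∀ y, ⟪z, y⟫ - φ z ≤ φs y := fun z hz y =>
    le_ciSup (hbdd y) (⟨z, hz⟩ : K)
  have hlip : LipschitzWith MK.toNNReal φs := by
    refine LipschitzWith.of_le_add_mul _ (fun y y' => ?_)
    refine ciSup_le (fun z => ?_)
    have h1 : ⟪(z : E), y⟫ - φ z = (⟪(z : E), y'⟫ - φ z) + ⟪(z : E), y - y'⟫ := by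
      rw [inner_sub_right]; ring
    have h2 : ⟪(z : E), y - y'⟫ ≤ ‖(z : E)‖ * ‖y - y'‖ := real_inner_le_norm _ _
    have h3 := hyoung z z.2 y'
    have h4 := hMK _ z.2
    have h5 : ‖(z : E)‖ * ‖y - y'‖ ≤ MK * ‖y - y'‖ :=
      mul_le_mul_of_nonneg_right h4 (norm_nonneg _)
    rw [Real.coe_toNNReal _ hMK0, dist_eq_norm]
    linarith
  have hφs_cont : Continuous φs := hlip.continuous
  -- a.e. facts
  have hxK : ∀ᵐ x ∂ρ, x ∈ K := by
    rw [ae_iff]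
    exact hρK
  have hYm : MeasurableSet Y := hYc.isClosed.measurableSet
  have hTY : ∀ᵐ x ∂ρ, T x ∈ Y := by
    have : ρ (T ⁻¹' Yᶜ) = 0 := by rw [← Measure.map_apply hTm hYm.compl, hT, hμY]
    rw [ae_iff]
    exact this
  have hT₀Y : ∀ᵐ x ∂ρ, T₀ x ∈ Y := by
    have : ρ (T₀ ⁻¹' Yᶜ) = 0 := by rw [← Measure.map_apply hT₀m hYm.compl, hT₀, hμY]
    rw [ae_iff]
    exact this
  -- equality in Young's inequality for `T₀`
  have heq0 : ∀ᵐ x ∂ρ, φs (T₀ x) = ⟪x, T₀ x⟫ - φ x := by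
    filter_upwards [hxK, hsub] with x hx hs
    apply le_antisymm
    · refine ciSup_le (fun z => ?_)
      have := hs z z.2
      rw [inner_sub_right] at this
      have e1 : ⟪T₀ x, (z : E)⟫ = ⟪(z : E), T₀ x⟫ := real_inner_comm _ _
      have e2 : ⟪T₀ x, x⟫ = ⟪x, T₀ x⟫ := real_inner_comm _ _
      linarith
    · exact hyoung x hx _
  -- the gap function
  set W : E → ℝ := fun x => φs (T x) - φs (T₀ x) - ⟪x, T x⟫ + ⟪x, T₀ x⟫ with hW
  have hWnn : ∀ᵐ x ∂ρ, 0 ≤ W x := by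
    filter_upwards [hxK, heq0] with x hx h0
    have := hyoung x hx (T x)
    show 0 ≤ φs (T x) - φs (T₀ x) - ⟪x, T x⟫ + ⟪x, T₀ x⟫
    rw [h0]
    linarith
  have hm1 : Measurable fun x => ‖x - T x‖ ^ 2 := (measurable_id.sub hTm).norm.pow_const 2
  have hm2 : Measurable fun x => ‖x - T₀ x‖ ^ 2 := (measurable_id.sub hT₀m).norm.pow_const 2
  set h : E → ℝ := fun y => ‖y‖ ^ 2 - 2 * φs y with hh
  have hh_cont : Continuous h := (continuous_norm.pow 2).sub (continuous_const.mul hφs_cont)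
  have hi1 : Integrable (fun x => ‖x - T x‖ ^ 2) ρ := by
    refine Integrable.of_bound hm1.aestronglyMeasurable ((MK + RY) ^ 2) ?_
    filter_upwards [hxK, hTY] with x hx hy
    have : ‖x - T x‖ ≤ MK + RY := (norm_sub_le _ _).trans (add_le_add (hMK x hx) (hRY _ hy))
    rw [Real.norm_eq_abs, abs_of_nonneg (by positivity)]
    exact pow_le_pow_left₀ (norm_nonneg _) this 2
  have hi2 : Integrable (fun x => ‖x - T₀ x‖ ^ 2) ρ := by
    refine Integrable.of_bound hm2.aestronglyMeasurable ((MK + RY) ^ 2) ?_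
    filter_upwards [hxK, hT₀Y] with x hx hy
    have : ‖x - T₀ x‖ ≤ MK + RY := (norm_sub_le _ _).trans (add_le_add (hMK x hx) (hRY _ hy))
    rw [Real.norm_eq_abs, abs_of_nonneg (by positivity)]
    exact pow_le_pow_left₀ (norm_nonneg _) this 2
  have hφsY : ∀ y ∈ Y, |φs y| ≤ MK * RY + Bφ := by
    intro y hy
    have hy' := hRY y hy
    rw [abs_le]
    constructor
    · have h1 := hyoung z₀ hz₀ y
      have h2 : -(‖z₀‖ * ‖y‖) ≤ ⟪z₀, y⟫ := by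
        have := abs_le.1 (abs_real_inner_le_norm z₀ y)
        exact this.1
      have h3 := abs_le.1 (hBφ' _ hz₀)
      have h4 : ‖z₀‖ * ‖y‖ ≤ MK * RY :=
        mul_le_mul (hMK _ hz₀) hy' (norm_nonneg _) hMK0
      linarith [h3.2]
    · refine ciSup_le (fun z => ?_)
      have h1 : ⟪(z : E), y⟫ ≤ ‖(z : E)‖ * ‖y‖ := real_inner_le_norm _ _
      have h3 := abs_le.1 (hBφ' _ z.2)
      have h4 : ‖(z : E)‖ * ‖y‖ ≤ MK * RY :=
        mul_le_mul (hMK _ z.2) hy' (norm_nonneg _) hMK0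
      linarith [h3.1]
  have hhY : ∀ y ∈ Y, ‖h y‖ ≤ RY ^ 2 + 2 * (MK * RY + Bφ) := by
    intro y hy
    have h1 := abs_le.1 (hφsY y hy)
    have h2 : ‖y‖ ^ 2 ≤ RY ^ 2 := pow_le_pow_left₀ (norm_nonneg _) (hRY y hy) 2
    have h3 : 0 ≤ ‖y‖ ^ 2 := by positivity
    rw [Real.norm_eq_abs, abs_le]
    constructor <;> simp only [hh] <;> linarith [h1.1, h1.2]
  have hi3 : Integrable (fun x => h (T x)) ρ :=
    Integrable.of_bound (hh_cont.measurable.comp hTm).aestronglyMeasurable _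
      (by filter_upwards [hTY] with x hy using hhY _ hy)
  have hi4 : Integrable (fun x => h (T₀ x)) ρ :=
    Integrable.of_bound (hh_cont.measurable.comp hT₀m).aestronglyMeasurable _
      (by filter_upwards [hT₀Y] with x hy using hhY _ hy)
  have hpt : ∀ x, 2 * W x = (‖x - T x‖ ^ 2 - ‖x - T₀ x‖ ^ 2) - (h (T x) - h (T₀ x)) := by
    intro x
    have e1 : ‖x - T x‖ ^ 2 = ‖x‖ ^ 2 - 2 * ⟪x, T x⟫ + ‖T x‖ ^ 2 := norm_sub_sq_real x (T x)
    have e2 : ‖x - T₀ x‖ ^ 2 = ‖x‖ ^ 2 - 2 * ⟪x, T₀ x⟫ + ‖T₀ x‖ ^ 2 :=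
      norm_sub_sq_real x (T₀ x)
    simp only [hW, hh]
    rw [e1, e2]
    ring
  have hint_h : ∫ x, h (T x) ∂ρ = ∫ x, h (T₀ x) ∂ρ := by
    rw [← integral_map hTm.aemeasurable hh_cont.aestronglyMeasurable, hT, ← hT₀,
      integral_map hT₀m.aemeasurable hh_cont.aestronglyMeasurable]
  have hcost' : ∫ x, ‖x - T x‖ ^ 2 ∂ρ ≤ ∫ x, ‖x - T₀ x‖ ^ 2 ∂ρ := by
    have c1 : ∫⁻ x, ‖x - T x‖ₑ ^ 2 ∂ρ = ENNReal.ofReal (∫ x, ‖x - T x‖ ^ 2 ∂ρ) := by
      rw [ofReal_integral_eq_lintegral_ofReal hi1 (Eventually.of_forall fun x => by positivity)]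
      refine lintegral_congr (fun x => ?_)
      rw [ENNReal.ofReal_pow (norm_nonneg _), ofReal_norm]
    have c2 : ∫⁻ x, ‖x - T₀ x‖ₑ ^ 2 ∂ρ = ENNReal.ofReal (∫ x, ‖x - T₀ x‖ ^ 2 ∂ρ) := by
      rw [ofReal_integral_eq_lintegral_ofReal hi2 (Eventually.of_forall fun x => by positivity)]
      refine lintegral_congr (fun x => ?_)
      rw [ENNReal.ofReal_pow (norm_nonneg _), ofReal_norm]
    rw [c1, c2] at hcost
    exact (ENNReal.ofReal_le_ofReal_iff (integral_nonneg fun x => by positivity)).1 hcost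
  have hWi : Integrable W ρ := by
    have : W = fun x => (1 / 2 : ℝ) *
        ((‖x - T x‖ ^ 2 - ‖x - T₀ x‖ ^ 2) - (h (T x) - h (T₀ x))) := by
      funext x
      linarith [hpt x]
    rw [this]
    exact ((hi1.sub hi2).sub (hi3.sub hi4)).const_mul _
  have hWint : ∫ x, W x ∂ρ ≤ 0 := by
    have e : ∫ x, 2 * W x ∂ρ = (∫ x, ‖x - T x‖ ^ 2 ∂ρ - ∫ x, ‖x - T₀ x‖ ^ 2 ∂ρ) -
        (∫ x, h (T x) ∂ρ - ∫ x, h (T₀ x) ∂ρ) := by
      simp_rw [hpt]
      have hi12 : Integrable (fun x => ‖x - T x‖ ^ 2 - ‖x - T₀ x‖ ^ 2) ρ := hi1.sub hi2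
      have hi34 : Integrable (fun x => h (T x) - h (T₀ x)) ρ := hi3.sub hi4
      rw [integral_sub hi12 hi34, integral_sub hi1 hi2, integral_sub hi3 hi4]
    rw [integral_const_mul] at e
    linarith
  have hW0 : W =ᵐ[ρ] 0 :=
    (integral_eq_zero_iff_of_nonneg_ae hWnn hWi).1
      (le_antisymm hWint (integral_nonneg_of_ae hWnn))
  filter_upwards [hxK, heq0, hW0] with x hx h0 hw z hz
  have hy := hyoung z hz (T x)
  have hw' : φs (T x) - φs (T₀ x) - ⟪x, T x⟫ + ⟪x, T₀ x⟫ = 0 := hw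
  rw [h0] at hw'
  rw [inner_sub_right]
  have e1 : ⟪T x, z⟫ = ⟪z, T x⟫ := real_inner_comm _ _
  have e2 : ⟪T x, x⟫ = ⟪x, T x⟫ := real_inner_comm _ _
  linarith

end Crest.Agent.S0109.Helper48
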