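import Mathlib
import Crest.Prelude.Def_QuadraticTransport
import Crest.Agent.Lib.S0109.Helper48Conv

/-!
# Limit layer for row 82 / S0109 (helper48): a.e. convergence of subgradient maps and the
push-forward limit.
-/

set_option autoImplicit false
set_option linter.unusedSectionVars false
set_option linter.style.haveILetI false

open MeasureTheory Filter Topology Set
open scoped ENNReal NNReal RealInnerProductSpace

namespace Crest.Agent.S0109.Helper48

variable {d : ℕ}

local notation "E" => EuclideanSpace ℝ (Fin d)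

/-- Almost every point of a convex compact set is an interior point at which a function
Lipschitz on the set is differentiable. -/
theorem ae_interior_differentiableAt {K : Set E} (hKv : Convex ℝ K) (hKc : IsCompact K)
    {R : ℝ≥0} {F : E → ℝ} (hF : LipschitzOnWith R F K) :
    ∀ᵐ x ∂((volume : Measure E).restrict K), x ∈ interior K ∧ DifferentiableAt ℝ F x := by
  have h1 : ∀ᵐ x ∂(volume : Measure E), x ∈ K → DifferentiableWithinAt ℝ F K x :=
    hF.ae_differentiableWithinAt_of_mem
  have h2 : ∀ᵐ x ∂(volume : Measure E), x ∉ frontier K := by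
    rw [ae_iff]
    simpa using hKv.addHaar_frontier volume
  rw [ae_restrict_iff' hKc.measurableSet]
  filter_upwards [h1, h2] with x hx1 hx2 hxK
  have hint : x ∈ interior K := by
    by_contra hni
    exact hx2 ⟨subset_closure hxK, hni⟩
  exact ⟨hint, (hx1 hxK).differentiableAt (mem_interior_iff_mem_nhds.mp hint)⟩

theorem measurable_gradient (F : E → ℝ) : Measurable fun x => gradient F x := by
  change Measurable fun x => (InnerProductSpace.toDual ℝ E).symm (fderiv ℝ F x)
  exact (InnerProductSpace.toDual ℝ E).symm.continuous.measurable.comp (measurable_fderiv ℝ F)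

/-- A subgradient (relative to a neighbourhood) at a differentiability point is the gradient. -/
theorem eq_gradient_of_subgradient {F : E → ℝ} {x g y : E} {U : Set E} (hU : U ∈ 𝓝 x)
    (hgrad : HasGradientAt F g x) (hsub : ∀ z ∈ U, F x + ⟪y, z - x⟫ ≤ F z) : y = g := by
  have ht : Tendsto (fun _ : ℕ => y) atTop (𝓝 g) :=
    tendsto_subgradient (f := fun _ : ℕ => F) (g := fun _ : ℕ => y) hU (fun _ z hz => hsub z hz)
      (fun _ _ => tendsto_const_nhds) hgrad
  exact tendsto_nhds_unique tendsto_const_nhds ht

/-- A.e. convergence of subgradient selections of a sequence converging pointwise on `K`. -/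
theorem ae_tendsto_subgradient {K : Set E} (hKv : Convex ℝ K) (hKc : IsCompact K) {R : ℝ≥0}
    {f : ℕ → E → ℝ} {S : ℕ → E → E} {F : E → ℝ} (hF : LipschitzOnWith R F K)
    (hsub : ∀ n, ∀ᵐ x ∂((volume : Measure E).restrict K), ∀ y ∈ K, f n x + ⟪S n x, y - x⟫ ≤ f n y)
    (hlim : ∀ x ∈ K, Tendsto (fun n => f n x) atTop (𝓝 (F x))) :
    ∀ᵐ x ∂((volume : Measure E).restrict K), x ∈ interior K ∧
      HasGradientAt F (gradient F x) x ∧
      Tendsto (fun n => S n x) atTop (𝓝 (gradient F x)) ∧
      ∀ y ∈ K, F x + ⟪gradient F x, y - x⟫ ≤ F y := by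
  filter_upwards [ae_interior_differentiableAt hKv hKc hF, ae_all_iff.2 hsub]
    with x ⟨hint, hdiff⟩ hsubx
  have hgrad : HasGradientAt F (gradient F x) x := hdiff.hasGradientAt
  have hxK : x ∈ K := interior_subset hint
  have ht : Tendsto (fun n => S n x) atTop (𝓝 (gradient F x)) :=
    tendsto_subgradient (U := interior K) (mem_interior_iff_mem_nhds.mp (by simpa using hint))
      (fun n y hy => hsubx n y (interior_subset hy))
      (fun y hy => hlim y (interior_subset hy)) hgrad
  refine ⟨hint, hgrad, ht, fun y hy => ?_⟩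
  have t1 : Tendsto (fun n => f n x + ⟪S n x, y - x⟫) atTop
      (𝓝 (F x + ⟪gradient F x, y - x⟫)) :=
    (hlim x hxK).add (ht.inner tendsto_const_nhds)
  exact le_of_tendsto_of_tendsto' t1 (hlim y hy) (fun n => hsubx n y hy)

/-- Push-forward limit: if `S n → S₀` a.e. and `ρ.map (S n) = μ.map (q n)` with `q n → id`
pointwise `μ`-a.e., then `ρ.map S₀ = μ`. -/
theorem map_eq_of_tendsto {ρ μ : Measure E} [IsProbabilityMeasure ρ] [IsProbabilityMeasure μ]
    (q : ℕ → E → E) (hqm : ∀ n, Measurable (q n))
    (hq : ∀ᵐ y ∂μ, Tendsto (fun n => q n y) atTop (𝓝 y))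
    (S : ℕ → E → E) (hS : ∀ n, Measurable (S n)) (hmap : ∀ n, ρ.map (S n) = μ.map (q n))
    (S₀ : E → E) (hS₀ : Measurable S₀)
    (hlim : ∀ᵐ x ∂ρ, Tendsto (fun n => S n x) atTop (𝓝 (S₀ x))) :
    ρ.map S₀ = μ := by
  haveI : IsProbabilityMeasure (ρ.map S₀) := Measure.isProbabilityMeasure_map hS₀.aemeasurable
  refine ext_of_forall_integral_eq_of_IsFiniteMeasure (fun h => ?_)
  have e1 : Tendsto (fun n => ∫ x, h (S n x) ∂ρ) atTop (𝓝 (∫ x, h (S₀ x) ∂ρ)) := by
    refine tendsto_integral_of_dominated_convergence (fun _ => ‖h‖) (fun n => ?_)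
      (integrable_const _) (fun n => ?_) ?_
    · exact (h.continuous.measurable.comp (hS n)).aestronglyMeasurable
    · exact Eventually.of_forall (fun x => h.norm_coe_le_norm _)
    · filter_upwards [hlim] with x hx using (h.continuous.tendsto _).comp hx
  have e2 : Tendsto (fun n => ∫ y, h (q n y) ∂μ) atTop (𝓝 (∫ y, h y ∂μ)) := by
    refine tendsto_integral_of_dominated_convergence (fun _ => ‖h‖) (fun n => ?_)
      (integrable_const _) (fun n => ?_) ?_
    · exact (h.continuous.measurable.comp (hqm n)).aestronglyMeasurable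
    · exact Eventually.of_forall (fun x => h.norm_coe_le_norm _)
    · filter_upwards [hq] with y hy using (h.continuous.tendsto _).comp hy
  have e3 : ∀ n, ∫ x, h (S n x) ∂ρ = ∫ y, h (q n y) ∂μ := by
    intro n
    rw [← integral_map (hS n).aemeasurable h.continuous.aestronglyMeasurable, hmap n,
      integral_map (hqm n).aemeasurable h.continuous.aestronglyMeasurable]
  rw [integral_map hS₀.aemeasurable h.continuous.aestronglyMeasurable]
  refine tendsto_nhds_unique e1 ?_
  simpa only [e3] using e2

end Crest.Agent.S0109.Helper48
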