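import Mathlib

/-!
# Row 82 / S0109 — Step B (finite `s`): dual admissibility, gluing, telescoping

Abstract semi-discrete optimal partitions (`SDOpt`), their correlation, barycentres and
potentials; the gluing inequality (labelled form) and the telescoping estimate along the
displacement interpolation of a labelled finite coupling.
-/

set_option autoImplicit false
set_option linter.unusedSectionVars false
set_option linter.style.haveILetI false
open MeasureTheory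
open scoped ENNReal NNReal InnerProductSpace

namespace Crest.Agent.S0109.Helper67

variable {E : Type*} [NormedAddCommGroup E] [InnerProductSpace ℝ E] [FiniteDimensional ℝ E]
  [MeasurableSpace E] [BorelSpace E]

/-- The convex potential `x ↦ max_i (⟪x, y i⟫ - ψ i)`. -/
noncomputable def pot {ι : Type*} (y : ι → E) (ψ : ι → ℝ) (x : E) : ℝ :=
  ⨆ i, (⟪x, y i⟫_ℝ - ψ i)

/-- A semi-discrete optimal partition for the source `σ` and the atomic target
`∑ m i • δ_{y i}`: weights `ψ`, a cell map `τ` with measurable fibres which picks (for `σ`-a.e. `x`) a maximiser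
of `i ↦ ⟪x, y i⟫ - ψ i`, and cells of the prescribed masses. -/
structure SDOpt {ι : Type*} (σ : Measure E) (y : ι → E) (m : ι → ℝ) where
  ψ : ι → ℝ
  τ : E → ι
  meas : ∀ i, MeasurableSet (τ ⁻¹' {i})
  hmax : ∀ᵐ x ∂σ, ∀ j, ⟪x, y j⟫_ℝ - ψ j ≤ ⟪x, y (τ x)⟫_ℝ - ψ (τ x)
  hmass : ∀ i, σ (τ ⁻¹' {i}) = ENNReal.ofReal (m i)

section basic

variable {ι : Type*} [Fintype ι]

lemma le_pot (y : ι → E) (ψ : ι → ℝ) (x : E) (i : ι) : ⟪x, y i⟫_ℝ - ψ i ≤ pot y ψ x :=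
  le_ciSup (Set.finite_range fun i => ⟪x, y i⟫_ℝ - ψ i).bddAbove i

lemma continuous_pot [Nonempty ι] (y : ι → E) (ψ : ι → ℝ) : Continuous (pot y ψ) := by
  have h : pot y ψ = fun x => Finset.univ.sup' Finset.univ_nonempty
      (fun i => ⟪x, y i⟫_ℝ - ψ i) := by
    funext x
    rw [Finset.sup'_univ_eq_ciSup]
    rfl
  rw [h]
  apply Continuous.finset_sup'_apply
  intro i _
  fun_prop

lemma abs_pot_le [Nonempty ι] (y : ι → E) (ψ : ι → ℝ) (x : E) :
    |pot y ψ x| ≤ ‖x‖ * (∑ i, ‖y i‖) + ∑ i, |ψ i| := by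
  have hb : ∀ i, |⟪x, y i⟫_ℝ - ψ i| ≤ ‖x‖ * (∑ i, ‖y i‖) + ∑ i, |ψ i| := by
    intro i
    have h1 : |⟪x, y i⟫_ℝ| ≤ ‖x‖ * ‖y i‖ := abs_real_inner_le_norm x (y i)
    have h2 : ‖y i‖ ≤ ∑ i, ‖y i‖ :=
      Finset.single_le_sum (f := fun i => ‖y i‖) (fun i _ => norm_nonneg _) (Finset.mem_univ i)
    have h3 : |ψ i| ≤ ∑ i, |ψ i| :=
      Finset.single_le_sum (f := fun i => |ψ i|) (fun i _ => abs_nonneg _) (Finset.mem_univ i)
    have h4 : ‖x‖ * ‖y i‖ ≤ ‖x‖ * ∑ i, ‖y i‖ := mul_le_mul_of_nonneg_left h2 (norm_nonneg _)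
    calc |⟪x, y i⟫_ℝ - ψ i| ≤ |⟪x, y i⟫_ℝ| + |ψ i| := abs_sub _ _
      _ ≤ _ := by linarith
  rw [abs_le]
  constructor
  · obtain ⟨i⟩ := ‹Nonempty ι›
    have := le_pot y ψ x i
    have := (abs_le.mp (hb i)).1
    linarith
  · apply ciSup_le
    intro i
    exact (abs_le.mp (hb i)).2

variable {σ : Measure E} {y : ι → E} {m : ι → ℝ}

lemma SDOpt.nonempty (S : SDOpt σ y m) : Nonempty ι := ⟨S.τ 0⟩

lemma SDOpt.pot_eq (S : SDOpt σ y m) :
    ∀ᵐ x ∂σ, pot y S.ψ x = ⟪x, y (S.τ x)⟫_ℝ - S.ψ (S.τ x) := by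
  haveI := S.nonempty
  filter_upwards [S.hmax] with x hx
  exact le_antisymm (ciSup_le hx) (le_pot y S.ψ x (S.τ x))

lemma SDOpt.measurable_comp {β : Type*} [MeasurableSpace β] (S : SDOpt σ y m) (F : ι → β) :
    Measurable (fun x => F (S.τ x)) := by
  letI : MeasurableSpace ι := ⊤
  have hτ : Measurable S.τ := measurable_to_countable' S.meas
  exact (measurable_from_top (f := F)).comp hτ

end basic

section integrals

variable {ι : Type*} [Fintype ι] {σ : Measure E} [IsFiniteMeasure σ] {y : ι → E} {m : ι → ℝ}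
  {D : ℝ}

/-- The correlation `∫ ⟪x, T x⟫ dσ` of the partition. -/
noncomputable def SDOpt.corr (S : SDOpt σ y m) : ℝ := ∫ x, ⟪x, y (S.τ x)⟫_ℝ ∂σ

/-- The barycentre of the cell `i`. -/
noncomputable def SDOpt.bary (S : SDOpt σ y m) (i : ι) : E :=
  (m i)⁻¹ • ∫ x in S.τ ⁻¹' {i}, x ∂σ

lemma integrable_id_of_bdd (hσ : ∀ᵐ x ∂σ, ‖x‖ ≤ D) : Integrable (fun x : E => x) σ :=
  Integrable.of_bound aestronglyMeasurable_id D hσ

lemma integrable_of_continuous_of_bdd (hσ : ∀ᵐ x ∂σ, ‖x‖ ≤ D) {f : E → ℝ} (hf : Continuous f) :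
    Integrable f σ := by
  obtain ⟨C, hC⟩ := (isCompact_closedBall (0 : E) D).exists_bound_of_continuousOn hf.continuousOn
  refine Integrable.of_bound hf.aestronglyMeasurable C ?_
  filter_upwards [hσ] with x hx
  exact hC x (by simpa using hx)

lemma SDOpt.integrable_inner (S : SDOpt σ y m) (hσ : ∀ᵐ x ∂σ, ‖x‖ ≤ D) :
    Integrable (fun x => ⟪x, y (S.τ x)⟫_ℝ) σ := by
  refine Integrable.of_bound ?_ (D * ∑ i, ‖y i‖) ?_
  · exact (measurable_id.inner (S.measurable_comp y)).aestronglyMeasurable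
  · filter_upwards [hσ] with x hx
    have h1 : |⟪x, y (S.τ x)⟫_ℝ| ≤ ‖x‖ * ‖y (S.τ x)‖ := abs_real_inner_le_norm x _
    have h2 : ‖y (S.τ x)‖ ≤ ∑ i, ‖y i‖ :=
      Finset.single_le_sum (f := fun i => ‖y i‖) (fun i _ => norm_nonneg _) (Finset.mem_univ _)
    have h3 : 0 ≤ ∑ i, ‖y i‖ := Finset.sum_nonneg fun i _ => norm_nonneg _
    rw [Real.norm_eq_abs]
    calc |⟪x, y (S.τ x)⟫_ℝ| ≤ ‖x‖ * ‖y (S.τ x)‖ := h1
      _ ≤ ‖x‖ * ∑ i, ‖y i‖ := mul_le_mul_of_nonneg_left h2 (norm_nonneg _)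
      _ ≤ D * ∑ i, ‖y i‖ := mul_le_mul_of_nonneg_right hx h3

lemma SDOpt.integral_eq_sum (S : SDOpt σ y m) {F : Type*} [NormedAddCommGroup F]
    [NormedSpace ℝ F] {f : E → F} (hf : Integrable f σ) :
    ∫ x, f x ∂σ = ∑ i, ∫ x in S.τ ⁻¹' {i}, f x ∂σ := by
  rw [← integral_iUnion_fintype S.meas ?_ (fun i => hf.integrableOn)]
  · have : (⋃ i, S.τ ⁻¹' {i}) = Set.univ := by
      ext x; simp
    rw [this, setIntegral_univ]
  · intro i j hij
    rw [Function.onFun, Set.disjoint_left]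
    intro x hx hx'
    exact hij (by rw [← Set.mem_singleton_iff.mp hx, ← Set.mem_singleton_iff.mp hx'])

lemma SDOpt.real_cell (S : SDOpt σ y m) (hm : ∀ i, 0 ≤ m i) (i : ι) :
    σ.real (S.τ ⁻¹' {i}) = m i := by
  rw [Measure.real, S.hmass i, ENNReal.toReal_ofReal (hm i)]

lemma SDOpt.integral_comp_tau (S : SDOpt σ y m) (hm : ∀ i, 0 ≤ m i) (c : ι → ℝ) :
    ∫ x, c (S.τ x) ∂σ = ∑ i, m i * c i := by
  have hint : Integrable (fun x => c (S.τ x)) σ := by
    refine Integrable.of_bound (S.measurable_comp c).aestronglyMeasurable (∑ i, |c i|) ?_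
    refine Filter.Eventually.of_forall fun x => ?_
    rw [Real.norm_eq_abs]
    exact Finset.single_le_sum (f := fun i => |c i|) (fun i _ => abs_nonneg _) (Finset.mem_univ _)
  rw [S.integral_eq_sum hint]
  refine Finset.sum_congr rfl fun i _ => ?_
  have : ∫ x in S.τ ⁻¹' {i}, c (S.τ x) ∂σ = ∫ _x in S.τ ⁻¹' {i}, c i ∂σ := by
    refine setIntegral_congr_fun (S.meas i) fun x hx => ?_
    simp only [Set.mem_preimage, Set.mem_singleton_iff] at hx
    simp [hx]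
  rw [this, setIntegral_const, S.real_cell hm i, smul_eq_mul]

lemma SDOpt.setIntegral_inner (S : SDOpt σ y m) (hσ : ∀ᵐ x ∂σ, ‖x‖ ≤ D) (i : ι) (w : E) :
    ∫ x in S.τ ⁻¹' {i}, ⟪x, w⟫_ℝ ∂σ = ⟪∫ x in S.τ ⁻¹' {i}, x ∂σ, w⟫_ℝ := by
  have h := integral_inner (𝕜 := ℝ) (μ := σ.restrict (S.τ ⁻¹' {i}))
    (integrable_id_of_bdd hσ).integrableOn w
  rw [real_inner_comm, ← h]
  refine integral_congr_ae (Filter.Eventually.of_forall fun x => ?_)
  exact real_inner_comm _ _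

lemma SDOpt.inner_bary (S : SDOpt σ y m) (hm : ∀ i, 0 < m i) (i : ι) (w : E) :
    m i * ⟪S.bary i, w⟫_ℝ = ⟪∫ x in S.τ ⁻¹' {i}, x ∂σ, w⟫_ℝ := by
  rw [SDOpt.bary, real_inner_smul_left, ← mul_assoc, mul_inv_cancel₀ (hm i).ne', one_mul]

lemma SDOpt.corr_eq_sum (S : SDOpt σ y m) (hσ : ∀ᵐ x ∂σ, ‖x‖ ≤ D) :
    S.corr = ∑ i, ⟪∫ x in S.τ ⁻¹' {i}, x ∂σ, y i⟫_ℝ := by
  rw [SDOpt.corr, S.integral_eq_sum (S.integrable_inner hσ)]
  refine Finset.sum_congr rfl fun i _ => ?_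
  rw [← S.setIntegral_inner hσ i (y i)]
  refine setIntegral_congr_fun (S.meas i) fun x hx => ?_
  simp only [Set.mem_preimage, Set.mem_singleton_iff] at hx
  simp [hx]

lemma SDOpt.norm_bary_le (S : SDOpt σ y m) (hσ : ∀ᵐ x ∂σ, ‖x‖ ≤ D) (hm : ∀ i, 0 < m i)
    (i : ι) : ‖S.bary i‖ ≤ D := by
  have h1 : ‖∫ x in S.τ ⁻¹' {i}, x ∂σ‖ ≤ D * σ.real (S.τ ⁻¹' {i}) :=
    norm_setIntegral_le_of_norm_le_const_ae' (measure_lt_top σ _)
      (by filter_upwards [hσ] with x hx _ using hx)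
  rw [S.real_cell (fun i => (hm i).le) i] at h1
  rw [SDOpt.bary, norm_smul, Real.norm_eq_abs, abs_of_pos (inv_pos.mpr (hm i))]
  calc (m i)⁻¹ * ‖∫ x in S.τ ⁻¹' {i}, x ∂σ‖ ≤ (m i)⁻¹ * (D * m i) :=
        mul_le_mul_of_nonneg_left h1 (inv_pos.mpr (hm i)).le
    _ = D := by field_simp [(hm i).ne']

/-- Weak duality: the correlation is at most the dual value of any weights. -/
lemma SDOpt.corr_le (S : SDOpt σ y m) (hσ : ∀ᵐ x ∂σ, ‖x‖ ≤ D) (hm : ∀ i, 0 ≤ m i)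
    (ψ' : ι → ℝ) : S.corr ≤ ∫ x, pot y ψ' x ∂σ + ∑ i, m i * ψ' i := by
  haveI := S.nonempty
  have hpot : Integrable (pot y ψ') σ := integrable_of_continuous_of_bdd hσ (continuous_pot y ψ')
  have hc : Integrable (fun x => ψ' (S.τ x)) σ := by
    refine Integrable.of_bound (S.measurable_comp ψ').aestronglyMeasurable (∑ i, |ψ' i|) ?_
    refine Filter.Eventually.of_forall fun x => ?_
    rw [Real.norm_eq_abs]
    exact Finset.single_le_sum (f := fun i => |ψ' i|) (fun i _ => abs_nonneg _)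
      (Finset.mem_univ _)
  rw [← S.integral_comp_tau hm ψ', ← integral_add hpot hc, SDOpt.corr]
  refine integral_mono (S.integrable_inner hσ) (hpot.add hc) fun x => ?_
  have := le_pot y ψ' x (S.τ x)
  linarith

/-- Strong duality at the optimal weights. -/
lemma SDOpt.corr_eq (S : SDOpt σ y m) (hσ : ∀ᵐ x ∂σ, ‖x‖ ≤ D) (hm : ∀ i, 0 ≤ m i) :
    S.corr = ∫ x, pot y S.ψ x ∂σ + ∑ i, m i * S.ψ i := by
  haveI := S.nonempty
  have hpot : Integrable (pot y S.ψ) σ :=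
    integrable_of_continuous_of_bdd hσ (continuous_pot y S.ψ)
  have hc : Integrable (fun x => S.ψ (S.τ x)) σ := by
    refine Integrable.of_bound (S.measurable_comp S.ψ).aestronglyMeasurable (∑ i, |S.ψ i|) ?_
    refine Filter.Eventually.of_forall fun x => ?_
    rw [Real.norm_eq_abs]
    exact Finset.single_le_sum (f := fun i => |S.ψ i|) (fun i _ => abs_nonneg _)
      (Finset.mem_univ _)
  rw [← S.integral_comp_tau hm S.ψ, ← integral_add hpot hc, SDOpt.corr]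
  refine integral_congr_ae ?_
  filter_upwards [S.pot_eq] with x hx
  show ⟪x, y (S.τ x)⟫_ℝ = pot y S.ψ x + S.ψ (S.τ x)
  rw [hx]
  ring

/-- The correlation does not depend on the optimal partition. -/
lemma SDOpt.corr_indep (S S' : SDOpt σ y m) (hσ : ∀ᵐ x ∂σ, ‖x‖ ≤ D) (hm : ∀ i, 0 ≤ m i) :
    S.corr = S'.corr :=
  le_antisymm ((S.corr_le hσ hm S'.ψ).trans_eq (S'.corr_eq hσ hm).symm)
    ((S'.corr_le hσ hm S.ψ).trans_eq (S.corr_eq hσ hm).symm)

end integrals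

section twoSources

variable {ι : Type*} [Fintype ι] {ρ0 ρs : Measure E} [IsFiniteMeasure ρ0] [IsFiniteMeasure ρs]
  {y : ι → E} {m : ι → ℝ} {D : ℝ}

/-- **(a) Dual admissibility.** If `ρs = (1 + s g) ρ0` (in the integrated form `hlin`), the
difference of the optimal correlations is sandwiched between the two first variations. -/
theorem dual_diff (hD0 : ∀ᵐ x ∂ρ0, ‖x‖ ≤ D) (hDs : ∀ᵐ x ∂ρs, ‖x‖ ≤ D) (hm : ∀ i, 0 ≤ m i)
    {s : ℝ} {g : E → ℝ}
    (hlin : ∀ f : E → ℝ, Continuous f →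
      ∫ x, f x ∂ρs = ∫ x, f x ∂ρ0 + s * ∫ x, f x * g x ∂ρ0)
    (S0 : SDOpt ρ0 y m) (Ss : SDOpt ρs y m) :
    s * ∫ x, pot y Ss.ψ x * g x ∂ρ0 ≤ Ss.corr - S0.corr ∧
      Ss.corr - S0.corr ≤ s * ∫ x, pot y S0.ψ x * g x ∂ρ0 := by
  haveI := S0.nonempty
  have h1 := Ss.corr_le hDs hm S0.ψ
  have h2 := S0.corr_le hD0 hm Ss.ψ
  have e1 := S0.corr_eq hD0 hm
  have e2 := Ss.corr_eq hDs hm
  have l1 := hlin _ (continuous_pot y S0.ψ)
  have l2 := hlin _ (continuous_pot y Ss.ψ)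
  constructor <;> linarith

end twoSources

section glue

variable {ι κ J : Type*} [Fintype ι] [Fintype κ] [Fintype J] {σ : Measure E} [IsFiniteMeasure σ]
  {y : ι → E} {m : ι → ℝ} {z : κ → E} {n : κ → ℝ} {D : ℝ}

/-- **(b) Gluing**, labelled form. `J` labels the atoms of a coupling of the two atomic
targets: `a j`, `b j` are the two end atoms of the label `j` and `π j` its mass. -/
theorem glue (hσ : ∀ᵐ x ∂σ, ‖x‖ ≤ D) (hm : ∀ i, 0 < m i) (hn : ∀ k, 0 ≤ n k)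
    (S : SDOpt σ y m) (S' : SDOpt σ z n) (a : J → ι) (b : J → κ) (π : J → ℝ)
    (hπ : ∀ j, 0 ≤ π j)
    (hπm : ∀ c : ι → ℝ, ∑ j, π j * c (a j) = ∑ i, m i * c i)
    (hπn : ∀ c : κ → ℝ, ∑ j, π j * c (b j) = ∑ k, n k * c k) :
    S.corr + ∑ j, π j * ⟪S.bary (a j), z (b j) - y (a j)⟫_ℝ ≤ S'.corr := by
  haveI := S'.nonempty
  have hS : S.corr = ∑ j, π j * ⟪S.bary (a j), y (a j)⟫_ℝ := by
    rw [hπm (fun i => ⟪S.bary i, y i⟫_ℝ), S.corr_eq_sum hσ]
    exact Finset.sum_congr rfl fun i _ => (S.inner_bary hm i (y i)).symm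
  have hpot : Integrable (pot z S'.ψ) σ :=
    integrable_of_continuous_of_bdd hσ (continuous_pot z S'.ψ)
  have key : ∑ j, π j * (⟪S.bary (a j), z (b j)⟫_ℝ - S'.ψ (b j)) ≤ ∫ x, pot z S'.ψ x ∂σ := by
    rw [S.integral_eq_sum hpot]
    have h0 : ∑ i, ∫ x in S.τ ⁻¹' {i}, pot z S'.ψ x ∂σ
        = ∑ j, π j * ((m (a j))⁻¹ * ∫ x in S.τ ⁻¹' {a j}, pot z S'.ψ x ∂σ) := by
      rw [hπm (fun i => (m i)⁻¹ * ∫ x in S.τ ⁻¹' {i}, pot z S'.ψ x ∂σ)]
      refine Finset.sum_congr rfl fun i _ => ?_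
      rw [← mul_assoc, mul_inv_cancel₀ (hm i).ne', one_mul]
    rw [h0]
    refine Finset.sum_le_sum fun j _ => mul_le_mul_of_nonneg_left ?_ (hπ j)
    have hi1 : IntegrableOn (fun x => ⟪x, z (b j)⟫_ℝ) (S.τ ⁻¹' {a j}) σ :=
      (integrable_of_continuous_of_bdd hσ (by fun_prop)).integrableOn
    have hi2 : IntegrableOn (fun _ : E => S'.ψ (b j)) (S.τ ⁻¹' {a j}) σ :=
      (integrable_const _).integrableOn
    have h1 : ∫ x in S.τ ⁻¹' {a j}, (⟪x, z (b j)⟫_ℝ - S'.ψ (b j)) ∂σ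
        ≤ ∫ x in S.τ ⁻¹' {a j}, pot z S'.ψ x ∂σ :=
      setIntegral_mono (hi1.sub hi2) hpot.integrableOn fun x => le_pot z S'.ψ x (b j)
    have h2 : ∫ x in S.τ ⁻¹' {a j}, (⟪x, z (b j)⟫_ℝ - S'.ψ (b j)) ∂σ
        = m (a j) * ⟪S.bary (a j), z (b j)⟫_ℝ - m (a j) * S'.ψ (b j) := by
      rw [integral_sub hi1 hi2, S.setIntegral_inner hσ, setIntegral_const,
        S.real_cell (fun i => (hm i).le), S.inner_bary hm, smul_eq_mul]
    rw [h2] at h1
    have hpos := hm (a j)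
    calc ⟪S.bary (a j), z (b j)⟫_ℝ - S'.ψ (b j)
        = (m (a j))⁻¹ * (m (a j) * ⟪S.bary (a j), z (b j)⟫_ℝ - m (a j) * S'.ψ (b j)) := by
          field_simp
      _ ≤ (m (a j))⁻¹ * ∫ x in S.τ ⁻¹' {a j}, pot z S'.ψ x ∂σ :=
          mul_le_mul_of_nonneg_left h1 (inv_pos.mpr hpos).le
  have hS' := S'.corr_eq hσ hn
  have hn' := hπn S'.ψ
  have hsplit : ∑ j, π j * ⟪S.bary (a j), z (b j) - y (a j)⟫_ℝ
      = ∑ j, π j * (⟪S.bary (a j), z (b j)⟫_ℝ - S'.ψ (b j)) + ∑ j, π j * S'.ψ (b j)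
        - ∑ j, π j * ⟪S.bary (a j), y (a j)⟫_ℝ := by
    rw [← Finset.sum_add_distrib, ← Finset.sum_sub_distrib]
    refine Finset.sum_congr rfl fun j _ => ?_
    rw [inner_sub_right]
    ring
  linarith

end glue

section merged

open Classical

variable {J : Type*} [Fintype J]

/-- The finite set of distinct points of a labelled configuration `x : J → E`. -/
noncomputable def atoms (x : J → E) : Finset E := Finset.univ.image x

/-- The atom carrying the point `x j`. -/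
noncomputable def lab (x : J → E) (j : J) : ↥(atoms x) :=
  ⟨x j, Finset.mem_image_of_mem x (Finset.mem_univ j)⟩

/-- The mass of an atom of the merged configuration: the sum of the masses of its labels. -/
noncomputable def mass (π : J → ℝ) (x : J → E) (p : ↥(atoms x)) : ℝ :=
  ∑ j, if x j = (p : E) then π j else 0

omit [Fintype J] in
lemma mem_atoms_of_eq [Fintype J] {x : J → E} {u : E} (j : J) (h : x j = u) : u ∈ atoms x :=
  h ▸ Finset.mem_image_of_mem x (Finset.mem_univ j)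

lemma mem_atoms {x : J → E} {u : E} : u ∈ atoms x ↔ ∃ j, x j = u := by
  simp [atoms]

lemma mass_eq_sum_ite (π : J → ℝ) (x : J → E) (p : ↥(atoms x))
    [inst : ∀ j, Decidable (x j = (p : E))] :
    mass π x p = ∑ j, if x j = (p : E) then π j else 0 := by
  unfold mass
  refine Finset.sum_congr rfl fun j _ => ?_
  congr

lemma sum_lab (π : J → ℝ) (x : J → E) (c : ↥(atoms x) → ℝ) :
    ∑ j, π j * c (lab x j) = ∑ p, mass π x p * c p := by
  simp only [mass, Finset.sum_mul]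
  rw [Finset.sum_comm]
  refine Finset.sum_congr rfl fun j _ => ?_
  rw [Finset.sum_eq_single (lab x j)]
  · simp [lab]
  · intro p _ hp
    have : x j ≠ (p : E) := fun h => hp (Subtype.ext h.symm)
    simp [this]
  · intro h
    exact absurd (Finset.mem_univ _) h

lemma mass_pos (π : J → ℝ) (hπ : ∀ j, 0 < π j) (x : J → E) (p : ↥(atoms x)) :
    0 < mass π x p := by
  obtain ⟨j, -, hj⟩ := Finset.mem_image.mp p.2
  unfold mass
  refine Finset.sum_pos' (fun j _ => ?_) ⟨j, Finset.mem_univ j, by simp [hj, hπ j]⟩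
  split_ifs
  · exact (hπ j).le
  · exact le_rfl

lemma sum_mass (π : J → ℝ) (x : J → E) : ∑ p, mass π x p = ∑ j, π j := by
  have := sum_lab π x (fun _ => 1)
  simpa using this.symm

/-- An optimal partition for the merged atomic measure of a labelled configuration. -/
abbrev MOpt (σ : Measure E) (π : J → ℝ) (x : J → E) :=
  SDOpt σ (fun p : ↥(atoms x) => (p : E)) (mass π x)

/-- Gluing for two merged configurations with the same labels. -/
theorem glue_merged {σ : Measure E} [IsFiniteMeasure σ] {D : ℝ} (hσ : ∀ᵐ x ∂σ, ‖x‖ ≤ D)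
    (π : J → ℝ) (hπ : ∀ j, 0 < π j) (x x' : J → E) (S : MOpt σ π x) (S' : MOpt σ π x') :
    S.corr + ∑ j, π j * ⟪S.bary (lab x j), x' j - x j⟫_ℝ ≤ S'.corr :=
  glue hσ (mass_pos π hπ x) (fun p => (mass_pos π hπ x' p).le) S S' (lab x) (lab x') π
    (fun j => (hπ j).le) (sum_lab π x) (sum_lab π x')

end merged

section telescope

open Classical

variable {J : Type*} [Fintype J] {ρ0 ρs : Measure E} [IsFiniteMeasure ρ0] [IsFiniteMeasure ρs]
  {D : ℝ}

/-- Weighted Cauchy–Schwarz for labelled sums of inner products. -/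
lemma sum_inner_le_sqrt (π : J → ℝ) (hπ : ∀ j, 0 ≤ π j) (u v : J → E) :
    ∑ j, π j * ⟪u j, v j⟫_ℝ
      ≤ Real.sqrt (∑ j, π j * ‖u j‖ ^ 2) * Real.sqrt (∑ j, π j * ‖v j‖ ^ 2) := by
  have h1 : ∑ j, π j * ⟪u j, v j⟫_ℝ
      ≤ ∑ j, (Real.sqrt (π j) * ‖u j‖) * (Real.sqrt (π j) * ‖v j‖) := by
    refine Finset.sum_le_sum fun j _ => ?_
    have h := real_inner_le_norm (u j) (v j)
    have hs : Real.sqrt (π j) * Real.sqrt (π j) = π j := Real.mul_self_sqrt (hπ j)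
    calc π j * ⟪u j, v j⟫_ℝ ≤ π j * (‖u j‖ * ‖v j‖) := mul_le_mul_of_nonneg_left h (hπ j)
      _ = (Real.sqrt (π j) * Real.sqrt (π j)) * (‖u j‖ * ‖v j‖) := by rw [hs]
      _ = (Real.sqrt (π j) * ‖u j‖) * (Real.sqrt (π j) * ‖v j‖) := by ring
  have h2 := Real.sum_mul_le_sqrt_mul_sqrt Finset.univ (fun j => Real.sqrt (π j) * ‖u j‖)
    (fun j => Real.sqrt (π j) * ‖v j‖)
  have e1 : ∀ w : J → E, ∑ j, (Real.sqrt (π j) * ‖w j‖) ^ 2 = ∑ j, π j * ‖w j‖ ^ 2 := by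
    intro w
    refine Finset.sum_congr rfl fun j _ => ?_
    rw [mul_pow, Real.sq_sqrt (hπ j)]
  rw [e1 u, e1 v] at h2
  exact h1.trans h2

/-- Telescoping along a chain of labelled configurations with constant step `v / n`
(correlation form, fixed `n`).  `hexA` provides at every merged configuration a pair of optimal
partitions (for `ρ0` and for `ρs`) whose barycentres are `B`-close (Step A). -/
theorem telescope_core (hD0 : ∀ᵐ x ∂ρ0, ‖x‖ ≤ D) (hDs : ∀ᵐ x ∂ρs, ‖x‖ ≤ D)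
    (π : J → ℝ) (hπ : ∀ j, 0 < π j) {B : ℝ} (hB : 0 ≤ B)
    (hexA : ∀ x : J → E, ∃ (S0 : MOpt ρ0 π x) (Ss : MOpt ρs π x),
      ∑ p, mass π x p * ‖Ss.bary p - S0.bary p‖ ^ 2 ≤ B ^ 2)
    (n : ℕ) (hn : 0 < n) (X : ℕ → J → E) (v : J → E)
    (hstep : ∀ k j, X (k + 1) j - X k j = (1 / (n : ℝ)) • v j)
    (S0y : MOpt ρ0 π (X 0)) (Ssy : MOpt ρs π (X 0))
    (S0z : MOpt ρ0 π (X n)) (Ssz : MOpt ρs π (X n)) :
    (Ssz.corr - S0z.corr) - (Ssy.corr - S0y.corr)
      ≤ B * Real.sqrt (∑ j, π j * ‖v j‖ ^ 2) + 2 * D * (∑ j, π j * ‖v j‖) / n := by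
  have hπ0 : ∀ j, 0 ≤ π j := fun j => (hπ j).le
  have hmp : ∀ x : J → E, ∀ p, 0 < mass π x p := mass_pos π hπ
  have hm0 : ∀ x : J → E, ∀ p, 0 ≤ mass π x p := fun x p => (hmp x p).le
  have hnR : (0 : ℝ) < n := by exact_mod_cast hn
  set c : ℝ := Real.sqrt (∑ j, π j * ‖v j‖ ^ 2) with hc
  set L : ℝ := ∑ j, π j * ‖v j‖ with hL
  -- choose optimal partitions at all levels
  choose T0 Ts hbound using fun k : ℕ => hexA (X k)
  let U : ℕ → ℝ := fun k => ∑ j, π j * ⟪(T0 k).bary (lab (X k) j), v j⟫_ℝ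
  let W : ℕ → ℝ := fun k => ∑ j, π j * ⟪(Ts k).bary (lab (X k) j), v j⟫_ℝ
  let a : ℕ → ℝ := fun k => (Ts k).corr - (T0 k).corr
  have hup : ∀ k, (T0 k).corr + (1 / (n : ℝ)) * U k ≤ (T0 (k + 1)).corr := by
    intro k
    have h := glue_merged hD0 π hπ (X k) (X (k + 1)) (T0 k) (T0 (k + 1))
    have e : ∑ j, π j * ⟪(T0 k).bary (lab (X k) j), X (k + 1) j - X k j⟫_ℝ
        = (1 / (n : ℝ)) * U k := by
      simp only [U, Finset.mul_sum]
      refine Finset.sum_congr rfl fun j _ => ?_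
      rw [hstep k j, real_inner_smul_right]
      ring
    rw [e] at h
    exact h
  have hdown : ∀ k, (Ts (k + 1)).corr - (1 / (n : ℝ)) * W (k + 1) ≤ (Ts k).corr := by
    intro k
    have h := glue_merged hDs π hπ (X (k + 1)) (X k) (Ts (k + 1)) (Ts k)
    have e : ∑ j, π j * ⟪(Ts (k + 1)).bary (lab (X (k + 1)) j), X k j - X (k + 1) j⟫_ℝ
        = - ((1 / (n : ℝ)) * W (k + 1)) := by
      simp only [W, Finset.mul_sum]
      rw [← Finset.sum_neg_distrib]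
      refine Finset.sum_congr rfl fun j _ => ?_
      rw [← neg_sub (X (k + 1) j) (X k j), hstep k j, inner_neg_right, real_inner_smul_right]
      ring
    rw [e] at h
    linarith
  have hstepa : ∀ k, a (k + 1) ≤ a k + (1 / (n : ℝ)) * (W (k + 1) - U k) := by
    intro k
    have h1 := hup k
    have h2 := hdown k
    simp only [a]
    rw [mul_sub]
    linarith
  have htel : ∀ N : ℕ, a N ≤ a 0 + (1 / (n : ℝ)) * ∑ k ∈ Finset.range N, (W (k + 1) - U k) := by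
    intro N
    induction N with
    | zero => simp
    | succ N ih =>
      rw [Finset.sum_range_succ, mul_add]
      have := hstepa N
      linarith
  have hWU : ∀ k, W k - U k ≤ B * c := by
    intro k
    have e : W k - U k
        = ∑ j, π j * ⟪(Ts k).bary (lab (X k) j) - (T0 k).bary (lab (X k) j), v j⟫_ℝ := by
      simp only [W, U]
      rw [← Finset.sum_sub_distrib]
      refine Finset.sum_congr rfl fun j _ => ?_
      rw [inner_sub_left]
      ring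
    rw [e]
    refine (sum_inner_le_sqrt π hπ0 _ v).trans ?_
    refine mul_le_mul_of_nonneg_right ?_ (Real.sqrt_nonneg _)
    have h1 := sum_lab π (X k) (fun p => ‖(Ts k).bary p - (T0 k).bary p‖ ^ 2)
    rw [h1]
    calc Real.sqrt (∑ p, mass π (X k) p * ‖(Ts k).bary p - (T0 k).bary p‖ ^ 2)
        ≤ Real.sqrt (B ^ 2) := Real.sqrt_le_sqrt (hbound k)
      _ = B := Real.sqrt_sq hB
  have hW : ∀ k, |W k| ≤ D * L := by
    intro k
    simp only [W, hL, Finset.mul_sum]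
    refine (Finset.abs_sum_le_sum_abs _ _).trans (Finset.sum_le_sum fun j _ => ?_)
    have hb := (Ts k).norm_bary_le hDs (hmp (X k)) (lab (X k) j)
    have h1 : |⟪(Ts k).bary (lab (X k) j), v j⟫_ℝ| ≤ ‖(Ts k).bary (lab (X k) j)‖ * ‖v j‖ :=
      abs_real_inner_le_norm _ _
    rw [abs_mul, abs_of_nonneg (hπ0 j)]
    calc π j * |⟪(Ts k).bary (lab (X k) j), v j⟫_ℝ|
        ≤ π j * (‖(Ts k).bary (lab (X k) j)‖ * ‖v j‖) := mul_le_mul_of_nonneg_left h1 (hπ0 j)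
      _ ≤ π j * (D * ‖v j‖) :=
          mul_le_mul_of_nonneg_left (mul_le_mul_of_nonneg_right hb (norm_nonneg _)) (hπ0 j)
      _ = D * (π j * ‖v j‖) := by ring
  have hsum : ∑ k ∈ Finset.range n, (W (k + 1) - U k)
      = ∑ k ∈ Finset.range n, (W k - U k) + (W n - W 0) := by
    rw [← Finset.sum_range_sub W n, ← Finset.sum_add_distrib]
    refine Finset.sum_congr rfl fun k _ => ?_
    ring
  have hsum_le : ∑ k ∈ Finset.range n, (W (k + 1) - U k) ≤ n * (B * c) + 2 * D * L := by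
    rw [hsum]
    have h1 : ∑ k ∈ Finset.range n, (W k - U k) ≤ ∑ _k ∈ Finset.range n, B * c :=
      Finset.sum_le_sum fun k _ => hWU k
    rw [Finset.sum_const, Finset.card_range, nsmul_eq_mul] at h1
    have h2 := (abs_le.mp (hW n)).2
    have h3 := (abs_le.mp (hW 0)).1
    linarith
  have e1 : Ssz.corr = (Ts n).corr := Ssz.corr_indep (Ts n) hDs (hm0 (X n))
  have e2 : S0z.corr = (T0 n).corr := S0z.corr_indep (T0 n) hD0 (hm0 (X n))
  have e3 : Ssy.corr = (Ts 0).corr := Ssy.corr_indep (Ts 0) hDs (hm0 (X 0))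
  have e4 : S0y.corr = (T0 0).corr := S0y.corr_indep (T0 0) hD0 (hm0 (X 0))
  have han := htel n
  have hmul : (1 / (n : ℝ)) * ∑ k ∈ Finset.range n, (W (k + 1) - U k)
      ≤ (1 / (n : ℝ)) * (n * (B * c) + 2 * D * L) :=
    mul_le_mul_of_nonneg_left hsum_le (by positivity)
  have hfin : (1 / (n : ℝ)) * (n * (B * c) + 2 * D * L) = B * c + 2 * D * L / n := by
    field_simp
  have ha_n : a n = Ssz.corr - S0z.corr := by simp only [a]; rw [e1, e2]
  have ha_0 : a 0 = Ssy.corr - S0y.corr := by simp only [a]; rw [e3, e4]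
  linarith

/-- **(c) Telescoping** along the displacement interpolation of a labelled coupling
(correlation form, every `n`, before `n → ∞`). -/
theorem telescope_n (hD0 : ∀ᵐ x ∂ρ0, ‖x‖ ≤ D) (hDs : ∀ᵐ x ∂ρs, ‖x‖ ≤ D)
    (π : J → ℝ) (hπ : ∀ j, 0 < π j) {B : ℝ} (hB : 0 ≤ B)
    (hexA : ∀ x : J → E, ∃ (S0 : MOpt ρ0 π x) (Ss : MOpt ρs π x),
      ∑ p, mass π x p * ‖Ss.bary p - S0.bary p‖ ^ 2 ≤ B ^ 2)
    (n : ℕ) (hn : 0 < n) (y z : J → E)
    (S0y : MOpt ρ0 π y) (Ssy : MOpt ρs π y) (S0z : MOpt ρ0 π z) (Ssz : MOpt ρs π z) :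
    (Ssz.corr - S0z.corr) - (Ssy.corr - S0y.corr)
      ≤ B * Real.sqrt (∑ j, π j * ‖z j - y j‖ ^ 2)
        + 2 * D * (∑ j, π j * ‖z j - y j‖) / n := by
  have hnR : (n : ℝ) ≠ 0 := by exact_mod_cast hn.ne'
  let X : ℕ → J → E := fun k j => y j + ((k : ℝ) / n) • (z j - y j)
  have hstep : ∀ k j, X (k + 1) j - X k j = (1 / (n : ℝ)) • (z j - y j) := by
    intro k j
    simp only [X]
    rw [add_sub_add_left_eq_sub, ← sub_smul]
    congr 1
    push_cast
    field_simp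
    ring
  have hX0 : X 0 = y := by
    funext j
    simp [X]
  have hXn : X n = z := by
    funext j
    simp only [X]
    rw [div_self hnR, one_smul]
    abel
  have key : ∀ (y' z' : J → E), X 0 = y' → X n = z' →
      ∀ (S0y : MOpt ρ0 π y') (Ssy : MOpt ρs π y') (S0z : MOpt ρ0 π z') (Ssz : MOpt ρs π z'),
      (Ssz.corr - S0z.corr) - (Ssy.corr - S0y.corr)
      ≤ B * Real.sqrt (∑ j, π j * ‖z j - y j‖ ^ 2)
        + 2 * D * (∑ j, π j * ‖z j - y j‖) / n := by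
    intro y' z' h0 h1 S0y Ssy S0z Ssz
    subst h0
    subst h1
    exact telescope_core hD0 hDs π hπ hB hexA n hn X (fun j => z j - y j) hstep
      S0y Ssy S0z Ssz
  exact key y z hX0 hXn S0y Ssy S0z Ssz

/-- **Step B, mixed second difference** (msg 474 B(c) after `n → ∞`, correlation form): for a
labelled coupling `π` with end points `y j`, `z j` and optimal partitions of the two merged end
configurations for the two sources. -/
theorem telescope_corr (hD0 : ∀ᵐ x ∂ρ0, ‖x‖ ≤ D) (hDs : ∀ᵐ x ∂ρs, ‖x‖ ≤ D)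
    (π : J → ℝ) (hπ : ∀ j, 0 < π j) {B : ℝ} (hB : 0 ≤ B)
    (hexA : ∀ x : J → E, ∃ (S0 : MOpt ρ0 π x) (Ss : MOpt ρs π x),
      ∑ p, mass π x p * ‖Ss.bary p - S0.bary p‖ ^ 2 ≤ B ^ 2)
    (y z : J → E)
    (S0y : MOpt ρ0 π y) (Ssy : MOpt ρs π y) (S0z : MOpt ρ0 π z) (Ssz : MOpt ρs π z) :
    (Ssz.corr - S0z.corr) - (Ssy.corr - S0y.corr)
      ≤ B * Real.sqrt (∑ j, π j * ‖z j - y j‖ ^ 2) := by
  refine le_of_forall_pos_lt_add fun ε hε => ?_
  set M : ℝ := 2 * D * (∑ j, π j * ‖z j - y j‖) with hM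
  obtain ⟨n, hn⟩ := exists_nat_gt (|M| / ε)
  have hn0 : (0 : ℝ) < n := lt_of_le_of_lt (div_nonneg (abs_nonneg _) hε.le) hn
  have hnpos : 0 < n := by exact_mod_cast hn0
  have h := telescope_n hD0 hDs π hπ hB hexA n hnpos y z S0y Ssy S0z Ssz
  have h2 : M / n < ε := by
    rw [div_lt_iff₀ hn0]
    have := (div_lt_iff₀ hε).mp hn
    calc M ≤ |M| := le_abs_self M
      _ < n * ε := this
      _ = ε * n := mul_comm _ _
  linarith

end telescope

end Crest.Agent.S0109.Helper67
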