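import Mathlib
import Crest.Prelude.Def_QuadraticTransport
import Crest.Agent.Lib.S0109.Defs
import Crest.Agent.Lib.S0109.Basic
import Crest.Agent.Lib.S0109.Exist
import Crest.Agent.Lib.S0109.Helper67StepB

/-!
# Row 82 / S0109 — adapter from the abstract Step B core (`Helper67StepB`) to the official
interface (`IsPotMap`, finite sets of atoms, couplings as measures).
-/

set_option autoImplicit false
set_option linter.unusedSectionVars false
set_option linter.style.haveILetI false
set_option linter.unusedVariables false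
open MeasureTheory Filter Topology
open scoped ENNReal NNReal InnerProductSpace
open Crest.AnalysisR.OT

namespace Crest.Agent.S0109.Helper67

open Classical

variable {d : ℕ} {J : Type*} [Fintype J]

/-- The merged atomic measure of a labelled configuration. -/
noncomputable def mergedMeasure (π : J → ℝ) (x : J → E d) : Measure (E d) :=
  ∑ p : ↥(atoms x), ENNReal.ofReal (mass π x p) • Measure.dirac (p : E d)

lemma mergedMeasure_compl (π : J → ℝ) (x : J → E d) :
    mergedMeasure π x ((atoms x : Finset (E d)) : Set (E d))ᶜ = 0 := by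
  unfold mergedMeasure
  rw [Measure.coe_finsetSum, Finset.sum_apply]
  refine Finset.sum_eq_zero fun p _ => ?_
  rw [Measure.smul_apply, Measure.dirac_apply' _ (Finset.measurableSet _).compl]
  simp

lemma mergedMeasure_singleton (π : J → ℝ) (x : J → E d) (p : ↥(atoms x)) :
    mergedMeasure π x {(p : E d)} = ENNReal.ofReal (mass π x p) := by
  unfold mergedMeasure
  rw [Measure.coe_finsetSum, Finset.sum_apply, Finset.sum_eq_single p]
  · rw [Measure.smul_apply, Measure.dirac_apply' _ (measurableSet_singleton _)]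
    simp
  · intro q _ hq
    rw [Measure.smul_apply, Measure.dirac_apply' _ (measurableSet_singleton _)]
    have : (q : E d) ∉ ({(p : E d)} : Set (E d)) := by
      simp only [Set.mem_singleton_iff]
      exact fun h => hq (Subtype.ext h)
    simp [this]
  · intro h
    exact absurd (Finset.mem_univ _) h

lemma mergedMeasure_null (π : J → ℝ) (x : J → E d) {u : E d} (hu : u ∉ atoms x) :
    mergedMeasure π x {u} = 0 := by
  refine measure_mono_null ?_ (mergedMeasure_compl π x)
  intro w hw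
  rw [Set.mem_singleton_iff] at hw
  subst hw
  simpa using hu

lemma isProbabilityMeasure_mergedMeasure (π : J → ℝ) (hπ : ∀ j, 0 < π j) (hsum : ∑ j, π j = 1)
    (x : J → E d) : IsProbabilityMeasure (mergedMeasure π x) := by
  constructor
  unfold mergedMeasure
  rw [Measure.coe_finsetSum, Finset.sum_apply]
  have : ∀ p : ↥(atoms x), (ENNReal.ofReal (mass π x p) • Measure.dirac (p : E d)) Set.univ
      = ENNReal.ofReal (mass π x p) := by
    intro p
    rw [Measure.smul_apply]
    simp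
  rw [Finset.sum_congr rfl fun p _ => this p,
    ← ENNReal.ofReal_sum_of_nonneg fun p _ => (mass_pos π hπ x p).le, sum_mass, hsum]
  simp

lemma finset_null {α : Type*} [MeasurableSpace α] (μ : Measure α) (s : Finset α)
    (h : ∀ u ∈ s, μ {u} = 0) : μ (s : Set α) = 0 := by
  have : (s : Set α) = ⋃ u ∈ (s : Set α), {u} := by
    ext u; simp
  rw [this]
  exact (measure_biUnion_null_iff s.countable_toSet).2 h

/-- Conversion of an official Laguerre map into an abstract optimal partition of a merged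
labelled configuration (atoms of positive mass only). -/
theorem mopt_of_isPotMap [Nonempty J] (σ μ' : Measure (E d)) [IsFiniteMeasure σ]
    (S : Finset (E d)) (ψ : E d → ℝ) (T : E d → E d) (h : IsPotMap σ μ' S ψ T)
    (π : J → ℝ) (x : J → E d) (hsub : ∀ j, x j ∈ S)
    (hmass : ∀ p : ↥(atoms x), μ' {(p : E d)} = ENNReal.ofReal (mass π x p))
    (hnull : ∀ u ∈ S, u ∉ atoms x → μ' {u} = 0) :
    ∃ M : MOpt σ π x, M.corr = corr σ T ∧
      ∀ p : ↥(atoms x), ∫ w in M.τ ⁻¹' {p}, w ∂σ = ∫ w in T ⁻¹' {(p : E d)}, w ∂σ := by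
  obtain ⟨hTm, hmap, hae⟩ := h
  obtain ⟨j₀⟩ := ‹Nonempty J›
  let p₀ : ↥(atoms x) := lab x j₀
  let F : E d → ↥(atoms x) := fun u => if hu : u ∈ atoms x then ⟨u, hu⟩ else p₀
  let τ : E d → ↥(atoms x) := fun w => F (T w)
  have hsubS : ∀ q : ↥(atoms x), (q : E d) ∈ S := by
    intro q
    obtain ⟨j, hj⟩ := mem_atoms.mp q.2
    rw [← hj]
    exact hsub j
  have hTat : ∀ᵐ w ∂σ, T w ∈ atoms x := by
    have hnull' : σ (T ⁻¹' ((S.filter (fun u => u ∉ atoms x) : Finset (E d)) : Set (E d)))
        = 0 := by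
      rw [← Measure.map_apply hTm (Finset.measurableSet _), hmap]
      refine finset_null μ' _ fun u hu => ?_
      rw [Finset.mem_filter] at hu
      exact hnull u hu.1 hu.2
    filter_upwards [hae, measure_eq_zero_iff_ae_notMem.mp hnull'] with w hw hw2
    by_contra hcon
    exact hw2 (by simp [hw.1, hcon])
  have hτT : ∀ᵐ w ∂σ, ((τ w : ↥(atoms x)) : E d) = T w := by
    filter_upwards [hTat] with w hw
    simp [τ, F, hw]
  have hF : ∀ p, MeasurableSet (F ⁻¹' {p}) := by
    intro p
    have e : F ⁻¹' {p} = {(p : E d)} ∪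
        (if p = p₀ then ((atoms x : Finset (E d)) : Set (E d))ᶜ else ∅) := by
      ext u
      by_cases hu : u ∈ atoms x
      · by_cases hp : p = p₀
        · simp [F, hu, hp, Subtype.ext_iff]
        · simp [F, hu, hp, Subtype.ext_iff]
      · have hne : u ≠ (p : E d) := fun h => hu (h ▸ p.2)
        by_cases hp : p = p₀
        · simp [F, hu, hp]
        · have hp' : ¬ p₀ = p := fun h => hp h.symm
          simp [F, hu, hp, hp', hne]
    rw [e]
    refine (measurableSet_singleton _).union ?_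
    split_ifs
    · exact (Finset.measurableSet _).compl
    · exact MeasurableSet.empty
  have hτm : ∀ p, MeasurableSet (τ ⁻¹' {p}) := fun p => hTm (hF p)
  have hset : ∀ p : ↥(atoms x), (τ ⁻¹' {p} : Set (E d)) =ᵐ[σ] T ⁻¹' {(p : E d)} := by
    intro p
    filter_upwards [hτT] with w hw
    show (w ∈ τ ⁻¹' {p}) = (w ∈ T ⁻¹' {(p : E d)})
    apply propext
    simp only [Set.mem_preimage, Set.mem_singleton_iff]
    constructor
    · intro h
      rw [← hw, h]
    · intro h
      exact Subtype.ext (hw.trans h)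
  refine ⟨⟨fun p => ψ (p : E d), τ, hτm, ?_, ?_⟩, ?_, ?_⟩
  · filter_upwards [hae, hτT] with w hw hw2 q
    show ⟪w, (q : E d)⟫_ℝ - ψ q ≤ ⟪w, ((τ w : ↥(atoms x)) : E d)⟫_ℝ - ψ (τ w)
    rw [hw2]
    exact hw.2 q (hsubS q)
  · intro p
    rw [measure_congr (hset p), ← Measure.map_apply hTm (measurableSet_singleton _), hmap,
      hmass p]
  · show ∫ w, ⟪w, ((τ w : ↥(atoms x)) : E d)⟫_ℝ ∂σ = ∫ w, inner ℝ w (T w) ∂σ
    refine integral_congr_ae ?_
    filter_upwards [hτT] with w hw
    rw [hw]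
  · intro p
    exact setIntegral_congr_set (hset p)

/-- At every merged configuration there is a pair of optimal partitions (for `ρ` and for
`(1+g)ρ`) whose barycentres are close, by `exists_potMap` and the centroid stability bound. -/
theorem exists_pair [Nonempty J] (K : Set (E d)) (hKc : IsCompact K)
    (hKi : (interior K).Nonempty) (CA : ℝ)
    (g : E d → ℝ) (hgm : Measurable g) (hgb : ∀ x ∈ K, |g x| ≤ 1 / 2)
    (hg0 : ∫ x, g x ∂(uniformProbOn K) = 0)
    (hCA : ∀ (μ : Measure (E d)), IsProbabilityMeasure μ →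
      ∀ (S : Finset (E d)) (ψ0 ψg : E d → ℝ) (T0 Tg : E d → E d),
        IsPotMap (uniformProbOn K) μ S ψ0 T0 → IsPotMap (srcG K g) μ S ψg Tg →
        ∑ y ∈ S, (μ.real {y})⁻¹ *
            ‖∫ x in Tg ⁻¹' {y}, x ∂(srcG K g) - ∫ x in T0 ⁻¹' {y}, x ∂(uniformProbOn K)‖ ^ 2
          ≤ CA * ∫ x, g x ^ 2 ∂(uniformProbOn K))
    (π : J → ℝ) (hπ : ∀ j, 0 < π j) (hsum : ∑ j, π j = 1) (x : J → E d) :
    ∃ (S0 : MOpt (uniformProbOn K) π x) (Ss : MOpt (srcG K g) π x),
      ∑ p, mass π x p * ‖Ss.bary p - S0.bary p‖ ^ 2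
        ≤ CA * ∫ x, g x ^ 2 ∂(uniformProbOn K) := by
  haveI := isProbabilityMeasure_uniformProbOn hKc hKi
  haveI := isProbabilityMeasure_srcG hKc hKi hgm hgb hg0
  haveI := isProbabilityMeasure_mergedMeasure π hπ hsum x
  have hS : mergedMeasure π x ((atoms x : Finset (E d)) : Set (E d))ᶜ = 0 :=
    mergedMeasure_compl π x
  obtain ⟨ψ0, T0, h0⟩ := exists_potMap K hKc hKi (fun _ => (0 : ℝ)) measurable_const
    (fun x _ => by norm_num) (by simp) (mergedMeasure π x) (atoms x) hS
  rw [srcG_zero] at h0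
  obtain ⟨ψg, Tg, hg'⟩ := exists_potMap K hKc hKi g hgm hgb hg0 (mergedMeasure π x) (atoms x) hS
  have hcs := hCA (mergedMeasure π x) inferInstance (atoms x) ψ0 ψg T0 Tg h0 hg'
  obtain ⟨M0, -, hM0⟩ := mopt_of_isPotMap (uniformProbOn K) (mergedMeasure π x) (atoms x) ψ0 T0
    h0 π x (fun j => mem_atoms_of_eq j rfl) (mergedMeasure_singleton π x)
    (fun u _ hu => mergedMeasure_null π x hu)
  obtain ⟨Mg, -, hMg⟩ := mopt_of_isPotMap (srcG K g) (mergedMeasure π x) (atoms x) ψg Tg
    hg' π x (fun j => mem_atoms_of_eq j rfl) (mergedMeasure_singleton π x)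
    (fun u _ hu => mergedMeasure_null π x hu)
  refine ⟨M0, Mg, le_trans (le_of_eq ?_) hcs⟩
  rw [← Finset.sum_coe_sort (atoms x) (fun y => ((mergedMeasure π x).real {y})⁻¹ *
    ‖∫ x in Tg ⁻¹' {y}, x ∂(srcG K g) - ∫ x in T0 ⁻¹' {y}, x ∂(uniformProbOn K)‖ ^ 2)]
  refine Finset.sum_congr rfl fun p _ => ?_
  have hmp := mass_pos π hπ x p
  have hreal : (mergedMeasure π x).real {(p : E d)} = mass π x p := by
    rw [Measure.real, mergedMeasure_singleton, ENNReal.toReal_ofReal hmp.le]
  rw [hreal, SDOpt.bary, SDOpt.bary, hMg p, hM0 p, ← smul_sub, norm_smul, mul_pow,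
    Real.norm_eq_abs, abs_of_pos (inv_pos.mpr hmp)]
  field_simp

lemma real_eq_sum_of_finite_support {α : Type*} [MeasurableSpace α] [MeasurableSingletonClass α]
    (π : Measure α) [IsFiniteMeasure π] (P : Finset α) (hP : π ((P : Set α))ᶜ = 0) (A : Set α) :
    π.real A = ∑ p ∈ P, if p ∈ A then π.real {p} else 0 := by
  have hae : ∀ᵐ p ∂π, p ∈ (P : Set α) := by
    rw [ae_iff]
    exact hP
  have h1 : π A = π ((P.filter (fun p => p ∈ A) : Finset α) : Set α) := by
    apply measure_congr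
    filter_upwards [hae] with p hp
    show (p ∈ A) = (p ∈ ((P.filter (fun p => p ∈ A) : Finset α) : Set α))
    apply propext
    simp only [Finset.coe_filter, Set.mem_ofPred_eq]
    exact ⟨fun h => ⟨hp, h⟩, fun h => h.2⟩
  rw [Measure.real, h1, ← Measure.real, ← sum_measureReal_singleton, Finset.sum_filter]

/-- **Mixed second difference of the maximal correlation** (Step B): the exact statement of the
stub `mixed_diff_le` of package P6a, proved from the statement of `centroid_stability` (taken as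
the hypothesis `hcs`, so that this module does not depend on package P5), `exists_potMap` and the
abstract core `telescope_corr`.  In `Glue.lean`:
`mixed_diff_le K hKc hKv hKi := Helper67.mixed_diff_le_of_centroid K hKc hKv hKi
  (centroid_stability K hKc hKv hKi)`. -/
theorem mixed_diff_le_of_centroid {d : ℕ} (K : Set (E d)) (hKc : IsCompact K) (hKv : Convex ℝ K)
    (hKi : (interior K).Nonempty)
    (hcs : ∃ C : ℝ, 0 ≤ C ∧ ∀ (g : E d → ℝ), (∃ L : ℝ≥0, LipschitzWith L g) →
      (∀ x ∈ K, |g x| ≤ 1 / 2) → ∫ x, g x ∂(uniformProbOn K) = 0 →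
      ∀ (μ : Measure (E d)), IsProbabilityMeasure μ →
      ∀ (S : Finset (E d)) (ψ0 ψg : E d → ℝ) (T0 Tg : E d → E d),
        IsPotMap (uniformProbOn K) μ S ψ0 T0 → IsPotMap (srcG K g) μ S ψg Tg →
        ∑ y ∈ S, (μ.real {y})⁻¹ *
            ‖∫ x in Tg ⁻¹' {y}, x ∂(srcG K g) - ∫ x in T0 ⁻¹' {y}, x ∂(uniformProbOn K)‖ ^ 2
          ≤ C * ∫ x, g x ^ 2 ∂(uniformProbOn K)) :
    ∃ C : ℝ, 0 ≤ C ∧ ∀ (g : E d → ℝ), (∃ L : ℝ≥0, LipschitzWith L g) → (∀ x ∈ K, |g x| ≤ 1 / 2) →
      ∫ x, g x ∂(uniformProbOn K) = 0 →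
      ∀ (μ ν : Measure (E d)), IsProbabilityMeasure μ → IsProbabilityMeasure ν →
      ∀ (Sμ Sν : Finset (E d)) (ψμ0 ψμg ψν0 ψνg : E d → ℝ) (Tμ0 Tμg Tν0 Tνg : E d → E d),
        IsPotMap (uniformProbOn K) μ Sμ ψμ0 Tμ0 → IsPotMap (srcG K g) μ Sμ ψμg Tμg →
        IsPotMap (uniformProbOn K) ν Sν ψν0 Tν0 → IsPotMap (srcG K g) ν Sν ψνg Tνg →
        ∀ π : Measure (E d × E d), IsPairCoupling μ ν π →
          (corr (srcG K g) Tνg - corr (uniformProbOn K) Tν0)
              - (corr (srcG K g) Tμg - corr (uniformProbOn K) Tμ0)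
            ≤ C * Real.sqrt (∫ x, g x ^ 2 ∂(uniformProbOn K)) * Real.sqrt (quadCost π).toReal := by
  obtain ⟨CA, hCA0, hCA⟩ := hcs
  refine ⟨Real.sqrt CA, Real.sqrt_nonneg _, ?_⟩
  intro g hgL hgb hg0 μ ν hμ hν Sμ Sν ψμ0 ψμg ψν0 ψνg Tμ0 Tμg Tν0 Tνg hμ0 hμg hν0 hνg π hπ
  obtain ⟨L, hL⟩ := hgL
  have hgm : Measurable g := hL.continuous.measurable
  haveI := isProbabilityMeasure_uniformProbOn hKc hKi
  haveI := isProbabilityMeasure_srcG hKc hKi hgm hgb hg0
  -- the sources are carried by a ball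
  obtain ⟨D, hD⟩ := hKc.isBounded.exists_norm_le
  have hD0 : ∀ᵐ x ∂(uniformProbOn K), ‖x‖ ≤ D := by
    have : ∀ᵐ x ∂(uniformProbOn K), x ∈ K := by
      rw [ae_iff]
      exact uniformProbOn_compl hKc
    filter_upwards [this] with x hx using hD x hx
  have hDs : ∀ᵐ x ∂(srcG K g), ‖x‖ ≤ D := by
    have : ∀ᵐ x ∂(srcG K g), x ∈ K := by
      rw [ae_iff]
      exact srcG_compl hKc g
    filter_upwards [this] with x hx using hD x hx
  -- the coupling is a probability measure carried by the finite set `Sμ ×ˢ Sν`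
  have hπ1 : π.map Prod.fst = μ := hπ.1
  have hπ2 : π.map Prod.snd = ν := hπ.2
  haveI : IsProbabilityMeasure π := by
    constructor
    have h := hμ.measure_univ
    rw [← hπ1, Measure.map_apply measurable_fst MeasurableSet.univ] at h
    simpa using h
  set P : Finset (E d × E d) := Sμ ×ˢ Sν with hPdef
  have hP : π ((P : Set (E d × E d)))ᶜ = 0 := by
    have h1 : π (Prod.fst ⁻¹' ((Sμ : Set (E d)))ᶜ) = 0 := by
      rw [← Measure.map_apply measurable_fst (Finset.measurableSet _).compl, hπ1]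
      exact hμ0.target_compl
    have h2 : π (Prod.snd ⁻¹' ((Sν : Set (E d)))ᶜ) = 0 := by
      rw [← Measure.map_apply measurable_snd (Finset.measurableSet _).compl, hπ2]
      exact hν0.target_compl
    refine measure_mono_null ?_ (measure_union_null h1 h2)
    intro p hp
    simp only [hPdef, Finset.coe_product, Set.mem_compl_iff, Set.mem_prod, not_and_or] at hp
    rcases hp with hp | hp
    · exact Or.inl hp
    · exact Or.inr hp
  set Pp : Finset (E d × E d) := P.filter (fun p => 0 < π.real {p}) with hPp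
  let πJ : ↥Pp → ℝ := fun j => π.real {(j : E d × E d)}
  let y : ↥Pp → E d := fun j => (j : E d × E d).1
  let z : ↥Pp → E d := fun j => (j : E d × E d).2
  have hπJ : ∀ j, 0 < πJ j := fun j => (Finset.mem_filter.mp j.2).2
  have hsumJ : ∀ f : E d × E d → ℝ, ∑ j : ↥Pp, πJ j * f j = ∑ p ∈ P, π.real {p} * f p := by
    intro f
    rw [Finset.sum_coe_sort Pp (fun p => π.real {p} * f p), hPp, Finset.sum_filter]
    refine Finset.sum_congr rfl fun p _ => ?_
    split_ifs with h
    · rfl
    · have : π.real {p} = 0 := le_antisymm (not_lt.mp h) measureReal_nonneg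
      rw [this, zero_mul]
  have hPreal : π.real (P : Set (E d × E d)) = 1 := by
    have h1 : π (P : Set (E d × E d)) = 1 := by
      have := measure_add_measure_compl (μ := π) (Finset.measurableSet P)
      rw [hP, add_zero, measure_univ] at this
      exact this
    rw [Measure.real, h1, ENNReal.toReal_one]
  have hsum1 : ∑ j, πJ j = 1 := by
    have h := hsumJ (fun _ => 1)
    simp only [mul_one] at h
    rw [h, sum_measureReal_singleton, hPreal]
  haveI : Nonempty ↥Pp := by
    by_contra h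
    rw [not_nonempty_iff] at h
    rw [Finset.univ_eq_empty, Finset.sum_empty] at hsum1
    exact zero_ne_one hsum1
  -- marginal identities
  have hmargμ : ∀ u : E d, μ.real {u} = ∑ j : ↥Pp, if y j = u then πJ j else 0 := by
    intro u
    have h := hsumJ (fun p => if p.1 = u then 1 else 0)
    simp only [mul_ite, mul_one, mul_zero] at h
    rw [h, ← hπ1, Measure.real, Measure.map_apply measurable_fst (measurableSet_singleton u),
      ← Measure.real, real_eq_sum_of_finite_support π P hP]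
    refine Finset.sum_congr rfl fun p _ => ?_
    by_cases hpu : p.1 = u
    · rw [if_pos hpu, if_pos (show p ∈ Prod.fst ⁻¹' {u} from hpu)]
    · rw [if_neg hpu, if_neg (show p ∉ Prod.fst ⁻¹' {u} from hpu)]
  have hmargν : ∀ u : E d, ν.real {u} = ∑ j : ↥Pp, if z j = u then πJ j else 0 := by
    intro u
    have h := hsumJ (fun p => if p.2 = u then 1 else 0)
    simp only [mul_ite, mul_one, mul_zero] at h
    rw [h, ← hπ2, Measure.real, Measure.map_apply measurable_snd (measurableSet_singleton u),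
      ← Measure.real, real_eq_sum_of_finite_support π P hP]
    refine Finset.sum_congr rfl fun p _ => ?_
    by_cases hpu : p.2 = u
    · rw [if_pos hpu, if_pos (show p ∈ Prod.snd ⁻¹' {u} from hpu)]
    · rw [if_neg hpu, if_neg (show p ∉ Prod.snd ⁻¹' {u} from hpu)]
  have hysub : ∀ j, y j ∈ Sμ := fun j =>
    (Finset.mem_product.mp (Finset.mem_filter.mp j.2).1).1
  have hzsub : ∀ j, z j ∈ Sν := fun j =>
    (Finset.mem_product.mp (Finset.mem_filter.mp j.2).1).2
  have hmassμ : ∀ q : ↥(atoms y), μ {(q : E d)} = ENNReal.ofReal (mass πJ y q) := by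
    intro q
    rw [mass_eq_sum_ite, ← hmargμ, Measure.real, ENNReal.ofReal_toReal (measure_ne_top _ _)]
  have hmassν : ∀ q : ↥(atoms z), ν {(q : E d)} = ENNReal.ofReal (mass πJ z q) := by
    intro q
    rw [mass_eq_sum_ite, ← hmargν, Measure.real, ENNReal.ofReal_toReal (measure_ne_top _ _)]
  have hnullμ : ∀ u ∈ Sμ, u ∉ atoms y → μ {u} = 0 := by
    intro u _ hu
    have h0 : μ.real {u} = 0 := by
      rw [hmargμ]
      refine Finset.sum_eq_zero fun j _ => ?_
      rw [if_neg]
      intro h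
      exact hu (mem_atoms_of_eq j h)
    exact (measureReal_eq_zero_iff (measure_ne_top _ _)).mp h0
  have hnullν : ∀ u ∈ Sν, u ∉ atoms z → ν {u} = 0 := by
    intro u _ hu
    have h0 : ν.real {u} = 0 := by
      rw [hmargν]
      refine Finset.sum_eq_zero fun j _ => ?_
      rw [if_neg]
      intro h
      exact hu (mem_atoms_of_eq j h)
    exact (measureReal_eq_zero_iff (measure_ne_top _ _)).mp h0
  obtain ⟨S0y, e1, -⟩ := mopt_of_isPotMap (uniformProbOn K) μ Sμ ψμ0 Tμ0 hμ0 πJ y hysub
    hmassμ hnullμ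
  obtain ⟨Ssy, e2, -⟩ := mopt_of_isPotMap (srcG K g) μ Sμ ψμg Tμg hμg πJ y hysub hmassμ hnullμ
  obtain ⟨S0z, e3, -⟩ := mopt_of_isPotMap (uniformProbOn K) ν Sν ψν0 Tν0 hν0 πJ z hzsub
    hmassν hnullν
  obtain ⟨Ssz, e4, -⟩ := mopt_of_isPotMap (srcG K g) ν Sν ψνg Tνg hνg πJ z hzsub hmassν hnullν
  have hB : 0 ≤ CA * ∫ x, g x ^ 2 ∂(uniformProbOn K) :=
    mul_nonneg hCA0 (integral_nonneg fun x => sq_nonneg _)
  have key := telescope_corr hD0 hDs πJ hπJ
    (B := Real.sqrt (CA * ∫ x, g x ^ 2 ∂(uniformProbOn K))) (Real.sqrt_nonneg _)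
    (fun x => by
      obtain ⟨M0, Mg, hb⟩ := exists_pair K hKc hKi CA g hgm hgb hg0
        (hCA g ⟨L, hL⟩ hgb hg0) πJ hπJ hsum1 x
      exact ⟨M0, Mg, by rw [Real.sq_sqrt hB]; exact hb⟩)
    y z S0y Ssy S0z Ssz
  rw [e1, e2, e3, e4] at key
  -- the cost of the coupling
  have hcost : ∑ j, πJ j * ‖z j - y j‖ ^ 2 = (quadCost π).toReal := by
    have h := hsumJ (fun p => ‖p.2 - p.1‖ ^ 2)
    rw [h]
    have hae : ∀ᵐ p ∂π, p ∈ (P : Set (E d × E d)) := by
      rw [ae_iff]
      exact hP
    have hr : π.restrict (P : Set (E d × E d)) = π := Measure.restrict_eq_self_of_ae_mem hae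
    have hq : quadCost π = ∑ p ∈ P, ‖p.1 - p.2‖ₑ ^ 2 * π {p} := by
      unfold quadCost
      conv_lhs => rw [← hr]
      exact lintegral_finset P _
    rw [hq, ENNReal.toReal_sum]
    · refine Finset.sum_congr rfl fun p _ => ?_
      rw [ENNReal.toReal_mul, ENNReal.toReal_pow, toReal_enorm, norm_sub_rev, Measure.real]
      ring
    · intro p _
      exact ENNReal.mul_ne_top (ENNReal.pow_ne_top enorm_ne_top) (measure_ne_top _ _)
  rw [hcost, Real.sqrt_mul hCA0] at key
  exact key

end Crest.Agent.S0109.Helper67
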