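import Mathlib
import Crest.Prelude.Def_QuadraticTransport
import Crest.Agent.Lib.S0109.Defs
import Crest.Agent.Lib.S0109.Basic
import Crest.Agent.Lib.S0109.Helper82Cont

/-!
# Row 82 / S0109 — dual admissibility (package P6a, first two statements), backup copy.

The two statements `corr_sub_le_pot`, `pot_le_corr_sub` of the stub `Glue.lean`, verbatim,
from the Kantorovich functional lemmas `Helper82.kant_le`, `Helper82.kant_eq_corr`.
-/

set_option autoImplicit false
set_option linter.unusedVariables false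
set_option linter.style.haveILetI false
open MeasureTheory Filter Topology
open scoped ENNReal NNReal
open Crest.AnalysisR.OT

namespace Crest.Agent.S0109.Helper67

open Crest.Agent.S0109

variable {d : ℕ}

/-- `∫ φ d((1+g)ρ) = ∫ φ dρ + ∫ φ g dρ` for a continuous `φ`. -/
lemma integral_srcG_continuous (K : Set (E d)) (hKc : IsCompact K) (hKi : (interior K).Nonempty)
    (g : E d → ℝ) (hg : Measurable g) (hgb : ∀ x ∈ K, |g x| ≤ 1 / 2)
    {f : E d → ℝ} (hf : Continuous f) :
    ∫ x, f x ∂(srcG K g) = ∫ x, f x ∂(uniformProbOn K) + ∫ x, f x * g x ∂(uniformProbOn K) := by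
  haveI := isProbabilityMeasure_uniformProbOn hKc hKi
  have hfi : Integrable f (uniformProbOn K) :=
    Helper82.integrable_of_continuous hKc (uniformProbOn_compl hKc) hf
  have hfg : Integrable (fun x => f x * g x) (uniformProbOn K) := by
    refine Integrable.mono' (hfi.norm.const_mul (1 / 2)) (hf.measurable.mul hg).aestronglyMeasurable
      ?_
    filter_upwards [Helper82.ae_mem_of_compl (uniformProbOn_compl hKc)] with x hx
    rw [norm_mul, Real.norm_eq_abs (g x), mul_comm]
    exact mul_le_mul_of_nonneg_right (hgb x hx) (norm_nonneg _)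
  rw [integral_srcG hKc hg hgb, ← integral_add hfi hfg]
  refine integral_congr_ae (Eventually.of_forall fun x => ?_)
  simp only [smul_eq_mul]
  ring

/-- Dual admissibility, upper bound (stub statement `corr_sub_le_pot`, verbatim). -/
theorem corr_sub_le_pot' {d : ℕ} (K : Set (E d)) (hKc : IsCompact K) (hKi : (interior K).Nonempty)
    (g : E d → ℝ) (hg : Measurable g) (hgb : ∀ x ∈ K, |g x| ≤ 1 / 2)
    (hg0 : ∫ x, g x ∂(uniformProbOn K) = 0)
    (μ : Measure (E d)) [IsProbabilityMeasure μ] (S : Finset (E d))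
    (ψ0 ψg : E d → ℝ) (T0 Tg : E d → E d)
    (h0 : IsPotMap (uniformProbOn K) μ S ψ0 T0) (h1 : IsPotMap (srcG K g) μ S ψg Tg) :
    corr (srcG K g) Tg - corr (uniformProbOn K) T0 ≤ ∫ x, pot S ψ0 x * g x ∂(uniformProbOn K) := by
  haveI := isProbabilityMeasure_uniformProbOn hKc hKi
  haveI := isProbabilityMeasure_srcG hKc hKi hg hgb hg0
  have e1 := Helper82.kant_eq_corr hKc (srcG_compl hKc g) h1
  have e0 := Helper82.kant_eq_corr hKc (uniformProbOn_compl hKc) h0
  have hle := Helper82.kant_le hKc (srcG_compl hKc g) h1 ψ0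
  have hlin := integral_srcG_continuous K hKc hKi g hg hgb (continuous_pot S ψ0)
  unfold Helper82.kant at e1 e0 hle
  linarith

/-- Dual admissibility, lower bound (stub statement `pot_le_corr_sub`, verbatim). -/
theorem pot_le_corr_sub' {d : ℕ} (K : Set (E d)) (hKc : IsCompact K) (hKi : (interior K).Nonempty)
    (g : E d → ℝ) (hg : Measurable g) (hgb : ∀ x ∈ K, |g x| ≤ 1 / 2)
    (hg0 : ∫ x, g x ∂(uniformProbOn K) = 0)
    (μ : Measure (E d)) [IsProbabilityMeasure μ] (S : Finset (E d))
    (ψ0 ψg : E d → ℝ) (T0 Tg : E d → E d)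
    (h0 : IsPotMap (uniformProbOn K) μ S ψ0 T0) (h1 : IsPotMap (srcG K g) μ S ψg Tg) :
    ∫ x, pot S ψg x * g x ∂(uniformProbOn K) ≤ corr (srcG K g) Tg - corr (uniformProbOn K) T0 := by
  haveI := isProbabilityMeasure_uniformProbOn hKc hKi
  haveI := isProbabilityMeasure_srcG hKc hKi hg hgb hg0
  have e1 := Helper82.kant_eq_corr hKc (srcG_compl hKc g) h1
  have e0 := Helper82.kant_eq_corr hKc (uniformProbOn_compl hKc) h0
  have hle := Helper82.kant_le hKc (uniformProbOn_compl hKc) h0 ψg
  have hlin := integral_srcG_continuous K hKc hKi g hg hgb (continuous_pot S ψg)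
  unfold Helper82.kant at e1 e0 hle
  linarith

end Crest.Agent.S0109.Helper67
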