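import Mathlib
import Crest.Agent.Lib.S0109.Defs
import Crest.Agent.Lib.S0109.Helper6PL

/-!
Row 82 (S0109), helper76: abstract centroid stability for finite cell families (package 93
backup / package 89), from Prékopa–Leindler at `t = 1/2`.

The per-cell lemma `ca_cell` is a first-moment stability inequality: for measurable
`A, B, C ⊆ closedBall x0 D` of finite volume with midpoints of `A × B` in `C`,
`‖∫_A (x - x0) - ∫_B (y - x0)‖² ≤ (a + b) (2 W_C - W_A - W_B) + D² (a - b)²`,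
`W_S = ∫_S (D² - ‖x - x0‖²)`.  `centroid_alg` sums it over a finite family of cells.
-/

set_option autoImplicit false
open MeasureTheory
open scoped ENNReal NNReal

namespace Crest.Agent.S0109.Helper76

/-! ### Pointwise algebra -/

/-- The pointwise inequality behind the per-cell lemma. -/
lemma ca_pointwise {V : Type*} [NormedAddCommGroup V] [InnerProductSpace ℝ V]
    (a b D c : ℝ) (ha : 0 < a) (hb : 0 < b) (Δ X Y : V) :
    (D ^ 2 / 2 + c + (-(a + b) / (4 * b)) * ‖X‖ ^ 2 + inner ℝ ((1 / (2 * b)) • Δ) X)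
      + (D ^ 2 / 2 - ‖Δ‖ ^ 2 / (4 * a * b) - c + (-(a + b) / (4 * a)) * ‖Y‖ ^ 2
          + inner ℝ ((-(1 / (2 * a))) • Δ) Y)
      ≤ D ^ 2 - ‖(1 / 2 : ℝ) • (X + Y)‖ ^ 2 := by
  have h0 : 0 ≤ ‖a • X - b • Y - Δ‖ ^ 2 := by positivity
  have e1 : ‖a • X - b • Y - Δ‖ ^ 2 = a ^ 2 * ‖X‖ ^ 2 + b ^ 2 * ‖Y‖ ^ 2 + ‖Δ‖ ^ 2
      - 2 * a * b * inner ℝ X Y - 2 * a * inner ℝ Δ X + 2 * b * inner ℝ Δ Y := by
    rw [← real_inner_self_eq_norm_sq, ← real_inner_self_eq_norm_sq, ← real_inner_self_eq_norm_sq,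
      ← real_inner_self_eq_norm_sq]
    simp only [inner_sub_left, inner_sub_right, inner_smul_left, inner_smul_right,
      RCLike.conj_to_real]
    rw [real_inner_comm X Y, real_inner_comm X Δ, real_inner_comm Y Δ]
    ring
  have e2 : ‖(1 / 2 : ℝ) • (X + Y)‖ ^ 2 = (‖X‖ ^ 2 + 2 * inner ℝ X Y + ‖Y‖ ^ 2) / 4 := by
    rw [norm_smul, mul_pow, norm_add_sq_real]
    norm_num
    ring
  rw [e1] at h0
  rw [e2, inner_smul_left, inner_smul_left]
  simp only [RCLike.conj_to_real]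
  have hab : 0 < 4 * a * b := by positivity
  have key : (D ^ 2 - (‖X‖ ^ 2 + 2 * inner ℝ X Y + ‖Y‖ ^ 2) / 4)
      - ((D ^ 2 / 2 + c + (-(a + b) / (4 * b)) * ‖X‖ ^ 2 + 1 / (2 * b) * inner ℝ Δ X)
      + (D ^ 2 / 2 - ‖Δ‖ ^ 2 / (4 * a * b) - c + (-(a + b) / (4 * a)) * ‖Y‖ ^ 2
          + -(1 / (2 * a)) * inner ℝ Δ Y))
      = (a ^ 2 * ‖X‖ ^ 2 + b ^ 2 * ‖Y‖ ^ 2 + ‖Δ‖ ^ 2
      - 2 * a * b * inner ℝ X Y - 2 * a * inner ℝ Δ X + 2 * b * inner ℝ Δ Y) / (4 * a * b) := by
    field_simp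
    ring
  have h1 := div_nonneg h0 hab.le
  linarith [key]

/-- AM–GM in the form needed for the Prékopa–Leindler hypothesis. -/
lemma ca_amgm (p q r : ℝ) (h : p + q ≤ 2 * r) :
    ENNReal.ofReal p * ENNReal.ofReal q ≤ ENNReal.ofReal r ^ 2 := by
  rcases le_or_gt p 0 with hp | hp
  · rw [ENNReal.ofReal_of_nonpos hp, zero_mul]; exact bot_le
  rcases le_or_gt q 0 with hq | hq
  · rw [ENNReal.ofReal_of_nonpos hq, mul_zero]; exact bot_le
  have hr : 0 ≤ r := by linarith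
  rw [← ENNReal.ofReal_mul hp.le, ← ENNReal.ofReal_pow hr]
  apply ENNReal.ofReal_le_ofReal
  nlinarith [sq_nonneg (p - q)]

/-! ### Quadratic test functions and their integrals -/

/-- The test functions `x ↦ α + β ‖x - x0‖² + ⟪γ, x - x0⟫`. -/
noncomputable def quad {d : ℕ} (x0 : E d) (α β : ℝ) (γ : E d) (x : E d) : ℝ :=
  α + β * ‖x - x0‖ ^ 2 + inner ℝ γ (x - x0)

lemma quad_continuous {d : ℕ} (x0 : E d) (α β : ℝ) (γ : E d) : Continuous (quad x0 α β γ) := by
  unfold quad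
  fun_prop

lemma quad_measurable {d : ℕ} (x0 : E d) (α β : ℝ) (γ : E d) : Measurable (quad x0 α β γ) :=
  (quad_continuous x0 α β γ).measurable

/-- Bounded measurable functions are integrable on sets of finite volume. -/
lemma ca_intOn {d : ℕ} {F : Type*} [NormedAddCommGroup F] {s : Set (E d)} (hs : MeasurableSet s)
    (hfin : volume s ≠ ⊤) {f : E d → F} (hf : AEStronglyMeasurable f volume) (M : ℝ)
    (hM : ∀ x ∈ s, ‖f x‖ ≤ M) : IntegrableOn f s volume :=
  Measure.integrableOn_of_bounded hfin hf ((ae_restrict_iff' hs).2 (Filter.Eventually.of_forall hM))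

lemma ca_intOn_vec {d : ℕ} (x0 : E d) (D : ℝ) {s : Set (E d)} (hs : MeasurableSet s)
    (hfin : volume s ≠ ⊤) (hbd : ∀ x ∈ s, ‖x - x0‖ ≤ D) :
    IntegrableOn (fun x : E d => x - x0) s volume :=
  ca_intOn hs hfin (measurable_id.sub_const x0).aestronglyMeasurable D hbd

lemma ca_intOn_sq {d : ℕ} (x0 : E d) (D : ℝ) {s : Set (E d)} (hs : MeasurableSet s)
    (hfin : volume s ≠ ⊤) (hbd : ∀ x ∈ s, ‖x - x0‖ ≤ D) :
    IntegrableOn (fun x : E d => ‖x - x0‖ ^ 2) s volume := by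
  refine ca_intOn hs hfin ?_ (D ^ 2) ?_
  · exact (by fun_prop : Continuous fun x : E d => ‖x - x0‖ ^ 2).aestronglyMeasurable
  · intro x hx
    rw [Real.norm_eq_abs, abs_of_nonneg (by positivity)]
    exact pow_le_pow_left₀ (norm_nonneg _) (hbd x hx) 2

lemma quad_integrableOn {d : ℕ} (x0 : E d) (D : ℝ) {s : Set (E d)} (hs : MeasurableSet s)
    (hfin : volume s ≠ ⊤) (hbd : ∀ x ∈ s, ‖x - x0‖ ≤ D) (α β : ℝ) (γ : E d) :
    IntegrableOn (quad x0 α β γ) s volume := by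
  unfold quad
  have h1 : IntegrableOn (fun _ : E d => α) s volume := integrableOn_const hfin
  have h2 : IntegrableOn (fun x : E d => β * ‖x - x0‖ ^ 2) s volume :=
    (ca_intOn_sq x0 D hs hfin hbd).const_mul β
  have h3 : IntegrableOn (fun x : E d => inner ℝ γ (x - x0)) s volume :=
    (ca_intOn_vec x0 D hs hfin hbd).const_inner γ
  exact (h1.add h2).add h3

lemma quad_integral {d : ℕ} (x0 : E d) (D : ℝ) {s : Set (E d)} (hs : MeasurableSet s)
    (hfin : volume s ≠ ⊤) (hbd : ∀ x ∈ s, ‖x - x0‖ ≤ D) (α β : ℝ) (γ : E d) :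
    ∫ x in s, quad x0 α β γ x =
      α * volume.real s + β * (∫ x in s, ‖x - x0‖ ^ 2) + inner ℝ γ (∫ x in s, (x - x0)) := by
  unfold quad
  have h1 : IntegrableOn (fun _ : E d => α) s volume := integrableOn_const hfin
  have h2 : IntegrableOn (fun x : E d => β * ‖x - x0‖ ^ 2) s volume :=
    (ca_intOn_sq x0 D hs hfin hbd).const_mul β
  have h3 : IntegrableOn (fun x : E d => inner ℝ γ (x - x0)) s volume :=
    (ca_intOn_vec x0 D hs hfin hbd).const_inner γ
  have h12 : IntegrableOn (fun x : E d => α + β * ‖x - x0‖ ^ 2) s volume := h1.add h2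
  rw [integral_add h12 h3, integral_add h1 h2, setIntegral_const, integral_const_mul,
    integral_inner (ca_intOn_vec x0 D hs hfin hbd) γ]
  simp [mul_comm]

/-- `ofReal (∫ f) ≤ ∫⁻ ofReal f`. -/
lemma ca_ofReal_integral_le {α : Type*} [MeasurableSpace α] (μ : Measure α) (f : α → ℝ)
    (hf : Integrable f μ) :
    ENNReal.ofReal (∫ x, f x ∂μ) ≤ ∫⁻ x, ENNReal.ofReal (f x) ∂μ := by
  rw [integral_eq_lintegral_pos_part_sub_lintegral_neg_part hf]
  refine le_trans (ENNReal.ofReal_le_ofReal ?_) ENNReal.ofReal_toReal_le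
  linarith [ENNReal.toReal_nonneg (a := ∫⁻ a, ENNReal.ofReal (-f a) ∂μ)]

/-! ### The per-cell inequality -/

/-- First-moment stability for one cell, from Prékopa–Leindler at `t = 1/2`. -/
theorem ca_cell {d : ℕ} (hPL : Helper6.PLHalf (E d) volume) (x0 : E d) (D : ℝ)
    (A B C : Set (E d)) (hAm : MeasurableSet A) (hBm : MeasurableSet B) (hCm : MeasurableSet C)
    (hA : ∀ x ∈ A, ‖x - x0‖ ≤ D) (hB : ∀ x ∈ B, ‖x - x0‖ ≤ D) (hC : ∀ x ∈ C, ‖x - x0‖ ≤ D)
    (hAfin : volume A ≠ ⊤) (hBfin : volume B ≠ ⊤) (hCfin : volume C ≠ ⊤)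
    (ha : 0 < volume.real A) (hb : 0 < volume.real B)
    (hmid : ∀ x ∈ A, ∀ y ∈ B, (1 / 2 : ℝ) • (x + y) ∈ C) :
    ‖(∫ x in A, (x - x0)) - ∫ y in B, (y - x0)‖ ^ 2 ≤
      (volume.real A + volume.real B) *
        (2 * (∫ z in C, quad x0 (D ^ 2) (-1) 0 z) - (∫ x in A, quad x0 (D ^ 2) (-1) 0 x)
          - ∫ y in B, quad x0 (D ^ 2) (-1) 0 y)
      + D ^ 2 * (volume.real A - volume.real B) ^ 2 := by
  have hWA : ∫ x in A, quad x0 (D ^ 2) (-1) 0 x
      = D ^ 2 * volume.real A - ∫ x in A, ‖x - x0‖ ^ 2 := by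
    rw [quad_integral x0 D hAm hAfin hA]; simp; ring
  have hWB : ∫ x in B, quad x0 (D ^ 2) (-1) 0 x
      = D ^ 2 * volume.real B - ∫ x in B, ‖x - x0‖ ^ 2 := by
    rw [quad_integral x0 D hBm hBfin hB]; simp; ring
  have hWC : ∫ x in C, quad x0 (D ^ 2) (-1) 0 x
      = D ^ 2 * volume.real C - ∫ x in C, ‖x - x0‖ ^ 2 := by
    rw [quad_integral x0 D hCm hCfin hC]; simp; ring
  rw [hWA, hWB, hWC]
  have hIAgen := fun (α β : ℝ) (γ : E d) => quad_integral x0 D hAm hAfin hA α β γ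
  have hIBgen := fun (α β : ℝ) (γ : E d) => quad_integral x0 D hBm hBfin hB α β γ
  have hICgen := quad_integral x0 D hCm hCfin hC (D ^ 2 / 2) (-1 / 2) 0
  have hIntA := fun (α β : ℝ) (γ : E d) => quad_integrableOn x0 D hAm hAfin hA α β γ
  have hIntB := fun (α β : ℝ) (γ : E d) => quad_integrableOn x0 D hBm hBfin hB α β γ
  have hIntC := quad_integrableOn x0 D hCm hCfin hC (D ^ 2 / 2) (-1 / 2) 0
  generalize volume.real A = a at *
  generalize volume.real B = b at *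
  generalize volume.real C = vC at *
  generalize (∫ x in A, (x - x0)) = PA at *
  generalize (∫ x in B, (x - x0)) = PB at *
  generalize (∫ x in A, ‖x - x0‖ ^ 2) = QA at *
  generalize (∫ x in B, ‖x - x0‖ ^ 2) = QB at *
  generalize (∫ x in C, ‖x - x0‖ ^ 2) = QC at *
  obtain ⟨Δ, hΔ⟩ : ∃ Δ : E d, Δ = PA - PB := ⟨_, rfl⟩
  rw [← hΔ]
  obtain ⟨I0, hI0⟩ : ∃ I0 : ℝ, I0 = D ^ 2 / 2 * a + (-(a + b) / (4 * b)) * QA
      + inner ℝ ((1 / (2 * b)) • Δ) PA := ⟨_, rfl⟩
  obtain ⟨J0, hJ0⟩ : ∃ J0 : ℝ, J0 = (D ^ 2 / 2 - ‖Δ‖ ^ 2 / (4 * a * b)) * b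
      + (-(a + b) / (4 * a)) * QB + inner ℝ ((-(1 / (2 * a))) • Δ) PB := ⟨_, rfl⟩
  obtain ⟨c, hc⟩ : ∃ c : ℝ, c = (J0 - I0) / (a + b) := ⟨_, rfl⟩
  have hab : 0 < a + b := by positivity
  have hEq : I0 + c * a = J0 - c * b := by
    rw [hc]; field_simp; ring
  have hIA : ∫ x in A, quad x0 (D ^ 2 / 2 + c) (-(a + b) / (4 * b)) ((1 / (2 * b)) • Δ) x
      = I0 + c * a := by
    rw [hIAgen, hI0]; ring
  have hIB : ∫ y in B, quad x0 (D ^ 2 / 2 - ‖Δ‖ ^ 2 / (4 * a * b) - c) (-(a + b) / (4 * a))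
      ((-(1 / (2 * a))) • Δ) y = J0 - c * b := by
    rw [hIBgen, hJ0]; ring
  have hIC : ∫ z in C, quad x0 (D ^ 2 / 2) (-1 / 2) 0 z = D ^ 2 / 2 * vC - QC / 2 := by
    rw [hICgen]; simp; ring
  -- `w / 2 ≥ 0` on `C`
  have hHC0 : ∀ z ∈ C, 0 ≤ quad x0 (D ^ 2 / 2) (-1 / 2) 0 z := by
    intro z hz
    simp only [quad, inner_zero_left, add_zero]
    have := pow_le_pow_left₀ (norm_nonneg _) (hC z hz) 2
    linarith
  -- Prékopa–Leindler
  have hPLapp := hPL
    (A.indicator fun x => ENNReal.ofReal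
      (quad x0 (D ^ 2 / 2 + c) (-(a + b) / (4 * b)) ((1 / (2 * b)) • Δ) x))
    (B.indicator fun y => ENNReal.ofReal
      (quad x0 (D ^ 2 / 2 - ‖Δ‖ ^ 2 / (4 * a * b) - c) (-(a + b) / (4 * a))
        ((-(1 / (2 * a))) • Δ) y))
    (C.indicator fun z => ENNReal.ofReal (quad x0 (D ^ 2 / 2) (-1 / 2) 0 z))
    ((ENNReal.measurable_ofReal.comp (quad_measurable _ _ _ _)).indicator hAm)
    ((ENNReal.measurable_ofReal.comp (quad_measurable _ _ _ _)).indicator hBm)
    ((ENNReal.measurable_ofReal.comp (quad_measurable _ _ _ _)).indicator hCm) ?_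
  swap
  · intro x y
    by_cases hx : x ∈ A
    · by_cases hy : y ∈ B
      · have hm := hmid x hx y hy
        rw [Set.indicator_of_mem hx, Set.indicator_of_mem hy, Set.indicator_of_mem hm]
        apply ca_amgm
        have hmid' : (1 / 2 : ℝ) • (x + y) - x0 = (1 / 2 : ℝ) • ((x - x0) + (y - x0)) := by
          module
        have := ca_pointwise a b D c ha hb Δ (x - x0) (y - x0)
        simp only [quad, hmid', inner_zero_left]
        linarith
      · rw [Set.indicator_of_notMem hy, mul_zero]; exact bot_le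
    · rw [Set.indicator_of_notMem hx, zero_mul]; exact bot_le
  rw [lintegral_indicator hAm, lintegral_indicator hBm, lintegral_indicator hCm] at hPLapp
  have h1 : ENNReal.ofReal (I0 + c * a) ≤ ∫⁻ x in A, ENNReal.ofReal
      (quad x0 (D ^ 2 / 2 + c) (-(a + b) / (4 * b)) ((1 / (2 * b)) • Δ) x) := by
    rw [← hIA]; exact ca_ofReal_integral_le _ _ (hIntA _ _ _)
  have h2 : ENNReal.ofReal (I0 + c * a) ≤ ∫⁻ y in B, ENNReal.ofReal
      (quad x0 (D ^ 2 / 2 - ‖Δ‖ ^ 2 / (4 * a * b) - c) (-(a + b) / (4 * a))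
        ((-(1 / (2 * a))) • Δ) y) := by
    rw [hEq, ← hIB]; exact ca_ofReal_integral_le _ _ (hIntB _ _ _)
  have h3 : ∫⁻ z in C, ENNReal.ofReal (quad x0 (D ^ 2 / 2) (-1 / 2) 0 z)
      = ENNReal.ofReal (D ^ 2 / 2 * vC - QC / 2) := by
    rw [← hIC, ofReal_integral_eq_lintegral_ofReal hIntC]
    exact (ae_restrict_iff' hCm).2 (Filter.Eventually.of_forall hHC0)
  have hH0 : 0 ≤ D ^ 2 / 2 * vC - QC / 2 := by
    rw [← hIC]; exact setIntegral_nonneg hCm hHC0
  have hM : I0 + c * a ≤ D ^ 2 / 2 * vC - QC / 2 := by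
    by_contra hcon
    push Not at hcon
    have hlt : ENNReal.ofReal (D ^ 2 / 2 * vC - QC / 2) < ENNReal.ofReal (I0 + c * a) :=
      (ENNReal.ofReal_lt_ofReal_iff (by linarith)).2 hcon
    have hle : ENNReal.ofReal (I0 + c * a) * ENNReal.ofReal (I0 + c * a)
        ≤ ENNReal.ofReal (D ^ 2 / 2 * vC - QC / 2) ^ 2 := by
      rw [← h3]; exact le_trans (mul_le_mul' h1 h2) hPLapp
    rw [sq] at hle
    exact absurd hle (not_le.2 (ENNReal.mul_lt_mul hlt hlt))
  -- final algebra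
  have hdd : inner ℝ Δ PA - inner ℝ Δ PB = ‖Δ‖ ^ 2 := by
    rw [← inner_sub_right, ← hΔ, real_inner_self_eq_norm_sq]
  have key : b * (I0 + c * a) + a * (J0 - c * b) ≤ (a + b) * (D ^ 2 / 2 * vC - QC / 2) := by
    have e : b * (I0 + c * a) + a * (J0 - c * b) = (a + b) * (I0 + c * a) := by
      rw [← hEq]; ring
    rw [e]; exact mul_le_mul_of_nonneg_left hM hab.le
  have expand : b * (I0 + c * a) + a * (J0 - c * b)
      = a * b * D ^ 2 - (a + b) * (QA + QB) / 4 + ‖Δ‖ ^ 2 / 4 := by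
    rw [hI0, hJ0, inner_smul_left, inner_smul_left]
    simp only [RCLike.conj_to_real]
    have e : inner ℝ Δ PA = inner ℝ Δ PB + ‖Δ‖ ^ 2 := by linarith
    rw [e]
    field_simp
    ring
  nlinarith [key, expand]

/-! ### Summation over cells -/

/-- Sum of integrals of a nonnegative function over an a.e.-disjoint finite family inside `K`. -/
lemma ca_sum_le {d : ℕ} {ι : Type*} [Fintype ι] (K : Set (E d)) (hKm : MeasurableSet K)
    (S : ι → Set (E d)) (hSm : ∀ i, MeasurableSet (S i)) (hSK : ∀ i, S i ⊆ K)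
    (hdisj : ∀ i j, i ≠ j → volume (S i ∩ S j) = 0)
    (φ : E d → ℝ) (hφ : IntegrableOn φ K volume) (h0 : ∀ x ∈ K, 0 ≤ φ x) :
    ∑ i, ∫ x in S i, φ x ≤ ∫ x in K, φ x := by
  have hU : (⋃ i, S i) ⊆ K := Set.iUnion_subset hSK
  have hd : Pairwise (Function.onFun (AEDisjoint volume) S) := fun i j hij => hdisj i j hij
  have hI := integral_iUnion_ae (fun i => (hSm i).nullMeasurableSet) hd (hφ.mono_set hU)
  rw [tsum_fintype] at hI
  rw [← hI]
  exact setIntegral_mono_set hφ ((ae_restrict_iff' hKm).2 (Filter.Eventually.of_forall h0))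
    hU.eventuallyLE

/-- Sum of integrals over an a.e.-partition of `K`. -/
lemma ca_sum_eq {d : ℕ} {ι : Type*} [Fintype ι] (K : Set (E d))
    (S : ι → Set (E d)) (hSm : ∀ i, MeasurableSet (S i)) (hSK : ∀ i, S i ⊆ K)
    (hdisj : ∀ i j, i ≠ j → volume (S i ∩ S j) = 0) (hcov : volume (K \ ⋃ i, S i) = 0)
    (φ : E d → ℝ) (hφ : IntegrableOn φ K volume) :
    ∑ i, ∫ x in S i, φ x = ∫ x in K, φ x := by
  have hU : (⋃ i, S i) ⊆ K := Set.iUnion_subset hSK
  have hd : Pairwise (Function.onFun (AEDisjoint volume) S) := fun i j hij => hdisj i j hij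
  have hI := integral_iUnion_ae (fun i => (hSm i).nullMeasurableSet) hd (hφ.mono_set hU)
  rw [tsum_fintype] at hI
  rw [← hI]
  apply setIntegral_congr_set
  rw [ae_eq_set]
  exact ⟨by rw [Set.sdiff_eq_empty.2 hU]; exact measure_empty, hcov⟩

/-- Cauchy–Schwarz on a set of finite volume. -/
lemma ca_cs {d : ℕ} {s : Set (E d)} (hfin : volume s ≠ ⊤) (φ : E d → ℝ)
    (h1 : IntegrableOn φ s volume) (h2 : IntegrableOn (fun x => φ x ^ 2) s volume) :
    (∫ x in s, φ x) ^ 2 ≤ volume.real s * ∫ x in s, φ x ^ 2 := by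
  have hm : 0 ≤ volume.real s := measureReal_nonneg
  have key : ∀ t : ℝ, 2 * t * (∫ x in s, φ x) ≤ (∫ x in s, φ x ^ 2) + t ^ 2 * volume.real s := by
    intro t
    have hc : IntegrableOn (fun _ : E d => t ^ 2) s volume := integrableOn_const hfin
    have hsum : IntegrableOn (fun x : E d => φ x ^ 2 + t ^ 2) s volume := h2.add hc
    have hmono : ∫ x in s, 2 * t * φ x ≤ ∫ x in s, (φ x ^ 2 + t ^ 2) := by
      apply integral_mono (h1.const_mul (2 * t)) hsum
      intro x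
      show 2 * t * φ x ≤ φ x ^ 2 + t ^ 2
      nlinarith [sq_nonneg (φ x - t)]
    rw [integral_const_mul, integral_add h2 hc, setIntegral_const, smul_eq_mul] at hmono
    linarith
  generalize (∫ x in s, φ x ^ 2) = U at *
  rcases hm.eq_or_lt with h0 | hpos
  · have hs0 : volume s = 0 := (measureReal_eq_zero_iff hfin).1 h0.symm
    rw [setIntegral_measure_zero _ hs0, ← h0]
    simp
  · generalize (∫ x in s, φ x) = I at *
    have h := key (I / volume.real s)
    have e : 2 * (I / volume.real s) * I = 2 * (I ^ 2 / volume.real s) := by ring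
    have e2 : (I / volume.real s) ^ 2 * volume.real s = I ^ 2 / volume.real s := by
      field_simp
    rw [e, e2] at h
    have h' : I ^ 2 / volume.real s ≤ U := by linarith
    rw [div_le_iff₀ hpos] at h'
    linarith

/-- Consequences of the mass identity for one cell. -/
lemma ca_mass {d : ℕ} (K : Set (E d)) (hKfin : volume K ≠ ⊤) (u : E d → ℝ) (hu : Measurable u)
    (hub : ∀ x ∈ K, |u x| ≤ 1 / 2) (A B : Set (E d)) (hBm : MeasurableSet B) (hBK : B ⊆ K)
    (hmass : ∫ y in B, (1 + u y) = volume.real A) :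
    volume.real B ≤ 2 * volume.real A ∧ volume.real A ≤ 3 / 2 * volume.real B ∧
      (volume.real A - volume.real B) ^ 2 ≤ volume.real B * ∫ x in B, u x ^ 2 := by
  have hBfin : volume B ≠ ⊤ := ne_top_of_le_ne_top hKfin (measure_mono hBK)
  have hu_int : IntegrableOn u B volume :=
    ca_intOn hBm hBfin hu.aestronglyMeasurable (1 / 2)
      (fun x hx => by rw [Real.norm_eq_abs]; exact hub x (hBK hx))
  have hu2_int : IntegrableOn (fun x => u x ^ 2) B volume := by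
    refine ca_intOn hBm hBfin (hu.pow_const 2).aestronglyMeasurable (1 / 4) ?_
    intro x hx
    have h := abs_le.1 (hub x (hBK hx))
    rw [Real.norm_eq_abs, abs_of_nonneg (by positivity)]
    nlinarith [h.1, h.2]
  have hsplit : ∫ y in B, (1 + u y) = volume.real B + ∫ y in B, u y := by
    have hc1 : IntegrableOn (fun _ : E d => (1 : ℝ)) B volume := integrableOn_const hBfin
    rw [integral_add hc1 hu_int, setIntegral_const]
    simp
  have hbd : ‖∫ y in B, u y‖ ≤ 1 / 2 * volume.real B :=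
    norm_setIntegral_le_of_norm_le_const (lt_top_iff_ne_top.2 hBfin)
      (fun x hx => by rw [Real.norm_eq_abs]; exact hub x (hBK hx))
  rw [Real.norm_eq_abs] at hbd
  have hbd' := abs_le.1 hbd
  have hcs := ca_cs hBfin u hu_int hu2_int
  have hI : volume.real A - volume.real B = ∫ y in B, u y := by linarith
  refine ⟨by linarith [hbd'.1], by linarith [hbd'.2], ?_⟩
  rw [hI]
  exact hcs

/-- The vector identity and bound for the final step. -/
lemma ca_vec {d : ℕ} (K : Set (E d)) (hKfin : volume K ≠ ⊤) (x0 : E d) (D : ℝ)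
    (hD : ∀ x ∈ K, ‖x - x0‖ ≤ D) (u : E d → ℝ) (hu : Measurable u)
    (hub : ∀ x ∈ K, |u x| ≤ 1 / 2) (A B : Set (E d)) (hAm : MeasurableSet A)
    (hBm : MeasurableSet B) (hAK : A ⊆ K) (hBK : B ⊆ K)
    (hmass : ∫ y in B, (1 + u y) = volume.real A) :
    ‖(∫ y in B, (1 + u y) • y) - ∫ x in A, x‖ ^ 2 ≤
      2 * ‖(∫ x in A, (x - x0)) - ∫ y in B, (y - x0)‖ ^ 2
        + 2 * D ^ 2 * (volume.real B * ∫ x in B, u x ^ 2) := by
  have hAfin : volume A ≠ ⊤ := ne_top_of_le_ne_top hKfin (measure_mono hAK)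
  have hBfin : volume B ≠ ⊤ := ne_top_of_le_ne_top hKfin (measure_mono hBK)
  have hDA : ∀ x ∈ A, ‖x - x0‖ ≤ D := fun x hx => hD x (hAK hx)
  have hDB : ∀ x ∈ B, ‖x - x0‖ ≤ D := fun x hx => hD x (hBK hx)
  have hvecA := ca_intOn_vec x0 D hAm hAfin hDA
  have hvecB := ca_intOn_vec x0 D hBm hBfin hDB
  have hubB : ∀ x ∈ B, |u x| ≤ 1 / 2 := fun x hx => hub x (hBK hx)
  have hD0 : ∀ x ∈ B, 0 ≤ D := fun x hx => le_trans (norm_nonneg _) (hDB x hx)
  -- integrability of the pieces on `B`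
  have hR_int : IntegrableOn (fun y : E d => u y • (y - x0)) B volume := by
    refine ca_intOn hBm hBfin (hu.smul (measurable_id.sub_const x0)).aestronglyMeasurable
      (1 / 2 * D) ?_
    intro x hx
    rw [norm_smul, Real.norm_eq_abs]
    exact mul_le_mul (hubB x hx) (hDB x hx) (norm_nonneg _) (by norm_num)
  have h3_int : IntegrableOn (fun y : E d => (1 + u y) • x0) B volume := by
    refine ca_intOn hBm hBfin ((measurable_const.add hu).smul_const x0).aestronglyMeasurable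
      (3 / 2 * ‖x0‖) ?_
    intro x hx
    rw [norm_smul, Real.norm_eq_abs]
    have h := abs_le.1 (hubB x hx)
    exact mul_le_mul_of_nonneg_right (abs_le.2 ⟨by linarith [h.1], by linarith [h.2]⟩)
      (norm_nonneg _)
  have h1u_int : IntegrableOn (fun y : E d => 1 + u y) B volume := by
    refine ca_intOn hBm hBfin (measurable_const.add hu).aestronglyMeasurable (3 / 2) ?_
    intro x hx
    rw [Real.norm_eq_abs]
    have h := abs_le.1 (hubB x hx)
    exact abs_le.2 ⟨by linarith [h.1], by linarith [h.2]⟩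
  have habs_int : IntegrableOn (fun y : E d => |u y|) B volume :=
    ca_intOn hBm hBfin hu.abs.aestronglyMeasurable (1 / 2)
      (fun x hx => by rw [Real.norm_eq_abs, abs_abs]; exact hubB x hx)
  have hu2_int : IntegrableOn (fun x => u x ^ 2) B volume := by
    refine ca_intOn hBm hBfin (hu.pow_const 2).aestronglyMeasurable (1 / 4) ?_
    intro x hx
    have h := abs_le.1 (hubB x hx)
    rw [Real.norm_eq_abs, abs_of_nonneg (by positivity)]
    nlinarith [h.1, h.2]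
  -- the identity
  have h1 : ∫ x in A, x = (∫ x in A, (x - x0)) + volume.real A • x0 := by
    have e : (fun x : E d => x) = fun x => (x - x0) + x0 := by funext x; simp
    conv_lhs => rw [e]
    have hc0 : IntegrableOn (fun _ : E d => x0) A volume := integrableOn_const hAfin
    rw [integral_add hvecA hc0, setIntegral_const]
  have h2 : ∫ y in B, (1 + u y) • y
      = (∫ y in B, (y - x0)) + (∫ y in B, u y • (y - x0)) + volume.real A • x0 := by
    have e : (fun y : E d => (1 + u y) • y)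
        = fun y => ((y - x0) + u y • (y - x0)) + (1 + u y) • x0 := by
      funext y; module
    have hsum : IntegrableOn (fun y : E d => (y - x0) + u y • (y - x0)) B volume :=
      hvecB.add hR_int
    rw [e, integral_add hsum h3_int, integral_add hvecB hR_int, integral_smul_const, hmass]
  have hV : (∫ y in B, (1 + u y) • y) - ∫ x in A, x
      = (∫ y in B, u y • (y - x0)) - ((∫ x in A, (x - x0)) - ∫ y in B, (y - x0)) := by
    rw [h1, h2]; abel
  -- the bound on the remainder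
  have hRn : ‖∫ y in B, u y • (y - x0)‖ ≤ D * ∫ y in B, |u y| := by
    calc ‖∫ y in B, u y • (y - x0)‖ ≤ ∫ y in B, ‖u y • (y - x0)‖ :=
          norm_integral_le_integral_norm _
      _ ≤ ∫ y in B, D * |u y| := by
          refine setIntegral_mono_on hR_int.norm (habs_int.const_mul D) hBm ?_
          intro y hy
          rw [norm_smul, Real.norm_eq_abs, mul_comm]
          exact mul_le_mul_of_nonneg_right (hDB y hy) (abs_nonneg _)
      _ = D * ∫ y in B, |u y| := integral_const_mul _ _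
  have hcs : (∫ y in B, |u y|) ^ 2 ≤ volume.real B * ∫ x in B, u x ^ 2 := by
    have h := ca_cs hBfin (fun y => |u y|) habs_int (by simpa [sq_abs] using hu2_int)
    simpa [sq_abs] using h
  have hR2 : ‖∫ y in B, u y • (y - x0)‖ ^ 2 ≤ D ^ 2 * (volume.real B * ∫ x in B, u x ^ 2) := by
    calc ‖∫ y in B, u y • (y - x0)‖ ^ 2 ≤ (D * ∫ y in B, |u y|) ^ 2 :=
          pow_le_pow_left₀ (norm_nonneg _) hRn 2
      _ = D ^ 2 * (∫ y in B, |u y|) ^ 2 := by ring
      _ ≤ D ^ 2 * (volume.real B * ∫ x in B, u x ^ 2) :=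
          mul_le_mul_of_nonneg_left hcs (sq_nonneg D)
  rw [hV]
  generalize (∫ y in B, u y • (y - x0)) = R at *
  generalize ((∫ x in A, (x - x0)) - ∫ y in B, (y - x0)) = Δ at *
  have hn := norm_sub_le R Δ
  nlinarith [sq_nonneg (‖R‖ - ‖Δ‖), norm_nonneg R, norm_nonneg Δ, norm_nonneg (R - Δ)]

/-- The per-cell inequality in divided form, including null cells. -/
lemma ca_cell_div {d : ℕ} (hPL : Helper6.PLHalf (E d) volume) (x0 : E d) (D : ℝ)
    (A B C : Set (E d)) (hAm : MeasurableSet A) (hBm : MeasurableSet B) (hCm : MeasurableSet C)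
    (hA : ∀ x ∈ A, ‖x - x0‖ ≤ D) (hB : ∀ x ∈ B, ‖x - x0‖ ≤ D) (hC : ∀ x ∈ C, ‖x - x0‖ ≤ D)
    (hAfin : volume A ≠ ⊤) (hBfin : volume B ≠ ⊤) (hCfin : volume C ≠ ⊤)
    (hba : volume.real B ≤ 2 * volume.real A) (hab : volume.real A ≤ 3 / 2 * volume.real B)
    (hmid : ∀ x ∈ A, ∀ y ∈ B, (1 / 2 : ℝ) • (x + y) ∈ C) :
    ‖(∫ x in A, (x - x0)) - ∫ y in B, (y - x0)‖ ^ 2 / (volume.real A + volume.real B) ≤
      2 * (∫ z in C, quad x0 (D ^ 2) (-1) 0 z) - (∫ x in A, quad x0 (D ^ 2) (-1) 0 x)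
          - (∫ y in B, quad x0 (D ^ 2) (-1) 0 y)
      + D ^ 2 * ((volume.real A - volume.real B) ^ 2 / (volume.real A + volume.real B)) := by
  have hWC : 0 ≤ ∫ z in C, quad x0 (D ^ 2) (-1) 0 z := by
    apply setIntegral_nonneg hCm
    intro z hz
    simp only [quad, inner_zero_left, add_zero]
    have := pow_le_pow_left₀ (norm_nonneg _) (hC z hz) 2
    linarith
  rcases (measureReal_nonneg : 0 ≤ volume.real A).eq_or_lt with h0 | hpos
  · have hb0 : volume.real B = 0 :=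
      le_antisymm (by linarith) measureReal_nonneg
    have hA0 : volume A = 0 := (measureReal_eq_zero_iff hAfin).1 h0.symm
    have hB0 : volume B = 0 := (measureReal_eq_zero_iff hBfin).1 hb0
    simp only [setIntegral_measure_zero _ hA0, setIntegral_measure_zero _ hB0, ← h0, hb0]
    simp
    linarith
  · have hbpos : 0 < volume.real B := by linarith
    have hcell := ca_cell hPL x0 D A B C hAm hBm hCm hA hB hC hAfin hBfin hCfin hpos hbpos hmid
    have hsum : 0 < volume.real A + volume.real B := by linarith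
    rw [div_le_iff₀ hsum]
    have e : (2 * (∫ z in C, quad x0 (D ^ 2) (-1) 0 z) - (∫ x in A, quad x0 (D ^ 2) (-1) 0 x)
          - (∫ y in B, quad x0 (D ^ 2) (-1) 0 y)
      + D ^ 2 * ((volume.real A - volume.real B) ^ 2 / (volume.real A + volume.real B)))
        * (volume.real A + volume.real B)
        = (volume.real A + volume.real B) *
        (2 * (∫ z in C, quad x0 (D ^ 2) (-1) 0 z) - (∫ x in A, quad x0 (D ^ 2) (-1) 0 x)
          - ∫ y in B, quad x0 (D ^ 2) (-1) 0 y)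
      + D ^ 2 * (volume.real A - volume.real B) ^ 2 := by
      field_simp
    rw [e]
    exact hcell

/-! ### Real algebra for the final step -/

lemma ca_final_alg (a b V2 Δ2 U D2 : ℝ) (ha : 0 ≤ a) (hba : b ≤ 2 * a)
    (hb : 0 ≤ b) (hV : V2 ≤ 2 * Δ2 + 2 * D2 * (b * U)) (hΔ : 0 ≤ Δ2) (hU : 0 ≤ U)
    (hD2 : 0 ≤ D2) :
    a⁻¹ * V2 ≤ 6 * (Δ2 / (a + b)) + 4 * D2 * U := by
  rcases ha.eq_or_lt with h0 | hpos
  · rw [← h0]
    have h1 : 0 ≤ Δ2 / (0 + b) := div_nonneg hΔ (by linarith)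
    have h2 : 0 ≤ D2 * U := mul_nonneg hD2 hU
    simp only [inv_zero, zero_mul]
    linarith
  · have hab : 0 < a + b := by linarith
    rw [inv_mul_le_iff₀ hpos]
    have hq : Δ2 = (Δ2 / (a + b)) * (a + b) := by field_simp
    have hq0 : 0 ≤ Δ2 / (a + b) := div_nonneg hΔ hab.le
    generalize Δ2 / (a + b) = q at *
    nlinarith [mul_nonneg hq0 (by linarith : (0 : ℝ) ≤ 2 * a - b),
      mul_nonneg (mul_nonneg hD2 hU) (by linarith : (0 : ℝ) ≤ 2 * a - b)]

lemma ca_ratio_alg (a b U : ℝ) (ha : 0 ≤ a) (hb : 0 ≤ b) (hba : b ≤ 2 * a)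
    (hcs : (a - b) ^ 2 ≤ b * U) (hU : 0 ≤ U) :
    (a - b) ^ 2 / (a + b) ≤ 2 / 3 * U := by
  rcases (add_nonneg ha hb).eq_or_lt with h0 | hpos
  · rw [← h0]
    simp only [div_zero]
    linarith
  · rw [div_le_iff₀ hpos]
    nlinarith [mul_nonneg hU (by linarith : (0 : ℝ) ≤ 2 * a - b)]

/-! ### The abstract centroid stability theorem -/

/-- Abstract centroid stability for finite cell families, with constant `8`. -/
theorem centroid_alg8 {d : ℕ} (hPL : Helper6.PLHalf (E d) volume) {ι : Type*} [Fintype ι]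
    (K : Set (E d)) (hKm : MeasurableSet K) (hKfin : volume K ≠ ⊤) (x0 : E d) (D : ℝ)
    (hD : ∀ x ∈ K, ‖x - x0‖ ≤ D) (u : E d → ℝ) (hu : Measurable u)
    (hub : ∀ x ∈ K, |u x| ≤ 1 / 2) (A B C : ι → Set (E d))
    (hAm : ∀ i, MeasurableSet (A i)) (hBm : ∀ i, MeasurableSet (B i))
    (hCm : ∀ i, MeasurableSet (C i)) (hAK : ∀ i, A i ⊆ K) (hBK : ∀ i, B i ⊆ K)
    (hCK : ∀ i, C i ⊆ K)
    (hmid : ∀ i, ∀ x ∈ A i, ∀ y ∈ B i, (1 / 2 : ℝ) • (x + y) ∈ C i)
    (hCdisj : ∀ i j, i ≠ j → volume (C i ∩ C j) = 0)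
    (hAdisj : ∀ i j, i ≠ j → volume (A i ∩ A j) = 0) (hAcov : volume (K \ ⋃ i, A i) = 0)
    (hBdisj : ∀ i j, i ≠ j → volume (B i ∩ B j) = 0) (hBcov : volume (K \ ⋃ i, B i) = 0)
    (hmass : ∀ i, ∫ y in B i, (1 + u y) = (volume (A i)).toReal) :
    ∑ i, (volume (A i)).toReal⁻¹ * ‖(∫ y in B i, (1 + u y) • y) - ∫ x in A i, x‖ ^ 2
      ≤ 8 * D ^ 2 * ∫ x in K, u x ^ 2 := by
  have hAfin : ∀ i, volume (A i) ≠ ⊤ := fun i =>
    ne_top_of_le_ne_top hKfin (measure_mono (hAK i))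
  have hBfin : ∀ i, volume (B i) ≠ ⊤ := fun i =>
    ne_top_of_le_ne_top hKfin (measure_mono (hBK i))
  have hCfin : ∀ i, volume (C i) ≠ ⊤ := fun i =>
    ne_top_of_le_ne_top hKfin (measure_mono (hCK i))
  have hDA : ∀ i, ∀ x ∈ A i, ‖x - x0‖ ≤ D := fun i x hx => hD x (hAK i hx)
  have hDB : ∀ i, ∀ x ∈ B i, ‖x - x0‖ ≤ D := fun i x hx => hD x (hBK i hx)
  have hDC : ∀ i, ∀ x ∈ C i, ‖x - x0‖ ≤ D := fun i x hx => hD x (hCK i hx)
  have hmass' : ∀ i, ∫ y in B i, (1 + u y) = volume.real (A i) := hmass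
  have hm := fun i => ca_mass K hKfin u hu hub (A i) (B i) (hBm i) (hBK i) (hmass' i)
  have hw_int : IntegrableOn (quad x0 (D ^ 2) (-1) 0) K volume :=
    quad_integrableOn x0 D hKm hKfin hD _ _ _
  have hw0 : ∀ x ∈ K, 0 ≤ quad x0 (D ^ 2) (-1) 0 x := by
    intro z hz
    simp only [quad, inner_zero_left, add_zero]
    have := pow_le_pow_left₀ (norm_nonneg _) (hD z hz) 2
    linarith
  have hu2_int : IntegrableOn (fun x => u x ^ 2) K volume := by
    refine ca_intOn hKm hKfin (hu.pow_const 2).aestronglyMeasurable (1 / 4) ?_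
    intro x hx
    have h := abs_le.1 (hub x hx)
    rw [Real.norm_eq_abs, abs_of_nonneg (by positivity)]
    nlinarith [h.1, h.2]
  -- sums over the three families
  have hSC := ca_sum_le K hKm C hCm hCK hCdisj _ hw_int hw0
  have hSA := ca_sum_eq K A hAm hAK hAdisj hAcov _ hw_int
  have hSB := ca_sum_eq K B hBm hBK hBdisj hBcov _ hw_int
  have hSU := ca_sum_le K hKm B hBm hBK hBdisj (fun x => u x ^ 2) hu2_int
    (fun x _ => sq_nonneg _)
  -- per-cell inequalities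
  have hcell := fun i => ca_cell_div hPL x0 D (A i) (B i) (C i) (hAm i) (hBm i) (hCm i)
    (hDA i) (hDB i) (hDC i) (hAfin i) (hBfin i) (hCfin i) (hm i).1 (hm i).2.1 (hmid i)
  have hvec := fun i => ca_vec K hKfin x0 D hD u hu hub (A i) (B i) (hAm i) (hBm i)
    (hAK i) (hBK i) (hmass' i)
  have hU0 : ∀ i, 0 ≤ ∫ x in B i, u x ^ 2 := fun i =>
    integral_nonneg (fun x => sq_nonneg _)
  have hsum1 : ∑ i, ‖(∫ x in A i, (x - x0)) - ∫ y in B i, (y - x0)‖ ^ 2
        / (volume.real (A i) + volume.real (B i))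
      ≤ D ^ 2 * ∑ i, (volume.real (A i) - volume.real (B i)) ^ 2
        / (volume.real (A i) + volume.real (B i)) := by
    calc ∑ i, ‖(∫ x in A i, (x - x0)) - ∫ y in B i, (y - x0)‖ ^ 2
          / (volume.real (A i) + volume.real (B i))
        ≤ ∑ i, (2 * (∫ z in C i, quad x0 (D ^ 2) (-1) 0 z)
          - (∫ x in A i, quad x0 (D ^ 2) (-1) 0 x) - (∫ y in B i, quad x0 (D ^ 2) (-1) 0 y)
          + D ^ 2 * ((volume.real (A i) - volume.real (B i)) ^ 2
            / (volume.real (A i) + volume.real (B i)))) :=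
          Finset.sum_le_sum (fun i _ => hcell i)
      _ = 2 * (∑ i, ∫ z in C i, quad x0 (D ^ 2) (-1) 0 z)
          - (∑ i, ∫ x in A i, quad x0 (D ^ 2) (-1) 0 x)
          - (∑ i, ∫ y in B i, quad x0 (D ^ 2) (-1) 0 y)
          + D ^ 2 * ∑ i, (volume.real (A i) - volume.real (B i)) ^ 2
            / (volume.real (A i) + volume.real (B i)) := by
          simp only [Finset.sum_add_distrib, Finset.sum_sub_distrib, Finset.mul_sum]
      _ ≤ D ^ 2 * ∑ i, (volume.real (A i) - volume.real (B i)) ^ 2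
            / (volume.real (A i) + volume.real (B i)) := by
          rw [hSA, hSB]; linarith [hSC]
  have hfin : ∀ i, (volume (A i)).toReal⁻¹
        * ‖(∫ y in B i, (1 + u y) • y) - ∫ x in A i, x‖ ^ 2
      ≤ 6 * (‖(∫ x in A i, (x - x0)) - ∫ y in B i, (y - x0)‖ ^ 2
          / (volume.real (A i) + volume.real (B i)))
        + 4 * D ^ 2 * ∫ x in B i, u x ^ 2 := fun i =>
    ca_final_alg (volume.real (A i)) (volume.real (B i)) _ _ _ (D ^ 2) measureReal_nonneg
      (hm i).1 measureReal_nonneg (hvec i) (sq_nonneg _) (hU0 i) (sq_nonneg D)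
  have hr : ∀ i, (volume.real (A i) - volume.real (B i)) ^ 2
        / (volume.real (A i) + volume.real (B i)) ≤ 2 / 3 * ∫ x in B i, u x ^ 2 := fun i =>
    ca_ratio_alg _ _ _ measureReal_nonneg measureReal_nonneg (hm i).1 (hm i).2.2 (hU0 i)
  have hsum2 : ∑ i, (volume.real (A i) - volume.real (B i)) ^ 2
        / (volume.real (A i) + volume.real (B i)) ≤ 2 / 3 * ∑ i, ∫ x in B i, u x ^ 2 := by
    rw [Finset.mul_sum]
    exact Finset.sum_le_sum (fun i _ => hr i)
  have hD2 : 0 ≤ D ^ 2 := sq_nonneg D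
  calc ∑ i, (volume (A i)).toReal⁻¹ * ‖(∫ y in B i, (1 + u y) • y) - ∫ x in A i, x‖ ^ 2
      ≤ ∑ i, (6 * (‖(∫ x in A i, (x - x0)) - ∫ y in B i, (y - x0)‖ ^ 2
          / (volume.real (A i) + volume.real (B i)))
        + 4 * D ^ 2 * ∫ x in B i, u x ^ 2) := Finset.sum_le_sum (fun i _ => hfin i)
    _ = 6 * (∑ i, ‖(∫ x in A i, (x - x0)) - ∫ y in B i, (y - x0)‖ ^ 2
          / (volume.real (A i) + volume.real (B i)))
        + 4 * D ^ 2 * ∑ i, ∫ x in B i, u x ^ 2 := by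
        simp only [Finset.sum_add_distrib, Finset.mul_sum]
    _ ≤ 8 * D ^ 2 * ∑ i, ∫ x in B i, u x ^ 2 := by
        have h1 := mul_le_mul_of_nonneg_left hsum2 hD2
        nlinarith [hsum1, h1]
    _ ≤ 8 * D ^ 2 * ∫ x in K, u x ^ 2 :=
        mul_le_mul_of_nonneg_left hSU (by positivity)

/-- Abstract centroid stability for finite cell families: exactly the signature of
`Helper87.centroid_alg` (board msg 627), constant `30`. -/
theorem centroid_alg {d : ℕ} (hPL : Helper6.PLHalf (E d) volume) {ι : Type*} [Fintype ι]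
    (K : Set (E d)) (hKm : MeasurableSet K) (hKfin : volume K ≠ ⊤) (x0 : E d) (D : ℝ)
    (hD : ∀ x ∈ K, ‖x - x0‖ ≤ D) (u : E d → ℝ) (hu : Measurable u)
    (hub : ∀ x ∈ K, |u x| ≤ 1 / 2) (A B C : ι → Set (E d))
    (hAm : ∀ i, MeasurableSet (A i)) (hBm : ∀ i, MeasurableSet (B i))
    (hCm : ∀ i, MeasurableSet (C i)) (hAK : ∀ i, A i ⊆ K) (hBK : ∀ i, B i ⊆ K)
    (hCK : ∀ i, C i ⊆ K)
    (hmid : ∀ i, ∀ x ∈ A i, ∀ y ∈ B i, (1 / 2 : ℝ) • (x + y) ∈ C i)
    (hCdisj : ∀ i j, i ≠ j → volume (C i ∩ C j) = 0)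
    (hAdisj : ∀ i j, i ≠ j → volume (A i ∩ A j) = 0) (hAcov : volume (K \ ⋃ i, A i) = 0)
    (hBdisj : ∀ i j, i ≠ j → volume (B i ∩ B j) = 0) (hBcov : volume (K \ ⋃ i, B i) = 0)
    (hmass : ∀ i, ∫ y in B i, (1 + u y) = (volume (A i)).toReal) :
    ∑ i, (volume (A i)).toReal⁻¹ * ‖(∫ y in B i, (1 + u y) • y) - ∫ x in A i, x‖ ^ 2
      ≤ 30 * D ^ 2 * ∫ x in K, u x ^ 2 := by
  have h8 := centroid_alg8 hPL K hKm hKfin x0 D hD u hu hub A B C hAm hBm hCm hAK hBK hCK hmid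
    hCdisj hAdisj hAcov hBdisj hBcov hmass
  have hI : 0 ≤ ∫ x in K, u x ^ 2 := integral_nonneg (fun x => sq_nonneg _)
  have hDI : 0 ≤ D ^ 2 * ∫ x in K, u x ^ 2 := mul_nonneg (sq_nonneg D) hI
  linarith

end Crest.Agent.S0109.Helper76
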