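import Mathlib

/-!
# Prékopa–Leindler and multiplicative Brunn–Minkowski (helper78, row 82 / S0109)

Self-contained (Mathlib only).  Main results:

* `bm_real_add`  : `volume A + volume B ≤ volume C` for `A + B ⊆ C ⊆ ℝ`, `A`, `B` nonempty measurable.
* `pl_real`      : one-dimensional Prékopa–Leindler for measurable `ℝ≥0∞`-valued functions.
* `pl_pi`        : Prékopa–Leindler on `Fin n → ℝ`.
* `bm_pi`, `bm_euclidean` : `volume A ^ (1-t) * volume B ^ t ≤ volume C` when `(1-t)A + tB ⊆ C`.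
-/

set_option autoImplicit false

open MeasureTheory Set
open scoped ENNReal NNReal

namespace Crest.Agent.S0109.Helper78

/-- One-dimensional Brunn–Minkowski, additive form. -/
theorem bm_real_add {A B C : Set ℝ} (hA : MeasurableSet A) (hB : MeasurableSet B)
    (hAne : A.Nonempty) (hBne : B.Nonempty) (h : ∀ a ∈ A, ∀ b ∈ B, a + b ∈ C) :
    volume A + volume B ≤ volume C := by
  obtain ⟨a₀, ha₀⟩ := hAne
  obtain ⟨b₀, hb₀⟩ := hBne
  -- translates of `A` and `B` sit inside `C`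
  have hAC : volume A ≤ volume C := by
    have : (fun x => x + (-b₀)) ⁻¹' A ⊆ C := by
      intro x hx
      have := h _ hx b₀ hb₀
      simpa using this
    calc volume A = volume ((fun x => x + (-b₀)) ⁻¹' A) := (measure_preimage_add_right volume (-b₀) A).symm
      _ ≤ volume C := measure_mono this
  have hBC : volume B ≤ volume C := by
    have : (fun x => x + (-a₀)) ⁻¹' B ⊆ C := by
      intro x hx
      have := h a₀ ha₀ _ hx
      simpa [add_comm] using this
    calc volume B = volume ((fun x => x + (-a₀)) ⁻¹' B) := (measure_preimage_add_right volume (-a₀) B).symm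
      _ ≤ volume C := measure_mono this
  by_cases hAtop : volume A = ∞
  · have : volume C = ∞ := top_le_iff.mp (hAtop ▸ hAC)
    simp [this]
  by_cases hBtop : volume B = ∞
  · have : volume C = ∞ := top_le_iff.mp (hBtop ▸ hBC)
    simp [this]
  refine ENNReal.le_of_forall_pos_le_add ?_
  intro ε hε _
  have hε2 : ((ε : ℝ≥0∞) / 2) ≠ 0 := by
    simp [hε.ne']
  obtain ⟨KA, hKA, hKAc, hKAm⟩ := hA.exists_isCompact_lt_add hAtop hε2
  obtain ⟨KB, hKB, hKBc, hKBm⟩ := hB.exists_isCompact_lt_add hBtop hε2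
  set KA' : Set ℝ := insert a₀ KA with hKA'
  set KB' : Set ℝ := insert b₀ KB with hKB'
  have hKA'c : IsCompact KA' := hKAc.insert a₀
  have hKB'c : IsCompact KB' := hKBc.insert b₀
  have hKA's : KA' ⊆ A := Set.insert_subset ha₀ hKA
  have hKB's : KB' ⊆ B := Set.insert_subset hb₀ hKB
  have hKA'ne : KA'.Nonempty := ⟨a₀, Set.mem_insert _ _⟩
  have hKB'ne : KB'.Nonempty := ⟨b₀, Set.mem_insert _ _⟩
  set a' : ℝ := sSup KA' with ha'
  set b' : ℝ := sInf KB' with hb'
  have ha'mem : a' ∈ KA' := hKA'c.sSup_mem hKA'ne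
  have hb'mem : b' ∈ KB' := hKB'c.sInf_mem hKB'ne
  have ha'le : ∀ a ∈ KA', a ≤ a' := fun a ha => le_csSup hKA'c.bddAbove ha
  have hb'le : ∀ b ∈ KB', b' ≤ b := fun b hb => csInf_le hKB'c.bddBelow hb
  -- the two translates
  set S₁ : Set ℝ := (fun x => x + (-b')) ⁻¹' KA' with hS₁
  set S₂ : Set ℝ := (fun x => x + (-a')) ⁻¹' KB' with hS₂
  have hS₁C : S₁ ⊆ C := by
    intro x hx
    have := h _ (hKA's hx) b' (hKB's hb'mem)
    simpa using this
  have hS₂C : S₂ ⊆ C := by
    intro x hx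
    have := h a' (hKA's ha'mem) _ (hKB's hx)
    simpa [add_comm] using this
  have hS₁m : volume S₁ = volume KA' := measure_preimage_add_right volume (-b') KA'
  have hS₂m : volume S₂ = volume KB' := measure_preimage_add_right volume (-a') KB'
  have hS₂meas : MeasurableSet S₂ :=
    (measurable_id.add_const _) hKB'c.isClosed.measurableSet
  have hinter : S₁ ∩ S₂ ⊆ {a' + b'} := by
    rintro x ⟨hx1, hx2⟩
    have h1 : x + (-b') ≤ a' := ha'le _ hx1
    have h2 : b' ≤ x + (-a') := hb'le _ hx2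
    simp only [Set.mem_singleton_iff]
    linarith
  have hinter0 : volume (S₁ ∩ S₂) = 0 :=
    measure_mono_null hinter (by simp)
  have hunion : volume (S₁ ∪ S₂) = volume KA' + volume KB' := by
    have := measure_union_add_inter (μ := volume) S₁ hS₂meas
    rw [hinter0, add_zero, hS₁m, hS₂m] at this
    exact this
  have hKK : volume KA' + volume KB' ≤ volume C := by
    rw [← hunion]
    exact measure_mono (Set.union_subset hS₁C hS₂C)
  have hKAle : volume KA ≤ volume KA' := measure_mono (Set.subset_insert _ _)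
  have hKBle : volume KB ≤ volume KB' := measure_mono (Set.subset_insert _ _)
  calc volume A + volume B ≤ (volume KA + ε / 2) + (volume KB + ε / 2) :=
        add_le_add hKAm.le hKBm.le
    _ = volume KA + volume KB + ε := by
        rw [add_add_add_comm, ENNReal.add_halves]
    _ ≤ volume KA' + volume KB' + ε := by gcongr
    _ ≤ volume C + ε := by gcongr

/-- One-dimensional Brunn–Minkowski for convex combinations. -/
theorem bm_real {A B C : Set ℝ} (hA : MeasurableSet A) (hB : MeasurableSet B)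
    (hAne : A.Nonempty) (hBne : B.Nonempty) {t : ℝ} (ht0 : 0 < t) (ht1 : t < 1)
    (h : ∀ a ∈ A, ∀ b ∈ B, (1 - t) * a + t * b ∈ C) :
    ENNReal.ofReal (1 - t) * volume A + ENNReal.ofReal t * volume B ≤ volume C := by
  have h1t : 0 < 1 - t := by linarith
  set A' : Set ℝ := (fun x => (1 - t)⁻¹ * x) ⁻¹' A with hA'
  set B' : Set ℝ := (fun x => t⁻¹ * x) ⁻¹' B with hB'
  have hA'm : MeasurableSet A' := (measurable_const_mul _) hA
  have hB'm : MeasurableSet B' := (measurable_const_mul _) hB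
  have hA'v : volume A' = ENNReal.ofReal (1 - t) * volume A := by
    rw [hA', Real.volume_preimage_mul_left (inv_ne_zero h1t.ne') A, inv_inv, abs_of_pos h1t]
  have hB'v : volume B' = ENNReal.ofReal t * volume B := by
    rw [hB', Real.volume_preimage_mul_left (inv_ne_zero ht0.ne') B, inv_inv, abs_of_pos ht0]
  obtain ⟨a₀, ha₀⟩ := hAne
  obtain ⟨b₀, hb₀⟩ := hBne
  have hA'ne : A'.Nonempty := ⟨(1 - t) * a₀, by
    simp only [hA', Set.mem_preimage]
    rwa [inv_mul_cancel_left₀ h1t.ne']⟩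
  have hB'ne : B'.Nonempty := ⟨t * b₀, by
    simp only [hB', Set.mem_preimage]
    rwa [inv_mul_cancel_left₀ ht0.ne']⟩
  rw [← hA'v, ← hB'v]
  refine bm_real_add hA'm hB'm hA'ne hB'ne ?_
  intro a ha b hb
  have := h _ ha _ hb
  rwa [mul_inv_cancel_left₀ h1t.ne', mul_inv_cancel_left₀ ht0.ne'] at this

/-- Layer cake on `(0,1)` for a function with values in `[0,1]`. -/
theorem layer_Ioo {f : ℝ → ℝ} (hf : Measurable f) (f0 : ∀ x, 0 ≤ f x) (f1 : ∀ x, f x ≤ 1) :
    ∫⁻ x, ENNReal.ofReal (f x) = ∫⁻ τ in Ioo (0:ℝ) 1, volume {a | τ < f a} := by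
  rw [lintegral_eq_lintegral_meas_lt volume (Filter.Eventually.of_forall f0) hf.aemeasurable]
  rw [← lintegral_indicator measurableSet_Ioi, ← lintegral_indicator measurableSet_Ioo]
  congr 1
  funext τ
  by_cases hτ : τ ∈ Ioo (0:ℝ) 1
  · rw [indicator_of_mem hτ, indicator_of_mem (show τ ∈ Ioi (0:ℝ) from hτ.1)]
  · rw [indicator_of_notMem hτ]
    by_cases hτ0 : τ ∈ Ioi (0:ℝ)
    · rw [indicator_of_mem hτ0]
      have h1 : 1 ≤ τ := by
        by_contra hc
        exact hτ ⟨hτ0, not_le.mp hc⟩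
      have hempty : {a | τ < f a} = ∅ := by
        ext a
        simp only [Set.mem_ofPred_eq, mem_empty_iff_false, iff_false, not_lt]
        exact (f1 a).trans h1
      rw [hempty, measure_empty]
    · rw [indicator_of_notMem hτ0]

/-- Layer cake lower bound on `(0,1)`. -/
theorem layer_ge {h : ℝ → ℝ} (hh : Measurable h) (h0 : ∀ x, 0 ≤ h x) :
    ∫⁻ τ in Ioo (0:ℝ) 1, volume {a | τ < h a} ≤ ∫⁻ x, ENNReal.ofReal (h x) := by
  rw [lintegral_eq_lintegral_meas_lt volume (Filter.Eventually.of_forall h0) hh.aemeasurable]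
  exact lintegral_mono_set Ioo_subset_Ioi_self

/-- Normalised one-dimensional Prékopa–Leindler (additive conclusion). -/
theorem pl_core {f g h : ℝ → ℝ} (hf : Measurable f) (hg : Measurable g) (hh : Measurable h)
    (f0 : ∀ x, 0 ≤ f x) (g0 : ∀ x, 0 ≤ g x) (h0 : ∀ x, 0 ≤ h x)
    (f1 : ∀ x, f x ≤ 1) (g1 : ∀ x, g x ≤ 1)
    (fs : ∀ τ, τ < 1 → ∃ x, τ < f x) (gs : ∀ τ, τ < 1 → ∃ x, τ < g x)
    {t : ℝ} (ht0 : 0 < t) (ht1 : t < 1)
    (H : ∀ x y, f x ^ (1 - t) * g y ^ t ≤ h ((1 - t) * x + t * y)) :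
    ENNReal.ofReal (1 - t) * (∫⁻ x, ENNReal.ofReal (f x)) +
        ENNReal.ofReal t * (∫⁻ x, ENNReal.ofReal (g x))
      ≤ ∫⁻ x, ENNReal.ofReal (h x) := by
  have h1t : 0 < 1 - t := by linarith
  rw [layer_Ioo hf f0 f1, layer_Ioo hg g0 g1]
  calc ENNReal.ofReal (1 - t) * (∫⁻ τ in Ioo (0:ℝ) 1, volume {a | τ < f a}) +
        ENNReal.ofReal t * (∫⁻ τ in Ioo (0:ℝ) 1, volume {a | τ < g a})
      = (∫⁻ τ in Ioo (0:ℝ) 1, ENNReal.ofReal (1 - t) * volume {a | τ < f a}) +
        (∫⁻ τ in Ioo (0:ℝ) 1, ENNReal.ofReal t * volume {a | τ < g a}) := by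
        rw [lintegral_const_mul' _ _ ENNReal.ofReal_ne_top,
          lintegral_const_mul' _ _ ENNReal.ofReal_ne_top]
    _ ≤ ∫⁻ τ in Ioo (0:ℝ) 1, (ENNReal.ofReal (1 - t) * volume {a | τ < f a} +
          ENNReal.ofReal t * volume {a | τ < g a}) := le_lintegral_add _ _
    _ ≤ ∫⁻ τ in Ioo (0:ℝ) 1, volume {a | τ < h a} := by
        refine setLIntegral_mono' measurableSet_Ioo ?_
        intro τ hτ
        refine bm_real (measurableSet_lt measurable_const hf) (measurableSet_lt measurable_const hg)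
          (fs τ hτ.2) (gs τ hτ.2) ht0 ht1 ?_
        intro a ha b hb
        simp only [Set.mem_ofPred_eq] at ha hb ⊢
        have e1 : τ ^ (1 - t) < f a ^ (1 - t) := Real.rpow_lt_rpow hτ.1.le ha h1t
        have e2 : τ ^ t < g b ^ t := Real.rpow_lt_rpow hτ.1.le hb ht0
        have e3 : τ ^ (1 - t) * τ ^ t = τ := by
          rw [← Real.rpow_add hτ.1]
          simp
        calc τ = τ ^ (1 - t) * τ ^ t := e3.symm
          _ < f a ^ (1 - t) * g b ^ t :=
              mul_lt_mul'' e1 e2 (Real.rpow_nonneg hτ.1.le _) (Real.rpow_nonneg hτ.1.le _)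
          _ ≤ h ((1 - t) * a + t * b) := H a b
    _ ≤ ∫⁻ x, ENNReal.ofReal (h x) := layer_ge hh h0

/-- Weighted AM–GM in `ℝ≥0∞`. -/
theorem ennreal_amgm {t : ℝ} (ht0 : 0 < t) (ht1 : t < 1) (X Y : ℝ≥0∞) :
    X ^ (1 - t) * Y ^ t ≤ ENNReal.ofReal (1 - t) * X + ENNReal.ofReal t * Y := by
  have h1t : 0 < 1 - t := by linarith
  by_cases hX : X = ∞
  · subst hX
    have : ENNReal.ofReal (1 - t) * ∞ = ∞ :=
      ENNReal.mul_top (by simpa using h1t)
    rw [this, top_add]
    exact le_top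
  by_cases hY : Y = ∞
  · subst hY
    have : ENNReal.ofReal t * ∞ = ∞ :=
      ENNReal.mul_top (by simpa using ht0)
    rw [this, add_top]
    exact le_top
  lift X to ℝ≥0 using hX
  lift Y to ℝ≥0 using hY
  have key := NNReal.geom_mean_le_arith_mean2_weighted ⟨1 - t, h1t.le⟩ ⟨t, ht0.le⟩ X Y
    (by apply NNReal.eq; show (1 - t) + t = (1:ℝ); ring)
  rw [← ENNReal.coe_rpow_of_nonneg _ h1t.le, ← ENNReal.coe_rpow_of_nonneg _ ht0.le,
    ENNReal.ofReal, ENNReal.ofReal, Real.toNNReal_of_nonneg h1t.le, Real.toNNReal_of_nonneg ht0.le]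
  exact_mod_cast key

/-- One-dimensional Prékopa–Leindler for bounded nonnegative real functions. -/
theorem pl_real_bdd {f g h : ℝ → ℝ} (hf : Measurable f) (hg : Measurable g) (hh : Measurable h)
    (f0 : ∀ x, 0 ≤ f x) (g0 : ∀ x, 0 ≤ g x) (h0 : ∀ x, 0 ≤ h x)
    {Mf Mg : ℝ} (fM : ∀ x, f x ≤ Mf) (gM : ∀ x, g x ≤ Mg)
    {t : ℝ} (ht0 : 0 < t) (ht1 : t < 1)
    (H : ∀ x y, f x ^ (1 - t) * g y ^ t ≤ h ((1 - t) * x + t * y)) :
    (∫⁻ x, ENNReal.ofReal (f x)) ^ (1 - t) * (∫⁻ x, ENNReal.ofReal (g x)) ^ t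
      ≤ ∫⁻ x, ENNReal.ofReal (h x) := by
  have h1t : 0 < 1 - t := by linarith
  have hbf : BddAbove (Set.range f) := ⟨Mf, by rintro _ ⟨x, rfl⟩; exact fM x⟩
  have hbg : BddAbove (Set.range g) := ⟨Mg, by rintro _ ⟨x, rfl⟩; exact gM x⟩
  set Sf : ℝ := ⨆ x, f x with hSf
  set Sg : ℝ := ⨆ x, g x with hSg
  have fS : ∀ x, f x ≤ Sf := fun x => le_ciSup hbf x
  have gS : ∀ x, g x ≤ Sg := fun x => le_ciSup hbg x
  by_cases hSf0 : Sf ≤ 0
  · have : ∀ x, f x = 0 := fun x => le_antisymm ((fS x).trans hSf0) (f0 x)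
    simp [this, ENNReal.zero_rpow_of_pos h1t]
  by_cases hSg0 : Sg ≤ 0
  · have : ∀ x, g x = 0 := fun x => le_antisymm ((gS x).trans hSg0) (g0 x)
    simp [this, ENNReal.zero_rpow_of_pos ht0]
  have hSfp : 0 < Sf := not_le.mp hSf0
  have hSgp : 0 < Sg := not_le.mp hSg0
  set S : ℝ := Sf ^ (1 - t) * Sg ^ t with hS
  have hSp : 0 < S := mul_pos (Real.rpow_pos_of_pos hSfp _) (Real.rpow_pos_of_pos hSgp _)
  have core := pl_core (f := fun x => f x / Sf) (g := fun x => g x / Sg) (h := fun x => h x / S)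
    (hf.div_const _) (hg.div_const _) (hh.div_const _)
    (fun x => div_nonneg (f0 x) hSfp.le) (fun x => div_nonneg (g0 x) hSgp.le)
    (fun x => div_nonneg (h0 x) hSp.le)
    (fun x => (div_le_one hSfp).mpr (fS x)) (fun x => (div_le_one hSgp).mpr (gS x))
    (by
      intro τ hτ
      have : τ * Sf < Sf := by nlinarith
      obtain ⟨x, hx⟩ := exists_lt_of_lt_ciSup this
      exact ⟨x, (lt_div_iff₀ hSfp).mpr hx⟩)
    (by
      intro τ hτ
      have : τ * Sg < Sg := by nlinarith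
      obtain ⟨x, hx⟩ := exists_lt_of_lt_ciSup this
      exact ⟨x, (lt_div_iff₀ hSgp).mpr hx⟩)
    ht0 ht1
    (by
      intro x y
      rw [Real.div_rpow (f0 x) hSfp.le, Real.div_rpow (g0 y) hSgp.le, div_mul_div_comm]
      exact div_le_div_of_nonneg_right (H x y) hSp.le)
  -- pull the constants out of the integrals
  have e1 : ∀ (u : ℝ → ℝ) (c : ℝ), 0 < c → (∀ x, 0 ≤ u x) →
      ∫⁻ x, ENNReal.ofReal (u x / c) = ENNReal.ofReal c⁻¹ * ∫⁻ x, ENNReal.ofReal (u x) := by
    intro u c hc hu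
    rw [← lintegral_const_mul' _ _ ENNReal.ofReal_ne_top]
    congr 1
    funext x
    rw [← ENNReal.ofReal_mul (inv_nonneg.mpr hc.le), div_eq_inv_mul]
  rw [e1 f Sf hSfp f0, e1 g Sg hSgp g0, e1 h S hSp h0] at core
  set a := ∫⁻ x, ENNReal.ofReal (f x) with ha
  set b := ∫⁻ x, ENNReal.ofReal (g x) with hb
  set c := ∫⁻ x, ENNReal.ofReal (h x) with hc
  have amgm := ennreal_amgm ht0 ht1 (ENNReal.ofReal Sf⁻¹ * a) (ENNReal.ofReal Sg⁻¹ * b)
  have hγ : ENNReal.ofReal Sf⁻¹ ^ (1 - t) * ENNReal.ofReal Sg⁻¹ ^ t = ENNReal.ofReal S⁻¹ := by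
    rw [ENNReal.ofReal_rpow_of_pos (inv_pos.mpr hSfp), ENNReal.ofReal_rpow_of_pos (inv_pos.mpr hSgp),
      ← ENNReal.ofReal_mul (Real.rpow_nonneg (inv_nonneg.mpr hSfp.le) _),
      Real.inv_rpow hSfp.le, Real.inv_rpow hSgp.le, ← mul_inv]
  have hfin : ENNReal.ofReal S⁻¹ * (a ^ (1 - t) * b ^ t) ≤ ENNReal.ofReal S⁻¹ * c := by
    calc ENNReal.ofReal S⁻¹ * (a ^ (1 - t) * b ^ t)
        = (ENNReal.ofReal Sf⁻¹ * a) ^ (1 - t) * (ENNReal.ofReal Sg⁻¹ * b) ^ t := by
          rw [ENNReal.mul_rpow_of_nonneg _ _ h1t.le, ENNReal.mul_rpow_of_nonneg _ _ ht0.le, ← hγ]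
          ring
      _ ≤ _ := amgm
      _ ≤ _ := core
  exact (ENNReal.mul_le_mul_iff_right (by simpa using hSp) ENNReal.ofReal_ne_top).mp hfin

theorem iSup_min_natCast (a : ℝ≥0∞) : ⨆ n : ℕ, min a (n : ℝ≥0∞) = a := by
  refine le_antisymm (iSup_le fun n => min_le_left _ _) ?_
  by_cases ha : a = ∞
  · subst ha
    simp [ENNReal.iSup_natCast]
  · obtain ⟨n, hn⟩ := ENNReal.exists_nat_gt ha
    exact le_iSup_of_le n (by rw [min_eq_left hn.le])

/-- If `u n ^ p * v n ^ q ≤ c` along monotone sequences then the same holds for the suprema. -/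
theorem iSup_rpow_mul_iSup_rpow_le {u v : ℕ → ℝ≥0∞} (hu : Monotone u) (hv : Monotone v)
    {p q : ℝ} (hp : 0 < p) (hq : 0 < q) {c : ℝ≥0∞}
    (H : ∀ n, u n ^ p * v n ^ q ≤ c) : (⨆ n, u n) ^ p * (⨆ n, v n) ^ q ≤ c := by
  have e1 : (⨆ n, u n) ^ p = ⨆ n, u n ^ p := by
    have := (ENNReal.orderIsoRpow p hp).map_iSup u
    simp only [ENNReal.orderIsoRpow_apply] at this
    exact this
  have e2 : (⨆ n, v n) ^ q = ⨆ n, v n ^ q := by
    have := (ENNReal.orderIsoRpow q hq).map_iSup v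
    simp only [ENNReal.orderIsoRpow_apply] at this
    exact this
  rw [e1, e2, ENNReal.iSup_mul]
  refine iSup_le fun i => ?_
  rw [ENNReal.mul_iSup]
  refine iSup_le fun j => ?_
  calc u i ^ p * v j ^ q ≤ u (max i j) ^ p * v (max i j) ^ q := by
        gcongr
        · exact hu (le_max_left _ _)
        · exact hv (le_max_right _ _)
    _ ≤ c := H _

/-- **Prékopa–Leindler inequality** on `ℝ`, for measurable `ℝ≥0∞`-valued functions. -/
theorem pl_real {f g h : ℝ → ℝ≥0∞} (hf : Measurable f) (hg : Measurable g) (hh : Measurable h)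
    {t : ℝ} (ht0 : 0 < t) (ht1 : t < 1)
    (H : ∀ x y, f x ^ (1 - t) * g y ^ t ≤ h ((1 - t) * x + t * y)) :
    (∫⁻ x, f x) ^ (1 - t) * (∫⁻ x, g x) ^ t ≤ ∫⁻ x, h x := by
  have h1t : 0 < 1 - t := by linarith
  -- truncations
  have trunc : ∀ n : ℕ, (∫⁻ x, min (f x) n) ^ (1 - t) * (∫⁻ x, min (g x) n) ^ t ≤ ∫⁻ x, h x := by
    intro n
    have hfin : ∀ (a : ℝ≥0∞), min a (n : ℝ≥0∞) ≠ ∞ := fun a =>
      ne_top_of_le_ne_top (ENNReal.natCast_ne_top n) (min_le_right _ _)
    have key := pl_real_bdd (f := fun x => (min (f x) n).toReal) (g := fun x => (min (g x) n).toReal)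
      (h := fun x => (min (h x) n).toReal)
      (hf.min measurable_const).ennreal_toReal (hg.min measurable_const).ennreal_toReal
      (hh.min measurable_const).ennreal_toReal
      (fun x => ENNReal.toReal_nonneg) (fun x => ENNReal.toReal_nonneg)
      (fun x => ENNReal.toReal_nonneg)
      (Mf := n) (Mg := n)
      (fun x => by
        have := ENNReal.toReal_mono (ENNReal.natCast_ne_top n) (min_le_right (f x) (n : ℝ≥0∞))
        simpa using this)
      (fun x => by
        have := ENNReal.toReal_mono (ENNReal.natCast_ne_top n) (min_le_right (g x) (n : ℝ≥0∞))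
        simpa using this)
      ht0 ht1
      (by
        intro x y
        rw [ENNReal.toReal_rpow, ENNReal.toReal_rpow, ← ENNReal.toReal_mul]
        refine ENNReal.toReal_mono (hfin _) ?_
        refine le_min ?_ ?_
        · calc min (f x) ↑n ^ (1 - t) * min (g y) ↑n ^ t ≤ f x ^ (1 - t) * g y ^ t := by
                gcongr
                · exact min_le_left _ _
                · exact min_le_left _ _
            _ ≤ h ((1 - t) * x + t * y) := H x y
        · calc min (f x) ↑n ^ (1 - t) * min (g y) ↑n ^ t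
              ≤ (n : ℝ≥0∞) ^ (1 - t) * (n : ℝ≥0∞) ^ t := by
                gcongr
                · exact min_le_right _ _
                · exact min_le_right _ _
            _ = (n : ℝ≥0∞) := by
                rw [← ENNReal.rpow_add_of_nonneg _ _ h1t.le ht0.le]
                simp)
    simp only [ENNReal.ofReal_toReal (hfin _)] at key
    exact key.trans (lintegral_mono fun x => min_le_left _ _)
  -- monotone convergence
  have hfm : ∀ n : ℕ, Measurable fun x => min (f x) (n : ℝ≥0∞) := fun n => hf.min measurable_const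
  have hgm : ∀ n : ℕ, Measurable fun x => min (g x) (n : ℝ≥0∞) := fun n => hg.min measurable_const
  have hfmono : Monotone fun (n : ℕ) x => min (f x) (n : ℝ≥0∞) := by
    intro n m hnm x
    exact min_le_min le_rfl (by exact_mod_cast hnm)
  have hgmono : Monotone fun (n : ℕ) x => min (g x) (n : ℝ≥0∞) := by
    intro n m hnm x
    exact min_le_min le_rfl (by exact_mod_cast hnm)
  have ef : ∫⁻ x, f x = ⨆ n : ℕ, ∫⁻ x, min (f x) n := by
    rw [← lintegral_iSup hfm hfmono]
    simp only [iSup_min_natCast]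
  have eg : ∫⁻ x, g x = ⨆ n : ℕ, ∫⁻ x, min (g x) n := by
    rw [← lintegral_iSup hgm hgmono]
    simp only [iSup_min_natCast]
  rw [ef, eg]
  refine iSup_rpow_mul_iSup_rpow_le ?_ ?_ h1t ht0 trunc
  · intro n m hnm
    exact lintegral_mono (hfmono hnm)
  · intro n m hnm
    exact lintegral_mono (hgmono hnm)

/-- The splitting `(Fin (n+1) → ℝ) ≃ᵐ ℝ × (Fin n → ℝ)` respects convex combinations. -/
theorem piFinSucc_combo (n : ℕ) (t : ℝ) (x y : Fin (n + 1) → ℝ) :
    MeasurableEquiv.piFinSuccAbove (fun _ : Fin (n + 1) => ℝ) 0 ((1 - t) • x + t • y) =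
      ((1 - t) * (MeasurableEquiv.piFinSuccAbove (fun _ : Fin (n + 1) => ℝ) 0 x).1 +
          t * (MeasurableEquiv.piFinSuccAbove (fun _ : Fin (n + 1) => ℝ) 0 y).1,
        (1 - t) • (MeasurableEquiv.piFinSuccAbove (fun _ : Fin (n + 1) => ℝ) 0 x).2 +
          t • (MeasurableEquiv.piFinSuccAbove (fun _ : Fin (n + 1) => ℝ) 0 y).2) := by
  refine Prod.ext ?_ ?_
  · simp [MeasurableEquiv.piFinSuccAbove_apply, Fin.insertNthEquiv]
  · funext j
    simp [MeasurableEquiv.piFinSuccAbove_apply, Fin.insertNthEquiv, Fin.tail]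

/-- **Prékopa–Leindler inequality** on `Fin n → ℝ`. -/
theorem pl_pi (n : ℕ) : ∀ {f g h : (Fin n → ℝ) → ℝ≥0∞}, Measurable f → Measurable g →
    Measurable h → ∀ {t : ℝ}, 0 < t → t < 1 →
    (∀ x y, f x ^ (1 - t) * g y ^ t ≤ h ((1 - t) • x + t • y)) →
    (∫⁻ x, f x) ^ (1 - t) * (∫⁻ x, g x) ^ t ≤ ∫⁻ x, h x := by
  induction n with
  | zero =>
    intro f g h hf hg hh t ht0 ht1 H
    have hvol : (volume : Measure (Fin 0 → ℝ)) = Measure.dirac (fun _ => 0) := by
      rw [volume_pi]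
      exact Measure.pi_of_empty _ _
    rw [hvol, lintegral_dirac' _ hf, lintegral_dirac' _ hg, lintegral_dirac' _ hh]
    have := H (fun _ => 0) (fun _ => 0)
    rwa [Subsingleton.elim ((1 - t) • (fun _ => (0:ℝ)) + t • (fun _ => (0:ℝ)) : Fin 0 → ℝ)
      (fun _ => 0)] at this
  | succ n ih =>
    intro f g h hf hg hh t ht0 ht1 H
    set e := MeasurableEquiv.piFinSuccAbove (fun _ : Fin (n + 1) => ℝ) 0 with he
    have hmp : MeasurePreserving e volume volume :=
      volume_preserving_piFinSuccAbove (fun _ => ℝ) 0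
    have conv : ∀ (u : (Fin (n + 1) → ℝ) → ℝ≥0∞), Measurable u →
        ∫⁻ x, u x = ∫⁻ a : ℝ, ∫⁻ v : Fin n → ℝ, u (e.symm (a, v)) := by
      intro u hu
      rw [← (hmp.symm e).lintegral_comp hu, Measure.volume_eq_prod]
      exact lintegral_prod (fun p => u (e.symm p)) (hu.comp e.symm.measurable).aemeasurable
    rw [conv f hf, conv g hg, conv h hh]
    have mF : ∀ (u : (Fin (n + 1) → ℝ) → ℝ≥0∞), Measurable u →
        Measurable fun a : ℝ => ∫⁻ v : Fin n → ℝ, u (e.symm (a, v)) := by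
      intro u hu
      exact (hu.comp e.symm.measurable).lintegral_prod_right'
    refine pl_real (mF f hf) (mF g hg) (mF h hh) ht0 ht1 ?_
    intro a b
    refine ih (f := fun v => f (e.symm (a, v))) (g := fun v => g (e.symm (b, v)))
      (h := fun v => h (e.symm ((1 - t) * a + t * b, v)))
      (hf.comp (e.symm.measurable.comp measurable_prodMk_left))
      (hg.comp (e.symm.measurable.comp measurable_prodMk_left))
      (hh.comp (e.symm.measurable.comp measurable_prodMk_left)) ht0 ht1 ?_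
    intro v w
    have key : e.symm ((1 - t) * a + t * b, (1 - t) • v + t • w) =
        (1 - t) • e.symm (a, v) + t • e.symm (b, w) := by
      apply e.injective
      rw [e.apply_symm_apply, he, piFinSucc_combo, ← he, e.apply_symm_apply, e.apply_symm_apply]
    rw [key]
    exact H _ _

/-- **Multiplicative Brunn–Minkowski** on `Fin n → ℝ` for measurable sets. -/
theorem bm_pi {n : ℕ} {A B C : Set (Fin n → ℝ)} (hA : MeasurableSet A) (hB : MeasurableSet B)
    (hC : MeasurableSet C) {t : ℝ} (ht0 : 0 < t) (ht1 : t < 1)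
    (h : ∀ a ∈ A, ∀ b ∈ B, (1 - t) • a + t • b ∈ C) :
    volume A ^ (1 - t) * volume B ^ t ≤ volume C := by
  have h1t : 0 < 1 - t := by linarith
  have key := pl_pi n (f := A.indicator 1) (g := B.indicator 1) (h := C.indicator 1)
    (measurable_one.indicator hA) (measurable_one.indicator hB) (measurable_one.indicator hC)
    ht0 ht1 (by
      intro x y
      by_cases hx : x ∈ A
      · by_cases hy : y ∈ B
        · rw [indicator_of_mem hx, indicator_of_mem hy, indicator_of_mem (h x hx y hy)]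
          simp
        · rw [indicator_of_notMem hy]
          simp [ENNReal.zero_rpow_of_pos ht0]
      · rw [indicator_of_notMem hx]
        simp [ENNReal.zero_rpow_of_pos h1t])
  rwa [lintegral_indicator_one hA, lintegral_indicator_one hB, lintegral_indicator_one hC] at key

/-- **Multiplicative Brunn–Minkowski** on `EuclideanSpace ℝ (Fin d)` for measurable sets:
if `(1 - t) • a + t • b ∈ C` for all `a ∈ A`, `b ∈ B`, then
`volume A ^ (1 - t) * volume B ^ t ≤ volume C`. -/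
theorem bm_euclidean {d : ℕ} {A B C : Set (EuclideanSpace ℝ (Fin d))} (hA : MeasurableSet A)
    (hB : MeasurableSet B) (hC : MeasurableSet C) {t : ℝ} (ht0 : 0 < t) (ht1 : t < 1)
    (h : ∀ a ∈ A, ∀ b ∈ B, (1 - t) • a + t • b ∈ C) :
    volume A ^ (1 - t) * volume B ^ t ≤ volume C := by
  set E := MeasurableEquiv.toLp 2 (Fin d → ℝ) with hE
  have hmp : MeasurePreserving E volume volume := by
    have := (EuclideanSpace.volume_preserving_symm_measurableEquiv_toLp (Fin d)).symm E.symm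
    simpa using this
  have hv : ∀ S : Set (EuclideanSpace ℝ (Fin d)), volume (E ⁻¹' S) = volume S :=
    fun S => hmp.measure_preimage_equiv S
  rw [← hv A, ← hv B, ← hv C]
  refine bm_pi (E.measurable hA) (E.measurable hB) (E.measurable hC) ht0 ht1 ?_
  intro a ha b hb
  have := h _ ha _ hb
  simpa [hE] using this

/-- **Prékopa–Leindler inequality** on `EuclideanSpace ℝ (Fin d)`. -/
theorem pl_euclidean (d : ℕ) {f g h : EuclideanSpace ℝ (Fin d) → ℝ≥0∞} (hf : Measurable f)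
    (hg : Measurable g) (hh : Measurable h) {t : ℝ} (ht0 : 0 < t) (ht1 : t < 1)
    (H : ∀ x y, f x ^ (1 - t) * g y ^ t ≤ h ((1 - t) • x + t • y)) :
    (∫⁻ x, f x) ^ (1 - t) * (∫⁻ x, g x) ^ t ≤ ∫⁻ x, h x := by
  set E := MeasurableEquiv.toLp 2 (Fin d → ℝ) with hE
  have hmp : MeasurePreserving E volume volume := by
    have := (EuclideanSpace.volume_preserving_symm_measurableEquiv_toLp (Fin d)).symm E.symm
    simpa using this
  rw [← hmp.lintegral_comp hf, ← hmp.lintegral_comp hg, ← hmp.lintegral_comp hh]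
  refine pl_pi d (hf.comp E.measurable) (hg.comp E.measurable) (hh.comp E.measurable) ht0 ht1 ?_
  intro x y
  have := H (E x) (E y)
  simpa [hE] using this

/-- Passage from the `t = 1/2` rpow form to the squared form. -/
theorem half_form {a b c : ℝ≥0∞} (h : a ^ (1 - (1 / 2 : ℝ)) * b ^ (1 / 2 : ℝ) ≤ c) :
    a * b ≤ c ^ 2 := by
  have e : (1 : ℝ) - 1 / 2 = 1 / 2 := by norm_num
  rw [e] at h
  have h2 := pow_le_pow_left' h 2
  have e2 : ∀ x : ℝ≥0∞, (x ^ (1 / 2 : ℝ)) ^ 2 = x := by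
    intro x
    rw [← ENNReal.rpow_natCast, ← ENNReal.rpow_mul]
    norm_num
  rwa [mul_pow, e2, e2] at h2

/-- Passage from the squared hypothesis to the `t = 1/2` rpow form. -/
theorem half_hyp {a b c : ℝ≥0∞} (h : a * b ≤ c ^ 2) :
    a ^ (1 - (1 / 2 : ℝ)) * b ^ (1 / 2 : ℝ) ≤ c := by
  have e : (1 : ℝ) - 1 / 2 = 1 / 2 := by norm_num
  rw [e, ← ENNReal.mul_rpow_of_nonneg _ _ (by norm_num : (0:ℝ) ≤ 1 / 2)]
  have h2 := ENNReal.rpow_le_rpow h (by norm_num : (0:ℝ) ≤ 1 / 2)
  have e2 : (c ^ 2) ^ (1 / 2 : ℝ) = c := by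
    rw [← ENNReal.rpow_natCast, ← ENNReal.rpow_mul]
    norm_num
  rwa [e2] at h2

/-- Prékopa–Leindler at `t = 1/2` on `ℝ`, squared form. -/
theorem plHalf_real (f g h : ℝ → ℝ≥0∞) (hf : Measurable f) (hg : Measurable g)
    (hh : Measurable h) (H : ∀ x y, f x * g y ≤ h ((1 / 2 : ℝ) • (x + y)) ^ 2) :
    (∫⁻ x, f x) * (∫⁻ y, g y) ≤ (∫⁻ z, h z) ^ 2 := by
  refine half_form (pl_real hf hg hh (by norm_num) (by norm_num) ?_)
  intro x y
  have := half_hyp (H x y)
  have e : (1 / 2 : ℝ) • (x + y) = (1 - 1 / 2) * x + 1 / 2 * y := by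
    simp only [smul_eq_mul]; ring
  rwa [e] at this

/-- Prékopa–Leindler at `t = 1/2` on `Fin n → ℝ`, squared form. -/
theorem plHalf_pi (n : ℕ) (f g h : (Fin n → ℝ) → ℝ≥0∞) (hf : Measurable f) (hg : Measurable g)
    (hh : Measurable h) (H : ∀ x y, f x * g y ≤ h ((1 / 2 : ℝ) • (x + y)) ^ 2) :
    (∫⁻ x, f x) * (∫⁻ y, g y) ≤ (∫⁻ z, h z) ^ 2 := by
  refine half_form (pl_pi n hf hg hh (by norm_num) (by norm_num) ?_)
  intro x y
  have := half_hyp (H x y)
  have e : (1 / 2 : ℝ) • (x + y) = (1 - 1 / 2 : ℝ) • x + (1 / 2 : ℝ) • y := by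
    rw [smul_add]; norm_num
  rwa [e] at this

/-- Prékopa–Leindler at `t = 1/2` on `EuclideanSpace ℝ (Fin d)`, squared form. -/
theorem plHalf_euclidean (d : ℕ) (f g h : EuclideanSpace ℝ (Fin d) → ℝ≥0∞) (hf : Measurable f)
    (hg : Measurable g) (hh : Measurable h)
    (H : ∀ x y, f x * g y ≤ h ((1 / 2 : ℝ) • (x + y)) ^ 2) :
    (∫⁻ x, f x) * (∫⁻ y, g y) ≤ (∫⁻ z, h z) ^ 2 := by
  refine half_form (pl_euclidean d hf hg hh (by norm_num) (by norm_num) ?_)
  intro x y
  have := half_hyp (H x y)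
  have e : (1 / 2 : ℝ) • (x + y) = (1 - 1 / 2 : ℝ) • x + (1 / 2 : ℝ) • y := by
    rw [smul_add]; norm_num
  rwa [e] at this

end Crest.Agent.S0109.Helper78
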