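import Mathlib
import Crest.Prelude.Def_QuadraticTransport

/-!
Row 82 / S0109, package "quantisation + pushforward/coupling plumbing + Fatou limit" (helper79).

* `exists_quantizer` (Q1): finite measurable `ε`-net map on a compact set.
* `map_eq_sum_dirac`, `exists_discrete_map`, `isProbabilityOn_map` (Q2): the pushforward under a
  finite-range map is a finite combination of Dirac masses.
* `isPairCoupling_map`, `quadCost_map_le` (Q3): pushing a coupling forward, Minkowski cost bound.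
* `map_comp_eq`, `lintegral_sub_quant_le` (Q4): map-level statements.
* `map_eq_of_tendsto` (Q5): pushforward limit without weak-convergence machinery.
* `lintegral_le_of_tendsto` (Q7): Fatou assembly of the final estimate.
-/

set_option autoImplicit false
open MeasureTheory Filter Topology
open scoped ENNReal NNReal
open Crest.AnalysisR.OT

namespace Crest.Agent.S0109.Helper79

section Quantizer

variable {E : Type*} [PseudoMetricSpace E] [MeasurableSpace E] [OpensMeasurableSpace E]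

/-- The first point of the list within distance `< ε` of `x`; `y0` if there is none. -/
noncomputable def qList (ε : ℝ) (y0 : E) : List E → E → E
  | [], _ => y0
  | (a :: l), x => if dist x a < ε then a else qList ε y0 l x

lemma qList_nil (ε : ℝ) (y0 x : E) : qList ε y0 [] x = y0 := rfl

lemma qList_cons (ε : ℝ) (y0 a : E) (l : List E) (x : E) :
    qList ε y0 (a :: l) x = if dist x a < ε then a else qList ε y0 l x := rfl

lemma measurable_qList (ε : ℝ) (y0 : E) (l : List E) : Measurable (qList ε y0 l) := by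
  induction l with
  | nil => exact measurable_const
  | cons a l ih =>
    have h : qList ε y0 (a :: l) = fun x => if dist x a < ε then a else qList ε y0 l x := by
      funext x
      rw [qList_cons]
    rw [h]
    exact Measurable.ite (p := fun x => dist x a < ε)
      (by exact Metric.isOpen_ball.measurableSet) measurable_const ih

lemma qList_mem (ε : ℝ) (y0 : E) (l : List E) (x : E) :
    qList ε y0 l x = y0 ∨ qList ε y0 l x ∈ l := by
  induction l with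
  | nil => exact Or.inl rfl
  | cons a l ih =>
    rw [qList_cons]
    split_ifs with h
    · exact Or.inr (List.mem_cons_self)
    · rcases ih with h1 | h1
      · exact Or.inl h1
      · exact Or.inr (List.mem_cons_of_mem _ h1)

lemma dist_qList_lt (ε : ℝ) (y0 : E) (l : List E) (x : E) (h : ∃ a ∈ l, dist x a < ε) :
    dist x (qList ε y0 l x) < ε := by
  induction l with
  | nil => obtain ⟨a, ha, _⟩ := h; simp at ha
  | cons b l ih =>
    rw [qList_cons]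
    split_ifs with hb
    · exact hb
    · apply ih
      obtain ⟨a, ha, hax⟩ := h
      rcases List.mem_cons.mp ha with rfl | ha'
      · exact absurd hax hb
      · exact ⟨a, ha', hax⟩

/-- (Q1) A compact nonempty set has, for every `ε > 0`, a measurable finite-range map `q` into a
finite subset `F` of it moving no point of the set by more than `ε`. -/
theorem exists_quantizer {Y : Set E} (hY : IsCompact Y) (hYn : Y.Nonempty) {ε : ℝ} (hε : 0 < ε) :
    ∃ (F : Finset E) (q : E → E), Measurable q ∧ (↑F ⊆ Y) ∧ (∀ x, q x ∈ F) ∧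
      ∀ y ∈ Y, dist (q y) y ≤ ε := by
  classical
  obtain ⟨t, htY, htfin, hcover⟩ := hY.finite_cover_balls hε
  obtain ⟨y0, hy0⟩ := hYn
  refine ⟨insert y0 htfin.toFinset, qList ε y0 htfin.toFinset.toList, measurable_qList _ _ _,
    ?_, ?_, ?_⟩
  · intro a ha
    rcases Finset.mem_insert.mp (Finset.mem_coe.mp ha) with rfl | ha'
    · exact hy0
    · exact htY (htfin.mem_toFinset.mp ha')
  · intro x
    rcases qList_mem ε y0 htfin.toFinset.toList x with h | h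
    · rw [h]; exact Finset.mem_insert_self _ _
    · exact Finset.mem_insert_of_mem (Finset.mem_toList.mp h)
  · intro y hy
    have hy' := hcover hy
    simp only [Set.mem_iUnion, Metric.mem_ball, exists_prop] at hy'
    obtain ⟨a, hat, hya⟩ := hy'
    have := dist_qList_lt ε y0 htfin.toFinset.toList y
      ⟨a, Finset.mem_toList.mpr (htfin.mem_toFinset.mpr hat), hya⟩
    rw [dist_comm]
    exact this.le

end Quantizer

section Discrete

variable {E : Type*} [MeasurableSpace E] [MeasurableSingletonClass E]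

/-- (Q2a) The pushforward under a measurable map with values in a finite set is a finite
combination of Dirac masses. -/
theorem map_eq_sum_dirac (μ : Measure E) {q : E → E} (hq : Measurable q) (F : Finset E)
    (hF : ∀ x, q x ∈ F) :
    μ.map q = ∑ a ∈ F, μ (q ⁻¹' {a}) • Measure.dirac a := by
  classical
  ext s hs
  rw [Measure.map_apply hq hs]
  simp only [Measure.coe_finsetSum, Measure.smul_apply, Finset.sum_apply, smul_eq_mul,
    Measure.dirac_apply' _ hs]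
  have hpre : q ⁻¹' s = ⋃ a ∈ F.filter (· ∈ s), q ⁻¹' {a} := by
    ext x
    simp only [Set.mem_preimage, Set.mem_iUnion, Finset.mem_filter, Set.mem_singleton_iff,
      exists_prop]
    constructor
    · intro hx
      exact ⟨q x, ⟨hF x, hx⟩, rfl⟩
    · rintro ⟨a, ⟨_, has⟩, rfl⟩
      exact has
  rw [hpre, measure_biUnion_finset]
  · rw [Finset.sum_filter]
    refine Finset.sum_congr rfl fun a _ => ?_
    by_cases has : a ∈ s <;> simp [has]
  · intro a _ b _ hab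
    exact Disjoint.preimage _ (Set.disjoint_singleton.mpr hab)
  · intro a _
    exact hq (measurableSet_singleton a)

/-- (Q2b) Re-indexed form: distinct atoms with positive real masses. -/
theorem exists_discrete_map (μ : Measure E) [IsFiniteMeasure μ] {q : E → E} (hq : Measurable q)
    (F : Finset E) (hF : ∀ x, q x ∈ F) :
    ∃ (N : ℕ) (y : Fin N → E) (m : Fin N → ℝ), Function.Injective y ∧ (∀ i, y i ∈ F) ∧
      (∀ i, 0 < m i) ∧ μ.map q = ∑ i, ENNReal.ofReal (m i) • Measure.dirac (y i) := by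
  classical
  set F' := F.filter (fun a => μ (q ⁻¹' {a}) ≠ 0) with hF'
  let e : Fin F'.card ≃ F' := F'.equivFin.symm
  refine ⟨F'.card, fun i => (e i : E), fun i => (μ (q ⁻¹' {(e i : E)})).toReal, ?_, ?_, ?_, ?_⟩
  · intro i j hij
    exact e.injective (Subtype.ext hij)
  · intro i
    exact (Finset.mem_filter.mp (e i).2).1
  · intro i
    have h := (Finset.mem_filter.mp (e i).2).2
    exact ENNReal.toReal_pos h (measure_ne_top μ _)
  · rw [map_eq_sum_dirac μ hq F hF]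
    have h1 : ∑ a ∈ F, μ (q ⁻¹' {a}) • Measure.dirac a
        = ∑ a ∈ F', μ (q ⁻¹' {a}) • Measure.dirac a := by
      rw [hF', Finset.sum_filter]
      refine Finset.sum_congr rfl fun a _ => ?_
      by_cases h : μ (q ⁻¹' {a}) = 0
      · simp [h]
      · simp [h]
    rw [h1]
    have h2 : ∑ a ∈ F', μ (q ⁻¹' {a}) • Measure.dirac a
        = ∑ a : F', μ (q ⁻¹' {(a : E)}) • Measure.dirac (a : E) := by
      rw [← Finset.sum_coe_sort F' (fun a => μ (q ⁻¹' {a}) • Measure.dirac a)]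
    rw [h2, ← Equiv.sum_comp e]
    refine Finset.sum_congr rfl fun i _ => ?_
    rw [ENNReal.ofReal_toReal (measure_ne_top μ _)]

/-- (Q2c) The pushforward of a probability measure under a map with values in a finite subset of
`Y` is a probability measure carried by `Y`. -/
theorem isProbabilityOn_map (μ : Measure E) [IsProbabilityMeasure μ] {q : E → E}
    (hq : Measurable q) (F : Finset E) (hF : ∀ x, q x ∈ F) {Y : Set E} (hFY : ↑F ⊆ Y) :
    IsProbabilityOn Y (μ.map q) := by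
  refine ⟨Measure.isProbabilityMeasure_map hq.aemeasurable, ?_⟩
  have hsub : Yᶜ ⊆ (↑F : Set E)ᶜ := Set.compl_subset_compl.mpr hFY
  refine measure_mono_null hsub ?_
  rw [Measure.map_apply hq F.measurableSet.compl]
  have : q ⁻¹' (↑F : Set E)ᶜ = ∅ := by
    ext x
    simp [hF x]
  rw [this, measure_empty]

/-- The pushforward under a map with values in a finite set `F` gives no mass to `Fᶜ`. -/
theorem map_compl_finset (μ : Measure E) {q : E → E} (hq : Measurable q) (F : Finset E)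
    (hF : ∀ x, q x ∈ F) : μ.map q (↑F : Set E)ᶜ = 0 := by
  rw [Measure.map_apply hq F.measurableSet.compl]
  have : q ⁻¹' (↑F : Set E)ᶜ = ∅ := by
    ext x
    simp [hF x]
  rw [this, measure_empty]

end Discrete

section Coupling

variable {E : Type*} [NormedAddCommGroup E] [MeasurableSpace E] [BorelSpace E]
  [SecondCountableTopology E]

/-- (Q3a) Pushing a coupling forward by `q × q`. -/
theorem isPairCoupling_map {μ ν : Measure E} {π : Measure (E × E)} (h : IsPairCoupling μ ν π)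
    {q : E → E} (hq : Measurable q) :
    IsPairCoupling (μ.map q) (ν.map q) (π.map (Prod.map q q)) := by
  obtain ⟨h1, h2⟩ := h
  constructor
  · rw [Measure.map_map measurable_fst (hq.prodMap hq), ← h1, Measure.map_map hq measurable_fst]
    rfl
  · rw [Measure.map_map measurable_snd (hq.prodMap hq), ← h2, Measure.map_map hq measurable_snd]
    rfl

lemma measurable_enorm_sub_sq :
    Measurable (fun p : E × E => ‖p.1 - p.2‖ₑ ^ 2) :=
  ((measurable_fst.sub measurable_snd).enorm).pow_const 2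

/-- a coupling of two measures gives full mass to `Y × Y` when both marginals are carried by `Y`. -/
lemma ae_mem_of_isPairCoupling {μ ν : Measure E} {π : Measure (E × E)}
    (h : IsPairCoupling μ ν π) {Y : Set E} (hμ : μ Yᶜ = 0) (hν : ν Yᶜ = 0) :
    ∀ᵐ p ∂π, p.1 ∈ Y ∧ p.2 ∈ Y := by
  obtain ⟨h1, h2⟩ := h
  have e1 : π (Prod.fst ⁻¹' Yᶜ) = 0 := by
    refine le_antisymm ?_ zero_le
    calc π (Prod.fst ⁻¹' Yᶜ) ≤ π.map Prod.fst Yᶜ := Measure.le_map_apply measurable_fst.aemeasurable _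
      _ = 0 := by rw [h1, hμ]
  have e2 : π (Prod.snd ⁻¹' Yᶜ) = 0 := by
    refine le_antisymm ?_ zero_le
    calc π (Prod.snd ⁻¹' Yᶜ) ≤ π.map Prod.snd Yᶜ := Measure.le_map_apply measurable_snd.aemeasurable _
      _ = 0 := by rw [h2, hν]
  have a1 : ∀ᵐ p ∂π, p.1 ∈ Y := by
    rw [ae_iff]
    exact e1
  have a2 : ∀ᵐ p ∂π, p.2 ∈ Y := by
    rw [ae_iff]
    exact e2
  filter_upwards [a1, a2] with p hp1 hp2 using ⟨hp1, hp2⟩

/-- (Q3b) Minkowski bound for the cost of the quantised coupling. -/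
theorem quadCost_map_le {μ ν : Measure E} [IsProbabilityMeasure μ] {π : Measure (E × E)}
    (h : IsPairCoupling μ ν π) {Y : Set E} (hμ : μ Yᶜ = 0) (hν : ν Yᶜ = 0)
    {q : E → E} (hq : Measurable q) {ε : ℝ} (hε : 0 ≤ ε) (hqε : ∀ y ∈ Y, dist (q y) y ≤ ε) :
    quadCost (π.map (Prod.map q q)) ^ (1 / 2 : ℝ)
      ≤ quadCost π ^ (1 / 2 : ℝ) + ENNReal.ofReal (2 * ε) := by
  have hπ : π Set.univ = 1 := by
    have : π.map Prod.fst Set.univ = 1 := by rw [h.1]; exact measure_univ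
    rwa [Measure.map_apply measurable_fst MeasurableSet.univ, Set.preimage_univ] at this
  unfold quadCost
  rw [lintegral_map measurable_enorm_sub_sq (hq.prodMap hq)]
  have hae := ae_mem_of_isPairCoupling h hμ hν
  have hpt : ∀ᵐ p ∂π, ‖(Prod.map q q p).1 - (Prod.map q q p).2‖ₑ ^ 2
      ≤ (‖p.1 - p.2‖ₑ + ENNReal.ofReal (2 * ε)) ^ (2 : ℝ) := by
    filter_upwards [hae] with p hp
    have h1 := hqε p.1 hp.1
    have h2 := hqε p.2 hp.2
    have hnorm : ‖q p.1 - q p.2‖ ≤ ‖p.1 - p.2‖ + 2 * ε := by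
      have e1 : q p.1 - q p.2 = (q p.1 - p.1) + (p.1 - p.2) + (p.2 - q p.2) := by abel
      rw [e1]
      have n1 : ‖q p.1 - p.1‖ ≤ ε := by rw [← dist_eq_norm]; exact h1
      have n2 : ‖p.2 - q p.2‖ ≤ ε := by rw [← dist_eq_norm, dist_comm]; exact h2
      calc ‖(q p.1 - p.1) + (p.1 - p.2) + (p.2 - q p.2)‖
          ≤ ‖q p.1 - p.1‖ + ‖p.1 - p.2‖ + ‖p.2 - q p.2‖ := norm_add₃_le
        _ ≤ ε + ‖p.1 - p.2‖ + ε := by gcongr
        _ = ‖p.1 - p.2‖ + 2 * ε := by ring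
    have henorm : ‖q p.1 - q p.2‖ₑ ≤ ‖p.1 - p.2‖ₑ + ENNReal.ofReal (2 * ε) := by
      rw [← ofReal_norm, ← ofReal_norm,
        ← ENNReal.ofReal_add (norm_nonneg _) (by positivity)]
      exact ENNReal.ofReal_le_ofReal hnorm
    simp only [Prod.map_fst, Prod.map_snd]
    rw [ENNReal.rpow_two]
    gcongr
  have hmink := ENNReal.lintegral_Lp_add_le (μ := π) (p := 2)
    (f := fun p : E × E => ‖p.1 - p.2‖ₑ) (g := fun _ => ENNReal.ofReal (2 * ε))
    ((measurable_fst.sub measurable_snd).enorm).aemeasurable aemeasurable_const (by norm_num)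
  simp only [Pi.add_apply] at hmink
  calc (∫⁻ p, ‖(Prod.map q q p).1 - (Prod.map q q p).2‖ₑ ^ 2 ∂π) ^ (1 / 2 : ℝ)
      ≤ (∫⁻ p, (‖p.1 - p.2‖ₑ + ENNReal.ofReal (2 * ε)) ^ (2 : ℝ) ∂π)
          ^ (1 / 2 : ℝ) := by
        exact ENNReal.rpow_le_rpow (lintegral_mono_ae hpt) (by norm_num)
    _ ≤ (∫⁻ p, ‖p.1 - p.2‖ₑ ^ (2 : ℝ) ∂π) ^ (1 / 2 : ℝ)
          + (∫⁻ _, ENNReal.ofReal (2 * ε) ^ (2 : ℝ) ∂π) ^ (1 / 2 : ℝ) := hmink
    _ = (∫⁻ p, ‖p.1 - p.2‖ₑ ^ 2 ∂π) ^ (1 / 2 : ℝ) + ENNReal.ofReal (2 * ε) := by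
        congr 1
        · congr 1
          refine lintegral_congr fun p => ?_
          rw [ENNReal.rpow_two]
        · rw [lintegral_const, hπ, mul_one, ← ENNReal.rpow_mul]
          norm_num

end Coupling

section MapLevel

variable {E : Type*} [NormedAddCommGroup E] [MeasurableSpace E] [BorelSpace E]
  [SecondCountableTopology E]

/-- (Q4a) -/
theorem map_comp_eq {ρ μ : Measure E} {T q : E → E} (hT : Measurable T) (hq : Measurable q)
    (hTμ : ρ.map T = μ) : ρ.map (q ∘ T) = μ.map q := by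
  rw [← hTμ, Measure.map_map hq hT]

/-- `T x ∈ Y` for `ρ`-a.e. `x` when `ρ.map T` is carried by `Y`. -/
lemma ae_map_mem {ρ μ : Measure E} {T : E → E} (hT : Measurable T) (hTμ : ρ.map T = μ)
    {Y : Set E} (hμ : μ Yᶜ = 0) : ∀ᵐ x ∂ρ, T x ∈ Y := by
  rw [ae_iff]
  refine le_antisymm ?_ zero_le
  calc ρ {x | ¬ T x ∈ Y} = ρ (T ⁻¹' Yᶜ) := rfl
    _ ≤ ρ.map T Yᶜ := Measure.le_map_apply hT.aemeasurable _
    _ = 0 := by rw [hTμ, hμ]

/-- (Q4b) -/
theorem lintegral_sub_quant_le {ρ μ : Measure E} {T q : E → E} (hT : Measurable T)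
    (hTμ : ρ.map T = μ) {Y : Set E} (hμ : μ Yᶜ = 0) {ε : ℝ}
    (hqε : ∀ y ∈ Y, dist (q y) y ≤ ε) :
    ∫⁻ x, ‖T x - q (T x)‖ₑ ^ 2 ∂ρ ≤ ENNReal.ofReal ε ^ 2 * ρ Set.univ := by
  have hae := ae_map_mem hT hTμ hμ
  calc ∫⁻ x, ‖T x - q (T x)‖ₑ ^ 2 ∂ρ ≤ ∫⁻ _, ENNReal.ofReal ε ^ 2 ∂ρ := by
        refine lintegral_mono_ae ?_
        filter_upwards [hae] with x hx
        have h1 := hqε (T x) hx
        have : ‖T x - q (T x)‖ₑ ≤ ENNReal.ofReal ε := by
          rw [← ofReal_norm]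
          apply ENNReal.ofReal_le_ofReal
          rw [← dist_eq_norm, dist_comm]
          exact h1
        gcongr
    _ = ENNReal.ofReal ε ^ 2 * ρ Set.univ := by rw [lintegral_const]

end MapLevel

section Limit

variable {E : Type*} [NormedAddCommGroup E] [MeasurableSpace E] [BorelSpace E]
  [SecondCountableTopology E]

/-- (Q5) Pushforward limit: if `T n → T∞` a.e., `ρ.map (T n) = μ.map (q n)` and `q n → id`
uniformly on a set carrying `μ`, then `ρ.map T∞ = μ`. -/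
theorem map_eq_of_tendsto {ρ μ : Measure E} [IsFiniteMeasure ρ] [IsFiniteMeasure μ] {Y : Set E}
    (hμY : μ Yᶜ = 0) (T : ℕ → E → E) (Tlim : E → E) (hT : ∀ n, Measurable (T n))
    (hTlim : Measurable Tlim)
    (hlim : ∀ᵐ x ∂ρ, Tendsto (fun n => T n x) atTop (𝓝 (Tlim x)))
    (q : ℕ → E → E) (hq : ∀ n, Measurable (q n)) (ε : ℕ → ℝ) (hε : Tendsto ε atTop (𝓝 0))
    (hqε : ∀ n, ∀ y ∈ Y, dist (q n y) y ≤ ε n)
    (hmap : ∀ n, ρ.map (T n) = μ.map (q n)) :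
    ρ.map Tlim = μ := by
  have : IsFiniteMeasure (ρ.map Tlim) := by
    constructor
    rw [Measure.map_apply hTlim MeasurableSet.univ]
    exact measure_lt_top _ _
  apply ext_of_forall_integral_eq_of_IsFiniteMeasure
  intro f
  have hfm : Measurable f := f.continuous.measurable
  -- the two limits
  have lim1 : Tendsto (fun n => ∫ x, f (T n x) ∂ρ) atTop (𝓝 (∫ x, f (Tlim x) ∂ρ)) := by
    refine tendsto_integral_of_dominated_convergence (fun _ => ‖f‖) ?_ (integrable_const _) ?_ ?_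
    · intro n
      exact (hfm.comp (hT n)).aestronglyMeasurable
    · intro n
      exact Eventually.of_forall fun x => f.norm_coe_le_norm _
    · filter_upwards [hlim] with x hx
      exact (f.continuous.tendsto _).comp hx
  have hYae : ∀ᵐ y ∂μ, y ∈ Y := by
    rw [ae_iff]
    exact hμY
  have lim2 : Tendsto (fun n => ∫ y, f (q n y) ∂μ) atTop (𝓝 (∫ y, f y ∂μ)) := by
    refine tendsto_integral_of_dominated_convergence (fun _ => ‖f‖) ?_ (integrable_const _) ?_ ?_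
    · intro n
      exact (hfm.comp (hq n)).aestronglyMeasurable
    · intro n
      exact Eventually.of_forall fun x => f.norm_coe_le_norm _
    · filter_upwards [hYae] with y hy
      have hqy : Tendsto (fun n => q n y) atTop (𝓝 y) := by
        rw [tendsto_iff_dist_tendsto_zero]
        exact squeeze_zero (fun n => dist_nonneg) (fun n => hqε n y hy) hε
      exact (f.continuous.tendsto _).comp hqy
  have heq : ∀ n, ∫ x, f (T n x) ∂ρ = ∫ y, f (q n y) ∂μ := by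
    intro n
    rw [← integral_map (hT n).aemeasurable hfm.aestronglyMeasurable, hmap n,
      integral_map (hq n).aemeasurable hfm.aestronglyMeasurable]
  rw [integral_map hTlim.aemeasurable hfm.aestronglyMeasurable]
  refine tendsto_nhds_unique lim1 ?_
  simp_rw [heq]
  exact lim2

/-- (Q7) Fatou assembly: pass an estimate `∫ ‖S n - S' n‖² ≤ C * (c n)^(1/3)` to the a.e. limit
when `(c n)^(1/2) ≤ c∞^(1/2) + ε n` with `ε n → 0`. -/
theorem lintegral_le_of_tendsto {ρ : Measure E} (S S' : ℕ → E → E) (T T' : E → E)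
    (hS : ∀ n, Measurable (S n)) (hS' : ∀ n, Measurable (S' n))
    (hlim : ∀ᵐ x ∂ρ, Tendsto (fun n => S n x) atTop (𝓝 (T x)))
    (hlim' : ∀ᵐ x ∂ρ, Tendsto (fun n => S' n x) atTop (𝓝 (T' x)))
    (C : ℝ≥0) (c : ℕ → ℝ≥0∞) (cinf : ℝ≥0∞) (ε : ℕ → ℝ) (hε : Tendsto ε atTop (𝓝 0))
    (hbound : ∀ n, ∫⁻ x, ‖S n x - S' n x‖ₑ ^ 2 ∂ρ ≤ C * c n ^ (1 / 3 : ℝ))
    (hc : ∀ n, c n ^ (1 / 2 : ℝ) ≤ cinf ^ (1 / 2 : ℝ) + ENNReal.ofReal (ε n)) :
    ∫⁻ x, ‖T x - T' x‖ₑ ^ 2 ∂ρ ≤ C * cinf ^ (1 / 3 : ℝ) := by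
  have hmeas : ∀ n, Measurable (fun x => ‖S n x - S' n x‖ₑ ^ 2) := fun n =>
    (((hS n).sub (hS' n)).enorm).pow_const 2
  have hpt : ∀ᵐ x ∂ρ, ‖T x - T' x‖ₑ ^ 2 = liminf (fun n => ‖S n x - S' n x‖ₑ ^ 2) atTop := by
    filter_upwards [hlim, hlim'] with x hx hx'
    have h1 : Tendsto (fun n => ‖S n x - S' n x‖ₑ ^ 2) atTop (𝓝 (‖T x - T' x‖ₑ ^ 2)) := by
      have hsub : Tendsto (fun n => S n x - S' n x) atTop (𝓝 (T x - T' x)) := hx.sub hx'
      have hen : Tendsto (fun n => ‖S n x - S' n x‖ₑ) atTop (𝓝 ‖T x - T' x‖ₑ) :=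
        (continuous_enorm.tendsto _).comp hsub
      exact (ENNReal.continuous_pow 2).tendsto _ |>.comp hen
    exact h1.liminf_eq.symm
  have hbd2 : ∀ n, ∫⁻ x, ‖S n x - S' n x‖ₑ ^ 2 ∂ρ
      ≤ C * (cinf ^ (1 / 2 : ℝ) + ENNReal.ofReal (ε n)) ^ (2 / 3 : ℝ) := by
    intro n
    refine (hbound n).trans ?_
    gcongr
    calc c n ^ (1 / 3 : ℝ) = (c n ^ (1 / 2 : ℝ)) ^ (2 / 3 : ℝ) := by
          rw [← ENNReal.rpow_mul]; norm_num
      _ ≤ (cinf ^ (1 / 2 : ℝ) + ENNReal.ofReal (ε n)) ^ (2 / 3 : ℝ) := by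
          gcongr
          exact hc n
  have htend : Tendsto (fun n => (C : ℝ≥0∞) * (cinf ^ (1 / 2 : ℝ) + ENNReal.ofReal (ε n)) ^ (2 / 3 : ℝ))
      atTop (𝓝 (C * cinf ^ (1 / 3 : ℝ))) := by
    have h0 : Tendsto (fun n => ENNReal.ofReal (ε n)) atTop (𝓝 0) := by
      have := (ENNReal.continuous_ofReal.tendsto 0).comp hε
      simpa [Function.comp_def] using this
    have h1 : Tendsto (fun n => cinf ^ (1 / 2 : ℝ) + ENNReal.ofReal (ε n)) atTop
        (𝓝 (cinf ^ (1 / 2 : ℝ))) := by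
      have := tendsto_const_nhds (x := cinf ^ (1 / 2 : ℝ)) (f := atTop) |>.add h0
      simpa using this
    have h2 : Tendsto (fun n => (cinf ^ (1 / 2 : ℝ) + ENNReal.ofReal (ε n)) ^ (2 / 3 : ℝ)) atTop
        (𝓝 ((cinf ^ (1 / 2 : ℝ)) ^ (2 / 3 : ℝ))) :=
      (ENNReal.continuous_rpow_const.tendsto _).comp h1
    have h3 : (cinf ^ (1 / 2 : ℝ)) ^ (2 / 3 : ℝ) = cinf ^ (1 / 3 : ℝ) := by
      rw [← ENNReal.rpow_mul]; norm_num
    rw [h3] at h2
    exact ENNReal.Tendsto.const_mul h2 (Or.inr ENNReal.coe_ne_top)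
  calc ∫⁻ x, ‖T x - T' x‖ₑ ^ 2 ∂ρ
      = ∫⁻ x, liminf (fun n => ‖S n x - S' n x‖ₑ ^ 2) atTop ∂ρ := lintegral_congr_ae hpt
    _ ≤ liminf (fun n => ∫⁻ x, ‖S n x - S' n x‖ₑ ^ 2 ∂ρ) atTop := lintegral_liminf_le hmeas
    _ ≤ liminf (fun n => (C : ℝ≥0∞) * (cinf ^ (1 / 2 : ℝ) + ENNReal.ofReal (ε n)) ^ (2 / 3 : ℝ))
          atTop := liminf_le_liminf (Eventually.of_forall hbd2)
    _ = C * cinf ^ (1 / 3 : ℝ) := htend.liminf_eq

/-- `L²` triangle inequality in `lintegral` form. -/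
lemma lintegral_enorm_sub_sq_rpow_le {ρ : Measure E} {f g h : E → E} (hf : Measurable f)
    (hg : Measurable g) (hh : Measurable h) :
    (∫⁻ x, ‖f x - h x‖ₑ ^ 2 ∂ρ) ^ (1 / 2 : ℝ)
      ≤ (∫⁻ x, ‖f x - g x‖ₑ ^ 2 ∂ρ) ^ (1 / 2 : ℝ) + (∫⁻ x, ‖g x - h x‖ₑ ^ 2 ∂ρ) ^ (1 / 2 : ℝ) := by
  have hmink := ENNReal.lintegral_Lp_add_le (μ := ρ) (p := 2)
    (f := fun x => ‖f x - g x‖ₑ) (g := fun x => ‖g x - h x‖ₑ)
    ((hf.sub hg).enorm).aemeasurable ((hg.sub hh).enorm).aemeasurable (by norm_num)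
  simp only [Pi.add_apply, ENNReal.rpow_two] at hmink
  refine le_trans ?_ hmink
  refine ENNReal.rpow_le_rpow (lintegral_mono fun x => ?_) (by norm_num)
  have : ‖f x - h x‖ₑ ≤ ‖f x - g x‖ₑ + ‖g x - h x‖ₑ := by
    have e : f x - h x = (f x - g x) + (g x - h x) := by abel
    rw [e]
    exact enorm_add_le _ _
  gcongr

/-- (Q7') `L²` assembly: pass an estimate `∫ ‖S n - S' n‖² ≤ C * (c n)^(1/3)` to the `L²` limits
when `(c n)^(1/2) ≤ c∞^(1/2) + ε n` with `ε n → 0`. -/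
theorem lintegral_le_of_tendsto_L2 {ρ : Measure E} (S S' : ℕ → E → E) (T T' : E → E)
    (hS : ∀ n, Measurable (S n)) (hS' : ∀ n, Measurable (S' n)) (hT : Measurable T)
    (hT' : Measurable T')
    (hlim : Tendsto (fun n => ∫⁻ x, ‖S n x - T x‖ₑ ^ 2 ∂ρ) atTop (𝓝 0))
    (hlim' : Tendsto (fun n => ∫⁻ x, ‖S' n x - T' x‖ₑ ^ 2 ∂ρ) atTop (𝓝 0))
    (C : ℝ≥0) (c : ℕ → ℝ≥0∞) (cinf : ℝ≥0∞) (ε : ℕ → ℝ) (hε : Tendsto ε atTop (𝓝 0))
    (hbound : ∀ n, ∫⁻ x, ‖S n x - S' n x‖ₑ ^ 2 ∂ρ ≤ C * c n ^ (1 / 3 : ℝ))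
    (hc : ∀ n, c n ^ (1 / 2 : ℝ) ≤ cinf ^ (1 / 2 : ℝ) + ENNReal.ofReal (ε n)) :
    ∫⁻ x, ‖T x - T' x‖ₑ ^ 2 ∂ρ ≤ C * cinf ^ (1 / 3 : ℝ) := by
  have hhalf : (0 : ℝ) < 1 / 2 := by norm_num
  -- the bound for each n
  have hn : ∀ n, (∫⁻ x, ‖T x - T' x‖ₑ ^ 2 ∂ρ) ^ (1 / 2 : ℝ)
      ≤ (∫⁻ x, ‖S n x - T x‖ₑ ^ 2 ∂ρ) ^ (1 / 2 : ℝ)
        + ((C : ℝ≥0∞) * (cinf ^ (1 / 2 : ℝ) + ENNReal.ofReal (ε n)) ^ (2 / 3 : ℝ)) ^ (1 / 2 : ℝ)
        + (∫⁻ x, ‖S' n x - T' x‖ₑ ^ 2 ∂ρ) ^ (1 / 2 : ℝ) := by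
    intro n
    have h1 := lintegral_enorm_sub_sq_rpow_le (ρ := ρ) hT (hS n) hT'
    have h2 := lintegral_enorm_sub_sq_rpow_le (ρ := ρ) (hS n) (hS' n) hT'
    have h3 : (∫⁻ x, ‖T x - S n x‖ₑ ^ 2 ∂ρ) = ∫⁻ x, ‖S n x - T x‖ₑ ^ 2 ∂ρ := by
      refine lintegral_congr fun x => ?_
      rw [enorm_sub_rev]
    have h4 : (∫⁻ x, ‖S n x - S' n x‖ₑ ^ 2 ∂ρ) ^ (1 / 2 : ℝ)
        ≤ ((C : ℝ≥0∞) * (cinf ^ (1 / 2 : ℝ) + ENNReal.ofReal (ε n)) ^ (2 / 3 : ℝ)) ^ (1 / 2 : ℝ) := by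
      refine ENNReal.rpow_le_rpow ((hbound n).trans ?_) hhalf.le
      gcongr
      calc c n ^ (1 / 3 : ℝ) = (c n ^ (1 / 2 : ℝ)) ^ (2 / 3 : ℝ) := by
            rw [← ENNReal.rpow_mul]; norm_num
        _ ≤ (cinf ^ (1 / 2 : ℝ) + ENNReal.ofReal (ε n)) ^ (2 / 3 : ℝ) := by
            gcongr
            exact hc n
    rw [h3] at h1
    calc (∫⁻ x, ‖T x - T' x‖ₑ ^ 2 ∂ρ) ^ (1 / 2 : ℝ)
        ≤ (∫⁻ x, ‖S n x - T x‖ₑ ^ 2 ∂ρ) ^ (1 / 2 : ℝ)
          + (∫⁻ x, ‖S n x - T' x‖ₑ ^ 2 ∂ρ) ^ (1 / 2 : ℝ) := h1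
      _ ≤ (∫⁻ x, ‖S n x - T x‖ₑ ^ 2 ∂ρ) ^ (1 / 2 : ℝ)
          + ((∫⁻ x, ‖S n x - S' n x‖ₑ ^ 2 ∂ρ) ^ (1 / 2 : ℝ)
            + (∫⁻ x, ‖S' n x - T' x‖ₑ ^ 2 ∂ρ) ^ (1 / 2 : ℝ)) := by gcongr
      _ ≤ (∫⁻ x, ‖S n x - T x‖ₑ ^ 2 ∂ρ) ^ (1 / 2 : ℝ)
          + (((C : ℝ≥0∞) * (cinf ^ (1 / 2 : ℝ) + ENNReal.ofReal (ε n)) ^ (2 / 3 : ℝ)) ^ (1 / 2 : ℝ)
            + (∫⁻ x, ‖S' n x - T' x‖ₑ ^ 2 ∂ρ) ^ (1 / 2 : ℝ)) := by gcongr
      _ = _ := by rw [add_assoc]
  -- the limit of the right-hand side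
  have hzero : (0 : ℝ≥0∞) ^ (1 / 2 : ℝ) = 0 := ENNReal.zero_rpow_of_pos hhalf
  have t1 : Tendsto (fun n => (∫⁻ x, ‖S n x - T x‖ₑ ^ 2 ∂ρ) ^ (1 / 2 : ℝ)) atTop (𝓝 0) := by
    have := (ENNReal.continuous_rpow_const (y := (1 / 2 : ℝ))).tendsto 0 |>.comp hlim
    rw [hzero] at this
    exact this
  have t3 : Tendsto (fun n => (∫⁻ x, ‖S' n x - T' x‖ₑ ^ 2 ∂ρ) ^ (1 / 2 : ℝ)) atTop (𝓝 0) := by
    have := (ENNReal.continuous_rpow_const (y := (1 / 2 : ℝ))).tendsto 0 |>.comp hlim'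
    rw [hzero] at this
    exact this
  have t2 : Tendsto (fun n => ((C : ℝ≥0∞) * (cinf ^ (1 / 2 : ℝ) + ENNReal.ofReal (ε n))
      ^ (2 / 3 : ℝ)) ^ (1 / 2 : ℝ)) atTop (𝓝 (((C : ℝ≥0∞) * cinf ^ (1 / 3 : ℝ)) ^ (1 / 2 : ℝ))) := by
    have h0 : Tendsto (fun n => ENNReal.ofReal (ε n)) atTop (𝓝 0) := by
      have := (ENNReal.continuous_ofReal.tendsto 0).comp hε
      simpa [Function.comp_def] using this
    have h1 : Tendsto (fun n => cinf ^ (1 / 2 : ℝ) + ENNReal.ofReal (ε n)) atTop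
        (𝓝 (cinf ^ (1 / 2 : ℝ))) := by
      have := tendsto_const_nhds (x := cinf ^ (1 / 2 : ℝ)) (f := atTop) |>.add h0
      simpa using this
    have h2 : Tendsto (fun n => (cinf ^ (1 / 2 : ℝ) + ENNReal.ofReal (ε n)) ^ (2 / 3 : ℝ)) atTop
        (𝓝 ((cinf ^ (1 / 2 : ℝ)) ^ (2 / 3 : ℝ))) :=
      (ENNReal.continuous_rpow_const.tendsto _).comp h1
    have h3 : (cinf ^ (1 / 2 : ℝ)) ^ (2 / 3 : ℝ) = cinf ^ (1 / 3 : ℝ) := by
      rw [← ENNReal.rpow_mul]; norm_num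
    rw [h3] at h2
    have h4 := ENNReal.Tendsto.const_mul (a := (C : ℝ≥0∞)) h2 (Or.inr ENNReal.coe_ne_top)
    exact (ENNReal.continuous_rpow_const.tendsto _).comp h4
  have tsum := (t1.add t2).add t3
  rw [zero_add, add_zero] at tsum
  have hfin : (∫⁻ x, ‖T x - T' x‖ₑ ^ 2 ∂ρ) ^ (1 / 2 : ℝ)
      ≤ ((C : ℝ≥0∞) * cinf ^ (1 / 3 : ℝ)) ^ (1 / 2 : ℝ) :=
    ge_of_tendsto' tsum hn
  exact (ENNReal.rpow_le_rpow_iff hhalf).mp hfin

end Limit

end Crest.Agent.S0109.Helper79
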