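import Mathlib
import Crest.Agent.Lib.S0109.Helper6PL

/-!
Row 82 (S0109), helper87: the transport (Kantorovich-dual) form of Prékopa–Leindler at `t = 1/2`,
as a corollary of `Helper6.PLHalf` (shift trick).

`tpl_of_plHalf`: for `f, k ≥ 0` integrable with equal integrals, `F ≥ 0`, and bounded measurable
`a, b` with `(a y + b x) * √(f y * k x) ≤ F ((x + y) / 2)`, we have `∫ a f + ∫ b k ≤ ∫ F`.
-/

set_option autoImplicit false
open MeasureTheory Set
open scoped ENNReal

namespace Crest.Agent.S0109.Helper87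

/-- `ofReal (∫ g) ≤ ∫⁻ ofReal g` for integrable `g`. -/
lemma ofReal_integral_le_lintegral_ofReal_aux {α : Type*} [MeasurableSpace α] {μ : Measure α}
    {g : α → ℝ} (hg : Integrable g μ) :
    ENNReal.ofReal (∫ x, g x ∂μ) ≤ ∫⁻ x, ENNReal.ofReal (g x) ∂μ := by
  have hg' : Integrable (fun x => max (g x) 0) μ := hg.pos_part
  calc ENNReal.ofReal (∫ x, g x ∂μ) ≤ ENNReal.ofReal (∫ x, max (g x) 0 ∂μ) :=
        ENNReal.ofReal_le_ofReal (integral_mono hg hg' (fun x => le_max_left _ _))
    _ = ∫⁻ x, ENNReal.ofReal (max (g x) 0) ∂μ :=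
        ofReal_integral_eq_lintegral_ofReal hg' (ae_of_all _ (fun x => le_max_right _ _))
    _ = ∫⁻ x, ENNReal.ofReal (g x) ∂μ := by
        congr 1; funext x
        rcases le_total (g x) 0 with h | h
        · rw [max_eq_right h, ENNReal.ofReal_of_nonpos h, ENNReal.ofReal_zero]
        · rw [max_eq_left h]

/-- **Transport Prékopa–Leindler inequality (Kantorovich-dual form) from `PLHalf`.** -/
theorem tpl_of_plHalf {X : Type*} [AddCommGroup X] [Module ℝ X] [MeasurableSpace X]
    (μ : Measure X) (hPL : Helper6.PLHalf X μ) (f k a b : X → ℝ) (F : X → ℝ≥0∞)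
    (hfm : Measurable f) (hkm : Measurable k) (hf : Integrable f μ) (hk : Integrable k μ)
    (hf0 : ∀ y, 0 ≤ f y) (hk0 : ∀ x, 0 ≤ k x) (hfk : ∫ y, f y ∂μ = ∫ x, k x ∂μ)
    (ha : Measurable a) (hb : Measurable b) (M : ℝ) (haM : ∀ y, |a y| ≤ M) (hbM : ∀ x, |b x| ≤ M)
    (hF : Measurable F)
    (hyp : ∀ y x, 0 < f y → 0 < k x →
      ENNReal.ofReal ((a y + b x) * Real.sqrt (f y * k x)) ≤ F ((1 / 2 : ℝ) • (x + y))) :
    ENNReal.ofReal ((∫ y, a y * f y ∂μ) + ∫ x, b x * k x ∂μ) ≤ ∫⁻ z, F z ∂μ := by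
  have haf : Integrable (fun y => a y * f y) μ :=
    hf.bdd_mul ha.aestronglyMeasurable (ae_of_all _ (fun y => by simpa [Real.norm_eq_abs] using haM y))
  have hbk : Integrable (fun x => b x * k x) μ :=
    hk.bdd_mul hb.aestronglyMeasurable (ae_of_all _ (fun y => by simpa [Real.norm_eq_abs] using hbM y))
  set I := ∫ y, f y ∂μ with hI
  set P := ∫ y, a y * f y ∂μ with hP
  set Q := ∫ x, b x * k x ∂μ with hQ
  by_cases hPQ : P + Q ≤ 0
  · rw [ENNReal.ofReal_of_nonpos hPQ]; exact zero_le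
  rw [not_le] at hPQ
  have hI0 : 0 ≤ I := integral_nonneg hf0
  have hIpos : 0 < I := by
    rcases hI0.eq_or_lt with h | h
    · exfalso
      have hfz : f =ᵐ[μ] 0 := (integral_eq_zero_iff_of_nonneg hf0 hf).mp h.symm
      have hkz : k =ᵐ[μ] 0 :=
        (integral_eq_zero_iff_of_nonneg hk0 hk).mp (by rw [← hfk]; exact h.symm)
      have h1 : P = 0 := by
        rw [hP, integral_congr_ae (g := fun _ => (0:ℝ))]
        · simp
        · filter_upwards [hfz] with y hy; simp [hy]
      have h2 : Q = 0 := by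
        rw [hQ, integral_congr_ae (g := fun _ => (0:ℝ))]
        · simp
        · filter_upwards [hkz] with y hy; simp [hy]
      rw [h1, h2] at hPQ
      simp at hPQ
    · exact h
  set c := (Q - P) / (2 * I) with hc
  have hPc : P + c * I = (P + Q) / 2 := by rw [hc]; field_simp; ring
  have hQc : Q - c * I = (P + Q) / 2 := by rw [hc]; field_simp; ring
  have hif : Integrable (fun y => (a y + c) * f y) μ := by
    have : (fun y => (a y + c) * f y) = fun y => a y * f y + c * f y := by funext y; ring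
    rw [this]; exact haf.add (hf.const_mul c)
  have hik : Integrable (fun x => (b x - c) * k x) μ := by
    have : (fun x => (b x - c) * k x) = fun x => b x * k x - c * k x := by funext y; ring
    rw [this]; exact hbk.sub (hk.const_mul c)
  have hintf : ∫ y, (a y + c) * f y ∂μ = (P + Q) / 2 := by
    have : (fun y => (a y + c) * f y) = fun y => a y * f y + c * f y := by funext y; ring
    rw [this, integral_add haf (hf.const_mul c), integral_const_mul]
    exact hPc
  have hintk : ∫ x, (b x - c) * k x ∂μ = (P + Q) / 2 := by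
    have : (fun x => (b x - c) * k x) = fun x => b x * k x - c * k x := by funext y; ring
    rw [this, integral_sub hbk (hk.const_mul c), integral_const_mul, ← hfk]
    exact hQc
  have key := hPL (fun y => ENNReal.ofReal ((a y + c) * f y))
    (fun x => ENNReal.ofReal ((b x - c) * k x)) (fun z => F z / 2)
    (ENNReal.measurable_ofReal.comp ((ha.add measurable_const).mul hfm))
    (ENNReal.measurable_ofReal.comp ((hb.sub measurable_const).mul hkm))
    (hF.div_const 2) ?_
  · have h1 : ENNReal.ofReal ((P + Q) / 2) ≤ ∫⁻ y, ENNReal.ofReal ((a y + c) * f y) ∂μ := by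
      rw [← hintf]; exact ofReal_integral_le_lintegral_ofReal_aux hif
    have h2 : ENNReal.ofReal ((P + Q) / 2) ≤ ∫⁻ x, ENNReal.ofReal ((b x - c) * k x) ∂μ := by
      rw [← hintk]; exact ofReal_integral_le_lintegral_ofReal_aux hik
    have h3 : ∫⁻ z, F z / 2 ∂μ = (∫⁻ z, F z ∂μ) / 2 := by
      simp only [div_eq_mul_inv]
      rw [lintegral_mul_const _ hF]
    have h4 : ENNReal.ofReal ((P + Q) / 2) ^ 2 ≤ ((∫⁻ z, F z ∂μ) / 2) ^ 2 := by
      calc ENNReal.ofReal ((P + Q) / 2) ^ 2
          = ENNReal.ofReal ((P + Q) / 2) * ENNReal.ofReal ((P + Q) / 2) := sq _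
        _ ≤ (∫⁻ y, ENNReal.ofReal ((a y + c) * f y) ∂μ)
              * ∫⁻ x, ENNReal.ofReal ((b x - c) * k x) ∂μ := mul_le_mul' h1 h2
        _ ≤ (∫⁻ z, F z / 2 ∂μ) ^ 2 := key
        _ = ((∫⁻ z, F z ∂μ) / 2) ^ 2 := by rw [h3]
    have h5 : ENNReal.ofReal ((P + Q) / 2) ≤ (∫⁻ z, F z ∂μ) / 2 :=
      (ENNReal.pow_le_pow_left_iff two_ne_zero).mp h4
    have h6 : ENNReal.ofReal (P + Q) = 2 * ENNReal.ofReal ((P + Q) / 2) := by
      rw [show (2 : ℝ≥0∞) = ENNReal.ofReal 2 by simp, ← ENNReal.ofReal_mul (by norm_num)]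
      congr 1; ring
    rw [h6]
    calc 2 * ENNReal.ofReal ((P + Q) / 2) ≤ 2 * ((∫⁻ z, F z ∂μ) / 2) := by gcongr
      _ = ∫⁻ z, F z ∂μ := ENNReal.mul_div_cancel (by norm_num) (by norm_num)
  · intro y x
    show ENNReal.ofReal ((a y + c) * f y) * ENNReal.ofReal ((b x - c) * k x)
      ≤ (F ((1 / 2 : ℝ) • (y + x)) / 2) ^ 2
    by_cases hα : (a y + c) * f y ≤ 0
    · rw [ENNReal.ofReal_of_nonpos hα]; simp
    by_cases hβ : (b x - c) * k x ≤ 0
    · rw [ENNReal.ofReal_of_nonpos hβ]; simp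
    rw [not_le] at hα hβ
    have hfy : 0 < f y := by
      rcases (hf0 y).eq_or_lt with h | h
      · rw [← h] at hα; simp at hα
      · exact h
    have hkx : 0 < k x := by
      rcases (hk0 x).eq_or_lt with h | h
      · rw [← h] at hβ; simp at hβ
      · exact h
    have hα' : 0 < a y + c := pos_of_mul_pos_left hα hfy.le
    have hβ' : 0 < b x - c := pos_of_mul_pos_left hβ hkx.le
    have H := hyp y x hfy hkx
    rw [add_comm y x]
    have hs : Real.sqrt (f y * k x) ^ 2 = f y * k x := Real.sq_sqrt (mul_nonneg hfy.le hkx.le)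
    have hreal : (a y + c) * f y * ((b x - c) * k x)
        ≤ ((a y + b x) * Real.sqrt (f y * k x) / 2) ^ 2 := by
      have e : (a y + b x) = (a y + c) + (b x - c) := by ring
      rw [div_pow, mul_pow, hs, e]
      nlinarith [sq_nonneg ((a y + c) - (b x - c)), mul_pos hfy hkx]
    have hnn : 0 ≤ (a y + b x) * Real.sqrt (f y * k x) / 2 := by
      have : 0 < a y + b x := by linarith
      positivity
    calc ENNReal.ofReal ((a y + c) * f y) * ENNReal.ofReal ((b x - c) * k x)
        = ENNReal.ofReal ((a y + c) * f y * ((b x - c) * k x)) :=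
          (ENNReal.ofReal_mul hα.le).symm
      _ ≤ ENNReal.ofReal (((a y + b x) * Real.sqrt (f y * k x) / 2) ^ 2) :=
          ENNReal.ofReal_le_ofReal hreal
      _ = ENNReal.ofReal ((a y + b x) * Real.sqrt (f y * k x) / 2) ^ 2 :=
          ENNReal.ofReal_pow hnn 2
      _ ≤ (F ((1 / 2 : ℝ) • (x + y)) / 2) ^ 2 := by
          gcongr
          rw [ENNReal.ofReal_div_of_pos (by norm_num : (0:ℝ) < 2)]
          simp only [ENNReal.ofReal_ofNat]
          gcongr

end Crest.Agent.S0109.Helper87
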