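import Mathlib
import Crest.Agent.Lib.S0109.Helper6PL
import Crest.Agent.Lib.S0109.Helper87TPL

/-!
Row 82 (S0109), helper87: Step A algebra.  Abstract centroid stability for two a.e.-partitions
`A i`, `B i` of a bounded set `K` whose midpoint sets lie in a.e.-disjoint sets `C i ⊆ K`
(for Laguerre cells: the cells of the averaged weights), from Prékopa–Leindler at `t = 1/2`.
-/

set_option autoImplicit false
set_option linter.unusedVariables false
open MeasureTheory Set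
open scoped ENNReal

namespace Crest.Agent.S0109.Helper87

/-! ### Sums of integrals over a.e.-partitions -/

lemma sum_setIntegral_eq_of_ae_partition {X : Type*} [MeasurableSpace X] {μ : Measure X}
    {ι : Type*} [Fintype ι] (S : ι → Set X) (K : Set X) (hSm : ∀ i, MeasurableSet (S i))
    (hSK : ∀ i, S i ⊆ K) (hdisj : ∀ i j, i ≠ j → μ (S i ∩ S j) = 0)
    (hcov : μ (K \ ⋃ i, S i) = 0) (h : X → ℝ) (hh : IntegrableOn h K μ) :
    ∑ i, ∫ x in S i, h x ∂μ = ∫ x in K, h x ∂μ := by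
  have hU : (⋃ i, S i) =ᵐ[μ] K := by
    refine ae_eq_set.mpr ⟨?_, hcov⟩
    rw [sdiff_eq_empty.mpr (iUnion_subset hSK)]; simp
  rw [← setIntegral_congr_set hU, integral_iUnion_ae (fun i => (hSm i).nullMeasurableSet)
    (fun i j hij => hdisj i j hij) (hh.mono_set (iUnion_subset hSK)),
    tsum_fintype (L := .unconditional _)]

lemma sum_setIntegral_le_of_ae_disjoint {X : Type*} [MeasurableSpace X] {μ : Measure X}
    {ι : Type*} [Fintype ι] (S : ι → Set X) (K : Set X) (hKm : MeasurableSet K)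
    (hSm : ∀ i, MeasurableSet (S i))
    (hSK : ∀ i, S i ⊆ K) (hdisj : ∀ i j, i ≠ j → μ (S i ∩ S j) = 0)
    (h : X → ℝ) (hh : IntegrableOn h K μ) (h0 : ∀ x ∈ K, 0 ≤ h x) :
    ∑ i, ∫ x in S i, h x ∂μ ≤ ∫ x in K, h x ∂μ := by
  rw [← tsum_fintype (L := .unconditional _), ← integral_iUnion_ae (fun i => (hSm i).nullMeasurableSet)
    (fun i j hij => hdisj i j hij) (hh.mono_set (iUnion_subset hSK))]
  exact setIntegral_mono_set hh (ae_restrict_of_forall_mem hKm h0)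
    (LE.le.eventuallyLE (iUnion_subset hSK))

/-! ### The pointwise inequality -/

lemma alg_real (Wx Wy D q p t : ℝ) (hq0 : 0 < q) (hq1 : q ≤ 5 / 4) (hD : 0 ≤ D) (hp : 0 ≤ p)
    (hW : |Wx - Wy| ≤ D * p) (ht : t ≤ p ^ 2) :
    (Wy / (2 * q) + Wy * (1 / q - 1) / 2 - 5 / 4 * D ^ 2 * (1 / q - 1) ^ 2 + Wx / 2) * q
      + q / 20 * t ≤ Wx / 2 + Wy / 2 + p ^ 2 / 8 := by
  have hexp : (Wy / (2 * q) + Wy * (1 / q - 1) / 2 - 5 / 4 * D ^ 2 * (1 / q - 1) ^ 2 + Wx / 2) * q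
      = Wy / 2 + Wy * (1 - q) / 2 - 5 / 4 * D ^ 2 * (1 - q) ^ 2 / q + Wx * q / 2 := by
    field_simp
  rw [hexp]
  set e := |1 - q| with he
  have he0 : 0 ≤ e := abs_nonneg _
  have he2 : e ^ 2 = (1 - q) ^ 2 := sq_abs _
  have h1 : -(D * p * e) ≤ (Wx - Wy) * (1 - q) := by
    have h := neg_abs_le ((Wx - Wy) * (1 - q))
    rw [abs_mul] at h
    have h2 : |Wx - Wy| * |1 - q| ≤ D * p * e := mul_le_mul_of_nonneg_right hW he0
    linarith
  have key : 0 ≤ -(D * p * e * q) / 2 + 5 / 4 * D ^ 2 * e ^ 2 + (q / 8 - q ^ 2 / 20) * p ^ 2 := by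
    nlinarith [sq_nonneg (D * e - q * p / 5),
      mul_nonneg (mul_nonneg hq0.le (by linarith : (0:ℝ) ≤ 1 / 8 - q / 10)) (sq_nonneg p)]
  have key' : D * p * e / 2 - (1 / 8 - q / 20) * p ^ 2 ≤ 5 / 4 * D ^ 2 * (1 - q) ^ 2 / q := by
    rw [le_div_iff₀ hq0, ← he2]
    nlinarith [key]
  have h3 : q / 20 * t ≤ q / 20 * p ^ 2 := by
    apply mul_le_mul_of_nonneg_left ht; positivity
  nlinarith [h1, key', h3]

variable {d : ℕ}

/-- The weight `W z = D²/2 - ‖z - x0‖²/2`. -/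
noncomputable def Wf (x0 : EuclideanSpace ℝ (Fin d)) (D : ℝ) (z : EuclideanSpace ℝ (Fin d)) : ℝ :=
  D ^ 2 / 2 - ‖z - x0‖ ^ 2 / 2

lemma Wf_mid (x0 : EuclideanSpace ℝ (Fin d)) (D : ℝ) (x y : EuclideanSpace ℝ (Fin d)) :
    Wf x0 D ((1 / 2 : ℝ) • (x + y)) = Wf x0 D x / 2 + Wf x0 D y / 2 + ‖x - y‖ ^ 2 / 8 := by
  unfold Wf
  have e1 : (1 / 2 : ℝ) • (x + y) - x0 = (1 / 2 : ℝ) • ((x - x0) + (y - x0)) := by
    rw [smul_add, smul_add, smul_sub, smul_sub]
    have : x0 = (1 / 2 : ℝ) • x0 + (1 / 2 : ℝ) • x0 := by rw [← add_smul]; norm_num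
    nth_rewrite 1 [this]
    abel
  have e2 : x - y = (x - x0) - (y - x0) := by abel
  rw [e1, e2]
  generalize x - x0 = p
  generalize y - x0 = r
  rw [norm_smul, mul_pow, norm_add_sq_real, norm_sub_sq_real]
  norm_num
  ring

lemma Wf_sub_abs_le (x0 : EuclideanSpace ℝ (Fin d)) (D : ℝ) (x y : EuclideanSpace ℝ (Fin d))
    (hx : ‖x - x0‖ ≤ D) (hy : ‖y - x0‖ ≤ D) : |Wf x0 D x - Wf x0 D y| ≤ D * ‖x - y‖ := by
  unfold Wf
  have h1 : |‖y - x0‖ - ‖x - x0‖| ≤ ‖x - y‖ := by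
    have := abs_norm_sub_norm_le (y - x0) (x - x0)
    have e : y - x0 - (x - x0) = -(x - y) := by abel
    rwa [e, norm_neg] at this
  have h2 : D ^ 2 / 2 - ‖x - x0‖ ^ 2 / 2 - (D ^ 2 / 2 - ‖y - x0‖ ^ 2 / 2)
      = (‖y - x0‖ - ‖x - x0‖) * (‖y - x0‖ + ‖x - x0‖) / 2 := by ring
  rw [h2, abs_div, abs_mul, abs_of_pos (by norm_num : (0:ℝ) < 2)]
  have h3 : |‖y - x0‖ + ‖x - x0‖| ≤ 2 * D := by
    rw [abs_of_nonneg (by positivity)]; linarith
  have h4 : |‖y - x0‖ - ‖x - x0‖| * |‖y - x0‖ + ‖x - x0‖| ≤ ‖x - y‖ * (2 * D) :=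
    mul_le_mul h1 h3 (abs_nonneg _) (norm_nonneg _)
  rw [div_le_iff₀ (by norm_num : (0:ℝ) < 2)]
  linarith

lemma Wf_nonneg (x0 : EuclideanSpace ℝ (Fin d)) (D : ℝ) (hD0 : 0 ≤ D) (z : EuclideanSpace ℝ (Fin d))
    (hz : ‖z - x0‖ ≤ D) : 0 ≤ Wf x0 D z := by
  unfold Wf
  have : ‖z - x0‖ ^ 2 ≤ D ^ 2 := pow_le_pow_left₀ (norm_nonneg _) hz 2
  linarith

lemma Wf_le (x0 : EuclideanSpace ℝ (Fin d)) (D : ℝ) (z : EuclideanSpace ℝ (Fin d)) :
    Wf x0 D z ≤ D ^ 2 / 2 := by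
  unfold Wf
  have : 0 ≤ ‖z - x0‖ ^ 2 := by positivity
  linarith

lemma continuous_Wf (x0 : EuclideanSpace ℝ (Fin d)) (D : ℝ) : Continuous (Wf x0 D) := by
  unfold Wf
  fun_prop

/-- The functions `a`, `b` of the algebra. -/
noncomputable def af (x0 : EuclideanSpace ℝ (Fin d)) (D : ℝ) (u : EuclideanSpace ℝ (Fin d) → ℝ)
    (v : EuclideanSpace ℝ (Fin d)) (y : EuclideanSpace ℝ (Fin d)) : ℝ :=
  Wf x0 D y / (2 * Real.sqrt (1 + u y)) + Wf x0 D y * (1 / Real.sqrt (1 + u y) - 1) / 2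
    - 5 / 4 * D ^ 2 * (1 / Real.sqrt (1 + u y) - 1) ^ 2 - 1 / 10 * inner ℝ v y - 1 / 20 * ‖v‖ ^ 2

noncomputable def bf (x0 : EuclideanSpace ℝ (Fin d)) (D : ℝ)
    (v : EuclideanSpace ℝ (Fin d)) (x : EuclideanSpace ℝ (Fin d)) : ℝ :=
  Wf x0 D x / 2 + 1 / 10 * inner ℝ v x

noncomputable def Gf (x0 : EuclideanSpace ℝ (Fin d)) (D : ℝ) (u : EuclideanSpace ℝ (Fin d) → ℝ)
    (y : EuclideanSpace ℝ (Fin d)) : ℝ :=
  Wf x0 D y * Real.sqrt (1 + u y) - Wf x0 D y * (1 + u y) / 2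
    - 5 / 4 * D ^ 2 * (1 - Real.sqrt (1 + u y)) ^ 2

lemma sqrt_bounds {t : ℝ} (ht : |t| ≤ 1 / 2) :
    1 / 2 ≤ Real.sqrt (1 + t) ∧ Real.sqrt (1 + t) ≤ 5 / 4 := by
  have h := abs_le.mp ht
  constructor
  · apply Real.le_sqrt_of_sq_le; nlinarith [h.1]
  · rw [Real.sqrt_le_left (by norm_num)]; nlinarith [h.2]

/-- The pointwise inequality `(a y + b x) q(y) ≤ W ((x+y)/2)`. -/
lemma alg_pointwise (x0 : EuclideanSpace ℝ (Fin d)) (D : ℝ) (hD0 : 0 ≤ D)
    (u : EuclideanSpace ℝ (Fin d) → ℝ) (v x y : EuclideanSpace ℝ (Fin d))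
    (hx : ‖x - x0‖ ≤ D) (hy : ‖y - x0‖ ≤ D) (huy : |u y| ≤ 1 / 2) :
    (af x0 D u v y + bf x0 D v x) * Real.sqrt (1 + u y) ≤ Wf x0 D ((1 / 2 : ℝ) • (x + y)) := by
  obtain ⟨hq1, hq2⟩ := sqrt_bounds huy
  set q := Real.sqrt (1 + u y) with hq
  have hq0 : 0 < q := by linarith
  rw [Wf_mid]
  have ht : 2 * inner ℝ v (x - y) - ‖v‖ ^ 2 ≤ ‖x - y‖ ^ 2 := by
    have := sq_nonneg ‖v - (x - y)‖
    rw [norm_sub_sq_real] at this
    linarith
  have hmain := alg_real (Wf x0 D x) (Wf x0 D y) D q ‖x - y‖ (2 * inner ℝ v (x - y) - ‖v‖ ^ 2)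
    hq0 hq2 hD0 (norm_nonneg _) (Wf_sub_abs_le x0 D x y hx hy) ht
  have hinner : inner ℝ v (x - y) = inner ℝ v x - inner ℝ v y := inner_sub_right v x y
  unfold af bf
  rw [← hq]
  rw [hinner] at hmain
  have e : (Wf x0 D y / (2 * q) + Wf x0 D y * (1 / q - 1) / 2 - 5 / 4 * D ^ 2 * (1 / q - 1) ^ 2
      - 1 / 10 * inner ℝ v y - 1 / 20 * ‖v‖ ^ 2 + (Wf x0 D x / 2 + 1 / 10 * inner ℝ v x)) * q
      = (Wf x0 D y / (2 * q) + Wf x0 D y * (1 / q - 1) / 2 - 5 / 4 * D ^ 2 * (1 / q - 1) ^ 2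
        + Wf x0 D x / 2) * q + q / 20 * (2 * (inner ℝ v x - inner ℝ v y) - ‖v‖ ^ 2) := by ring
  rw [e]
  exact hmain

/-! ### Measurability, bounds, integrability -/

lemma integrableOn_of_bdd_on {X : Type*} [MeasurableSpace X] {μ : Measure X} {K S : Set X}
    (hSm : MeasurableSet S) (hSK : S ⊆ K) (hKfin : μ K ≠ ⊤) {G : Type*} [NormedAddCommGroup G]
    {h : X → G} (hm : AEStronglyMeasurable h μ) {M : ℝ} (hb : ∀ x ∈ K, ‖h x‖ ≤ M) :
    IntegrableOn h S μ :=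
  Measure.integrableOn_of_bounded (ne_top_of_le_ne_top hKfin (measure_mono hSK)) hm
    ((ae_restrict_mem hSm).mono fun x hx => hb x (hSK hx))

lemma measurable_sqrt_one_add {u : EuclideanSpace ℝ (Fin d) → ℝ} (hu : Measurable u) :
    Measurable fun y => Real.sqrt (1 + u y) := (measurable_const.add hu).sqrt

lemma measurable_inner_left (v : EuclideanSpace ℝ (Fin d)) :
    Measurable fun y : EuclideanSpace ℝ (Fin d) => inner ℝ v y :=
  (continuous_const.inner continuous_id).measurable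

lemma measurable_af (x0 : EuclideanSpace ℝ (Fin d)) (D : ℝ) {u : EuclideanSpace ℝ (Fin d) → ℝ}
    (hu : Measurable u) (v : EuclideanSpace ℝ (Fin d)) : Measurable (af x0 D u v) := by
  have hW := (continuous_Wf x0 D).measurable
  have hq := measurable_sqrt_one_add hu
  have hin := measurable_inner_left v
  unfold af
  exact ((((hW.div (measurable_const.mul hq)).add
    ((hW.mul ((measurable_const.div hq).sub measurable_const)).div_const 2)).sub
    (measurable_const.mul (((measurable_const.div hq).sub measurable_const).pow_const 2))).sub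
    (measurable_const.mul hin)).sub measurable_const

lemma measurable_bf (x0 : EuclideanSpace ℝ (Fin d)) (D : ℝ) (v : EuclideanSpace ℝ (Fin d)) :
    Measurable (bf x0 D v) := by
  have hW := (continuous_Wf x0 D).measurable
  have hin := measurable_inner_left v
  unfold bf
  exact (hW.div_const 2).add (measurable_const.mul hin)

lemma measurable_Gf (x0 : EuclideanSpace ℝ (Fin d)) (D : ℝ) {u : EuclideanSpace ℝ (Fin d) → ℝ}
    (hu : Measurable u) : Measurable (Gf x0 D u) := by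
  have hW := (continuous_Wf x0 D).measurable
  have hq := measurable_sqrt_one_add hu
  unfold Gf
  exact ((hW.mul hq).sub ((hW.mul (measurable_const.add hu)).div_const 2)).sub
    (measurable_const.mul ((measurable_const.sub hq).pow_const 2))

lemma abs_inner_le_of_mem (x0 : EuclideanSpace ℝ (Fin d)) (D : ℝ)
    (v y : EuclideanSpace ℝ (Fin d)) (hy : ‖y - x0‖ ≤ D) :
    |inner ℝ v y| ≤ ‖v‖ * (D + ‖x0‖) := by
  have h1 : |inner ℝ v y| ≤ ‖v‖ * ‖y‖ := abs_real_inner_le_norm v y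
  have h2 : ‖y‖ ≤ D + ‖x0‖ := by
    have : y = (y - x0) + x0 := by abel
    calc ‖y‖ = ‖(y - x0) + x0‖ := by rw [← this]
      _ ≤ ‖y - x0‖ + ‖x0‖ := norm_add_le _ _
      _ ≤ D + ‖x0‖ := by linarith
  calc |inner ℝ v y| ≤ ‖v‖ * ‖y‖ := h1
    _ ≤ ‖v‖ * (D + ‖x0‖) := mul_le_mul_of_nonneg_left h2 (norm_nonneg _)

lemma abs_bf_le (x0 : EuclideanSpace ℝ (Fin d)) (D : ℝ) (hD0 : 0 ≤ D)
    (v x : EuclideanSpace ℝ (Fin d)) (hx : ‖x - x0‖ ≤ D) :
    |bf x0 D v x| ≤ 2 * D ^ 2 + ‖v‖ * (D + ‖x0‖) + ‖v‖ ^ 2 := by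
  have hW0 := Wf_nonneg x0 D hD0 x hx
  have hW1 := Wf_le x0 D x
  have hin := abs_le.mp (abs_inner_le_of_mem x0 D v x hx)
  have hN : 0 ≤ ‖v‖ * (D + ‖x0‖) := by positivity
  have hv2 : 0 ≤ ‖v‖ ^ 2 := by positivity
  have hD2 : 0 ≤ D ^ 2 := by positivity
  unfold bf
  rw [abs_le]
  constructor <;> nlinarith [hin.1, hin.2]

lemma abs_af_le (x0 : EuclideanSpace ℝ (Fin d)) (D : ℝ) (hD0 : 0 ≤ D)
    (u : EuclideanSpace ℝ (Fin d) → ℝ) (v y : EuclideanSpace ℝ (Fin d)) (hy : ‖y - x0‖ ≤ D)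
    (huy : |u y| ≤ 1 / 2) :
    |af x0 D u v y| ≤ 2 * D ^ 2 + ‖v‖ * (D + ‖x0‖) + ‖v‖ ^ 2 := by
  have hW0 := Wf_nonneg x0 D hD0 y hy
  have hW1 := Wf_le x0 D y
  have hin := abs_le.mp (abs_inner_le_of_mem x0 D v y hy)
  have hN : 0 ≤ ‖v‖ * (D + ‖x0‖) := by positivity
  have hv2 : 0 ≤ ‖v‖ ^ 2 := by positivity
  have hD2 : 0 ≤ D ^ 2 := by positivity
  obtain ⟨hq1, hq2⟩ := sqrt_bounds huy
  unfold af
  set q := Real.sqrt (1 + u y) with hq
  set W := Wf x0 D y with hW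
  have hq0 : 0 < q := by linarith
  have hr1 : 1 / q ≤ 2 := by rw [div_le_iff₀ hq0]; linarith
  have hr0 : 4 / 5 ≤ 1 / q := by rw [le_div_iff₀ hq0]; linarith
  set r := 1 / q with hr
  have e1 : W / (2 * q) = W * r / 2 := by rw [hr]; field_simp
  rw [e1]
  have t1a : 0 ≤ W * r := mul_nonneg hW0 (by linarith)
  have t1b : W * r ≤ D ^ 2 := by nlinarith
  have t2a : W * (r - 1) ≤ D ^ 2 / 2 := by nlinarith
  have t2b : -(D ^ 2 / 2) ≤ W * (r - 1) := by nlinarith
  have t3a : 0 ≤ D ^ 2 * (r - 1) ^ 2 := by positivity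
  have t3b : D ^ 2 * (r - 1) ^ 2 ≤ D ^ 2 := by
    have : (r - 1) ^ 2 ≤ 1 := by nlinarith
    nlinarith
  rw [abs_le]
  constructor <;> nlinarith [hin.1, hin.2]

/-! ### The per-cell inequality -/

lemma cell_ineq (hPL : Helper6.PLHalf (EuclideanSpace ℝ (Fin d)) volume)
    (K : Set (EuclideanSpace ℝ (Fin d))) (hKm : MeasurableSet K) (hKfin : volume K ≠ ⊤)
    (x0 : EuclideanSpace ℝ (Fin d)) (D : ℝ) (hD0 : 0 ≤ D) (hD : ∀ x ∈ K, ‖x - x0‖ ≤ D)
    (u : EuclideanSpace ℝ (Fin d) → ℝ) (hu : Measurable u) (hub : ∀ x ∈ K, |u x| ≤ 1 / 2)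
    (A B C : Set (EuclideanSpace ℝ (Fin d))) (hAm : MeasurableSet A) (hBm : MeasurableSet B)
    (hCm : MeasurableSet C) (hAK : A ⊆ K) (hBK : B ⊆ K) (hCK : C ⊆ K)
    (hmid : ∀ x ∈ A, ∀ y ∈ B, (1 / 2 : ℝ) • (x + y) ∈ C)
    (hmass : ∫ y in B, (1 + u y) = (volume A).toReal) (v : EuclideanSpace ℝ (Fin d)) :
    (∫ y in B, Gf x0 D u y) + 1 / 2 * (∫ x in A, Wf x0 D x)
      + 1 / 10 * inner ℝ v ((∫ x in A, x) - ∫ y in B, (1 + u y) • y)
      - 1 / 20 * ‖v‖ ^ 2 * (volume A).toReal ≤ ∫ z in C, Wf x0 D z := by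
  classical
  set M := 2 * D ^ 2 + ‖v‖ * (D + ‖x0‖) + ‖v‖ ^ 2 with hM
  -- basic bounds on K
  have hu1 : ∀ y ∈ K, 1 / 2 ≤ 1 + u y ∧ 1 + u y ≤ 3 / 2 := by
    intro y hy
    have := abs_le.mp (hub y hy)
    constructor <;> linarith [this.1, this.2]
  have hnormK : ∀ y ∈ K, ‖y‖ ≤ D + ‖x0‖ := by
    intro y hy
    have : y = (y - x0) + x0 := by abel
    calc ‖y‖ = ‖(y - x0) + x0‖ := by rw [← this]
      _ ≤ ‖y - x0‖ + ‖x0‖ := norm_add_le _ _
      _ ≤ D + ‖x0‖ := by linarith [hD y hy]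
  -- integrability facts
  have hWint : ∀ S : Set (EuclideanSpace ℝ (Fin d)), MeasurableSet S → S ⊆ K →
      IntegrableOn (Wf x0 D) S := fun S hSm hSK =>
    integrableOn_of_bdd_on hSm hSK hKfin (continuous_Wf x0 D).measurable.aestronglyMeasurable
      (M := D ^ 2 / 2) (fun x hx => by
        rw [Real.norm_eq_abs, abs_of_nonneg (Wf_nonneg x0 D hD0 x (hD x hx))]
        exact Wf_le x0 D x)
  have h1uint : IntegrableOn (fun y => 1 + u y) B :=
    integrableOn_of_bdd_on hBm hBK hKfin (measurable_const.add hu).aestronglyMeasurable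
      (M := 3 / 2) (fun x hx => by
        rw [Real.norm_eq_abs, abs_of_nonneg (by linarith [(hu1 x hx).1])]
        exact (hu1 x hx).2)
  have hidint : IntegrableOn (fun x : EuclideanSpace ℝ (Fin d) => x) A :=
    integrableOn_of_bdd_on hAm hAK hKfin measurable_id.aestronglyMeasurable
      (M := D + ‖x0‖) (fun x hx => hnormK x hx)
  have hsmint : IntegrableOn (fun y : EuclideanSpace ℝ (Fin d) => (1 + u y) • y) B :=
    integrableOn_of_bdd_on hBm hBK hKfin
      ((measurable_const.add hu).smul measurable_id).aestronglyMeasurable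
      (M := 3 / 2 * (D + ‖x0‖)) (fun x hx => by
        rw [norm_smul, Real.norm_eq_abs, abs_of_nonneg (by linarith [(hu1 x hx).1])]
        exact mul_le_mul (hu1 x hx).2 (hnormK x hx) (norm_nonneg _) (by norm_num))
  have hGint : IntegrableOn (Gf x0 D u) B :=
    integrableOn_of_bdd_on hBm hBK hKfin (measurable_Gf x0 D hu).aestronglyMeasurable
      (M := 3 * D ^ 2) (fun y hy => by
        obtain ⟨hq1, hq2⟩ := sqrt_bounds (hub y hy)
        have hW0 := Wf_nonneg x0 D hD0 y (hD y hy)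
        have hW1 := Wf_le x0 D y
        have h1 := hu1 y hy
        have hD2 : 0 ≤ D ^ 2 := by positivity
        unfold Gf
        set q := Real.sqrt (1 + u y)
        set W := Wf x0 D y
        have a1 : 0 ≤ W * q := mul_nonneg hW0 (by linarith)
        have a2 : W * q ≤ D ^ 2 := by nlinarith
        have a3 : 0 ≤ W * (1 + u y) := mul_nonneg hW0 (by linarith)
        have a4 : W * (1 + u y) ≤ D ^ 2 := by nlinarith
        have a5 : 0 ≤ D ^ 2 * (1 - q) ^ 2 := by positivity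
        have a6 : D ^ 2 * (1 - q) ^ 2 ≤ D ^ 2 := by
          have : (1 - q) ^ 2 ≤ 1 := by nlinarith
          nlinarith
        rw [Real.norm_eq_abs, abs_le]
        constructor <;> nlinarith)
  have hinBint : IntegrableOn (fun y => inner ℝ v ((1 + u y) • y)) B :=
    integrableOn_of_bdd_on hBm hBK hKfin
      ((continuous_const.inner continuous_id).measurable.comp
        ((measurable_const.add hu).smul measurable_id)).aestronglyMeasurable
      (M := ‖v‖ * (3 / 2 * (D + ‖x0‖))) (fun x hx => by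
        rw [Real.norm_eq_abs]
        refine (abs_real_inner_le_norm _ _).trans (mul_le_mul_of_nonneg_left ?_ (norm_nonneg _))
        rw [norm_smul, Real.norm_eq_abs, abs_of_nonneg (by linarith [(hu1 x hx).1])]
        exact mul_le_mul (hu1 x hx).2 (hnormK x hx) (norm_nonneg _) (by norm_num))
  have hinAint : IntegrableOn (fun x : EuclideanSpace ℝ (Fin d) => inner ℝ v x) A :=
    integrableOn_of_bdd_on hAm hAK hKfin (measurable_inner_left v).aestronglyMeasurable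
      (M := ‖v‖ * (D + ‖x0‖)) (fun x hx => by
        rw [Real.norm_eq_abs]
        exact abs_inner_le_of_mem x0 D v x (hD x hx))
  -- the TPL data
  set f : EuclideanSpace ℝ (Fin d) → ℝ := B.indicator (fun y => 1 + u y) with hf
  set k : EuclideanSpace ℝ (Fin d) → ℝ := A.indicator (fun _ => (1 : ℝ)) with hk
  set a : EuclideanSpace ℝ (Fin d) → ℝ := K.indicator (af x0 D u v) with ha
  set b : EuclideanSpace ℝ (Fin d) → ℝ := K.indicator (bf x0 D v) with hb
  set F : EuclideanSpace ℝ (Fin d) → ℝ≥0∞ :=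
    C.indicator (fun z => ENNReal.ofReal (Wf x0 D z)) with hF
  have hfm : Measurable f := (measurable_const.add hu).indicator hBm
  have hkm : Measurable k := measurable_const.indicator hAm
  have hfi : Integrable f := h1uint.integrable_indicator hBm
  have hki : Integrable k := by
    refine IntegrableOn.integrable_indicator ?_ hAm
    exact integrableOn_const (ne_top_of_le_ne_top hKfin (measure_mono hAK))
  have hf0 : ∀ y, 0 ≤ f y := fun y =>
    Set.indicator_nonneg (fun y hy => by linarith [(hu1 y (hBK hy)).1]) y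
  have hk0 : ∀ x, 0 ≤ k x := fun x => Set.indicator_nonneg (fun _ _ => zero_le_one) x
  have hkint : ∫ x, k x = (volume A).toReal := by
    rw [hk, integral_indicator hAm, setIntegral_const, smul_eq_mul, mul_one, measureReal_def]
  have hfint : ∫ y, f y = (volume A).toReal := by
    rw [hf, integral_indicator hBm, hmass]
  have hfk : ∫ y, f y = ∫ x, k x := by rw [hfint, hkint]
  have ham : Measurable a := (measurable_af x0 D hu v).indicator hKm
  have hbm : Measurable b := (measurable_bf x0 D v).indicator hKm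
  have haM : ∀ y, |a y| ≤ M := by
    intro y
    by_cases hy : y ∈ K
    · rw [ha, Set.indicator_of_mem hy]
      exact abs_af_le x0 D hD0 u v y (hD y hy) (hub y hy)
    · rw [ha, Set.indicator_of_notMem hy, abs_zero]; positivity
  have hbM : ∀ x, |b x| ≤ M := by
    intro x
    by_cases hx : x ∈ K
    · rw [hb, Set.indicator_of_mem hx]
      exact abs_bf_le x0 D hD0 v x (hD x hx)
    · rw [hb, Set.indicator_of_notMem hx, abs_zero]; positivity
  have hFm : Measurable F :=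
    (ENNReal.measurable_ofReal.comp (continuous_Wf x0 D).measurable).indicator hCm
  have hyp : ∀ y x, 0 < f y → 0 < k x →
      ENNReal.ofReal ((a y + b x) * Real.sqrt (f y * k x)) ≤ F ((1 / 2 : ℝ) • (x + y)) := by
    intro y x hfy hkx
    have hyB : y ∈ B := by
      by_contra hy
      rw [hf, Set.indicator_of_notMem hy] at hfy
      exact lt_irrefl _ hfy
    have hxA : x ∈ A := by
      by_contra hx
      rw [hk, Set.indicator_of_notMem hx] at hkx
      exact lt_irrefl _ hkx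
    have hmidC := hmid x hxA y hyB
    rw [hF, Set.indicator_of_mem hmidC, hf, Set.indicator_of_mem hyB, hk,
      Set.indicator_of_mem hxA, ha, Set.indicator_of_mem (hBK hyB), hb,
      Set.indicator_of_mem (hAK hxA), mul_one]
    exact ENNReal.ofReal_le_ofReal
      (alg_pointwise x0 D hD0 u v x y (hD x (hAK hxA)) (hD y (hBK hyB)) (hub y (hBK hyB)))
  have key := tpl_of_plHalf volume hPL f k a b F hfm hkm hfi hki hf0 hk0 hfk ham hbm M haM hbM hFm hyp
  -- the right-hand side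
  have hR : ∫⁻ z, F z = ENNReal.ofReal (∫ z in C, Wf x0 D z) := by
    rw [hF, lintegral_indicator hCm,
      ofReal_integral_eq_lintegral_ofReal (hWint C hCm hCK)]
    exact (ae_restrict_mem hCm).mono fun z hz => Wf_nonneg x0 D hD0 z (hD z (hCK hz))
  have hR0 : 0 ≤ ∫ z in C, Wf x0 D z :=
    setIntegral_nonneg hCm fun z hz => Wf_nonneg x0 D hD0 z (hD z (hCK hz))
  rw [hR, ENNReal.ofReal_le_ofReal_iff hR0] at key
  -- the left-hand side
  have hL1 : ∫ y, a y * f y = (∫ y in B, Gf x0 D u y)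
      - 1 / 10 * inner ℝ v (∫ y in B, (1 + u y) • y) - 1 / 20 * ‖v‖ ^ 2 * (volume A).toReal := by
    have e1 : (fun y => a y * f y) = B.indicator (fun y => Gf x0 D u y
        - 1 / 10 * inner ℝ v ((1 + u y) • y) - 1 / 20 * ‖v‖ ^ 2 * (1 + u y)) := by
      funext y
      by_cases hy : y ∈ B
      · rw [hf, ha, Set.indicator_of_mem hy, Set.indicator_of_mem hy,
          Set.indicator_of_mem (hBK hy)]
        have h1 := hu1 y (hBK hy)
        obtain ⟨hq1, hq2⟩ := sqrt_bounds (hub y (hBK hy))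
        have hqq : Real.sqrt (1 + u y) ^ 2 = 1 + u y := Real.sq_sqrt (by linarith)
        unfold af Gf
        rw [inner_smul_right]
        set q := Real.sqrt (1 + u y)
        have hq0 : q ≠ 0 := by linarith
        rw [← hqq]
        field_simp
        ring
      · rw [hf, Set.indicator_of_notMem hy, Set.indicator_of_notMem hy, mul_zero]
    rw [e1, integral_indicator hBm, integral_sub, integral_sub, integral_const_mul,
      integral_const_mul, integral_inner hsmint, hmass]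
    · exact hGint
    · exact hinBint.const_mul _
    · exact hGint.sub (hinBint.const_mul _)
    · exact h1uint.const_mul _
  have hL2 : ∫ x, b x * k x = 1 / 2 * (∫ x in A, Wf x0 D x)
      + 1 / 10 * inner ℝ v (∫ x in A, x) := by
    have e1 : (fun x => b x * k x) = A.indicator (fun x => 1 / 2 * Wf x0 D x
        + 1 / 10 * inner ℝ v x) := by
      funext x
      by_cases hx : x ∈ A
      · rw [hk, hb, Set.indicator_of_mem hx, Set.indicator_of_mem hx,
          Set.indicator_of_mem (hAK hx)]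
        unfold bf
        ring
      · rw [hk, Set.indicator_of_notMem hx, Set.indicator_of_notMem hx, mul_zero]
    rw [e1, integral_indicator hAm, integral_add, integral_const_mul, integral_const_mul,
      integral_inner hidint]
    · exact (hWint A hAm hAK).const_mul _
    · exact hinAint.const_mul _
  rw [hL1, hL2] at key
  rw [inner_sub_right]
  linarith

/-! ### Centroid stability, abstract form -/

/-- **Step A, abstract form.** `A i`, `B i` a.e.-partitions of `K ⊆ closedBall x0 D`,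
`∫_{B i} (1+u) = vol (A i)`, midpoints of `A i × B i` inside a.e.-disjoint sets `C i ⊆ K`.
Then the barycentres satisfy
`∑ (vol A i)⁻¹ ‖∫_{B i} (1+u) y - ∫_{A i} x‖² ≤ 30 D² ∫_K u²`. -/
theorem centroid_alg (hPL : Helper6.PLHalf (EuclideanSpace ℝ (Fin d)) volume)
    {ι : Type*} [Fintype ι] (K : Set (EuclideanSpace ℝ (Fin d))) (hKm : MeasurableSet K)
    (hKfin : volume K ≠ ⊤)
    (x0 : EuclideanSpace ℝ (Fin d)) (D : ℝ) (hD : ∀ x ∈ K, ‖x - x0‖ ≤ D)
    (u : EuclideanSpace ℝ (Fin d) → ℝ) (hu : Measurable u) (hub : ∀ x ∈ K, |u x| ≤ 1 / 2)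
    (A B C : ι → Set (EuclideanSpace ℝ (Fin d)))
    (hAm : ∀ i, MeasurableSet (A i)) (hBm : ∀ i, MeasurableSet (B i))
    (hCm : ∀ i, MeasurableSet (C i))
    (hAK : ∀ i, A i ⊆ K) (hBK : ∀ i, B i ⊆ K) (hCK : ∀ i, C i ⊆ K)
    (hmid : ∀ i, ∀ x ∈ A i, ∀ y ∈ B i, (1 / 2 : ℝ) • (x + y) ∈ C i)
    (hCdisj : ∀ i j, i ≠ j → volume (C i ∩ C j) = 0)
    (hAdisj : ∀ i j, i ≠ j → volume (A i ∩ A j) = 0) (hAcov : volume (K \ ⋃ i, A i) = 0)
    (hBdisj : ∀ i j, i ≠ j → volume (B i ∩ B j) = 0) (hBcov : volume (K \ ⋃ i, B i) = 0)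
    (hmass : ∀ i, ∫ y in B i, (1 + u y) = (volume (A i)).toReal) :
    ∑ i, (volume (A i)).toReal⁻¹ * ‖(∫ y in B i, (1 + u y) • y) - ∫ x in A i, x‖ ^ 2
      ≤ 30 * D ^ 2 * ∫ x in K, u x ^ 2 := by
  rcases K.eq_empty_or_nonempty with hKe | ⟨x1, hx1⟩
  · -- degenerate case
    have hA0 : ∀ i, (volume (A i)).toReal = 0 := by
      intro i
      have : A i = ∅ := Set.subset_empty_iff.mp (hKe ▸ hAK i)
      rw [this]; simp
    simp [hA0, hKe]
  have hD0 : 0 ≤ D := (norm_nonneg _).trans (hD x1 hx1)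
  set Δ : ι → EuclideanSpace ℝ (Fin d) :=
    fun i => (∫ x in A i, x) - ∫ y in B i, (1 + u y) • y with hΔ
  set m : ι → ℝ := fun i => (volume (A i)).toReal with hm
  have hcell : ∀ i, (∫ y in B i, Gf x0 D u y) + 1 / 2 * (∫ x in A i, Wf x0 D x)
      + 1 / 20 * ((m i)⁻¹ * ‖Δ i‖ ^ 2) ≤ ∫ z in C i, Wf x0 D z := by
    intro i
    have h := cell_ineq hPL K hKm hKfin x0 D hD0 hD u hu hub (A i) (B i) (C i) (hAm i) (hBm i)
      (hCm i) (hAK i) (hBK i) (hCK i) (hmid i) (hmass i) ((m i)⁻¹ • Δ i)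
    have e1 : inner ℝ ((m i)⁻¹ • Δ i) (Δ i) = (m i)⁻¹ * ‖Δ i‖ ^ 2 := by
      rw [real_inner_smul_left, real_inner_self_eq_norm_sq]
    have e2 : ‖(m i)⁻¹ • Δ i‖ ^ 2 = ((m i)⁻¹) ^ 2 * ‖Δ i‖ ^ 2 := by
      rw [norm_smul, mul_pow, Real.norm_eq_abs, sq_abs]
    have e3 : 1 / 10 * ((m i)⁻¹ * ‖Δ i‖ ^ 2) - 1 / 20 * (((m i)⁻¹) ^ 2 * ‖Δ i‖ ^ 2) * m i
        = 1 / 20 * ((m i)⁻¹ * ‖Δ i‖ ^ 2) := by
      by_cases hmi : m i = 0
      · simp [hmi]
      · field_simp; ring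
    have h' : (∫ y in B i, Gf x0 D u y) + 1 / 2 * (∫ x in A i, Wf x0 D x)
        + 1 / 10 * inner ℝ ((m i)⁻¹ • Δ i) (Δ i)
        - 1 / 20 * ‖(m i)⁻¹ • Δ i‖ ^ 2 * m i ≤ ∫ z in C i, Wf x0 D z := h
    rw [e1, e2] at h'
    linarith
  -- integrability on K
  have hu1 : ∀ y ∈ K, 1 / 2 ≤ 1 + u y ∧ 1 + u y ≤ 3 / 2 := by
    intro y hy
    have := abs_le.mp (hub y hy)
    constructor <;> linarith [this.1, this.2]
  have hWintK : IntegrableOn (Wf x0 D) K :=
    integrableOn_of_bdd_on hKm subset_rfl hKfin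
      (continuous_Wf x0 D).measurable.aestronglyMeasurable
      (M := D ^ 2 / 2) (fun x hx => by
        rw [Real.norm_eq_abs, abs_of_nonneg (Wf_nonneg x0 D hD0 x (hD x hx))]
        exact Wf_le x0 D x)
  have hGintK : IntegrableOn (Gf x0 D u) K :=
    integrableOn_of_bdd_on hKm subset_rfl hKfin (measurable_Gf x0 D hu).aestronglyMeasurable
      (M := 3 * D ^ 2) (fun y hy => by
        obtain ⟨hq1, hq2⟩ := sqrt_bounds (hub y hy)
        have hW0 := Wf_nonneg x0 D hD0 y (hD y hy)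
        have hW1 := Wf_le x0 D y
        have h1 := hu1 y hy
        have hD2 : 0 ≤ D ^ 2 := by positivity
        unfold Gf
        set q := Real.sqrt (1 + u y)
        set W := Wf x0 D y
        have a1 : 0 ≤ W * q := mul_nonneg hW0 (by linarith)
        have a2 : W * q ≤ D ^ 2 := by nlinarith
        have a3 : 0 ≤ W * (1 + u y) := mul_nonneg hW0 (by linarith)
        have a4 : W * (1 + u y) ≤ D ^ 2 := by nlinarith
        have a5 : 0 ≤ D ^ 2 * (1 - q) ^ 2 := by positivity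
        have a6 : D ^ 2 * (1 - q) ^ 2 ≤ D ^ 2 := by
          have : (1 - q) ^ 2 ≤ 1 := by nlinarith
          nlinarith
        rw [Real.norm_eq_abs, abs_le]
        constructor <;> nlinarith)
  have hu2intK : IntegrableOn (fun y => u y ^ 2) K :=
    integrableOn_of_bdd_on hKm subset_rfl hKfin (hu.pow_const 2).aestronglyMeasurable
      (M := 1) (fun y hy => by
        have := abs_le.mp (hub y hy)
        rw [Real.norm_eq_abs, abs_of_nonneg (sq_nonneg _)]
        nlinarith [this.1, this.2])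
  -- sums over the partitions
  have hG : ∑ i, ∫ y in B i, Gf x0 D u y = ∫ y in K, Gf x0 D u y :=
    sum_setIntegral_eq_of_ae_partition B K hBm hBK hBdisj hBcov _ hGintK
  have hWA : ∑ i, ∫ x in A i, Wf x0 D x = ∫ x in K, Wf x0 D x :=
    sum_setIntegral_eq_of_ae_partition A K hAm hAK hAdisj hAcov _ hWintK
  have hWC : ∑ i, ∫ z in C i, Wf x0 D z ≤ ∫ z in K, Wf x0 D z :=
    sum_setIntegral_le_of_ae_disjoint C K hKm hCm hCK hCdisj _ hWintK
      (fun x hx => Wf_nonneg x0 D hD0 x (hD x hx))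
  have hsum := Finset.sum_le_sum (fun i (_ : i ∈ Finset.univ) => hcell i)
  rw [Finset.sum_add_distrib, Finset.sum_add_distrib, ← Finset.mul_sum, ← Finset.mul_sum,
    hG, hWA] at hsum
  -- pointwise bound of the defect
  have hpt : ∀ y ∈ K, 1 / 2 * Wf x0 D y - Gf x0 D u y ≤ 3 / 2 * D ^ 2 * u y ^ 2 := by
    intro y hy
    obtain ⟨hq1, hq2⟩ := sqrt_bounds (hub y hy)
    have hW0 := Wf_nonneg x0 D hD0 y (hD y hy)
    have hW1 := Wf_le x0 D y
    have h1 := hu1 y hy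
    have hqq : Real.sqrt (1 + u y) ^ 2 = 1 + u y := Real.sq_sqrt (by linarith)
    unfold Gf
    set q := Real.sqrt (1 + u y)
    set W := Wf x0 D y
    have hu' : u y = (q - 1) * (q + 1) := by nlinarith
    have hsq : (1 - q) ^ 2 ≤ u y ^ 2 := by
      rw [hu']
      nlinarith [sq_nonneg (q - 1), mul_nonneg (sq_nonneg (q - 1)) (by nlinarith : (0:ℝ) ≤ (q + 1) ^ 2 - 1)]
    have e : 1 / 2 * W - (W * q - W * (1 + u y) / 2 - 5 / 4 * D ^ 2 * (1 - q) ^ 2)
        = (W / 2 + 5 / 4 * D ^ 2) * (1 - q) ^ 2 := by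
      rw [← hqq]; ring
    rw [e]
    have hD2 : 0 ≤ D ^ 2 := by positivity
    have hc : W / 2 + 5 / 4 * D ^ 2 ≤ 3 / 2 * D ^ 2 := by linarith
    calc (W / 2 + 5 / 4 * D ^ 2) * (1 - q) ^ 2 ≤ 3 / 2 * D ^ 2 * (1 - q) ^ 2 :=
          mul_le_mul_of_nonneg_right hc (sq_nonneg _)
      _ ≤ 3 / 2 * D ^ 2 * u y ^ 2 := mul_le_mul_of_nonneg_left hsq (by positivity)
  have hint : ∫ y in K, (1 / 2 * Wf x0 D y - Gf x0 D u y) ≤ ∫ y in K, 3 / 2 * D ^ 2 * u y ^ 2 :=
    setIntegral_mono_on ((hWintK.const_mul _).sub hGintK) (hu2intK.const_mul _) hKm hpt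
  rw [integral_sub (hWintK.const_mul _) hGintK, integral_const_mul, integral_const_mul] at hint
  have hfin : ∑ i, (volume (A i)).toReal⁻¹ * ‖(∫ y in B i, (1 + u y) • y) - ∫ x in A i, x‖ ^ 2
      = ∑ i, (m i)⁻¹ * ‖Δ i‖ ^ 2 := by
    refine Finset.sum_congr rfl (fun i _ => ?_)
    rw [hΔ, norm_sub_rev]
  rw [hfin]
  linarith

end Crest.Agent.S0109.Helper87
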