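import Mathlib
import Crest.Prelude.Def_QuadraticTransport
import Crest.Agent.Lib.S0109.Defs
import Crest.Agent.Lib.S0109.Basic
import Crest.Agent.Lib.S0109.Helper48Conv
import Crest.Agent.Lib.S0109.Helper48Compact
import Crest.Agent.Lib.S0109.Helper48Limit
import Crest.Agent.Lib.S0109.Helper48Ident

/-! Row 82, package P8: every Monge-optimal map to `μ` is the `L²(ρ)`-limit of Laguerre maps of
quantisations of `μ` (Arzelà–Ascoli for the normalised potentials, Rademacher, convergence of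
subgradients, push-forward limit, weak-duality identification, dominated convergence). -/

set_option autoImplicit false
set_option linter.unusedVariables false
set_option linter.style.haveILetI false
open MeasureTheory Filter Topology
open scoped ENNReal NNReal
open Crest.AnalysisR.OT

namespace Crest.Agent.S0109

namespace Helper48

open scoped RealInnerProductSpace

/-- Core of the limit layer: along a subsequence the Laguerre maps of the quantised targets
converge in `L²(ρ)` to the given Monge-optimal map. -/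
theorem exists_subseq_tendsto_lintegral {d : ℕ} (K : Set (E d)) (hKc : IsCompact K)
    (hKv : Convex ℝ K) (hKi : (interior K).Nonempty) (Y : Set (E d)) (hYc : IsCompact Y)
    (μ : Measure (E d)) (hμ : IsProbabilityOn Y μ) (T : E d → E d)
    (hT : IsOptimalMap (uniformProbOn K) μ T)
    (q : ℕ → E d → E d) (hqm : ∀ n, Measurable (q n)) (S : ℕ → Finset (E d))
    (hSY : ∀ n, (↑(S n) : Set (E d)) ⊆ Y)
    (hq : ∀ y ∈ Y, Tendsto (fun n => q n y) atTop (𝓝 y))
    (ψ : ℕ → E d → ℝ) (Tn : ℕ → E d → E d)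
    (hTn : ∀ n, IsPotMap (uniformProbOn K) (μ.map (q n)) (S n) (ψ n) (Tn n)) :
    ∃ ms : ℕ → ℕ, StrictMono ms ∧
      Tendsto (fun n => ∫⁻ x, ‖Tn (ms n) x - T x‖ₑ ^ 2 ∂(uniformProbOn K)) atTop (𝓝 0) := by
  obtain ⟨hμP, hμY⟩ := hμ
  haveI := hμP
  haveI : IsProbabilityMeasure (uniformProbOn K) := isProbabilityMeasure_uniformProbOn hKc hKi
  obtain ⟨hTm, hTmap, hTopt⟩ := hT
  obtain ⟨x₀, hx₀⟩ : K.Nonempty := hKi.mono interior_subset
  obtain ⟨R, hR⟩ := hYc.isBounded.exists_norm_le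
  set L : ℝ≥0 := R.toNNReal with hL
  -- normalised potentials
  set f : ℕ → E d → ℝ := fun n x => pot (S n) (ψ n) x - pot (S n) (ψ n) x₀ with hf
  have hfL : ∀ n, LipschitzOnWith L (f n) K := by
    intro n
    have h1 : LipschitzWith L (pot (S n) (ψ n)) :=
      lipschitzWith_pot (fun y hy => NNReal.le_toNNReal_of_coe_le
        (by simpa using hR y (hSY n hy))) (ψ n)
    have h2 : LipschitzWith L (f n) := by
      refine LipschitzWith.of_dist_le_mul (fun x y => ?_)
      show dist (pot (S n) (ψ n) x - pot (S n) (ψ n) x₀)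
        (pot (S n) (ψ n) y - pot (S n) (ψ n) x₀) ≤ L * dist x y
      rw [dist_sub_right]
      exact h1.dist_le_mul x y
    exact h2.lipschitzOnWith
  have hf0 : ∀ n, f n x₀ = 0 := fun n => sub_self _
  obtain ⟨k, F, -, hk, hFL, -, hFlim, -⟩ :=
    exists_subseq_tendsto_of_lipschitzOnWith hKc hx₀ L f f hfL hf0 hfL hf0
  -- the subgradient inequality, a.e. for each `n`
  have hsub : ∀ n, ∀ᵐ x ∂((volume : Measure (E d)).restrict K),
      ∀ y ∈ K, f (k n) x + ⟪Tn (k n) x, y - x⟫ ≤ f (k n) y := by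
    intro n
    have h1 := (hTn (k n)).subgradient
    have h2 := (ae_uniformProbOn_iff hKc hKi).1 h1
    filter_upwards [h2] with x hx y _
    have := hx y
    show pot (S (k n)) (ψ (k n)) x - pot (S (k n)) (ψ (k n)) x₀ + ⟪Tn (k n) x, y - x⟫ ≤
      pot (S (k n)) (ψ (k n)) y - pot (S (k n)) (ψ (k n)) x₀
    linarith
  have hae := ae_tendsto_subgradient hKv hKc hFL (f := fun n => f (k n))
    (S := fun n => Tn (k n)) hsub hFlim
  have hae' : ∀ᵐ x ∂(uniformProbOn K), x ∈ interior K ∧ HasGradientAt F (gradient F x) x ∧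
      Tendsto (fun n => Tn (k n) x) atTop (𝓝 (gradient F x)) ∧
      ∀ y ∈ K, F x + ⟪gradient F x, y - x⟫ ≤ F y :=
    (ae_uniformProbOn_iff hKc hKi).2 hae
  -- the limit map
  set Tl : E d → E d := fun x => gradient F x with hTl
  have hTlm : Measurable Tl := measurable_gradient F
  have hYae : ∀ᵐ y ∂μ, y ∈ Y := by
    rw [ae_iff]
    exact hμY
  have hmap : (uniformProbOn K).map Tl = μ :=
    map_eq_of_tendsto (fun n => q (k n)) (fun n => hqm (k n))
      (by filter_upwards [hYae] with y hy using (hq y hy).comp hk.tendsto_atTop)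
      (fun n => Tn (k n)) (fun n => (hTn (k n)).1) (fun n => (hTn (k n)).2.1) Tl hTlm
      (hae'.mono fun x hx => hx.2.2.1)
  -- identification of `T` with the limit map
  have hcost : ∫⁻ x, ‖x - T x‖ₑ ^ 2 ∂(uniformProbOn K) ≤
      ∫⁻ x, ‖x - Tl x‖ₑ ^ 2 ∂(uniformProbOn K) := hTopt Tl hTlm hmap
  have hsubT := ae_subgradient_of_cost_le hKc ⟨x₀, hx₀⟩ (uniformProbOn_compl hKc) hYc hμY
    hFL.continuousOn hTlm hTm hmap hTmap (hae'.mono fun x hx => hx.2.2.2) hcost
  have hTeq : ∀ᵐ x ∂(uniformProbOn K), T x = Tl x := by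
    filter_upwards [hae', hsubT] with x hx hs
    exact eq_gradient_of_subgradient (U := K) (mem_interior_iff_mem_nhds.mp hx.1) hx.2.1 hs
  -- dominated convergence
  refine ⟨k, hk, ?_⟩
  have hTnY : ∀ n, ∀ᵐ x ∂(uniformProbOn K), ‖Tn n x‖ ≤ R := by
    intro n
    filter_upwards [(hTn n).2.2] with x hx
    exact hR _ (hSY n hx.1)
  have hTY : ∀ᵐ x ∂(uniformProbOn K), ‖T x‖ ≤ R := by
    have h1 : (uniformProbOn K) (T ⁻¹' Yᶜ) = 0 := by
      rw [← Measure.map_apply hTm hYc.isClosed.measurableSet.compl, hTmap, hμY]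
    have h2 : ∀ᵐ x ∂(uniformProbOn K), T x ∈ Y := by
      rw [ae_iff]
      exact h1
    filter_upwards [h2] with x hx using hR _ hx
  have hlim0 : Tendsto (fun n => ∫⁻ x, ‖Tn (k n) x - T x‖ₑ ^ 2 ∂(uniformProbOn K)) atTop
      (𝓝 (∫⁻ _, (0 : ℝ≥0∞) ∂(uniformProbOn K))) := by
    refine tendsto_lintegral_of_dominated_convergence (fun _ => ENNReal.ofReal (2 * R) ^ 2)
      (fun n => ?_) (fun n => ?_) ?_ ?_
    · exact (((hTn (k n)).1).sub hTm).enorm.pow_const _
    · filter_upwards [hTnY (k n), hTY] with x h1 h2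
      have h3 : ‖Tn (k n) x - T x‖ ≤ 2 * R := by
        calc ‖Tn (k n) x - T x‖ ≤ ‖Tn (k n) x‖ + ‖T x‖ := norm_sub_le _ _
          _ ≤ 2 * R := by linarith
      have h4 : ‖Tn (k n) x - T x‖ₑ ≤ ENNReal.ofReal (2 * R) := by
        rw [← ofReal_norm]
        exact ENNReal.ofReal_le_ofReal h3
      exact pow_le_pow_left' h4 2
    · rw [lintegral_const, measure_univ, mul_one]
      exact ENNReal.pow_ne_top ENNReal.ofReal_ne_top
    · filter_upwards [hae', hTeq] with x hx hxT
      have t1 : Tendsto (fun n => Tn (k n) x - T x) atTop (𝓝 (T x - T x)) := by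
        rw [hxT]
        exact hx.2.2.1.sub tendsto_const_nhds
      rw [sub_self] at t1
      have t2 := ENNReal.Tendsto.pow (n := 2) ((continuous_enorm.tendsto _).comp t1)
      simpa using t2
  simpa using hlim0

end Helper48

/-- Every Monge-optimal map to `μ` is the `L²(ρ)`-limit of Laguerre maps of quantisations of `μ`. -/
theorem limit_of_quantized {d : ℕ} (K : Set (E d)) (hKc : IsCompact K) (hKv : Convex ℝ K)
    (hKi : (interior K).Nonempty) (Y : Set (E d)) (hYc : IsCompact Y)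
    (μ : Measure (E d)) (hμ : IsProbabilityOn Y μ) (T : E d → E d)
    (hT : IsOptimalMap (uniformProbOn K) μ T)
    (q : ℕ → E d → E d) (hqm : ∀ n, Measurable (q n)) (S : ℕ → Finset (E d))
    (hSY : ∀ n, (↑(S n) : Set (E d)) ⊆ Y) (hqS : ∀ n x, q n x ∈ S n)
    (hq : ∀ n, ∀ y ∈ Y, ‖q n y - y‖ ≤ 1 / ((n : ℝ) + 1))
    (ψ : ℕ → E d → ℝ) (Tn : ℕ → E d → E d)
    (hTn : ∀ n, IsPotMap (uniformProbOn K) (μ.map (q n)) (S n) (ψ n) (Tn n)) :
    Tendsto (fun n => ∫⁻ x, ‖Tn n x - T x‖ₑ ^ 2 ∂(uniformProbOn K)) atTop (𝓝 0) := by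
  refine tendsto_of_subseq_tendsto (fun ns hns => ?_)
  have hq' : ∀ y ∈ Y, Tendsto (fun n => q (ns n) y) atTop (𝓝 y) := by
    intro y hy
    rw [tendsto_iff_norm_sub_tendsto_zero]
    refine squeeze_zero (fun n => norm_nonneg _) (fun n => hq (ns n) y hy) ?_
    exact tendsto_one_div_add_atTop_nhds_zero_nat.comp hns
  obtain ⟨ms, -, hms⟩ := Helper48.exists_subseq_tendsto_lintegral K hKc hKv hKi Y hYc μ hμ T hT
    (fun n => q (ns n)) (fun n => hqm (ns n)) (fun n => S (ns n)) (fun n => hSY (ns n)) hq'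
    (fun n => ψ (ns n)) (fun n => Tn (ns n)) (fun n => hTn (ns n))
  exact ⟨ms, hms⟩

end Crest.Agent.S0109
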