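import Mathlib
import Crest.Prelude.Def_QuadraticTransport
import Crest.Agent.Lib.S0109.Defs
import Crest.Agent.Lib.S0109.Exist
import Crest.Agent.Lib.S0109.Disc
import Crest.Agent.Lib.S0109.Limit

/-! Row 82, package P9: assembly of S0109 from `exists_potMap` (semi-discrete existence),
`discrete_stability` (the estimate for finitely supported targets) and `limit_of_quantized`
(every Monge-optimal map is the `L²` limit of Laguerre maps of quantisations). -/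

set_option autoImplicit false
open MeasureTheory Filter Topology
open scoped ENNReal NNReal
open Crest.AnalysisR.OT

namespace Crest.Agent.S0109

/-- The unperturbed source is the uniform probability measure. -/
theorem h2m_srcG_zero {d : ℕ} (K : Set (E d)) : srcG K (fun _ => (0 : ℝ)) = uniformProbOn K := by
  simp [srcG]

/-- Quantiser: a measurable map with values in a finite subset of the compact set `Y` moving the
points of `Y` by at most `ε`. -/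
theorem h2m_quantiser {d : ℕ} (Y : Set (E d)) (hYc : IsCompact Y) (hYn : Y.Nonempty) (ε : ℝ)
    (hε : 0 < ε) :
    ∃ (q : E d → E d) (S : Finset (E d)), Measurable q ∧ (↑S : Set (E d)) ⊆ Y ∧ (∀ x, q x ∈ S) ∧
      ∀ y ∈ Y, ‖q y - y‖ ≤ ε := by
  classical
  have : Nonempty Y := hYn.to_subtype
  let e : ℕ → E d := fun k => (TopologicalSpace.denseSeq Y k : E d)
  have he : ∀ k, e k ∈ Y := fun k => (TopologicalSpace.denseSeq Y k).2
  have hcov : Y ⊆ ⋃ k, Metric.ball (e k) ε := by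
    intro y hy
    obtain ⟨k, hk⟩ := (TopologicalSpace.denseRange_denseSeq Y).exists_dist_lt ⟨y, hy⟩ hε
    refine Set.mem_iUnion.2 ⟨k, ?_⟩
    rw [Metric.mem_ball]
    exact hk
  obtain ⟨t, ht⟩ := hYc.elim_finite_subcover (fun k => Metric.ball (e k) ε)
    (fun k => Metric.isOpen_ball) hcov
  refine ⟨SimpleFunc.nearestPt e (t.sup id), (Finset.range (t.sup id + 1)).image e,
    SimpleFunc.measurable _, ?_, ?_, ?_⟩
  · intro x hx
    rw [Finset.coe_image] at hx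
    obtain ⟨k, -, rfl⟩ := hx
    exact he k
  · intro x
    have h1 : SimpleFunc.nearestPt e (t.sup id) x = e (SimpleFunc.nearestPtInd e (t.sup id) x) := rfl
    rw [h1]
    exact Finset.mem_image_of_mem _
      (Finset.mem_range.2 (Nat.lt_succ_of_le (SimpleFunc.nearestPtInd_le e _ x)))
  · intro y hy
    obtain ⟨k, hk⟩ := Set.mem_iUnion.1 (ht hy)
    obtain ⟨hkt, hk⟩ := Set.mem_iUnion.1 hk
    have hkN : k ≤ t.sup id := Finset.le_sup (f := id) hkt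
    have h1 : edist (SimpleFunc.nearestPt e (t.sup id) y) y ≤ edist (e k) y :=
      SimpleFunc.edist_nearestPt_le e y hkN
    rw [edist_dist, edist_dist, ENNReal.ofReal_le_ofReal_iff dist_nonneg] at h1
    rw [← dist_eq_norm]
    rw [Metric.mem_ball, dist_comm] at hk
    exact h1.trans hk.le

/-- The pushed coupling. -/
theorem h2m_coupling {d : ℕ} {μ ν : Measure (E d)} {π : Measure (E d × E d)}
    (hπ : IsPairCoupling μ ν π) {q : E d → E d} (hq : Measurable q) :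
    IsPairCoupling (μ.map q) (ν.map q) (π.map (Prod.map q q)) := by
  constructor
  · rw [Measure.map_map measurable_fst (hq.prodMap hq), ← hπ.1, Measure.map_map hq measurable_fst]
    rfl
  · rw [Measure.map_map measurable_snd (hq.prodMap hq), ← hπ.2, Measure.map_map hq measurable_snd]
    rfl

/-- Cost of the pushed coupling. -/
theorem h2m_cost {d : ℕ} {Y : Set (E d)} (hYm : MeasurableSet Y) {μ ν : Measure (E d)}
    (hμ : IsProbabilityOn Y μ) (hν : IsProbabilityOn Y ν) {π : Measure (E d × E d)}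
    (hπ : IsPairCoupling μ ν π) {q : E d → E d} (hq : Measurable q) {ε : ℝ}
    (hqY : ∀ y ∈ Y, ‖q y - y‖ ≤ ε) :
    quadCost (π.map (Prod.map q q)) ≤
      ((quadCost π) ^ (1 / 2 : ℝ) + 2 * ENNReal.ofReal ε) ^ (2 : ℝ) := by
  have : IsProbabilityMeasure π := by
    constructor
    have h1 : (π.map Prod.fst) Set.univ = π Set.univ := by
      rw [Measure.map_apply measurable_fst MeasurableSet.univ]; rfl
    rw [← h1, hπ.1]
    exact hμ.1.measure_univ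
  have hY1 : ∀ᵐ p ∂π, p.1 ∈ Y := by
    have h1 : π (Prod.fst ⁻¹' Yᶜ) = 0 := by
      rw [← Measure.map_apply measurable_fst hYm.compl, hπ.1]; exact hμ.2
    rw [ae_iff]; exact measure_mono_null (fun p hp => hp) h1
  have hY2 : ∀ᵐ p ∂π, p.2 ∈ Y := by
    have h1 : π (Prod.snd ⁻¹' Yᶜ) = 0 := by
      rw [← Measure.map_apply measurable_snd hYm.compl, hπ.2]; exact hν.2
    rw [ae_iff]; exact measure_mono_null (fun p hp => hp) h1
  have hmeas : Measurable (fun p : E d × E d => ‖p.1 - p.2‖ₑ) :=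
    (measurable_fst.sub measurable_snd).enorm
  have hstep1 : quadCost (π.map (Prod.map q q)) ≤
      ∫⁻ p, (‖p.1 - p.2‖ₑ + 2 * ENNReal.ofReal ε) ^ (2 : ℝ) ∂π := by
    unfold quadCost
    rw [lintegral_map (hmeas.pow_const 2) (hq.prodMap hq)]
    refine lintegral_mono_ae ?_
    filter_upwards [hY1, hY2] with p hp1 hp2
    have h1 : ‖q p.1 - q p.2‖ₑ ≤ ‖p.1 - p.2‖ₑ + 2 * ENNReal.ofReal ε := by
      have e1 : ‖q p.1 - p.1‖ₑ ≤ ENNReal.ofReal ε := by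
        rw [← ofReal_norm]; exact ENNReal.ofReal_le_ofReal (hqY _ hp1)
      have e2 : ‖p.2 - q p.2‖ₑ ≤ ENNReal.ofReal ε := by
        rw [← ofReal_norm, norm_sub_rev]; exact ENNReal.ofReal_le_ofReal (hqY _ hp2)
      have e3 : q p.1 - q p.2 = (q p.1 - p.1) + (p.1 - p.2) + (p.2 - q p.2) := by abel
      calc ‖q p.1 - q p.2‖ₑ = ‖(q p.1 - p.1) + (p.1 - p.2) + (p.2 - q p.2)‖ₑ := by rw [← e3]
        _ ≤ ‖q p.1 - p.1‖ₑ + ‖p.1 - p.2‖ₑ + ‖p.2 - q p.2‖ₑ :=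
          (enorm_add_le _ _).trans (add_le_add_left (enorm_add_le _ _) _)
        _ ≤ ENNReal.ofReal ε + ‖p.1 - p.2‖ₑ + ENNReal.ofReal ε := by gcongr
        _ = ‖p.1 - p.2‖ₑ + 2 * ENNReal.ofReal ε := by ring
    simp only [Prod.map_fst, Prod.map_snd]
    rw [← ENNReal.rpow_two]
    exact ENNReal.rpow_le_rpow h1 (by norm_num)
  have hmink := ENNReal.lintegral_Lp_add_le (μ := π) hmeas.aemeasurable
    (measurable_const (a := 2 * ENNReal.ofReal ε)).aemeasurable (p := 2) (by norm_num)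
  have hconst : (∫⁻ _ : E d × E d, (2 * ENNReal.ofReal ε) ^ (2 : ℝ) ∂π) ^ (1 / 2 : ℝ)
      = 2 * ENNReal.ofReal ε := by
    rw [lintegral_const, measure_univ, mul_one, ← ENNReal.rpow_mul]
    norm_num
  have hq2 : (∫⁻ p : E d × E d, ‖p.1 - p.2‖ₑ ^ (2 : ℝ) ∂π) = quadCost π := by
    unfold quadCost
    refine lintegral_congr fun p => ?_
    rw [ENNReal.rpow_two]
  simp only [Pi.add_apply] at hmink
  rw [hconst, hq2] at hmink
  calc quadCost (π.map (Prod.map q q))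
      ≤ ∫⁻ p, (‖p.1 - p.2‖ₑ + 2 * ENNReal.ofReal ε) ^ (2 : ℝ) ∂π := hstep1
    _ = ((∫⁻ p, (‖p.1 - p.2‖ₑ + 2 * ENNReal.ofReal ε) ^ (2 : ℝ) ∂π) ^ (1 / 2 : ℝ)) ^ (2 : ℝ) := by
        rw [← ENNReal.rpow_mul]; norm_num
    _ ≤ ((quadCost π) ^ (1 / 2 : ℝ) + 2 * ENNReal.ofReal ε) ^ (2 : ℝ) :=
        ENNReal.rpow_le_rpow hmink (by norm_num)

/-- Triangle inequality in `L²` for three maps. -/
theorem h2m_triangle {d : ℕ} (ρ : Measure (E d)) {T1 T2 T3 T4 : E d → E d}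
    (h1 : Measurable T1) (h2 : Measurable T2) (h3 : Measurable T3) (h4 : Measurable T4) :
    (∫⁻ x, ‖T1 x - T4 x‖ₑ ^ 2 ∂ρ) ^ (1 / 2 : ℝ) ≤
      (∫⁻ x, ‖T2 x - T1 x‖ₑ ^ 2 ∂ρ) ^ (1 / 2 : ℝ) + (∫⁻ x, ‖T2 x - T3 x‖ₑ ^ 2 ∂ρ) ^ (1 / 2 : ℝ)
        + (∫⁻ x, ‖T3 x - T4 x‖ₑ ^ 2 ∂ρ) ^ (1 / 2 : ℝ) := by
  have m1 : Measurable fun x => ‖T2 x - T1 x‖ₑ := (h2.sub h1).enorm
  have m2 : Measurable fun x => ‖T2 x - T3 x‖ₑ := (h2.sub h3).enorm
  have m3 : Measurable fun x => ‖T3 x - T4 x‖ₑ := (h3.sub h4).enorm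
  have e1 := ENNReal.lintegral_Lp_add_le (μ := ρ) (m1.add m2).aemeasurable m3.aemeasurable
    (p := 2) (by norm_num)
  have e2 := ENNReal.lintegral_Lp_add_le (μ := ρ) m1.aemeasurable m2.aemeasurable
    (p := 2) (by norm_num)
  have e0 : (∫⁻ x, ‖T1 x - T4 x‖ₑ ^ 2 ∂ρ) ^ (1 / 2 : ℝ) ≤
      (∫⁻ x, (((fun x => ‖T2 x - T1 x‖ₑ) + fun x => ‖T2 x - T3 x‖ₑ) + fun x => ‖T3 x - T4 x‖ₑ) x
        ^ (2 : ℝ) ∂ρ) ^ (1 / 2 : ℝ) := by
    refine ENNReal.rpow_le_rpow (lintegral_mono fun x => ?_) (by norm_num)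
    rw [← ENNReal.rpow_two]
    refine ENNReal.rpow_le_rpow ?_ (by norm_num)
    have e3 : T1 x - T4 x = -(T2 x - T1 x) + (T2 x - T3 x) + (T3 x - T4 x) := by abel
    simp only [Pi.add_apply]
    calc ‖T1 x - T4 x‖ₑ = ‖-(T2 x - T1 x) + (T2 x - T3 x) + (T3 x - T4 x)‖ₑ := by rw [← e3]
      _ ≤ ‖-(T2 x - T1 x)‖ₑ + ‖T2 x - T3 x‖ₑ + ‖T3 x - T4 x‖ₑ :=
          (enorm_add_le _ _).trans (add_le_add_left (enorm_add_le _ _) _)
      _ = ‖T2 x - T1 x‖ₑ + ‖T2 x - T3 x‖ₑ + ‖T3 x - T4 x‖ₑ := by rw [enorm_neg]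
  simp only [ENNReal.rpow_two] at e1 e2 e0
  calc (∫⁻ x, ‖T1 x - T4 x‖ₑ ^ 2 ∂ρ) ^ (1 / 2 : ℝ) ≤ _ := e0
    _ ≤ _ := e1
    _ ≤ _ := add_le_add_left e2 _

/-- The statement of S0109. -/
theorem main
    (d : ℕ) (hd : 2 ≤ d) (K : Set (EuclideanSpace ℝ (Fin d))) (hKc : IsCompact K) (hKv : Convex ℝ K)
    (hKi : (interior K).Nonempty) (Y : Set (EuclideanSpace ℝ (Fin d))) (hYc : IsCompact Y) (hYn : Y.Nonempty) :
    ∃ C : ℝ≥0, ∀ μ ν : Measure (EuclideanSpace ℝ (Fin d)), IsProbabilityOn Y μ → IsProbabilityOn Y ν →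
      ∀ Tμ Tν : EuclideanSpace ℝ (Fin d) → EuclideanSpace ℝ (Fin d),
        IsOptimalMap (uniformProbOn K) μ Tμ → IsOptimalMap (uniformProbOn K) ν Tν →
        ∀ π : Measure (EuclideanSpace ℝ (Fin d) × EuclideanSpace ℝ (Fin d)), IsPairCoupling μ ν π →
          ∫⁻ x, ‖Tμ x - Tν x‖ₑ ^ 2 ∂(uniformProbOn K) ≤ C * quadCost π ^ (1 / 3 : ℝ) := by
  obtain ⟨C, hC⟩ := discrete_stability K hKc hKv hKi Y hYc
  refine ⟨C, ?_⟩
  intro μ ν hμ hν Tμ Tν hTμ hTν π hπ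
  have hq : ∀ n : ℕ, ∃ (q : E d → E d) (S : Finset (E d)), Measurable q ∧
      (↑S : Set (E d)) ⊆ Y ∧ (∀ x, q x ∈ S) ∧ ∀ y ∈ Y, ‖q y - y‖ ≤ 1 / ((n : ℝ) + 1) :=
    fun n => h2m_quantiser Y hYc hYn _ (by positivity)
  choose q S hqm hSY hqS hqY using hq
  have := hμ.1
  have := hν.1
  have hμn : ∀ n, IsProbabilityMeasure (μ.map (q n)) :=
    fun n => Measure.isProbabilityMeasure_map (hqm n).aemeasurable
  have hνn : ∀ n, IsProbabilityMeasure (ν.map (q n)) :=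
    fun n => Measure.isProbabilityMeasure_map (hqm n).aemeasurable
  have hS0 : ∀ (κ : Measure (E d)) (n : ℕ), (κ.map (q n)) (↑(S n))ᶜ = 0 := by
    intro κ n
    rw [Measure.map_apply (hqm n) (S n).measurableSet.compl]
    have h1 : q n ⁻¹' (↑(S n) : Set (E d))ᶜ = ∅ := by
      ext x
      simp [hqS n x]
    rw [h1]
    exact measure_empty
  have hexμ : ∀ n, ∃ (ψ : E d → ℝ) (T : E d → E d),
      IsPotMap (uniformProbOn K) (μ.map (q n)) (S n) ψ T := by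
    intro n
    have := hμn n
    have h1 := exists_potMap K hKc hKi (fun _ => (0 : ℝ)) measurable_const
      (by intro x _; simp) (by simp) (μ.map (q n)) (S n) (hS0 μ n)
    rwa [h2m_srcG_zero] at h1
  have hexν : ∀ n, ∃ (ψ : E d → ℝ) (T : E d → E d),
      IsPotMap (uniformProbOn K) (ν.map (q n)) (S n) ψ T := by
    intro n
    have := hνn n
    have h1 := exists_potMap K hKc hKi (fun _ => (0 : ℝ)) measurable_const
      (by intro x _; simp) (by simp) (ν.map (q n)) (S n) (hS0 ν n)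
    rwa [h2m_srcG_zero] at h1
  choose ψμ Tμn hTμn using hexμ
  choose ψν Tνn hTνn using hexν
  have hlimμ := limit_of_quantized K hKc hKv hKi Y hYc μ hμ Tμ hTμ q hqm S hSY hqS hqY ψμ Tμn hTμn
  have hlimν := limit_of_quantized K hKc hKv hKi Y hYc ν hν Tν hTν q hqm S hSY hqS hqY ψν Tνn hTνn
  -- the discrete estimate along the quantisations
  have hdisc : ∀ n, ∫⁻ x, ‖Tμn n x - Tνn n x‖ₑ ^ 2 ∂(uniformProbOn K) ≤
      C * (((quadCost π) ^ (1 / 2 : ℝ) + 2 * ENNReal.ofReal (1 / ((n : ℝ) + 1))) ^ (2 : ℝ))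
        ^ (1 / 3 : ℝ) := by
    intro n
    refine (hC _ _ (hμn n) (hνn n) (S n) (S n) (hSY n) (hSY n) (ψμ n) (ψν n) (Tμn n) (Tνn n)
      (hTμn n) (hTνn n) _ (h2m_coupling hπ (hqm n))).trans ?_
    gcongr
    exact h2m_cost hYc.isClosed.measurableSet hμ hν hπ (hqm n) (hqY n)
  -- the bound for every n
  have hbound : ∀ n, (∫⁻ x, ‖Tμ x - Tν x‖ₑ ^ 2 ∂(uniformProbOn K)) ^ (1 / 2 : ℝ) ≤
      (∫⁻ x, ‖Tμn n x - Tμ x‖ₑ ^ 2 ∂(uniformProbOn K)) ^ (1 / 2 : ℝ)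
        + (C * (((quadCost π) ^ (1 / 2 : ℝ) + 2 * ENNReal.ofReal (1 / ((n : ℝ) + 1))) ^ (2 : ℝ))
            ^ (1 / 3 : ℝ)) ^ (1 / 2 : ℝ)
        + (∫⁻ x, ‖Tνn n x - Tν x‖ₑ ^ 2 ∂(uniformProbOn K)) ^ (1 / 2 : ℝ) := by
    intro n
    refine (h2m_triangle (uniformProbOn K) hTμ.1 (hTμn n).1 (hTνn n).1 hTν.1).trans ?_
    gcongr
    exact hdisc n
  -- pass to the limit
  have hε : Tendsto (fun n : ℕ => ENNReal.ofReal (1 / ((n : ℝ) + 1))) atTop (𝓝 0) := by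
    have h1 := ENNReal.tendsto_ofReal (tendsto_one_div_add_atTop_nhds_zero_nat (𝕜 := ℝ))
    simpa using h1
  have hl1 : Tendsto (fun n => (∫⁻ x, ‖Tμn n x - Tμ x‖ₑ ^ 2 ∂(uniformProbOn K)) ^ (1 / 2 : ℝ))
      atTop (𝓝 0) := by
    have h1 := ((ENNReal.continuous_rpow_const (y := (1 / 2 : ℝ))).tendsto 0).comp hlimμ
    simp only [Function.comp_def] at h1
    rw [ENNReal.zero_rpow_of_pos (by norm_num)] at h1
    exact h1
  have hl3 : Tendsto (fun n => (∫⁻ x, ‖Tνn n x - Tν x‖ₑ ^ 2 ∂(uniformProbOn K)) ^ (1 / 2 : ℝ))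
      atTop (𝓝 0) := by
    have h1 := ((ENNReal.continuous_rpow_const (y := (1 / 2 : ℝ))).tendsto 0).comp hlimν
    simp only [Function.comp_def] at h1
    rw [ENNReal.zero_rpow_of_pos (by norm_num)] at h1
    exact h1
  have hcont : Continuous fun t : ℝ≥0∞ =>
      ((C : ℝ≥0∞) * (((quadCost π) ^ (1 / 2 : ℝ) + 2 * t) ^ (2 : ℝ)) ^ (1 / 3 : ℝ)) ^ (1 / 2 : ℝ) := by
    refine ENNReal.continuous_rpow_const.comp ?_
    refine (ENNReal.continuous_const_mul ENNReal.coe_ne_top).comp ?_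
    refine ENNReal.continuous_rpow_const.comp ?_
    refine ENNReal.continuous_rpow_const.comp ?_
    exact continuous_const.add (ENNReal.continuous_const_mul (by norm_num))
  have hl2 : Tendsto (fun n : ℕ => ((C : ℝ≥0∞) * (((quadCost π) ^ (1 / 2 : ℝ)
      + 2 * ENNReal.ofReal (1 / ((n : ℝ) + 1))) ^ (2 : ℝ)) ^ (1 / 3 : ℝ)) ^ (1 / 2 : ℝ)) atTop
      (𝓝 (((C : ℝ≥0∞) * (quadCost π) ^ (1 / 3 : ℝ)) ^ (1 / 2 : ℝ))) := by
    have h1 := (hcont.tendsto 0).comp hε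
    have h2 : ((quadCost π) ^ (1 / 2 : ℝ) + 2 * 0) ^ (2 : ℝ) = quadCost π := by
      rw [mul_zero, add_zero, ← ENNReal.rpow_mul]
      norm_num
    simp only [h2] at h1
    exact h1
  have hlim := (hl1.add hl2).add hl3
  rw [zero_add, add_zero] at hlim
  have hfinal := ge_of_tendsto' hlim hbound
  exact (ENNReal.rpow_le_rpow_iff (by norm_num : (0 : ℝ) < 1 / 2)).1 hfinal

end Crest.Agent.S0109
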